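import Crest.Agent.R81.Expn

/-! Row 81: the full expansion of a non-invariant term. -/

set_option autoImplicit false

open MeasureTheory Set Crest.AnalysisR.Torus3
open Crest.Agent.R75 (e)
open scoped ContDiff ComplexConjugate

namespace Crest.Agent.R81
/-- what is known about an index `x = (u, N, g, k)` and its coefficient -/
structure Des.Ok {q : ℕ} {ε X : ℝ} (D : Des q ε X) (V : ℝ → ℝ) (t : Term) (ρt η : ℝ) (c : ℕ)
    (x : ℤ × ℤ × Fin D.nG × ℤ) (co : ℂ) : Prop where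
  good : Good ε (ctr D.M x.1)
  act : x.2.1 ∈ D.act (ctr D.M x.1)
  bd : |(t.b₂ : ℝ) / q - (x.1 / D.M : ℤ)| ≤ X
  cell : ∀ a : ℝ, |a - x.2.1 * D.w x.2.2.1| ≤ 1 →
    (t.b₂ : ℝ) / q + (x.2.2.2 + a) / (q * c) ∈ cell D.M x.1
  arc : t.b₁ ≠ 0 → ∀ a : ℝ, |a - x.2.1 * D.w x.2.2.1| ≤ 1 →
    ∃ y ∈ Ioo t.l t.r, t.th q V y = (t.b₂ : ℝ) / q + (x.2.2.2 + a) / (q * c)
  flat : t.b₁ ≠ 0 → abs (‖co‖ ^ 2 * (q * c * |t.b₁ * ρt|) - ‖t.d‖ ^ 2 * (D.ρ * |(x.2.1 : ℝ)|)) ≤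
    η * (‖t.d‖ ^ 2 * (D.ρ * |(x.2.1 : ℝ)|))

theorem exists_dep_prod {α β : Type*} (s : Finset α) (t : α → Finset β) :
    ∃ r : Finset (α × β), ∀ p, p ∈ r ↔ p.1 ∈ s ∧ p.2 ∈ t p.1 := by
  refine ⟨(s.sigma t).map (Equiv.sigmaEquivProd α β).toEmbedding, fun p => ?_⟩
  rw [Finset.mem_map_equiv, Finset.mem_sigma]
  rfl

theorem Term.norm_fn_le (t : Term) (z : R3) : ‖t.fn z‖ ≤ ‖t.d‖ := by
  simp only [Term.fn, md, Term.amp, norm_mul, Crest.Agent.R75.norm_e, mul_one]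
  refine mul_le_of_le_one_right (norm_nonneg _) ?_
  rw [Set.indicator_apply]
  split_ifs <;> simp

theorem Des.newTerm_fn {q : ℕ} {ε X : ℝ} (D : Des q ε X) (t : Term) (τ : ℝ) (u N : ℤ)
    (g : Fin D.nG) (k : ℤ) (a b : ℂ) (z : R3) :
    (D.newTerm t τ 0 (u, N, g, k) (a * b)).fn z =
      b * e (k * z 1) * (D.newTerm t τ 0 (u, N, g, 0) a).fn z := by
  simp only [Term.fn, md, Term.amp, Des.newTerm, Nat.cast_zero, zero_mul, add_zero, Int.cast_zero,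
    Crest.Agent.R75.e_add]
  ring

theorem Des.koop_newTerm {q : ℕ} {ε X : ℝ} (D : Des q ε X) (t : Term) (τ : ℝ) (c : ℕ)
    (x : ℤ × ℤ × Fin D.nG × ℤ) (co : ℂ) {L : SD} (hL : ∀ x, L.1 x = mL c x) :
    koop L (D.newTerm t τ 0 x co).L = (D.newTerm t τ c x co).L := by
  rw [Term.L, koop_toL2 L (Term.bm_fn _) (Term.per_fn _), Term.L]
  congr 1
  funext z
  rw [hL, Term.fn, md_mL, Term.fn]
  congr 1
  simp [Des.newTerm]

theorem flat_aux {A P B d ε η₁ η : ℝ} (hP : 0 ≤ P) (hd : 0 ≤ d) (hε : 0 ≤ ε)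
    (h1 : |A - P| ≤ ε * P) (h2 : |B - 1| ≤ η₁) (h3 : η₁ ≤ 1) (h4 : 2 * ε + η₁ ≤ η) :
    |d * A * B - d * P| ≤ η * (d * P) := by
  have e1 : d * A * B - d * P = d * ((A - P) * B + P * (B - 1)) := by ring
  have hB : |B| ≤ 2 := by
    have := abs_le.1 h2
    exact abs_le.2 ⟨by linarith, by linarith⟩
  have b1 : |(A - P) * B| ≤ ε * P * 2 := by
    rw [abs_mul]; exact mul_le_mul h1 hB (abs_nonneg _) (by positivity)
  have b2 : |P * (B - 1)| ≤ P * η₁ := by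
    rw [abs_mul, abs_of_nonneg hP]; exact mul_le_mul_of_nonneg_left h2 hP
  have b3 : |(A - P) * B + P * (B - 1)| ≤ η * P := by
    refine (abs_add_le _ _).trans ?_
    nlinarith
  rw [e1, abs_mul, abs_of_nonneg hd]
  nlinarith

theorem mul_sqrt_le {C η x : ℝ} (hC : 0 ≤ C) (hη : 0 < η) (hx : x ≤ (η / (C + 1)) ^ 2) :
    C * √x ≤ η := by
  have h1 : √x ≤ η / (C + 1) := Real.sqrt_le_iff.2 ⟨by positivity, hx⟩
  calc C * √x ≤ (C + 1) * (η / (C + 1)) := by gcongr; linarith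
    _ = η := by field_simp

/-- `transfer`, `split`, `expn_approx`, then `freq` for each of the finitely many `(u, N, g)` with
`γ = mode/q · w g`, `R = 2`, `Θ = cell M u` (`|N w g - γ| ≤ X |w g| ≤ 1` by `near`, `short`);
`co (u,N,g,k) = d · zc N · fc chirp k`; the errors of `freq` are added by `n2_sum_le`,
`n2_mul_le`.  Finally `K = K0 * L` (`exists_K`), and `koop L` turns `newTerm t τ 0` into
`newTerm t τ c` (`md_mL`). -/
theorem analysis {q : ℕ} (hq : Odd q) {V : ℝ → ℝ} (hV : SP V) (t : Term) {ρt : ℝ}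
    (hA : Aff V t.l t.r ρt) (hNI : t.b₁ ≠ 0 ∨ ¬ (q : ℤ) ∣ t.b₂) {η : ℝ} (hη : 0 < η) :
    ∃ ε₀ > 0, ∃ X₀ : ℝ, ∀ ε X : ℝ, 0 < ε → ε ≤ ε₀ → X₀ ≤ X → ∀ (D : Des q ε X) (τ : ℝ), 0 ≤ τ →
      τ ≤ ε → ∃ c₀ : ℕ, ∀ c : ℕ, c₀ ≤ c →
        ∃ (J : Finset (ℤ × ℤ × Fin D.nG × ℤ)) (co : ℤ × ℤ × Fin D.nG × ℤ → ℂ),
          (∀ x ∈ J, D.Ok V t ρt η c x (co x)) ∧ ∀ K : SD, (∀ x, K.1 x = D.K V c x) →
            ‖koop K t.L - ∑ x ∈ J, (D.newTerm t τ c x (co x)).L‖ ≤ η := by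
  have hq0 : 0 < q := hq.pos
  have hq1 : (1 : ℝ) ≤ q := by exact_mod_cast hq0
  have hVm : Measurable V := hV.1.continuous.measurable
  set s : ℝ := (η / 3 / (‖t.d‖ + 1)) ^ 2 with hs
  have hs0 : 0 < s := by positivity
  obtain ⟨ε₁, hε₁, h1⟩ := transfer hq0 hV t (η := η / 3) (by positivity)
  obtain ⟨ε₂, hε₂, X₀, h2⟩ := split hq hV t hA hNI (a := s / 2) (by positivity)
  refine ⟨min (min ε₁ ε₂) (min (min (1 / 4) (η / 4)) (s / 2184)), by positivity, X₀,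
    fun ε X hε hε' hX D τ hτ0 hτ => ?_⟩
  simp only [le_min_iff] at hε'
  obtain ⟨⟨e1, e2⟩, ⟨e3, e4⟩, e5⟩ := hε'
  obtain ⟨c₁, hc₁⟩ := h1 ε X hε e1 D
  obtain ⟨𝒰, l', r', h𝒰, ha⟩ := h2 ε hε e2 D.M D.q_dvd D.M_big
  have h𝒰' : ∀ u ∈ 𝒰, Good ε (ctr D.M u) ∧ t.l ≤ l' u ∧ l' u < r' u ∧ r' u ≤ t.r ∧
      |(t.b₂ : ℝ) / q - (u / D.M : ℤ)| ≤ X ∧ ∀ y ∈ Ioo (l' u) (r' u), t.th q V y ∈ cell D.M u :=
    fun u hu => ⟨(h𝒰 u hu).1, (h𝒰 u hu).2.1, (h𝒰 u hu).2.2.1, (h𝒰 u hu).2.2.2.1,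
      (h𝒰 u hu).2.2.2.2.1.trans hX, (h𝒰 u hu).2.2.2.2.2⟩
  set C : ℝ := ∑ u ∈ 𝒰, ∑ N ∈ D.act (ctr D.M u), ∑ _g : Fin D.nG,
    ‖t.d * zc D.U (ctr D.M u) N‖ with hC
  have hC0 : 0 ≤ C := by positivity
  set η₂ : ℝ := min (min (η / 2) 1) ((η / 3 / (C + 1)) ^ 2) with hη₂
  have hη₂0 : 0 < η₂ := by positivity
  have n1 : η₂ ≤ η / 2 := (min_le_left _ _).trans (min_le_left _ _)
  have n2' : η₂ ≤ 1 := (min_le_left _ _).trans (min_le_right _ _)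
  have n3 : η₂ ≤ (η / 3 / (C + 1)) ^ 2 := min_le_right _ _
  let γ : ℤ → ℤ → Fin D.nG → ℝ := fun u N g => D.mode t u N / q * D.w g
  let ch : ℕ → ℤ → ℤ → Fin D.nG → ℝ → ℂ := fun c u N g =>
    chirpFn V t (l' u) (r' u) (γ u N g) (q * c)
  have hev : ∀ᶠ c : ℕ in Filter.atTop, ∀ u ∈ 𝒰, ∀ N ∈ D.act (ctr D.M u), ∀ g : Fin D.nG,
      ∃ 𝒦 : Finset ℤ,
      (∫ y in (0 : ℝ)..1, ‖ch c u N g y - ∑ k ∈ 𝒦, fc (ch c u N g) k * e (k * y)‖ ^ 2 ≤ η₂) ∧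
      ∀ k ∈ 𝒦, (∀ a : ℝ, |a - γ u N g| ≤ 2 → (t.b₂ : ℝ) / q + (k + a) / (q * c) ∈ cell D.M u) ∧
        (t.b₁ ≠ 0 →
          (∀ a : ℝ, |a - γ u N g| ≤ 2 → ∃ y ∈ Ioo (l' u) (r' u),
            t.th q V y = (t.b₂ : ℝ) / q + (k + a) / (q * c)) ∧
          abs (‖fc (ch c u N g) k‖ ^ 2 * (q * c * |t.b₁ * ρt|) - 1) ≤ η₂) := by
    rw [Filter.eventually_all_finset]
    intro u hu
    rw [Filter.eventually_all_finset]
    intro N _
    rw [Filter.eventually_all]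
    intro g
    obtain ⟨-, a1, a2, a3, -, a5⟩ := h𝒰' u hu
    obtain ⟨h₀, hh⟩ := freq q hVm t (hA.mono a1 a2 a3) (γ u N g) 2 (Θ := cell D.M u) isOpen_Ioo
      a5 hη₂0
    filter_upwards [Filter.eventually_ge_atTop ⌈h₀⌉₊] with c hc
    refine hh _ ((Nat.ceil_le.1 hc).trans ?_)
    exact le_mul_of_one_le_left (Nat.cast_nonneg c) hq1
  obtain ⟨c₂, hc₂⟩ := Filter.eventually_atTop.1 hev
  refine ⟨max c₁ c₂, fun c hc => ?_⟩
  have T1 := hc₁ c ((le_max_left _ _).trans hc)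
  have T2 := D.expn_approx hq0 hε e3 hV c t hτ0 hτ 𝒰 l' r' hA.2.1.le h𝒰' ha
  have T3 := hc₂ c ((le_max_right _ _).trans hc)
  choose! 𝒦 h𝒦 using T3
  choose J3 hJ3 using fun (u N : ℤ) => exists_dep_prod Finset.univ (𝒦 u N)
  choose J2 hJ2 using fun u : ℤ => exists_dep_prod (D.act (ctr D.M u)) (J3 u)
  obtain ⟨J, hJ⟩ := exists_dep_prod 𝒰 J2
  let co : ℤ × ℤ × Fin D.nG × ℤ → ℂ := fun x =>
    t.d * zc D.U (ctr D.M x.1) x.2.1 * fc (ch c x.1 x.2.1 x.2.2.1) x.2.2.2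
  refine ⟨J, co, ?_, fun K hK => ?_⟩
  · rintro ⟨u, N, g, k⟩ hx
    obtain ⟨hu, hx⟩ := (hJ _).1 hx
    obtain ⟨hN, hx⟩ := (hJ2 _ _).1 hx
    obtain ⟨-, hk⟩ := (hJ3 _ _ _).1 hx
    simp only at hu hN hk
    obtain ⟨a0, a1, a2, a3, a4, a5⟩ := h𝒰' u hu
    obtain ⟨b1, b2⟩ := (h𝒦 u hu N hN g).2 k hk
    have hX0 : 0 ≤ X := (abs_nonneg _).trans a4
    have hw : X * |D.w g| ≤ 1 := by
      have c1 := D.near _ N hN g
      have c2 := D.short _ N hN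
      have c3 : 0 ≤ X * (D.ρ * D.lam) := mul_nonneg hX0 (mul_pos D.ρ_pos D.lam_pos).le
      nlinarith [mul_le_mul_of_nonneg_left c2 hε.le]
    have hγ : ∀ a : ℝ, |a - N * D.w g| ≤ 1 → |a - γ u N g| ≤ 2 := by
      intro a h
      have e : a - γ u N g = (a - N * D.w g) - ((t.b₂ : ℝ) / q - (u / D.M : ℤ)) * D.w g := by
        simp only [γ, Des.mode]
        push_cast
        field_simp
        ring
      rw [e]
      refine (abs_sub _ _).trans ?_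
      rw [abs_mul]
      have := mul_le_mul_of_nonneg_right a4 (abs_nonneg (D.w g))
      linarith
    refine ⟨a0, hN, a4, fun a h => b1 a (hγ a h), fun hb a h => ?_, fun hb => ?_⟩
    · obtain ⟨y, hy, e⟩ := (b2 hb).1 a (hγ a h)
      exact ⟨y, ⟨a1.trans_lt hy.1, hy.2.trans_le a3⟩, e⟩
    · have := flat_aux (d := ‖t.d‖ ^ 2) (mul_nonneg D.ρ_pos.le (abs_nonneg _)) (by positivity)
        hε.le (D.flat _ N hN) (b2 hb).2 n2' (η := η) (by linarith)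
      convert this using 2
      simp only [co, norm_mul]
      ring
  · obtain ⟨K0, L, hK0, hL, hKL⟩ := exists_K hq0 D hV c
    have eK : K = K0 * L := Subtype.ext (Equiv.ext fun x => by rw [hK, hKL])
    have B0 : BM fun z => t.fn (D.K0 V c z) := t.bm_fn.comp (D.measurable_K0 hV c)
    have B1 := D.bm_mod hV c t
    have B2 := D.bm_expn hV c t τ 𝒰 l' r'
    have B3 : BM fun z => ∑ x ∈ J, (D.newTerm t τ 0 x (co x)).fn z :=
      BM.sum J fun x _ => Term.bm_fn _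
    have e1 : koop K t.L - ∑ x ∈ J, (D.newTerm t τ c x (co x)).L =
        koop L (toL2 (fun z => t.fn (D.K0 V c z)) -
          toL2 fun z => ∑ x ∈ J, (D.newTerm t τ 0 x (co x)).fn z) := by
      rw [eK, koop_mul, Term.L, koop_toL2 K0 t.bm_fn t.per_fn, map_sub,
        toL2_sum J fun x _ => Term.bm_fn _, map_sum]
      simp only [hK0]
      congr 1
      exact Finset.sum_congr rfl fun x _ => (D.koop_newTerm t τ c x (co x) hL).symm
    rw [e1, LinearIsometry.norm_map, ← n2_sub_eq B0 B3]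
    have tri1 := n2_triangle B0 B1 B3
    have tri2 := n2_triangle B1 B2 B3
    have T2' : ‖t.d‖ * √(33 ^ 2 * ε + (s / 2 + 3 * ε)) ≤ η / 3 :=
      mul_sqrt_le (norm_nonneg _) (by positivity) (by linarith)
    let F : ℤ → ℤ → Fin D.nG → R3 → ℂ := fun u N g z =>
      (ch c u N g (z 1) - ∑ k ∈ 𝒦 u N g, fc (ch c u N g) k * e (k * z 1)) *
        (D.newTerm t τ 0 (u, N, g, 0) (t.d * zc D.U (ctr D.M u) N)).fn z
    have Bf : ∀ u N g, BM fun y => ch c u N g y - ∑ k ∈ 𝒦 u N g, fc (ch c u N g) k * e (k * y) :=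
      fun u N g => (bm_chirpFn hVm t _ _ _ _).sub (BM.sum _ fun k _ =>
        (BM.const _).mul (BM.exp (f := fun y : ℝ => k * y) (by fun_prop)))
    have BF : ∀ u N g, BM (F u N g) := fun u N g =>
      ((Bf u N g).comp (measurable_pi_apply 1)).mul (Term.bm_fn _)
    have e2 : (fun z => D.expn V c t τ 𝒰 l' r' z - ∑ x ∈ J, (D.newTerm t τ 0 x (co x)).fn z) =
        fun z => ∑ u ∈ 𝒰, ∑ N ∈ D.act (ctr D.M u), ∑ g : Fin D.nG, F u N g z := by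
      funext z
      rw [Finset.sum_finset_product J 𝒰 J2 hJ, Des.expn, ← Finset.sum_sub_distrib]
      refine Finset.sum_congr rfl fun u _ => ?_
      rw [Finset.sum_finset_product (J2 u) _ (J3 u) (hJ2 u), ← Finset.sum_sub_distrib]
      refine Finset.sum_congr rfl fun N _ => ?_
      rw [Finset.sum_finset_product (J3 u N) _ (𝒦 u N) (hJ3 u N), ← Finset.sum_sub_distrib]
      refine Finset.sum_congr rfl fun g _ => ?_
      simp only [F, co, D.newTerm_fn, sub_mul, Finset.sum_mul]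
      rfl
    have T4 : n2 (fun z => D.expn V c t τ 𝒰 l' r' z -
        ∑ x ∈ J, (D.newTerm t τ 0 x (co x)).fn z) ≤ C * √η₂ := by
      rw [e2, hC, Finset.sum_mul]
      refine (n2_sum_le 𝒰 fun u _ => BM.sum _ fun N _ => BM.sum _ fun g _ => BF u N g).trans
        (Finset.sum_le_sum fun u hu => ?_)
      rw [Finset.sum_mul]
      refine (n2_sum_le _ fun N _ => BM.sum _ fun g _ => BF u N g).trans
        (Finset.sum_le_sum fun N hN => ?_)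
      rw [Finset.sum_mul]
      refine (n2_sum_le _ fun g _ => BF u N g).trans (Finset.sum_le_sum fun g _ => ?_)
      refine (n2_mul_le (Bf u N g) (Term.bm_fn _) (Term.norm_fn_le _)).trans ?_
      exact mul_le_mul_of_nonneg_left (Real.sqrt_le_sqrt (h𝒦 u hu N hN g).1) (norm_nonneg _)
    have T5 : C * √η₂ ≤ η / 3 := mul_sqrt_le hC0 (by positivity) n3
    linarith

end Crest.Agent.R81
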