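import Crest.Agent.R81.Tile

/-! Row 81: completing a partial family of pieces to a model. -/

set_option autoImplicit false

open MeasureTheory Set Crest.AnalysisR.Torus3
open Crest.Agent.R75 (e)
open scoped ContDiff ComplexConjugate

namespace Crest.Agent.R81
/-- pieces with disjoint arcs are orthogonal -/
theorem Arcs.inner_eq_zero {ι : Type} {q : ℕ} {V : ℝ → ℝ} {pc : ι → Term} (h : Arcs q V pc)
    {i i' : ι} (hne : i ≠ i') : inner ℂ (pc i).L (pc i').L = 0 := by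
  rw [Term.L, Term.L, Term.fn, Term.fn, inner_md (pc i).bm_amp (pc i').bm_amp]
  split_ifs with hb
  · have : ∀ y, conj ((pc i).amp y) * (pc i').amp y = 0 := fun y => by
      by_cases hy : y ∈ Ioo (pc i).l (pc i).r
      · by_cases hy' : y ∈ Ioo (pc i').l (pc i').r
        · exact absurd (h i i' y y 0 hy hy' (by simp [Term.th, hb.1, hb.2])).1 hne
        · simp [Term.amp, hy']
      · simp [Term.amp, hy]
    simp [this]
  · rfl

lemma asm_arcs {ι : Type} {q : ℕ} {V : ℝ → ℝ} {pc : ι → Term} (n : ι → ℤ) (A B : ι → ℝ)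
    (h0 : ∀ i, 0 ≤ A i) (h1 : ∀ i, B i ≤ 1)
    (hd : Pairwise fun i i' => Disjoint (Ioo (A i) (B i)) (Ioo (A i') (B i')))
    (h : ∀ i, ∀ y ∈ Ioo (pc i).l (pc i).r, (pc i).th q V y - n i ∈ Ioo (A i) (B i)) :
    Arcs q V pc := by
  intro i i' y y' m hy hy' hth
  have h2 := h i y hy
  have h3 := h i' y' hy'
  have h4 : m + n i' - n i = 0 := by
    have h5 : ((m + n i' - n i : ℤ) : ℝ) < 1 := by
      push_cast; linarith [h2.2, h3.1, h0 i', h1 i]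
    have h6 : (-1 : ℝ) < ((m + n i' - n i : ℤ) : ℝ) := by
      push_cast; linarith [h2.1, h3.2, h0 i, h1 i']
    have h7 : m + n i' - n i < 1 := by exact_mod_cast h5
    have h8 : -1 < m + n i' - n i := by exact_mod_cast h6
    omega
  have h5 : (pc i).th q V y - n i = (pc i').th q V y' - n i' := by
    have : ((m + n i' - n i : ℤ) : ℝ) = 0 := by exact_mod_cast h4
    push_cast at this
    linarith
  have h6 : i = i' := by
    by_contra hne
    exact disjoint_left.mp (hd hne) h2 (h5 ▸ h3)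
  subst h6
  exact ⟨rfl, by omega⟩

lemma asm_norm_sq {H : Type*} [NormedAddCommGroup H] [InnerProductSpace ℂ H] {κ : Type*}
    (s : Finset κ) {P : κ → H} (h : Pairwise fun i j => inner ℂ (P i) (P j) = 0) :
    ‖∑ i ∈ s, P i‖ ^ 2 = ∑ i ∈ s, ‖P i‖ ^ 2 := by
  classical
  induction s using Finset.induction_on with
  | empty => simp
  | insert a s ha ih =>
    rw [Finset.sum_insert ha, Finset.sum_insert ha, ← ih, sq, sq, sq]
    refine norm_add_sq_eq_norm_sq_add_norm_sq_of_inner_eq_zero (𝕜 := ℂ) _ _ ?_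
    rw [inner_sum]
    exact Finset.sum_eq_zero fun j hj => h (ne_of_mem_of_not_mem hj ha).symm

lemma asm_norm_sq' {H : Type*} [NormedAddCommGroup H] [InnerProductSpace ℂ H] {κ : Type*}
    (s : Finset κ) {P : κ → H} (h : Pairwise fun i j => inner ℂ (P i) (P j) = 0) (c : κ → ℝ) :
    ‖∑ i ∈ s, (c i : ℂ) • P i‖ ^ 2 = ∑ i ∈ s, c i ^ 2 * ‖P i‖ ^ 2 := by
  rw [asm_norm_sq s (P := fun i => (c i : ℂ) • P i) fun i j hij => by
    simp only [inner_smul_left, inner_smul_right, h hij, mul_zero]]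
  refine Finset.sum_congr rfl fun i _ => ?_
  rw [norm_smul, mul_pow, Complex.norm_real, Real.norm_eq_abs, sq_abs]

lemma asm_est {H : Type*} [NormedAddCommGroup H] [InnerProductSpace ℂ H] {κ : Type*} [Fintype κ]
    {P : κ → H} (h : Pairwise fun i j => inner ℂ (P i) (P j) = 0) (htot : ∑ i, ‖P i‖ ^ 2 = 1)
    (A : Finset κ) (c : κ → ℝ) {η : ℝ} (h0 : 0 ≤ η) (h1 : η ≤ 1) (hc0 : ∀ i ∈ A, 0 ≤ c i)
    (hc : ∀ i ∈ A, |c i ^ 2 - 1| ≤ η) (hQ : 1 - η ≤ ‖∑ i ∈ A, (c i : ℂ) • P i‖) :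
    ‖∑ i, P i - ∑ i ∈ A, (c i : ℂ) • P i‖ ≤ 3 * √η := by
  classical
  have e1 : ∑ i, P i - ∑ i ∈ A, (c i : ℂ) • P i =
      ∑ i ∈ A, ((1 - c i : ℝ) : ℂ) • P i + ∑ i ∈ Aᶜ, P i := by
    rw [← Finset.sum_add_sum_compl A P]
    simp only [Complex.ofReal_sub, Complex.ofReal_one, sub_smul, one_smul, Finset.sum_sub_distrib]
    abel
  have e2 := Finset.sum_add_sum_compl A fun i => ‖P i‖ ^ 2
  rw [htot] at e2
  have hA : 0 ≤ ∑ i ∈ A, ‖P i‖ ^ 2 := Finset.sum_nonneg fun i _ => by positivity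
  have hAc : 0 ≤ ∑ i ∈ Aᶜ, ‖P i‖ ^ 2 := Finset.sum_nonneg fun i _ => by positivity
  have h2 : ‖∑ i ∈ A, ((1 - c i : ℝ) : ℂ) • P i‖ ≤ η := by
    refine (pow_le_pow_iff_left₀ (norm_nonneg _) h0 two_ne_zero).mp ?_
    rw [asm_norm_sq' A h fun i => 1 - c i]
    calc _ ≤ ∑ i ∈ A, η ^ 2 * ‖P i‖ ^ 2 := by
          refine Finset.sum_le_sum fun i hi => ?_
          refine mul_le_mul_of_nonneg_right (sq_le_sq' ?_ ?_) (by positivity)
          · nlinarith [(abs_le.mp (hc i hi)).2, hc0 i hi]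
          · nlinarith [(abs_le.mp (hc i hi)).1, hc0 i hi]
      _ = η ^ 2 * ∑ i ∈ A, ‖P i‖ ^ 2 := by rw [Finset.mul_sum]
      _ ≤ η ^ 2 * 1 := by gcongr; linarith
      _ = η ^ 2 := mul_one _
  have h3 : (1 - η) ^ 2 ≤ (1 + η) * ∑ i ∈ A, ‖P i‖ ^ 2 := by
    refine (pow_le_pow_left₀ (by linarith) hQ 2).trans ?_
    rw [asm_norm_sq' A h c, Finset.mul_sum]
    refine Finset.sum_le_sum fun i hi => ?_
    refine mul_le_mul_of_nonneg_right ?_ (by positivity)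
    linarith [(abs_le.mp (hc i hi)).2]
  have hs := Real.sq_sqrt h0
  have hs0 := Real.sqrt_nonneg η
  have h4 : ‖∑ i ∈ Aᶜ, P i‖ ≤ 2 * √η := by
    refine (pow_le_pow_iff_left₀ (norm_nonneg _) (by positivity) two_ne_zero).mp ?_
    rw [asm_norm_sq _ h, mul_pow, hs]
    nlinarith
  have h5 : η ≤ √η := by
    have : √η ≤ 1 := Real.sqrt_le_one.mpr h1
    nlinarith
  rw [e1]
  linarith [norm_add_le (∑ i ∈ A, ((1 - c i : ℝ) : ℂ) • P i) (∑ i ∈ Aᶜ, P i)]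

lemma asm_phase (d : ℂ) {k : ℝ} (hk : 0 < k) :
    ∃ d' : ℂ, ‖d'‖ ^ 2 = k ∧ d = ((‖d‖ / √k : ℝ) : ℂ) * d' := by
  have hs : 0 < √k := Real.sqrt_pos.mpr hk
  by_cases hd : d = 0
  · exact ⟨(√k : ℝ), by simp [abs_of_pos hs, Real.sq_sqrt hk.le], by simp [hd]⟩
  · have h1 : 0 < ‖d‖ := norm_pos_iff.mpr hd
    refine ⟨((√k / ‖d‖ : ℝ) : ℂ) * d, ?_, ?_⟩
    · rw [norm_mul, Complex.norm_real, Real.norm_of_nonneg (by positivity),
        div_mul_cancel₀ _ h1.ne', Real.sq_sqrt hk.le]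
    · rw [← mul_assoc, ← Complex.ofReal_mul]
      have : ‖d‖ / √k * (√k / ‖d‖) = 1 := by field_simp
      rw [this]
      simp

lemma asm_L (t : Term) {c d' : ℂ} (h : t.d = c * d') : t.L = c • ({ t with d := d' } : Term).L := by
  rw [Term.L, Term.L, ← toL2_smul c (Term.bm_fn _)]
  congr 1
  funext x
  simp only [Term.fn, md, Term.amp, h]
  ring

/-- The arcs of the given pieces, shifted into `(0,1)`, are disjoint intervals (`Term.arc`); fill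
each gap of `exists_gaps` by a piece with mode `(B, 0)`, `B |ρ₀| (r₀ - l₀) > 2`, on the subinterval
of `(l₀, r₀)` that `th` maps onto an integer translate of the gap.  The coefficient of piece `σ` is
replaced by `√|b₁ ρ|` times the phase of `(pc σ).d` (phase `1` if `d = 0`).
Estimate: all pieces of the model are orthogonal with `‖piece‖² = |b₁ ρ| (r - l)` of total `1`;
with `Q = ∑_A (pc σ).L` and `Q'` the sum of the corrected pieces, `‖Q - Q'‖ ≤ η`,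
`‖g - Q'‖² = 1 - ‖Q'‖² ≤ 4 η`. -/
theorem assemble {q : ℕ} {V : ℝ → ℝ} {S : SD} (hq : Odd q) (hV : SP V)
    (hz : ∃ κ, 0 < κ ∧ ∀ y, |y| ≤ κ → V y = 0) (hS : ∀ x, S.1 x = sFun q V x)
    {ι : Type} [Fintype ι] (pc : ι → Term) (ρ : ι → ℝ)
    (haff : ∀ σ, Aff V (pc σ).l (pc σ).r (ρ σ)) (hb : ∀ σ, (pc σ).b₁ ≠ 0) (harcs : Arcs q V pc)
    (hin : ∀ σ, ∃ n : ℤ, ∀ y ∈ Ioo (pc σ).l (pc σ).r, (pc σ).th q V y - n ∈ Ioo (0 : ℝ) 1)
    (hseg : ∃ l₀ r₀ ρ₀, Aff V l₀ r₀ ρ₀) :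
    ∃ m : Model, m.q = q ∧ m.V = V ∧ m.S = S ∧
      (∀ σ, ∃ i, (m.pc i).b₁ = (pc σ).b₁ ∧ (m.pc i).b₂ = (pc σ).b₂ ∧ (m.pc i).l = (pc σ).l ∧
        (m.pc i).r = (pc σ).r) ∧
      ∀ (A : Finset ι) (η : ℝ), 0 ≤ η → η ≤ 1 →
        (∀ σ ∈ A, abs (‖(pc σ).d‖ ^ 2 - |(pc σ).b₁ * ρ σ|) ≤ η * |(pc σ).b₁ * ρ σ|) →
        1 - η ≤ ‖∑ σ ∈ A, (pc σ).L‖ → ‖m.g - ∑ σ ∈ A, (pc σ).L‖ ≤ 3 * √η := by
  classical
  choose a b hab hlen him _ using fun σ => (pc σ).arc q (haff σ) (hb σ)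
  choose n hn using hin
  have hk : ∀ σ, 0 < |(pc σ).b₁ * ρ σ| := fun σ =>
    abs_pos.mpr (mul_ne_zero (by exact_mod_cast hb σ) (haff σ).2.2.2.1)
  have hsub : ∀ σ, (n σ : ℝ) ≤ a σ ∧ b σ ≤ n σ + 1 := fun σ => by
    refine (Ioo_subset_Ioo_iff (hab σ)).mp ?_
    rw [← him σ]
    rintro _ ⟨y, hy, rfl⟩
    have := hn σ y hy
    exact ⟨by linarith [this.1], by linarith [this.2]⟩
  have hmem : ∀ σ, ∀ y ∈ Ioo (pc σ).l (pc σ).r,
      (pc σ).th q V y - n σ ∈ Ioo (a σ - n σ) (b σ - n σ) := fun σ y hy => by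
    have : (pc σ).th q V y ∈ Ioo (a σ) (b σ) := him σ ▸ mem_image_of_mem _ hy
    exact ⟨by linarith [this.1], by linarith [this.2]⟩
  have hdis : Pairwise fun σ σ' =>
      Disjoint (Ioo (a σ - n σ) (b σ - n σ)) (Ioo (a σ' - n σ') (b σ' - n σ')) := by
    intro σ σ' hne
    rw [disjoint_left]
    intro x hx hx'
    have h1 : x + n σ ∈ Ioo (a σ) (b σ) := ⟨by linarith [hx.1], by linarith [hx.2]⟩
    have h2 : x + n σ' ∈ Ioo (a σ') (b σ') := ⟨by linarith [hx'.1], by linarith [hx'.2]⟩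
    rw [← him] at h1 h2
    obtain ⟨y, hy, e1⟩ := h1
    obtain ⟨y', hy', e2⟩ := h2
    exact hne (harcs σ σ' y y' (n σ - n σ') hy hy' (by rw [e1, e2]; push_cast; ring)).1
  obtain ⟨N, a', b', ha0, hab', hb1, hdis', hdis'', htot⟩ :=
    exists_gaps (fun σ => a σ - n σ) (fun σ => b σ - n σ) (fun σ => by linarith [(hsub σ).1])
      (fun σ => by linarith [hab σ]) (fun σ => by linarith [(hsub σ).2]) hdis
  obtain ⟨l₀, r₀, ρ₀, hA₀⟩ := hseg
  have hρ₀ : 0 < |ρ₀| * (r₀ - l₀) := mul_pos (abs_pos.mpr hA₀.2.2.2.1) (by linarith [hA₀.2.1])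
  obtain ⟨B, hB⟩ := exists_nat_gt (2 / (|ρ₀| * (r₀ - l₀)))
  have hB0 : (0 : ℝ) < B := lt_trans (by positivity) hB
  have hB1 : (B : ℤ) ≠ 0 := by exact_mod_cast hB0.ne'
  rw [div_lt_iff₀ hρ₀] at hB
  let t₀ : Term := ⟨1, 0, l₀, r₀, B, 0⟩
  obtain ⟨a₀, b₀, -, hlen₀, -, -, -, hsubarc, -⟩ := t₀.arc q hA₀ hB1
  have hlen₁ : 2 < b₀ - a₀ := by
    rw [hlen₀, abs_mul]
    simp only [t₀, Int.cast_natCast, abs_of_pos hB0]
    linarith
  have hc1 := Int.le_ceil a₀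
  have hc2 := Int.ceil_lt_add_one a₀
  choose l' r' hl' hlr' hr' hlen' him' using fun j : Fin N =>
    hsubarc (a' j + ⌈a₀⌉) (b' j + ⌈a₀⌉) (by linarith [ha0 j]) (by linarith [hab' j])
      (by linarith [hb1 j])
  choose d' hd' hdd' using fun σ => asm_phase (pc σ).d (hk σ)
  let pc' : ι ⊕ Fin N → Term := Sum.elim (fun σ => { pc σ with d := d' σ })
    fun j => ⟨(√|(B : ℤ) * ρ₀| : ℝ), 0, l' j, r' j, B, 0⟩
  let ρ' : ι ⊕ Fin N → ℝ := Sum.elim ρ fun _ => ρ₀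
  have haff' : ∀ i, Aff V (pc' i).l (pc' i).r (ρ' i) := by
    rintro (σ | j)
    · exact haff σ
    · exact hA₀.mono (hl' j) (hlr' j) (hr' j)
  have hflat : ∀ i, ‖(pc' i).d‖ ^ 2 = |(pc' i).b₁ * ρ' i| := by
    rintro (σ | j)
    · exact hd' σ
    · simp only [pc', ρ', Sum.elim_inr, Complex.norm_real, Real.norm_eq_abs, sq_abs]
      exact Real.sq_sqrt (abs_nonneg _)
  have harcs' : Arcs q V pc' := by
    refine asm_arcs (Sum.elim n fun _ => ⌈a₀⌉) (Sum.elim (fun σ => a σ - n σ) a')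
      (Sum.elim (fun σ => b σ - n σ) b') ?_ ?_ ?_ ?_
    · rintro (σ | j)
      · simp only [Sum.elim_inl]; linarith [(hsub σ).1]
      · exact ha0 j
    · rintro (σ | j)
      · simp only [Sum.elim_inl]; linarith [(hsub σ).2]
      · exact hb1 j
    · rintro (σ | j) (σ' | j') hne
      · exact hdis fun h => hne (congrArg _ h)
      · exact hdis'' σ j'
      · exact (hdis'' σ' j).symm
      · exact hdis' fun h => hne (congrArg _ h)
    · rintro (σ | j) y hy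
      · exact hmem σ y hy
      · have : t₀.th q V y ∈ Ioo (a' j + ⌈a₀⌉) (b' j + ⌈a₀⌉) := him' j ▸ mem_image_of_mem _ hy
        change t₀.th q V y - ⌈a₀⌉ ∈ Ioo (a' j) (b' j)
        exact ⟨by linarith [this.1], by linarith [this.2]⟩
  have htot' : ∑ i, |(pc' i).b₁ * ρ' i| * ((pc' i).r - (pc' i).l) = 1 := by
    rw [Fintype.sum_sum_type, ← htot]
    congr 1
    · refine Finset.sum_congr rfl fun σ _ => ?_
      change |(pc σ).b₁ * ρ σ| * ((pc σ).r - (pc σ).l) = _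
      rw [← hlen]; ring
    · refine Finset.sum_congr rfl fun j _ => ?_
      change |t₀.b₁ * ρ₀| * (r' j - l' j) = _
      rw [← hlen']; ring
  let m : Model :=
    { q := q, V := V, S := S, ι := ι ⊕ Fin N, pc := pc', ρ := ρ', q_odd := hq, V_sp := hV,
      V_zero := hz, S_eq := hS, aff := haff',
      b_ne := by
        rintro (σ | j)
        exacts [hb σ, hB1]
      flat := hflat, arcs := harcs', tot := htot' }
  refine ⟨m, rfl, rfl, rfl, fun σ => ⟨Sum.inl σ, rfl, rfl, rfl, rfl⟩, fun A η h0 h1 hA hQ => ?_⟩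
  let c : ι ⊕ Fin N → ℝ := Sum.elim (fun σ => ‖(pc σ).d‖ / √|(pc σ).b₁ * ρ σ|) fun _ => 0
  have e1 : ∑ σ ∈ A, (pc σ).L =
      ∑ i ∈ A.map Function.Embedding.inl, (c i : ℂ) • (pc' i).L := by
    rw [Finset.sum_map]
    exact Finset.sum_congr rfl fun σ _ => asm_L (pc σ) (hdd' σ)
  rw [e1] at hQ ⊢
  refine asm_est (P := fun i => (pc' i).L) (fun i j hij => harcs'.inner_eq_zero hij) ?_ _ c h0 h1
    ?_ ?_ hQ
  · refine Eq.trans (Finset.sum_congr rfl fun i _ => ?_) htot'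
    rw [Term.norm_L_sq _ (haff' i).1 (haff' i).2.1.le (haff' i).2.2.1, hflat]
  · rintro (σ | j) _
    · simp only [c, Sum.elim_inl]; positivity
    · exact le_rfl
  · intro i hi
    obtain ⟨σ, hσ, rfl⟩ := Finset.mem_map.mp hi
    have h2 := hA σ hσ
    have h3 := hk σ
    change |(‖(pc σ).d‖ / √|(pc σ).b₁ * ρ σ|) ^ 2 - 1| ≤ η
    rw [div_pow, Real.sq_sqrt h3.le, div_sub_one h3.ne', abs_div, abs_abs, div_le_iff₀ h3]
    exact h2

end Crest.Agent.R81
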