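import Crest.Agent.R81.Defs

/-! Row 81: bounded measurable functions on `ℝ³` as elements of `L²(T³)`. -/

set_option autoImplicit false

open MeasureTheory Set Crest.AnalysisR.Torus3
open Crest.Agent.R75 (e)
open scoped ContDiff ComplexConjugate

namespace Crest.Agent.R81
section BM
variable {α : Type} [MeasurableSpace α] {φ ψ : α → ℂ}

lemma BM.add (h : BM φ) (h' : BM ψ) : BM fun x => φ x + ψ x := by
  obtain ⟨h1, C, hC⟩ := h
  obtain ⟨h2, D, hD⟩ := h'
  exact ⟨h1.add h2, C + D, fun x => norm_add_le_of_le (hC x) (hD x)⟩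

lemma BM.sub (h : BM φ) (h' : BM ψ) : BM fun x => φ x - ψ x := by
  obtain ⟨h1, C, hC⟩ := h
  obtain ⟨h2, D, hD⟩ := h'
  exact ⟨h1.sub h2, C + D, fun x => norm_sub_le_of_le (hC x) (hD x)⟩

lemma BM.mul (h : BM φ) (h' : BM ψ) : BM fun x => φ x * ψ x := by
  obtain ⟨h1, C, hC⟩ := h
  obtain ⟨h2, D, hD⟩ := h'
  exact ⟨h1.mul h2, C * D, fun x => norm_mul_le_of_le (hC x) (hD x)⟩

lemma BM.const (c : ℂ) : BM fun _ : α => c :=
  ⟨measurable_const, ‖c‖, fun _ => le_rfl⟩

lemma BM.conj (h : BM φ) : BM fun x => conj (φ x) := by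
  obtain ⟨h1, C, hC⟩ := h
  exact ⟨Complex.continuous_conj.measurable.comp h1, C, fun x => by simpa using hC x⟩

lemma BM.sum {ι : Type*} (s : Finset ι) {f : ι → α → ℂ} (h : ∀ i ∈ s, BM (f i)) :
    BM fun x => ∑ i ∈ s, f i x := by
  classical
  induction s using Finset.induction_on with
  | empty => simpa using BM.const (α := α) 0
  | insert a s ha ih =>
    simp only [Finset.sum_insert ha]
    exact (h a (Finset.mem_insert_self _ _)).add (ih fun i hi => h i (Finset.mem_insert_of_mem hi))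

lemma BM.comp {β : Type} [MeasurableSpace β] (h : BM φ) {F : β → α} (hF : Measurable F) :
    BM fun x => φ (F x) := by
  obtain ⟨h1, C, hC⟩ := h
  exact ⟨h1.comp hF, C, fun x => hC _⟩

lemma BM.indicator (h : BM φ) {s : Set α} (hs : MeasurableSet s) : BM (s.indicator φ) := by
  obtain ⟨h1, C, hC⟩ := h
  exact ⟨h1.indicator hs, C, fun x => (norm_indicator_le_norm_self _ _).trans (hC x)⟩

lemma BM.exp {f : α → ℝ} (hf : Measurable f) : BM fun x => e (f x) :=
  ⟨R75.continuous_e.measurable.comp hf, 1, fun _ => (R75.norm_e _).le⟩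

end BM

lemma BM.intervalIntegrable {f : ℝ → ℂ} (h : BM f) (a b : ℝ) : IntervalIntegrable f volume a b := by
  obtain ⟨h1, C, hC⟩ := h
  exact (intervalIntegrable_const (c := C)).mono_fun' h1.aestronglyMeasurable
    (Filter.Eventually.of_forall hC)

lemma BM.intervalIntegrable_sq {f : ℝ → ℂ} (h : BM f) (a b : ℝ) :
    IntervalIntegrable (fun y => ‖f y‖ ^ 2) volume a b := by
  obtain ⟨h1, C, hC⟩ := h
  refine (intervalIntegrable_const (c := C ^ 2)).mono_fun'
    (h1.norm.pow_const 2).aestronglyMeasurable (Filter.Eventually.of_forall fun y => ?_)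
  show ‖‖f y‖ ^ 2‖ ≤ C ^ 2
  rw [norm_pow, norm_norm]
  exact pow_le_pow_left₀ (norm_nonneg _) (hC y) 2

lemma BM.md {a : ℝ → ℂ} (h : BM a) (b₁ b₂ : ℤ) : BM (md a b₁ b₂) :=
  (h.comp (F := fun x : R3 => Int.fract (x 2))
    (measurable_fract.comp (measurable_pi_apply 2))).mul (BM.exp (by fun_prop))

lemma Term.bm_amp (t : Term) : BM t.amp :=
  (BM.const t.d).mul ((BM.exp (f := fun y => t.μ * y) (by fun_prop)).indicator measurableSet_Ioo)

lemma Term.bm_fn (t : Term) : BM t.fn := t.bm_amp.md _ _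

lemma proj_eq_iff {x x' : R3} : proj x = proj x' ↔ ∃ n : Fin 3 → ℤ, x' = x + fun i => (n i : ℝ) := by
  constructor
  · intro h
    have : ∀ i, ∃ n : ℤ, x' i = x i + n := by
      intro i
      have hi : ((x' i - x i : ℝ) : UnitAddCircle) = 0 := by
        have := congrFun h i
        simp only [proj] at this
        rw [AddCircle.coe_sub, this, sub_self]
      obtain ⟨n, hn⟩ := (AddCircle.coe_eq_zero_iff _).1 hi
      refine ⟨n, ?_⟩
      rw [zsmul_eq_mul, mul_one] at hn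
      linarith
    choose n hn using this
    exact ⟨n, funext hn⟩
  · rintro ⟨n, rfl⟩
    funext i
    have : (((n i : ℤ) : ℝ) : UnitAddCircle) = 0 :=
      (AddCircle.coe_eq_zero_iff _).2 ⟨n i, by simp⟩
    simp only [proj, Pi.add_apply]
    rw [AddCircle.coe_add, this, add_zero]

lemma per_md (a : ℝ → ℂ) (b₁ b₂ : ℤ) : Per (md a b₁ b₂) := by
  intro x x' h
  obtain ⟨n, rfl⟩ := proj_eq_iff.1 h
  simp only [md, Pi.add_apply, Int.fract_add_intCast]
  congr 1
  refine (R75.e_eq_of_sub_int (b₁ * n 0 + b₂ * n 1) ?_).symm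
  push_cast
  ring

lemma Term.per_fn (t : Term) : Per t.fn := per_md _ _ _

lemma per_exp (n : Fin 3 → ℤ) : Per fun x => e (∑ i, n i * x i) := by
  intro x x' h
  obtain ⟨m, rfl⟩ := proj_eq_iff.1 h
  refine (R75.e_eq_of_sub_int (∑ i, n i * m i) ?_).symm
  simp only [Pi.add_apply, mul_add, Finset.sum_add_distrib]
  push_cast
  ring

lemma measurable_lift3 : Measurable lift3 := by
  have h : Measurable rep :=
    measurable_subtype_coe.comp (AddCircle.measurableEquivIco (1 : ℝ) 0).measurable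
  exact measurable_pi_lambda _ fun i => h.comp (measurable_pi_apply i)

instance : IsProbabilityMeasure (volume : Measure UnitAddCircle) :=
  ⟨by rw [AddCircle.measure_univ]; simp⟩

instance : IsProbabilityMeasure (volume : Measure T3) :=
  inferInstanceAs (IsProbabilityMeasure (Measure.pi fun _ : Fin 3 => (volume : Measure UnitAddCircle)))

variable {φ ψ : R3 → ℂ}

lemma BM.memLp (h : BM φ) : MemLp (φ ∘ lift3) 2 (volume : Measure T3) := by
  obtain ⟨h1, C, hC⟩ := h
  exact MemLp.of_bound (h1.comp measurable_lift3).aestronglyMeasurable C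
    (Filter.Eventually.of_forall fun p => hC _)

lemma coeFn_toL2 (h : BM φ) : toL2 φ =ᵐ[volume] φ ∘ lift3 := by
  rw [toL2, dif_pos h.memLp]
  exact MemLp.coeFn_toLp _

lemma toL2_add (h : BM φ) (h' : BM ψ) : toL2 (fun x => φ x + ψ x) = toL2 φ + toL2 ψ := by
  apply Lp.ext
  filter_upwards [coeFn_toL2 (h.add h'), Lp.coeFn_add (toL2 φ) (toL2 ψ), coeFn_toL2 h,
    coeFn_toL2 h'] with p h1 h2 h3 h4
  rw [h1, h2, Pi.add_apply, h3, h4]
  rfl

lemma toL2_sub (h : BM φ) (h' : BM ψ) : toL2 (fun x => φ x - ψ x) = toL2 φ - toL2 ψ := by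
  apply Lp.ext
  filter_upwards [coeFn_toL2 (h.sub h'), Lp.coeFn_sub (toL2 φ) (toL2 ψ), coeFn_toL2 h,
    coeFn_toL2 h'] with p h1 h2 h3 h4
  rw [h1, h2, Pi.sub_apply, h3, h4]
  rfl

lemma toL2_smul (c : ℂ) (h : BM φ) : toL2 (fun x => c * φ x) = c • toL2 φ := by
  apply Lp.ext
  filter_upwards [coeFn_toL2 ((BM.const c).mul h), Lp.coeFn_smul c (toL2 φ), coeFn_toL2 h]
    with p h1 h2 h3
  rw [h1, h2, Pi.smul_apply, h3]
  rfl

lemma toL2_sum {ι : Type*} (s : Finset ι) {f : ι → R3 → ℂ} (h : ∀ i ∈ s, BM (f i)) :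
    toL2 (fun x => ∑ i ∈ s, f i x) = ∑ i ∈ s, toL2 (f i) := by
  classical
  induction s using Finset.induction_on with
  | empty =>
    have := toL2_smul 0 (BM.const (α := R3) 0)
    simpa using this
  | insert a s ha ih =>
    simp only [Finset.sum_insert ha]
    have hs : ∀ i ∈ s, BM (f i) := fun i hi => h i (Finset.mem_insert_of_mem hi)
    rw [toL2_add (h a (Finset.mem_insert_self _ _)) (BM.sum s hs), ih hs]

/-- only the values on the unit cube matter -/
lemma toL2_congr (h : ∀ x : R3, (∀ i, x i ∈ Ico (0 : ℝ) 1) → φ x = ψ x) : toL2 φ = toL2 ψ := by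
  have e : φ ∘ lift3 = ψ ∘ lift3 := funext fun p => h _ fun i => rep_mem _
  unfold toL2
  rw [e]

lemma n2_congr (h : ∀ x : R3, (∀ i, x i ∈ Ico (0 : ℝ) 1) → φ x = ψ x) : n2 φ = n2 ψ := by
  have e : ∀ p, φ (lift3 p) = ψ (lift3 p) := fun p => h _ fun i => rep_mem _
  unfold n2
  simp only [e]

lemma inner_toL2 (h : BM φ) (h' : BM ψ) :
    inner ℂ (toL2 φ) (toL2 ψ) = ∫ p : T3, conj (φ (lift3 p)) * ψ (lift3 p) := by
  rw [L2.inner_def]
  refine integral_congr_ae ?_
  filter_upwards [coeFn_toL2 h, coeFn_toL2 h'] with p h1 h2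
  rw [h1, h2, RCLike.inner_apply']
  rfl

lemma norm_toL2 (h : BM φ) : ‖toL2 φ‖ = n2 φ := by
  have h1 := inner_toL2 h h
  rw [inner_self_eq_norm_sq_to_K] at h1
  have h2 : ∫ p : T3, conj (φ (lift3 p)) * φ (lift3 p) =
      ((∫ p : T3, ‖φ (lift3 p)‖ ^ 2 : ℝ) : ℂ) := by
    rw [← integral_complex_ofReal]
    refine integral_congr_ae (Filter.Eventually.of_forall fun p => ?_)
    simp only [Complex.conj_mul']
    push_cast
    rfl
  rw [h2] at h1
  have h3 : ‖toL2 φ‖ ^ 2 = ∫ p : T3, ‖φ (lift3 p)‖ ^ 2 := by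
    have h4 : ((‖toL2 φ‖ ^ 2 : ℝ) : ℂ) = ((∫ p : T3, ‖φ (lift3 p)‖ ^ 2 : ℝ) : ℂ) := by
      rw [← h1]; push_cast; rfl
    exact_mod_cast h4
  rw [n2, ← h3, Real.sqrt_sq (norm_nonneg _)]

lemma n2_nonneg (φ : R3 → ℂ) : 0 ≤ n2 φ := Real.sqrt_nonneg _

lemma n2_sub_eq (h : BM φ) (h' : BM ψ) : n2 (fun x => φ x - ψ x) = ‖toL2 φ - toL2 ψ‖ := by
  rw [← toL2_sub h h', norm_toL2 (h.sub h')]

lemma n2_triangle {χ : R3 → ℂ} (h : BM φ) (h' : BM ψ) (h'' : BM χ) :
    n2 (fun x => φ x - χ x) ≤ n2 (fun x => φ x - ψ x) + n2 (fun x => ψ x - χ x) := by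
  rw [n2_sub_eq h h'', n2_sub_eq h h', n2_sub_eq h' h'']
  exact norm_sub_le_norm_sub_add_norm_sub _ _ _

lemma n2_sum_le {ι : Type*} (s : Finset ι) {f : ι → R3 → ℂ} (h : ∀ i ∈ s, BM (f i)) :
    n2 (fun x => ∑ i ∈ s, f i x) ≤ ∑ i ∈ s, n2 (f i) := by
  rw [← norm_toL2 (BM.sum s h), toL2_sum s h]
  exact (norm_sum_le _ _).trans (Finset.sum_le_sum fun i hi => (norm_toL2 (h i hi)).le)

lemma koop_toL2 (D : SD) (h : BM φ) (hp : Per φ) : koop D (toL2 φ) = toL2 fun x => φ (D.1 x) := by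
  apply Lp.ext
  have h1 := coeFn_koop D (toL2 φ)
  have h2 := (SD.mp D).quasiMeasurePreserving.ae_eq_comp (coeFn_toL2 h)
  have h3 := coeFn_toL2 (h.comp (SD.smooth D).continuous.measurable)
  refine h1.trans (h2.trans (Filter.EventuallyEq.trans ?_ h3.symm))
  exact Filter.Eventually.of_forall fun p => hp _ _ (proj_lift3 _)

/-- A continuous lift commutes with lattice translations up to lattice translations
(`x ↦ F (x + n) - F x` is continuous and integer valued on the connected space `ℝ³`). -/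
lemma Lat.strong {F : R3 → R3} (hF : Lat F) (hc : Continuous F) (n : Fin 3 → ℤ) :
    ∃ m : Fin 3 → ℤ, ∀ x, F (x + fun i => (n i : ℝ)) = F x + fun i => (m i : ℝ) := by
  have h1 : ∀ x, ∃ m : Fin 3 → ℤ, F (x + fun i => (n i : ℝ)) = F x + fun i => (m i : ℝ) :=
    fun x => proj_eq_iff.1 (hF _ _ (proj_eq_iff.2 ⟨n, rfl⟩))
  choose m hm using h1
  have h2 : ∀ i, Continuous fun x => m x i := by
    intro i
    have h3 : Continuous fun x => ((m x i : ℤ) : ℝ) := by
      have e : (fun x => ((m x i : ℤ) : ℝ)) =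
          fun x => F (x + fun i => (n i : ℝ)) i - F x i := by
        funext x
        rw [hm x]; simp
      rw [e]
      fun_prop
    exact Int.isClosedEmbedding_coe_real.isEmbedding.continuous_iff.2 h3
  refine ⟨m 0, fun x => ?_⟩
  have h4 : m x = m 0 := funext fun i =>
    PreconnectedSpace.constant inferInstance (h2 i)
  rw [hm x, h4]

/-- `proj` is an open quotient map, so the induced map is continuous -/
lemma Lat.continuous_ind {F : R3 → R3} (hF : Lat F) (hc : Continuous F) : Continuous (ind F) := by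
  have hq : IsOpenQuotientMap (proj : R3 → T3) :=
    IsOpenQuotientMap.piMap (f := fun _ : Fin 3 => ((↑) : ℝ → UnitAddCircle))
      fun _ => QuotientAddGroup.isOpenQuotientMap_mk
  rw [← hq.continuous_comp_iff]
  have e : ind F ∘ proj = proj ∘ F := funext fun x => ind_proj hF x
  rw [e]
  exact hq.continuous.comp hc

end Crest.Agent.R81
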