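import Crest.Agent.R81.TD2

/-! Row 81: from the torus design to the circle design. -/

set_option autoImplicit false

open MeasureTheory Set Crest.AnalysisR.Torus3
open Crest.Agent.R75 (e)
open scoped ContDiff ComplexConjugate

namespace Crest.Agent.R81

lemma cd_e_finset_sum {δ : Type} (s : Finset δ) (f : δ → ℝ) : e (∑ i ∈ s, f i) = ∏ i ∈ s, e (f i) := by
  classical
  induction s using Finset.induction_on with
  | empty => simp
  | insert a s ha ih => rw [Finset.sum_insert ha, Finset.prod_insert ha, R75.e_add, ih]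

lemma cd_fourier_coe_e (n : ℤ) (x : ℝ) : fourier n (x : UnitAddCircle) = e (n * x) := by
  rw [fourier_coe_apply, e]
  congr 1
  push_cast
  ring

lemma cd_mFourier_line {δ : Type} [Fintype δ] (n β : δ → ℤ) (t : ℝ) :
    UnitAddTorus.mFourier n (fun i => ((β i * t : ℝ) : UnitAddCircle)) =
      e ((∑ i, n i * β i : ℤ) * t) := by
  simp only [UnitAddTorus.mFourier, ContinuousMap.coe_mk, cd_fourier_coe_e]
  rw [← cd_e_finset_sum]
  congr 1
  push_cast
  rw [Finset.sum_mul]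
  exact Finset.sum_congr rfl fun i _ => by ring

lemma cd_integral_e_int_ne {k : ℤ} (hk : k ≠ 0) : ∫ t in (0 : ℝ)..1, e (k * t) = 0 := by
  have h : ∀ t : ℝ, e (k * t) = Complex.exp ((2 * Real.pi * k * Complex.I) * t) := fun t => by
    rw [e]; congr 1; push_cast; ring
  have hne : (2 * Real.pi * k * Complex.I : ℂ) ≠ 0 := by
    have := Real.pi_pos.ne'
    simp [hk, this]
  simp_rw [h]
  rw [integral_exp_mul_complex hne]
  have h1 := h 1
  have h0 := h 0
  rw [mul_one, R75.e_int] at h1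
  rw [mul_zero, R75.e_zero] at h0
  rw [← h1, ← h0, sub_self, zero_div]

lemma cd_integral_mFourier_ne {δ : Type} [Fintype δ] {n : δ → ℤ} (hn : n ≠ 0) :
    ∫ p : δ → UnitAddCircle, UnitAddTorus.mFourier n p = 0 := by
  obtain ⟨i, hi⟩ := Function.ne_iff.mp hn
  simp only [UnitAddTorus.mFourier, ContinuousMap.coe_mk]
  rw [integral_fintype_prod_volume_eq_prod (fun i (x : UnitAddCircle) => fourier (n i) x)]
  exact Finset.prod_eq_zero (Finset.mem_univ i)
    (integral_eq_zero_of_add_right_eq_neg (fourier_add_half_inv_index hi one_pos))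

lemma cd_continuous_line {δ : Type} (β : δ → ℤ) :
    Continuous fun (t : ℝ) (i : δ) => ((β i * t : ℝ) : UnitAddCircle) :=
  continuous_pi fun i => (AddCircle.continuous_mk' 1).comp (by fun_prop)

/-- the difference of the mean over a closed line and the mean over the torus -/
noncomputable def cdLineErr {δ : Type} [Fintype δ] (β : δ → ℤ) :
    C(δ → UnitAddCircle, ℂ) →ₗ[ℂ] ℂ where
  toFun φ := (∫ t in (0 : ℝ)..1, φ fun i => ((β i * t : ℝ) : UnitAddCircle)) - ∫ p, φ p
  map_add' φ ψ := by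
    simp only [ContinuousMap.add_apply]
    rw [intervalIntegral.integral_add
      ((φ.continuous.comp' (cd_continuous_line β)).intervalIntegrable _ _)
      ((ψ.continuous.comp' (cd_continuous_line β)).intervalIntegrable _ _),
      integral_add (φ.continuous.integrable_of_hasCompactSupport (HasCompactSupport.of_compactSpace _))
        (ψ.continuous.integrable_of_hasCompactSupport (HasCompactSupport.of_compactSpace _))]
    ring
  map_smul' c φ := by
    simp only [ContinuousMap.smul_apply, smul_eq_mul, RingHom.id_apply]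
    rw [intervalIntegral.integral_const_mul, integral_const_mul]
    ring

lemma cd_norm_lineErr_le {δ : Type} [Fintype δ] (β : δ → ℤ) (φ : C(δ → UnitAddCircle, ℂ)) :
    ‖cdLineErr β φ‖ ≤ 2 * ‖φ‖ := by
  have h1 : ‖∫ t in (0 : ℝ)..1, φ fun i => ((β i * t : ℝ) : UnitAddCircle)‖ ≤ ‖φ‖ * |1 - 0| :=
    intervalIntegral.norm_integral_le_of_norm_le_const fun t _ => φ.norm_coe_le_norm _
  have h2 : ‖∫ p, φ p‖ ≤ ‖φ‖ * (volume : Measure (δ → UnitAddCircle)).real univ :=
    norm_integral_le_of_norm_le_const (Filter.Eventually.of_forall fun p => φ.norm_coe_le_norm _)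
  rw [probReal_univ] at h2
  refine (norm_sub_le _ _).trans ?_
  simp only [sub_zero, abs_one] at h1
  linarith

lemma cd_lineErr_mFourier {δ : Type} [Fintype δ] (β n : δ → ℤ) (h : n = 0 ∨ ∑ i, n i * β i ≠ 0) :
    cdLineErr β (UnitAddTorus.mFourier n) = 0 := by
  change (∫ t in (0 : ℝ)..1, UnitAddTorus.mFourier n fun i => ((β i * t : ℝ) : UnitAddCircle)) -
    ∫ p, UnitAddTorus.mFourier n p = 0
  by_cases hn : n = 0
  · subst hn
    simp [UnitAddTorus.mFourier_zero]
  · have h1 := h.resolve_left hn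
    simp_rw [cd_mFourier_line]
    rw [cd_integral_e_int_ne h1, cd_integral_mFourier_ne hn, sub_zero]

/-- Equidistribution of closed lines, uniformly over a compact family: cover `𝒮` by finitely many
`η/2`-balls around trigonometric polynomials (`UnitAddTorus.span_mFourier_closure_eq_top`), and let
`S` be the set of their frequencies. -/
theorem equidist {δ : Type} [Fintype δ] {𝒮 : Set C(δ → UnitAddCircle, ℂ)} (h𝒮 : IsCompact 𝒮) {η : ℝ}
    (hη : 0 < η) : ∃ S : Finset (δ → ℤ), 0 ∉ S ∧ ∀ β : δ → ℤ, (∀ n ∈ S, ∑ i, n i * β i ≠ 0) →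
      ∀ φ ∈ 𝒮, ‖(∫ t in (0 : ℝ)..1, φ fun i => ((β i * t : ℝ) : UnitAddCircle)) - ∫ p, φ p‖ ≤ η := by
  classical
  let P : ((δ → ℤ) →₀ ℂ) → C(δ → UnitAddCircle, ℂ) :=
    Finsupp.linearCombination ℂ (UnitAddTorus.mFourier (d := δ))
  obtain ⟨t, ht⟩ := h𝒮.elim_finite_subcover (fun f => Metric.ball (P f) (η / 2))
    (fun _ => Metric.isOpen_ball) (fun φ _ => by
      have h1 : φ ∈ (Submodule.span ℂ (range (UnitAddTorus.mFourier (d := δ)))).topologicalClosure := by
        rw [UnitAddTorus.span_mFourier_closure_eq_top]; trivial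
      obtain ⟨ψ, hψ, hd⟩ := Metric.mem_closure_iff.mp h1 (η / 2) (by positivity)
      obtain ⟨f, rfl⟩ := (Finsupp.mem_span_range_iff_exists_finsupp.mp hψ)
      exact mem_iUnion.mpr ⟨f, hd⟩)
  refine ⟨(t.biUnion Finsupp.support).erase 0, Finset.notMem_erase _ _, fun β hβ φ hφ => ?_⟩
  obtain ⟨f, hf, hd⟩ := mem_iUnion₂.mp (ht hφ)
  have h0 : cdLineErr β (P f) = 0 := by
    simp only [P, Finsupp.linearCombination_apply, Finsupp.sum, map_sum, map_smul]
    refine Finset.sum_eq_zero fun n hn => ?_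
    rw [cd_lineErr_mFourier β n, smul_zero]
    by_cases h : n = 0
    · exact Or.inl h
    · exact Or.inr (hβ n (Finset.mem_erase.mpr ⟨h, Finset.mem_biUnion.mpr ⟨f, hf, hn⟩⟩))
  have h1 := cd_norm_lineErr_le β (φ - P f)
  rw [map_sub, h0, sub_zero] at h1
  rw [Metric.mem_ball, dist_eq_norm] at hd
  exact h1.trans (by linarith)

lemma cd_norm_mFourier_apply {δ : Type} [Fintype δ] (m : δ → ℤ) (p : δ → UnitAddCircle) :
    ‖UnitAddTorus.mFourier m p‖ ≤ 1 :=
  ((UnitAddTorus.mFourier m).norm_coe_le_norm p).trans UnitAddTorus.mFourier_norm.le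

lemma cd_integrable_tc {δ : Type} [Fintype δ] {v : (δ → UnitAddCircle) → ℝ} (hv : Measurable v)
    (ξ : ℝ) (m : δ → ℤ) : Integrable fun p => e (ξ * v p) * UnitAddTorus.mFourier (-m) p := by
  refine Integrable.of_bound (C := 1) (Measurable.aestronglyMeasurable ?_)
    (Filter.Eventually.of_forall fun p => ?_)
  · exact (R75.continuous_e.measurable.comp (hv.const_mul ξ)).mul
      (UnitAddTorus.mFourier (-m)).continuous.measurable
  · rw [norm_mul, R75.norm_e, one_mul]; exact cd_norm_mFourier_apply _ _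

/-- a continuous function close to `v` in `L¹`, so `‖tc v ξ m - tc v' ξ m‖ ≤ 2π |ξ| ‖v - v'‖₁` -/
theorem exists_cont_tc {δ : Type} [Fintype δ] {v : (δ → UnitAddCircle) → ℝ} (hv : Measurable v)
    (hb : ∃ C, ∀ p, |v p| ≤ C) (R : ℝ) {η : ℝ} (hη : 0 < η) :
    ∃ v' : C(δ → UnitAddCircle, ℝ), ∀ ξ, |ξ| ≤ R → ∀ m, ‖tc v ξ m - tc v' ξ m‖ ≤ η := by
  obtain ⟨C, hC⟩ := hb
  have hi : Integrable v := Integrable.of_bound (C := C) hv.aestronglyMeasurable
    (Filter.Eventually.of_forall hC)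
  have hpi := Real.pi_pos
  obtain ⟨g, hg, hgi⟩ := hi.exists_boundedContinuous_integral_sub_le
    (ε := η / (2 * Real.pi * (|R| + 1))) (by positivity)
  refine ⟨g.toContinuousMap, fun ξ hξ m => ?_⟩
  have hgm : Measurable (g.toContinuousMap : (δ → UnitAddCircle) → ℝ) :=
    g.toContinuousMap.continuous.measurable
  rw [tc, tc, ← integral_sub (cd_integrable_tc hv ξ m) (cd_integrable_tc hgm ξ m)]
  have h1 : ∀ p, ‖e (ξ * v p) * UnitAddTorus.mFourier (-m) p -
      e (ξ * g.toContinuousMap p) * UnitAddTorus.mFourier (-m) p‖ ≤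
      2 * Real.pi * (|R| + 1) * ‖v p - g p‖ := fun p => by
    rw [← sub_mul, norm_mul]
    have h2 := R75.norm_e_sub_e_le (ξ * v p) (ξ * g p)
    rw [← mul_sub, abs_mul] at h2
    have h3 := cd_norm_mFourier_apply (-m) p
    have h4 : |ξ| ≤ |R| + 1 := hξ.trans ((le_abs_self R).trans (by linarith))
    calc _ ≤ (2 * Real.pi * (|ξ| * |v p - g p|)) * 1 := by gcongr; exact h2
      _ ≤ (2 * Real.pi * ((|R| + 1) * |v p - g p|)) * 1 := by gcongr
      _ = _ := by rw [Real.norm_eq_abs]; ring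
  refine (norm_integral_le_of_norm_le ((hi.sub hgi).norm.const_mul (2 * Real.pi * (|R| + 1)))
    (Filter.Eventually.of_forall h1)).trans ?_
  rw [integral_const_mul]
  calc _ ≤ 2 * Real.pi * (|R| + 1) * (η / (2 * Real.pi * (|R| + 1))) := by gcongr; exact hg
    _ = η := by field_simp

theorem norm_tc_le {δ : Type} [Fintype δ] (v : (δ → UnitAddCircle) → ℝ) (ξ : ℝ) (m : δ → ℤ) :
    ‖tc v ξ m‖ ≤ 1 := by
  have h2 : ‖tc v ξ m‖ ≤ 1 * (volume : Measure (δ → UnitAddCircle)).real univ :=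
    norm_integral_le_of_norm_le_const (Filter.Eventually.of_forall fun p => by
      rw [norm_mul, R75.norm_e, one_mul]; exact cd_norm_mFourier_apply _ _)
  rwa [probReal_univ, mul_one] at h2

lemma cd_exists_dir {δ : Type} [Fintype δ] (S : Finset (δ → ℤ)) (hS : 0 ∉ S) :
    ∃ α : δ → ℤ, ∀ n ∈ S, ∑ i, n i * α i ≠ 0 := by
  let E := Fintype.equivFin δ
  obtain ⟨α, hα⟩ := R75.exists_direction (κ := S) (fun n j => n.1 (E.symm j)) (fun n => by
    have : n.1 ≠ 0 := fun h => hS (h ▸ n.2)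
    obtain ⟨i, hi⟩ := Function.ne_iff.mp this
    exact ⟨E i, by simpa using hi⟩)
  refine ⟨fun i => α (E i), fun n hn => ?_⟩
  have := hα ⟨n, hn⟩
  rw [← E.sum_comp] at this
  simpa using this

lemma cd_abs_sq_sub_le {a b : ℂ} {η : ℝ} (h : ‖a - b‖ ≤ η) (hb : ‖b‖ ≤ 1) (hη : η ≤ 1) :
    |‖a‖ ^ 2 - ‖b‖ ^ 2| ≤ 3 * η := by
  have h1 : |‖a‖ - ‖b‖| ≤ η := (abs_norm_sub_norm_le a b).trans h
  have h2 := abs_le.mp h1
  have h3 : ‖a‖ ^ 2 - ‖b‖ ^ 2 = (‖a‖ - ‖b‖) * (‖a‖ + ‖b‖) := by ring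
  have h0 : 0 ≤ η := (abs_nonneg _).trans h1
  rw [h3, abs_mul, abs_of_nonneg (add_nonneg (norm_nonneg a) (norm_nonneg b))]
  calc _ ≤ η * 3 := by gcongr; linarith
    _ = _ := by ring

/-- The approximation of torus coefficients by circle coefficients along long closed lines. -/
lemma cd_exists_line {δ : Type} [Fintype δ] {v : (δ → UnitAddCircle) → ℝ} (hv : Measurable v)
    (hb : ∃ C, ∀ p, |v p| ≤ C) (R : ℝ) (S : Finset (δ → ℤ)) {η : ℝ} (hη : 0 < η) :
    ∃ S' : Finset (δ → ℤ), 0 ∉ S' ∧ ∀ β : δ → ℤ, (∀ n ∈ S', ∑ i, n i * β i ≠ 0) →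
      ∃ w : ℝ → ℝ, Continuous w ∧ Function.Periodic w 1 ∧
        ∀ ξ ∈ Icc 0 R, ∀ m ∈ S, ‖zc w ξ (∑ i, m i * β i) - tc v ξ m‖ ≤ η := by
  obtain ⟨v', hv'⟩ := exists_cont_tc hv hb R (half_pos hη)
  let G : (δ → ℤ) → C(ℝ × (δ → UnitAddCircle), ℂ) := fun m =>
    ⟨fun x => e (x.1 * v' x.2) * UnitAddTorus.mFourier (-m) x.2, by fun_prop⟩
  have hc : IsCompact (⋃ m ∈ S, (G m).curry '' Icc 0 R) :=
    S.isCompact_biUnion fun m _ => isCompact_Icc.image (G m).curry.continuous
  obtain ⟨S', h0, hS'⟩ := equidist hc (half_pos hη)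
  refine ⟨S', h0, fun β hβ => ⟨fun t => v' fun i => ((β i * t : ℝ) : UnitAddCircle),
    v'.continuous.comp (cd_continuous_line β), fun t => ?_, fun ξ hξ m hm => ?_⟩⟩
  · beta_reduce
    congr 1
    funext i
    rw [mul_add, mul_one, AddCircle.coe_add, add_eq_left, AddCircle.coe_eq_zero_iff]
    exact ⟨β i, by simp⟩
  · have h1 := hS' β hβ ((G m).curry ξ) (mem_iUnion₂.mpr ⟨m, hm, mem_image_of_mem _ hξ⟩)
    have h2 := hv' ξ (by rw [abs_of_nonneg hξ.1]; exact hξ.2) m
    have e1 : ∫ p, ((G m).curry ξ) p = tc v' ξ m := rfl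
    have e2 : (∫ t in (0 : ℝ)..1, ((G m).curry ξ) fun i => ((β i * t : ℝ) : UnitAddCircle)) =
        zc (fun t => v' fun i => ((β i * t : ℝ) : UnitAddCircle)) ξ (∑ i, m i * β i) := by
      rw [zc, fc]
      refine intervalIntegral.integral_congr fun t _ => ?_
      change e _ * UnitAddTorus.mFourier (-m) _ = _
      rw [cd_mFourier_line]
      simp
    rw [e1, e2] at h1
    rw [norm_sub_rev] at h2
    calc _ ≤ _ := norm_sub_le_norm_sub_add_norm_sub _ (tc v' ξ m) _
      _ ≤ η := by linarith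

lemma cd_sn_nonneg (ξ : ℝ) : 0 ≤ sn ξ := sq_nonneg _

/-- Take `T, c` from `exists_TD_flat` with `ε/4`, `ι = T.S`, `n m = m i₀`, `a m = α · m` for a generic
integer vector `α`, `β = α + B e_{i₀}`, `w t = v' (β t)`. -/
theorem nonempty_CD {ε X : ℝ} (hε : 0 < ε) (hε1 : ε ≤ 1) (hX : 1 ≤ X) : Nonempty (CD ε X) := by
  classical
  obtain ⟨T, c, hc, ha⟩ := exists_TD_flat (ε := ε / 4) (X := X) (by positivity) (by linarith)
  have hpos : ∀ m ∈ T.S, 1 ≤ m T.i₀ := fun m hm => by
    have h1 := T.big m hm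
    have h2 : (0 : ℝ) < m T.i₀ := by
      by_contra h3
      nlinarith [mul_nonneg hε.le (neg_nonneg.2 (not_lt.1 h3))]
    have : 0 < m T.i₀ := by exact_mod_cast h2
    omega
  have hcle : c ≤ ε := by
    have hg : Good (ε / 4) (1 / 4) := fun n => by
      have : (1 : ℝ) / 4 ≤ |1 / 4 - (n : ℝ) / 2| := by
        rcases le_or_gt n 0 with h | h
        · have : (n : ℝ) ≤ 0 := by exact_mod_cast h
          exact le_abs.mpr (Or.inl (by linarith))
        · have : (1 : ℝ) ≤ n := by exact_mod_cast h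
          exact le_abs.mpr (Or.inr (by linarith))
      linarith
    have h1 := T.mass (1 / 4) hg (by norm_num) (by linarith)
    obtain ⟨m, hm, -⟩ := Finset.exists_ne_zero_of_sum_ne_zero
      (ne_of_gt (lt_of_lt_of_le (by linarith) h1))
    rw [Finset.mem_filter] at hm
    have h2 := (abs_le.mp (T.flat m hm.1 _ hm.2)).1
    have h3 := T.big m hm.1
    have h4 : sn (1 / 4) * ‖tc T.v (1 / 4) m‖ ^ 2 ≤ 1 :=
      mul_le_one₀ (sn_le_one _) (sq_nonneg _) (pow_le_one₀ (norm_nonneg _) (norm_tc_le _ _ _))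
    rw [ha m hm.1] at h2
    have h5 : (1 : ℝ) ≤ m T.i₀ := by exact_mod_cast hpos m hm.1
    have h6 : (1 - ε / 4) * c * m T.i₀ ≤ ε / 4 * m T.i₀ := by nlinarith
    have h7 : (1 - ε / 4) * c ≤ ε / 4 := le_of_mul_le_mul_right h6 (by linarith)
    nlinarith
  set η : ℝ := min (ε / 12 * c) (ε / 12 / (T.S.card + 1)) with hη
  have hη0 : 0 < η := lt_min (by positivity) (by positivity)
  have hη1 : η ≤ ε / 12 * c := min_le_left _ _
  have hη2 : η * (T.S.card + 1) ≤ ε / 12 := by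
    rw [← le_div_iff₀ (by positivity)]; exact min_le_right _ _
  have hη3 : η ≤ 1 := by nlinarith
  obtain ⟨S', h0, hS'⟩ := cd_exists_line T.v_meas T.v_bd (X + 1) T.S hη0
  obtain ⟨α, hα⟩ := cd_exists_dir (S' ∪ ((T.S ×ˢ T.S).image
    fun x => fun i => x.2 T.i₀ * x.1 i - x.1 T.i₀ * x.2 i).erase 0) (by simp [h0])
  have hn : ∀ b : T.S, (((b.1 T.i₀).toNat : ℕ) : ℤ) = b.1 T.i₀ := fun b =>
    Int.toNat_of_nonneg (by linarith [hpos b.1 b.2])
  have hn' : ∀ b : T.S, (((b.1 T.i₀).toNat : ℕ) : ℝ) = b.1 T.i₀ := fun b => by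
    exact_mod_cast hn b
  refine ⟨{ ι := T.S
            n := fun b => (b.1 T.i₀).toNat
            a := fun b => ∑ i, b.1 i * α i
            lo := fun b => T.lo b.1
            hi := fun b => T.hi b.1
            c := c
            n_pos := fun b => by have := hn b; have := hpos b.1 b.2; omega
            npar := fun b b' hne => ?_
            c_pos := hc
            c_le := hcle
            comp := fun b => T.comp b.1 b.2
            bd := fun b => T.bd b.1 b.2
            ex := ⟨(∑ n ∈ S', |∑ i, n i * α i|).toNat + 1, fun B hB => ?_⟩ }⟩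
  · rw [hn, hn]
    obtain ⟨i, hi⟩ := T.npar b.1 b.2 b'.1 b'.2 (fun h => hne (Subtype.ext h))
    have h1 := hα (fun i => b'.1 T.i₀ * b.1 i - b.1 T.i₀ * b'.1 i) (Finset.mem_union_right _
      (Finset.mem_erase.mpr ⟨fun h => hi (by have := congrFun h i; simp at this; linarith),
        Finset.mem_image.mpr ⟨(b.1, b'.1), Finset.mk_mem_product b.2 b'.2, rfl⟩⟩))
    intro h
    apply h1
    simp only [sub_mul, Finset.sum_sub_distrib, mul_assoc, ← Finset.mul_sum]
    rw [h, sub_self]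
  · have hβ : ∀ n : T.δ → ℤ, ∑ i, n i * (α i + if i = T.i₀ then (B : ℤ) else 0) =
        B * n T.i₀ + ∑ i, n i * α i := fun n => by
      simp only [mul_add, Finset.sum_add_distrib, mul_ite, mul_zero, Finset.sum_ite_eq',
        Finset.mem_univ, if_true]
      ring
    obtain ⟨w, hw1, hw2, hw3⟩ := hS' (fun i => α i + if i = T.i₀ then (B : ℤ) else 0)
      (fun n hn => by
        rw [hβ]
        have h1 := hα n (Finset.mem_union_left _ hn)
        have h2 : |∑ i, n i * α i| ≤ ∑ n ∈ S', |∑ i, n i * α i| :=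
          Finset.single_le_sum (f := fun n : T.δ → ℤ => |∑ i, n i * α i|)
            (fun _ _ => abs_nonneg _) hn
        have h3 : |∑ i, n i * α i| < B := by omega
        have h4 := abs_lt.mp h3
        intro h5
        rcases lt_trichotomy (n T.i₀) 0 with h | h | h
        · nlinarith
        · rw [h, mul_zero, zero_add] at h5; exact h1 h5
        · nlinarith)
    have key : ∀ b : T.S, ∀ ξ ∈ Icc (T.lo b.1) (T.hi b.1),
        |‖zc w ξ (B * ((b.1 T.i₀).toNat : ℕ) + ∑ i, b.1 i * α i)‖ ^ 2 - ‖tc T.v ξ b.1‖ ^ 2| ≤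
          3 * η := fun b ξ hξ => by
      obtain ⟨j, hj, -⟩ := T.comp b.1 b.2
      have h1 : (0 : ℝ) ≤ (j : ℝ) / 2 := by positivity
      have h2 := hw3 ξ ⟨by linarith [hξ.1], hξ.2.trans (T.bd b.1 b.2)⟩ b.1 b.2
      rw [hβ] at h2
      rw [hn]
      exact cd_abs_sq_sub_le h2 (norm_tc_le _ _ _) hη3
    refine ⟨w, hw1, hw2, fun b ξ hξ => ?_, fun ξ hg h1 h2 => ?_⟩
    · have h1 := abs_le.mp (key b ξ hξ)
      have h2 := abs_le.mp (T.flat b.1 b.2 ξ hξ)
      rw [ha b.1 b.2] at h2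
      rw [hn']
      have h5 : (1 : ℝ) ≤ b.1 T.i₀ := by exact_mod_cast hpos b.1 b.2
      have h6 := cd_sn_nonneg ξ
      have h7 := sn_le_one ξ
      have h8 : ε * c ≤ ε * (c * b.1 T.i₀) := by gcongr; nlinarith
      rw [abs_le]
      constructor <;> nlinarith
    · have h3 := T.mass ξ (fun n => le_trans (by linarith) (hg n)) h1 h2
      rw [Finset.sum_filter, ← Finset.sum_coe_sort] at h3
      rw [Finset.sum_filter]
      have h4 : ∑ b : T.S, (if ξ ∈ Icc (T.lo b.1) (T.hi b.1) then ‖tc T.v ξ b.1‖ ^ 2 else 0) ≤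
          ∑ b : T.S, ((if ξ ∈ Icc (T.lo b.1) (T.hi b.1) then
            ‖zc w ξ (B * ((b.1 T.i₀).toNat : ℕ) + ∑ i, b.1 i * α i)‖ ^ 2 else 0) + 3 * η) :=
        Finset.sum_le_sum fun b _ => by
          split_ifs with h
          · linarith [(abs_le.mp (key b ξ h)).1]
          · linarith
      rw [Finset.sum_add_distrib, Finset.sum_const, Finset.card_univ, Fintype.card_coe,
        nsmul_eq_mul] at h4
      have h5 : 1 - ε ≤ ∑ b : T.S, (if ξ ∈ Icc (T.lo b.1) (T.hi b.1) then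
            ‖zc w ξ (B * ((b.1 T.i₀).toNat : ℕ) + ∑ i, b.1 i * α i)‖ ^ 2 else 0) := by
        have h6 : 1 - ε / 4 ≤
            ∑ b : T.S, (if ξ ∈ Icc (T.lo b.1) (T.hi b.1) then ‖tc T.v ξ b.1‖ ^ 2 else 0) := by
          convert h3
        nlinarith
      convert h5

end Crest.Agent.R81
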