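import Crest.Agent.R81.One
import Crest.Agent.Lib.Osc.Fresnel

/-! Row 81: Fourier coefficients of chirps. -/

set_option autoImplicit false

open MeasureTheory Set Crest.AnalysisR.Torus3
open Crest.Agent.R75 (e)
open scoped ContDiff ComplexConjugate

namespace Crest.Agent.R81

theorem chirp_pos {η : ℝ} (hη : 0 < η) : ∃ Λ₀ : ℝ, 0 < Λ₀ ∧ ∀ l r lam p : ℝ, Λ₀ ≤ lam →
    -p / lam ∈ Icc (l + η) (r - η) →
    abs (‖∫ y in l..r, e (lam * y ^ 2 / 2 + p * y)‖ ^ 2 * lam - 1) ≤ η := by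
  set m := min 1 (η / 3) with hm
  have hm0 : 0 < m := lt_min one_pos (by positivity)
  refine ⟨(2 / (η * m)) ^ 2, by positivity, fun l r lam p hl hp => ?_⟩
  have hlam : 0 < lam := lt_of_lt_of_le (by positivity) hl
  set y₀ := -p / lam with hy
  have hp' : p = -lam * y₀ := by rw [hy]; field_simp
  have h1 : ∫ y in l..r, e (lam * y ^ 2 / 2 + p * y) = e (-lam * y₀ ^ 2 / 2) *
      ∫ y in (-(y₀ - l))..(r - y₀), Complex.exp ((2 * Real.pi * lam * y ^ 2 / 2 : ℝ) * Complex.I) := by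
    rw [neg_sub, ← intervalIntegral.integral_comp_sub_right
      (fun y : ℝ => Complex.exp ((2 * Real.pi * lam * y ^ 2 / 2 : ℝ) * Complex.I)) y₀,
      ← intervalIntegral.integral_const_mul]
    refine intervalIntegral.integral_congr fun y _ => ?_
    have : lam * y ^ 2 / 2 + p * y = -lam * y₀ ^ 2 / 2 + lam * (y - y₀) ^ 2 / 2 := by
      rw [hp']; ring
    simp only [this, R75.e_add]
    congr 1
    unfold R75.e
    congr 3
    ring
  have hR1 : η ≤ y₀ - l := by linarith [hp.1]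
  have hR2 : η ≤ r - y₀ := by linarith [hp.2]
  have hL : 0 < 2 * Real.pi * lam := by positivity
  have h2 := Osc.fresnel hL (hη.trans_le hR1) (hη.trans_le hR2)
  rw [h1, norm_mul, R75.norm_e, one_mul]
  generalize (∫ y in (-(y₀ - l))..(r - y₀),
    Complex.exp ((2 * Real.pi * lam * y ^ 2 / 2 : ℝ) * Complex.I)) = J at h2 ⊢
  set s := √lam with hs
  have hs0 : 0 < s := Real.sqrt_pos.mpr hlam
  have hss : s ^ 2 = lam := Real.sq_sqrt hlam.le
  have h3 : ‖Osc.fres / (√(2 * Real.pi * lam) : ℝ)‖ = s⁻¹ := by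
    rw [norm_div, Osc.norm_fres, Complex.norm_real, Real.norm_eq_abs,
      abs_of_nonneg (Real.sqrt_nonneg _), Real.sqrt_mul (x := 2 * Real.pi) (by positivity)]
    have : 0 < √(2 * Real.pi) := Real.sqrt_pos.mpr (by positivity)
    rw [div_mul_eq_div_div, div_self this.ne', one_div]
  have h4 : |‖J‖ - s⁻¹| ≤ 2 / (lam * η) := by
    rw [← h3]
    refine (abs_norm_sub_norm_le _ _).trans (h2.trans ?_)
    have hpi := Real.pi_gt_three
    have a1 : ∀ R, η ≤ R → 5 / (2 * Real.pi * lam * R) ≤ 1 / (lam * η) := fun R hR => by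
      rw [div_le_div_iff₀ (mul_pos hL (hη.trans_le hR)) (by positivity)]
      have b1 : lam * η ≤ lam * R := by gcongr
      have b2 : 0 < lam * η := by positivity
      nlinarith
    have a2 : 2 / (lam * η) = 1 / (lam * η) + 1 / (lam * η) := by ring
    linarith [a1 _ hR1, a1 _ hR2]
  have h5 : 2 / (η * m) ≤ s := Real.le_sqrt_of_sq_le hl
  have h6 : |‖J‖ * s - 1| ≤ m := by
    have e1 : ‖J‖ * s - 1 = (‖J‖ - s⁻¹) * s := by field_simp
    rw [e1, abs_mul, abs_of_pos hs0]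
    refine (mul_le_mul_of_nonneg_right h4 hs0.le).trans ?_
    rw [div_le_iff₀ (by positivity)] at h5
    rw [← hss, div_mul_eq_mul_div, div_le_iff₀ (by positivity)]
    nlinarith
  have hm1 : m ≤ 1 := min_le_left _ _
  have hm2 : m ≤ η / 3 := min_le_right _ _
  have e2 : ‖J‖ ^ 2 * lam - 1 = (‖J‖ * s - 1) * ((‖J‖ * s - 1) + 2) := by rw [← hss]; ring
  rw [e2, abs_mul]
  have h7 : |(‖J‖ * s - 1) + 2| ≤ 3 := by
    rw [abs_le] at h6 ⊢
    constructor <;> linarith [h6.1, h6.2]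
  calc _ ≤ m * 3 := mul_le_mul h6 h7 (abs_nonneg _) hm0.le
    _ ≤ η := by linarith

/-- Fresnel integral with the stationary point `-p/lam` well inside the interval
(complete the square, `Crest.Agent.Osc.fresnel` with `l = 2π|lam|`, conjugate for `lam < 0`). -/
theorem chirp {η : ℝ} (hη : 0 < η) : ∃ Λ₀ : ℝ, 0 < Λ₀ ∧ ∀ l r lam p : ℝ, Λ₀ ≤ |lam| →
    -p / lam ∈ Icc (l + η) (r - η) →
    abs (‖∫ y in l..r, e (lam * y ^ 2 / 2 + p * y)‖ ^ 2 * |lam| - 1) ≤ η := by
  obtain ⟨Λ₀, h0, h⟩ := chirp_pos hη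
  refine ⟨Λ₀, h0, fun l r lam p hl hp => ?_⟩
  rcases lt_trichotomy lam 0 with hlam | hlam | hlam
  · have h1 := h l r (-lam) (-p) (by rwa [abs_of_neg hlam] at hl) (by
      rwa [neg_neg, div_neg, ← neg_div])
    have h2 : ∫ y in l..r, e (-lam * y ^ 2 / 2 + -p * y) =
        conj (∫ y in l..r, e (lam * y ^ 2 / 2 + p * y)) := by
      have hc : ∀ f : ℝ → ℂ, conj (∫ y in l..r, f y) = ∫ y in l..r, conj (f y) := fun f => by
        simp only [intervalIntegral, map_sub, integral_conj]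
      rw [hc]
      refine intervalIntegral.integral_congr fun y _ => ?_
      simp only [R75.conj_e]
      congr 1; ring
    rw [h2, RCLike.norm_conj] at h1
    rwa [abs_of_neg hlam]
  · rw [hlam, abs_zero] at hl
    linarith
  · rw [abs_of_pos hlam] at hl ⊢
    exact h l r lam p hl hp

/-- the integers `k` whose stationary point `(k - p)/lam` lies in `[l, r]` -/
noncomputable def innerSet (lam p l r : ℝ) : Finset ℤ :=
  Finset.Icc ⌈min (p + lam * l) (p + lam * r)⌉ ⌊max (p + lam * l) (p + lam * r)⌋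

theorem mem_innerSet {lam p l r : ℝ} (hlam : lam ≠ 0) (hlr : l ≤ r) (k : ℤ) :
    k ∈ innerSet lam p l r ↔ (k - p) / lam ∈ Icc l r := by
  rw [innerSet, Finset.mem_Icc, Int.ceil_le, Int.le_floor, mem_Icc]
  rcases lt_or_gt_of_ne hlam with h | h
  · have h1 : p + lam * r ≤ p + lam * l := by nlinarith
    rw [min_eq_right h1, max_eq_left h1, le_div_iff_of_neg h, div_le_iff_of_neg h]
    constructor <;> rintro ⟨a, b⟩ <;> constructor <;> linarith
  · have h1 : p + lam * l ≤ p + lam * r := by nlinarith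
    rw [min_eq_left h1, max_eq_right h1, le_div_iff₀ h, div_le_iff₀ h]
    constructor <;> rintro ⟨a, b⟩ <;> constructor <;> linarith

theorem card_innerSet (lam p : ℝ) {l r : ℝ} (hlr : l ≤ r) :
    |lam| * (r - l) - 1 ≤ (innerSet lam p l r).card := by
  rw [innerSet, Int.card_Icc]
  have h1 := max_sub_min_eq_abs (p + lam * l) (p + lam * r)
  have h2 : |p + lam * r - (p + lam * l)| = |lam| * (r - l) := by
    rw [show p + lam * r - (p + lam * l) = lam * (r - l) by ring, abs_mul,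
      abs_of_nonneg (sub_nonneg.mpr hlr)]
  have h3 := Int.lt_floor_add_one (max (p + lam * l) (p + lam * r))
  have h4 := Int.ceil_lt_add_one (min (p + lam * l) (p + lam * r))
  have h5 : ((⌊max (p + lam * l) (p + lam * r)⌋ + 1 - ⌈min (p + lam * l) (p + lam * r)⌉ : ℤ) : ℝ) ≤
      ((⌊max (p + lam * l) (p + lam * r)⌋ + 1 - ⌈min (p + lam * l) (p + lam * r)⌉).toNat : ℝ) := by
    exact_mod_cast Int.self_le_toNat _
  push_cast at h5
  linarith

theorem sum_ge_of_flat {K : Finset ℤ} {c : ℤ → ℝ} {η L w : ℝ} (hη : 0 < η) (hη1 : η ≤ 1)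
    (hL : 1 / η ≤ L) (hK : L * w - 1 ≤ K.card) (h : ∀ k ∈ K, abs (c k * L - 1) ≤ η) :
    (w - η) * (1 - η) ≤ ∑ k ∈ K, c k := by
  have hL0 : 0 < L := lt_of_lt_of_le (by positivity) hL
  have h1 : (K.card : ℝ) * (1 - η) ≤ (∑ k ∈ K, c k) * L := by
    rw [Finset.sum_mul, ← nsmul_eq_mul, ← Finset.sum_const]
    exact Finset.sum_le_sum fun k hk => by linarith [(abs_le.mp (h k hk)).1]
  rw [div_le_iff₀ hη] at hL
  refine le_of_mul_le_mul_right (le_trans ?_ h1) hL0
  have h2 : (w - η) * L ≤ K.card := by nlinarith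
  calc (w - η) * (1 - η) * L = (w - η) * L * (1 - η) := by ring
    _ ≤ K.card * (1 - η) := mul_le_mul_of_nonneg_right h2 (by linarith)

/-- The chirp on the unit interval: flat inner coefficients which carry almost all the mass. -/
theorem chirp_unit {η : ℝ} (hη : 0 < η) (hη' : η ≤ 1 / 4) :
    ∃ Λ₀ : ℝ, 0 < Λ₀ ∧ ∀ lam p : ℝ, Λ₀ ≤ |lam| →
      (∀ k ∈ innerSet lam p η (1 - η),
        abs (‖fc (fun y => e (lam * y ^ 2 / 2 + p * y)) k‖ ^ 2 * |lam| - 1) ≤ η) ∧
      1 - 4 * η ≤ ∑ k ∈ innerSet lam p η (1 - η),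
        ‖fc (fun y => e (lam * y ^ 2 / 2 + p * y)) k‖ ^ 2 := by
  obtain ⟨Λ₀, h0, h⟩ := chirp hη
  refine ⟨Λ₀ + 1 / η, by positivity, fun lam p hl => ?_⟩
  have hη0 : 0 < 1 / η := by positivity
  have hlam : 0 < |lam| := by linarith
  have hA : ∀ k ∈ innerSet lam p η (1 - η),
      abs (‖fc (fun y => e (lam * y ^ 2 / 2 + p * y)) k‖ ^ 2 * |lam| - 1) ≤ η := fun k hk => by
    rw [mem_innerSet (abs_pos.mp hlam) (by linarith)] at hk
    have h1 := h 0 1 lam (p - k) (by linarith) (by rwa [neg_sub, zero_add])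
    have h2 : fc (fun y => e (lam * y ^ 2 / 2 + p * y)) k =
        ∫ y in (0 : ℝ)..1, e (lam * y ^ 2 / 2 + (p - k) * y) := by
      refine intervalIntegral.integral_congr fun y _ => ?_
      simp only [← R75.e_add]
      congr 1; ring
    rwa [h2]
  refine ⟨hA, ?_⟩
  have := sum_ge_of_flat hη (by linarith) (by linarith) (card_innerSet lam p (by linarith)) hA
  nlinarith

theorem bm_chirpFn {V : ℝ → ℝ} (hV : Measurable V) (t : Term) (l r γ h : ℝ) :
    BM (chirpFn V t l r γ h) := by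
  exact (BM.exp (by fun_prop)).indicator measurableSet_Ioo

theorem integral_ind {E : Type} [NormedAddCommGroup E] [NormedSpace ℝ E] {l r : ℝ} (h0 : 0 ≤ l)
    (hlr : l ≤ r) (h1 : r ≤ 1) (F : ℝ → E) :
    ∫ y in (0 : ℝ)..1, (Ioo l r).indicator F y = ∫ y in l..r, F y := by
  rw [intervalIntegral.integral_of_le zero_le_one, intervalIntegral.integral_of_le hlr,
    integral_Ioc_eq_integral_Ioo (x := l), setIntegral_indicator measurableSet_Ioo,
    inter_eq_right.mpr]
  exact fun y hy => ⟨h0.trans_lt hy.1, hy.2.le.trans h1⟩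

/-- **Frequency lemma.**  For large `h` the chirp `1_{(l,r)} e (μ y + h b₁ V y - γ y)` is close to
the sum of its Fourier modes `k ∈ 𝒦`, and `b₂/q + (k + a)/h` is a value of the frequency function.

* `b₁ = 0`: the function does not depend on `h`; `𝒦 = [-K₀, K₀]` by `parseval` and `bessel_id`;
  `th` is the constant `b₂/q ∈ Θ` and `Θ` is open.
* `b₁ ≠ 0`: with `V = ρ y²/2 + p₁ y + p₀` on `(l, r)` the phase is `lam y²/2 + p y + const`,
  `lam = h b₁ ρ`, `p = μ + h b₁ p₁ - γ`; `𝒦 = innerSet lam p (l + η') (r - η')`; `chirp` applied to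
  `p - k`, `card_innerSet`, `bessel_id`.  With `y_k = (k - p)/lam` one has
  `th y_k = b₂/q + (k - μ + γ)/h`, so `y = y_k + (a + μ - γ)/lam ∈ (l, r)` solves the equation. -/
theorem freq (q : ℕ) {V : ℝ → ℝ} (hV : Measurable V) (t : Term) {l r ρ : ℝ} (hA : Aff V l r ρ)
    (γ R : ℝ) {Θ : Set ℝ} (hΘ : IsOpen Θ) (hsub : ∀ y ∈ Ioo l r, t.th q V y ∈ Θ) {η : ℝ}
    (hη : 0 < η) :
    ∃ h₀ : ℝ, ∀ h : ℝ, h₀ ≤ h → ∃ 𝒦 : Finset ℤ,
      (∫ y in (0 : ℝ)..1, ‖chirpFn V t l r γ h y -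
        ∑ k ∈ 𝒦, fc (chirpFn V t l r γ h) k * e (k * y)‖ ^ 2 ≤ η) ∧
      ∀ k ∈ 𝒦, (∀ a : ℝ, |a - γ| ≤ R → (t.b₂ : ℝ) / q + (k + a) / h ∈ Θ) ∧
        (t.b₁ ≠ 0 →
          (∀ a : ℝ, |a - γ| ≤ R → ∃ y ∈ Ioo l r, t.th q V y = (t.b₂ : ℝ) / q + (k + a) / h) ∧
          abs (‖fc (chirpFn V t l r γ h) k‖ ^ 2 * (h * |t.b₁ * ρ|) - 1) ≤ η) := by
  obtain ⟨p₁, p₀, hV1, hV2⟩ := hA.deriv
  obtain ⟨hl0, hlr, hr1, hρ, -⟩ := hA
  by_cases hb : t.b₁ = 0
  · have hc : ∀ h, chirpFn V t l r γ h = chirpFn V t l r γ 0 := fun h => by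
      funext y
      simp only [chirpFn, hb, Int.cast_zero, zero_mul, mul_zero]
    have hbm := bm_chirpFn hV t l r γ 0
    obtain ⟨K, hK⟩ := ((parseval hbm).eventually (lt_mem_nhds (sub_lt_self _ hη))).exists
    have hth : (t.b₂ : ℝ) / q ∈ Θ := by
      have := hsub ((l + r) / 2) ⟨by linarith, by linarith⟩
      simpa only [Term.th, hb, Int.cast_zero, zero_mul, add_zero] using this
    obtain ⟨ε, hε, hball⟩ := Metric.isOpen_iff.mp hΘ _ hth
    have hB : 0 ≤ ∑ k ∈ K, |(k : ℝ)| := Finset.sum_nonneg fun _ _ => abs_nonneg _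
    refine ⟨(∑ k ∈ K, |(k : ℝ)| + |γ| + |R| + 1) / ε, fun h hh => ⟨K, ?_, fun k hk =>
      ⟨fun a ha => hball ?_, fun h' => absurd hb h'⟩⟩⟩
    · rw [hc h, bessel_id hbm]
      linarith
    · have h0 : 0 < h := lt_of_lt_of_le (by positivity) hh
      rw [Metric.mem_ball, Real.dist_eq, add_sub_cancel_left, abs_div, abs_of_pos h0,
        div_lt_iff₀ h0]
      rw [div_le_iff₀ hε] at hh
      have h1 : |(k : ℝ)| ≤ ∑ k ∈ K, |(k : ℝ)| :=
        Finset.single_le_sum (f := fun k : ℤ => |(k : ℝ)|) (fun _ _ => abs_nonneg _) hk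
      have h2 : |(k : ℝ) + a| ≤ |(k : ℝ)| + |a - γ| + |γ| := by
        have := abs_add_three (k : ℝ) (a - γ) γ
        rwa [show (k : ℝ) + (a - γ) + γ = k + a by ring] at this
      linarith [le_abs_self R]
  · have hb' : (t.b₁ : ℝ) ≠ 0 := by exact_mod_cast hb
    have hρ' : 0 < |t.b₁ * ρ| := abs_pos.mpr (mul_ne_zero hb' hρ)
    set η' := min (η / 4) ((r - l) / 2) with hη'
    have h0' : 0 < η' := lt_min (by positivity) (by linarith)
    have h1' : η' ≤ η / 4 := min_le_left _ _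
    have h2' : η' ≤ (r - l) / 2 := min_le_right _ _
    obtain ⟨Λ₀, hΛ, hch⟩ := chirp h0'
    have hp1 : 0 < 1 / η' := by positivity
    have hp2 : 0 < (|R| + |t.μ| + 1) / η' := by positivity
    refine ⟨(Λ₀ + 1 / η' + (|R| + |t.μ| + 1) / η') / |t.b₁ * ρ|, fun h hh => ?_⟩
    have h0 : 0 < h := lt_of_lt_of_le (by positivity) hh
    rw [div_le_iff₀ hρ'] at hh
    set lam := h * (t.b₁ * ρ) with hlam
    have habs : |lam| = h * |t.b₁ * ρ| := by rw [hlam, abs_mul, abs_of_pos h0]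
    have hlam0 : lam ≠ 0 := mul_ne_zero h0.ne' (mul_ne_zero hb' hρ)
    set p := t.μ + h * (t.b₁ * p₁) - γ with hp
    have hbm := bm_chirpFn hV t l r γ h
    have hflat : ∀ k ∈ innerSet lam p (l + η') (r - η'),
        abs (‖fc (chirpFn V t l r γ h) k‖ ^ 2 * |lam| - 1) ≤ η' := fun k hk => by
      rw [mem_innerSet hlam0 (by linarith)] at hk
      have h1 := hch l r lam (p - k) (by linarith) (by rwa [neg_sub])
      have h2 : fc (chirpFn V t l r γ h) k =
          e (h * (t.b₁ * p₀)) * ∫ y in l..r, e (lam * y ^ 2 / 2 + (p - k) * y) := by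
        rw [← intervalIntegral.integral_const_mul, ← integral_ind hl0 hlr.le hr1]
        refine intervalIntegral.integral_congr fun y _ => ?_
        by_cases hy : y ∈ Ioo l r
        · simp only [chirpFn, indicator_of_mem hy, ← R75.e_add, hV1 y hy, hlam, hp]
          congr 1; ring
        · simp only [chirpFn, indicator_of_notMem hy, zero_mul]
      rwa [h2, norm_mul, R75.norm_e, one_mul]
    have hy : ∀ k ∈ innerSet lam p (l + η') (r - η'), ∀ a : ℝ, |a - γ| ≤ R →
        ∃ y ∈ Ioo l r, t.th q V y = (t.b₂ : ℝ) / q + (k + a) / h := fun k hk a ha => by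
      rw [mem_innerSet hlam0 (by linarith)] at hk
      have h1 : |(a - γ + t.μ) / lam| < η' := by
        rw [abs_div, div_lt_iff₀ (abs_pos.mpr hlam0)]
        have h2 : (|R| + |t.μ| + 1) / η' ≤ |lam| := by linarith
        rw [div_le_iff₀ h0'] at h2
        linarith [abs_add_le (a - γ) t.μ, le_abs_self R]
      have hmem : (k - p) / lam + (a - γ + t.μ) / lam ∈ Ioo l r :=
        ⟨by linarith [(abs_lt.mp h1).1, hk.1], by linarith [(abs_lt.mp h1).2, hk.2]⟩
      refine ⟨_, hmem, ?_⟩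
      rw [Term.th, hV2 _ hmem, hp, hlam]
      field_simp
      ring
    refine ⟨innerSet lam p (l + η') (r - η'), ?_, fun k hk => ⟨fun a ha => ?_, fun _ =>
      ⟨hy k hk, ?_⟩⟩⟩
    · have h1 : ∫ y in (0 : ℝ)..1, ‖chirpFn V t l r γ h y‖ ^ 2 = r - l := by
        have : ∫ y in l..r, (1 : ℝ) = r - l := by simp
        rw [← this, ← integral_ind hl0 hlr.le hr1]
        refine intervalIntegral.integral_congr fun y _ => ?_
        by_cases hy : y ∈ Ioo l r
        · simp only [chirpFn, indicator_of_mem hy, R75.norm_e, one_pow]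
        · simp only [chirpFn, indicator_of_notMem hy, norm_zero]
          norm_num
      have h2 := sum_ge_of_flat h0' (by linarith) (by linarith)
        (card_innerSet lam p (by linarith)) hflat
      rw [bessel_id hbm, h1]
      have h3 : (r - l) * η' ≤ 1 * η' := mul_le_mul_of_nonneg_right (by linarith) h0'.le
      nlinarith
    · obtain ⟨y, hy1, hy2⟩ := hy k hk a ha
      rw [← hy2]
      exact hsub y hy1
    · rw [← habs]
      linarith [hflat k hk]

end Crest.Agent.R81
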