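import Crest.Agent.R81.Ort

/-! Row 81: continuity of orbits, limits of `C^∞`-Cauchy sequences in `SD`. -/

set_option autoImplicit false

open MeasureTheory Set Crest.AnalysisR.Torus3
open Crest.Agent.R75 (e)
open scoped ContDiff ComplexConjugate

namespace Crest.Agent.R81

theorem Close.mono {k k' : ℕ} {η η' : ℝ} {D D' : SD} (h : Close k η D D') (hk : k' ≤ k)
    (hη : η ≤ η') : Close k' η' D D' := by
  intro j hj x
  exact ⟨(h j (hj.trans hk) x).1.trans hη, (h j (hj.trans hk) x).2.trans hη⟩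

lemma ifd_trans {f g k : R3 → R3} (hf : ContDiff ℝ ∞ f) (hg : ContDiff ℝ ∞ g)
    (hk : ContDiff ℝ ∞ k) {j : ℕ} {x : R3} {η η' : ℝ}
    (h : ‖iteratedFDeriv ℝ j (fun x => f x - g x) x‖ ≤ η)
    (h' : ‖iteratedFDeriv ℝ j (fun x => g x - k x) x‖ ≤ η') :
    ‖iteratedFDeriv ℝ j (fun x => f x - k x) x‖ ≤ η + η' := by
  have e : (fun x => f x - k x) = fun x => (f x - g x) + (g x - k x) :=
    funext fun x => (sub_add_sub_cancel _ _ _).symm
  have hj : (j : WithTop ℕ∞) ≤ ∞ := by exact_mod_cast le_top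
  rw [e, fun_iteratedFDeriv_add_apply ((hf.sub hg).of_le hj).contDiffAt
    ((hg.sub hk).of_le hj).contDiffAt]
  exact (norm_add_le _ _).trans (add_le_add h h')

lemma ifd_symm (f g : R3 → R3) (j : ℕ) (x : R3) :
    ‖iteratedFDeriv ℝ j (fun x => f x - g x) x‖ = ‖iteratedFDeriv ℝ j (fun x => g x - f x) x‖ := by
  have e : (fun x => f x - g x) = -fun x => g x - f x := funext fun x => (neg_sub _ _).symm
  rw [e, iteratedFDeriv_neg_apply, norm_neg]

theorem Close.trans {k : ℕ} {η η' : ℝ} {D D' D'' : SD} (h : Close k η D D')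
    (h' : Close k η' D' D'') : Close k (η + η') D D'' := by
  intro j hj x
  exact ⟨ifd_trans (SD.smooth D) (SD.smooth D') (SD.smooth D'') (h j hj x).1 (h' j hj x).1,
    ifd_trans (SD.smooth D⁻¹) (SD.smooth D'⁻¹) (SD.smooth D''⁻¹) (h j hj x).2 (h' j hj x).2⟩

theorem Close.symm {k : ℕ} {η : ℝ} {D D' : SD} (h : Close k η D D') : Close k η D' D := by
  intro j hj x
  exact ⟨(ifd_symm _ _ j x).trans_le (h j hj x).1, (ifd_symm _ _ j x).trans_le (h j hj x).2⟩

theorem Close.inv {k : ℕ} {η : ℝ} {D D' : SD} (h : Close k η D D') : Close k η D⁻¹ D'⁻¹ := by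
  intro j hj x
  exact ⟨(h j hj x).2, (h j hj x).1⟩

theorem Close.refl (k : ℕ) (D : SD) : Close k 0 D D := by
  intro j _ x
  simp

lemma close_zero_iff {η : ℝ} {D D' : SD} : Close 0 η D D' ↔
    ∀ x, ‖D.1 x - D'.1 x‖ ≤ η ∧ ‖D.1.symm x - D'.1.symm x‖ ≤ η := by
  simp only [Close, Nat.le_zero, forall_eq, norm_iteratedFDeriv_zero]

lemma dist_proj_le (x y : R3) : dist (proj x) (proj y) ≤ ‖x - y‖ := by
  refine (dist_pi_le_iff (norm_nonneg _)).mpr fun i => ?_
  rw [dist_eq_norm, proj, proj, ← AddCircle.coe_sub]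
  exact QuotientAddGroup.norm_mk_le_norm.trans (norm_le_pi_norm (x - y) i)

lemma continuous_proj : Continuous proj :=
  continuous_pi fun i => (AddCircle.continuous_mk' 1).comp (continuous_apply i)

/-- approximate `u` by a continuous function (`ContinuousMap.toLp_denseRange`), which is uniformly
continuous; `dist (ind D p) (ind D' p) ≤ δ` -/
theorem koop_cont (D : SD) (u : L2) {η : ℝ} (hη : 0 < η) :
    ∃ δ > 0, ∀ (D' : SD) (u' : L2), Close 0 δ D D' → ‖u - u'‖ ≤ δ →
      ‖koop D u - koop D' u'‖ ≤ η := by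
  obtain ⟨φ, hφ⟩ := (ContinuousMap.toLp_denseRange ℂ (volume : Measure T3) ℂ
    (p := 2) (by norm_num)).exists_dist_lt u (by positivity : 0 < η / 4)
  obtain ⟨δ₀, hδ₀, hu⟩ := Metric.uniformContinuous_iff.mp
    (CompactSpace.uniformContinuous_of_continuous φ.continuous) (η / 4) (by positivity)
  refine ⟨min (δ₀ / 2) (η / 4), by positivity, fun D' u' hc hu' => ?_⟩
  set v : L2 := ContinuousMap.toLp 2 (volume : Measure T3) ℂ φ with hv
  have hae : ∀ E : SD, koop E v =ᵐ[volume] φ ∘ ind E.1 := fun E =>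
    (coeFn_koop E v).trans ((SD.mp E).quasiMeasurePreserving.ae_eq_comp
      (ContinuousMap.coeFn_toLp (p := 2) (𝕜 := ℂ) volume φ))
  have h1 : ‖koop D v - koop D' v‖ ≤ η / 4 := by
    have := Lp.norm_le_of_ae_bound (f := koop D v - koop D' v) (C := η / 4) (by positivity) (by
      filter_upwards [Lp.coeFn_sub (koop D v) (koop D' v), hae D, hae D'] with p h1 h2 h3
      rw [h1, Pi.sub_apply, h2, h3, ← dist_eq_norm]
      refine (hu ?_).le
      refine (dist_proj_le _ _).trans_lt ((((close_zero_iff.mp hc) _).1.trans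
        (min_le_left _ _)).trans_lt (by linarith)))
    simpa [measureUnivNNReal] using this
  have h2 : ‖u - v‖ ≤ η / 4 := by rw [← dist_eq_norm]; exact hφ.le
  have h3 : ‖u - u'‖ ≤ η / 4 := hu'.trans (min_le_right _ _)
  have e : koop D u - koop D' u' =
      koop D (u - v) + (koop D v - koop D' v) - koop D' (u - v) + koop D' (u - u') := by
    simp only [map_sub]; abel
  rw [e]
  refine (norm_add_le _ _).trans ?_
  refine (add_le_add_left ((norm_sub_le _ _).trans (add_le_add_left (norm_add_le _ _) _)) _).trans ?_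
  simp only [LinearIsometry.norm_map]
  linarith

/-- induction on `n` in both directions -/
theorem koop_zpow_cont (D : SD) (g : L2) (n : ℤ) {η : ℝ} (hη : 0 < η) :
    ∃ δ > 0, ∀ (D' : SD) (g' : L2), Close 0 δ D D' → ‖g - g'‖ ≤ δ →
      ‖koop (D ^ n) g - koop (D' ^ n) g'‖ ≤ η := by
  induction n using Int.induction_on generalizing η with
  | zero => exact ⟨η, hη, fun D' g' _ h => by simpa only [zpow_zero, koop_one] using h⟩
  | succ n ih =>
    obtain ⟨δ₁, h₁, H₁⟩ := koop_cont D (koop (D ^ (n : ℤ)) g) hη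
    obtain ⟨δ₂, h₂, H₂⟩ := ih h₁
    refine ⟨min δ₁ δ₂, lt_min h₁ h₂, fun D' g' hc hg => ?_⟩
    rw [zpow_add_one, zpow_add_one, koop_mul, koop_mul]
    exact H₁ _ _ (hc.mono le_rfl (min_le_left _ _))
      (H₂ _ _ (hc.mono le_rfl (min_le_right _ _)) (hg.trans (min_le_right _ _)))
  | pred n ih =>
    obtain ⟨δ₁, h₁, H₁⟩ := koop_cont D⁻¹ (koop (D ^ (-(n : ℤ))) g) hη
    obtain ⟨δ₂, h₂, H₂⟩ := ih h₁
    refine ⟨min δ₁ δ₂, lt_min h₁ h₂, fun D' g' hc hg => ?_⟩
    rw [zpow_sub_one, zpow_sub_one, koop_mul, koop_mul]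
    exact H₁ _ _ (hc.mono le_rfl (min_le_left _ _)).inv
      (H₂ _ _ (hc.mono le_rfl (min_le_right _ _)) (hg.trans (min_le_right _ _)))

theorem orb_cont (D : SD) (g : L2) {u : L2} (hu : u ∈ orb D g) {η : ℝ} (hη : 0 < η) :
    ∃ δ > 0, ∀ (D' : SD) (g' : L2), Close 0 δ D D' → ‖g - g'‖ ≤ δ →
      ∃ u' ∈ orb D' g', ‖u - u'‖ ≤ η := by
  induction hu using Submodule.span_induction generalizing η with
  | mem u hu =>
    obtain ⟨n, rfl⟩ := hu
    obtain ⟨δ, hδ, H⟩ := koop_zpow_cont D g n hη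
    exact ⟨δ, hδ, fun D' g' hc hg => ⟨_, Submodule.subset_span ⟨n, rfl⟩, H D' g' hc hg⟩⟩
  | zero => exact ⟨1, one_pos, fun D' g' _ _ => ⟨0, zero_mem _, by simpa using hη.le⟩⟩
  | add u v _ _ hu hv =>
    obtain ⟨δ₁, h₁, H₁⟩ := hu (half_pos hη)
    obtain ⟨δ₂, h₂, H₂⟩ := hv (half_pos hη)
    refine ⟨min δ₁ δ₂, lt_min h₁ h₂, fun D' g' hc hg => ?_⟩
    obtain ⟨u', hu', e1⟩ := H₁ D' g' (hc.mono le_rfl (min_le_left _ _)) (hg.trans (min_le_left _ _))
    obtain ⟨v', hv', e2⟩ := H₂ D' g' (hc.mono le_rfl (min_le_right _ _))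
      (hg.trans (min_le_right _ _))
    refine ⟨u' + v', add_mem hu' hv', ?_⟩
    rw [add_sub_add_comm]
    exact (norm_add_le _ _).trans (by linarith)
  | smul c u _ hu =>
    have hc0 : 0 < ‖c‖ + 1 := by positivity
    obtain ⟨δ, hδ, H⟩ := hu (div_pos hη hc0)
    refine ⟨δ, hδ, fun D' g' hc hg => ?_⟩
    obtain ⟨u', hu', e1⟩ := H D' g' hc hg
    refine ⟨c • u', Submodule.smul_mem _ _ hu', ?_⟩
    rw [← smul_sub, norm_smul]
    rw [le_div_iff₀ hc0] at e1
    nlinarith [norm_nonneg (u - u')]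

open Filter Topology

lemma exists_smooth_lim (f : ℕ → R3 → R3) (δ : ℕ → ℝ) (hs : Summable δ)
    (hf : ∀ n, ContDiff ℝ ∞ (f n))
    (h : ∀ n, ∀ j ≤ n, ∀ x, ‖iteratedFDeriv ℝ j (fun x => f (n + 1) x - f n x) x‖ ≤ δ n) :
    ∃ F : R3 → R3, ContDiff ℝ ∞ F ∧ ∀ n x, ‖f n x - F x‖ ≤ ∑' m, δ (n + m) := by
  have h0 : ∀ n x, ‖f (n + 1) x - f n x‖ ≤ δ n := fun n x => by
    simpa only [norm_iteratedFDeriv_zero] using h n 0 (Nat.zero_le _) x
  refine ⟨fun x => f 0 x + ∑' n, (f (n + 1) x - f n x), (hf 0).add ?_, fun n x => ?_⟩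
  · refine contDiff_tsum_of_eventually (N := ⊤) (v := fun _ n => δ n)
      (fun n => (hf (n + 1)).sub (hf n)) (fun _ _ => hs) fun k _ => ?_
    rw [Nat.cofinite_eq_atTop]
    filter_upwards [eventually_ge_atTop k] with n hn using h n k hn
  · rw [← dist_eq_norm]
    refine dist_le_tsum_of_dist_le_of_tendsto δ (f := fun n => f n x)
      (fun n => by rw [dist_comm, dist_eq_norm]; exact h0 n x) hs ?_ n
    have h1 : Summable fun n => f (n + 1) x - f n x := Summable.of_norm_bounded hs fun n => h0 n x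
    have h2 := h1.hasSum.tendsto_sum_nat.const_add (f 0 x)
    simpa only [Finset.sum_range_sub (fun n => f n x), add_sub_cancel] using h2

lemma tendsto_of_bd {f : ℕ → R3} {a : R3} {τ : ℕ → ℝ} (hτ : Tendsto τ atTop (𝓝 0))
    (h : ∀ n, ‖f n - a‖ ≤ τ n) : Tendsto f atTop (𝓝 a) :=
  tendsto_iff_norm_sub_tendsto_zero.mpr (squeeze_zero (fun _ => norm_nonneg _) h hτ)

lemma lim_inv {f g : ℕ → R3 → R3} {F G : R3 → R3} {τ : ℕ → ℝ} (hτ : Tendsto τ atTop (𝓝 0))
    (hF : Continuous F) (hf : ∀ n x, ‖f n x - F x‖ ≤ τ n) (hg : ∀ n x, ‖g n x - G x‖ ≤ τ n)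
    (h : ∀ n x, f n (g n x) = x) (x : R3) : F (G x) = x := by
  have h1 : Tendsto (fun n => F (g n x)) atTop (𝓝 (F (G x))) :=
    (hF.tendsto _).comp (tendsto_of_bd hτ fun n => hg n x)
  have h2 : Tendsto (fun n => F (g n x)) atTop (𝓝 x) := tendsto_of_bd hτ fun n => by
    have := hf n (g n x)
    rwa [h, norm_sub_rev] at this
  exact tendsto_nhds_unique h1 h2

lemma lim_good {F : R3 → R3} {τ : ℕ → ℝ} (hτ : Tendsto τ atTop (𝓝 0)) (hF : Continuous F)
    (D : ℕ → SD) (hf : ∀ n x, ‖(D n).1 x - F x‖ ≤ τ n) :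
    Lat F ∧ MeasurePreserving (ind F) volume volume := by
  have h1 : ∀ x, Tendsto (fun n => proj ((D n).1 x)) atTop (𝓝 (proj (F x))) := fun x =>
    (continuous_proj.tendsto _).comp (tendsto_of_bd hτ fun n => hf n x)
  have hL : Lat F := fun x x' hx => tendsto_nhds_unique (h1 x)
    ((h1 x').congr fun n => (SD.lat (D n) _ _ hx).symm)
  have hm : Measurable (ind F) := (hL.continuous_ind hF).measurable
  refine ⟨hL, hm, ext_of_forall_integral_eq_of_IsFiniteMeasure fun φ => ?_⟩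
  rw [integral_map hm.aemeasurable φ.continuous.aestronglyMeasurable]
  have h2 : Tendsto (fun n => ∫ p, φ (ind (D n).1 p)) atTop (𝓝 (∫ p, φ (ind F p))) :=
    tendsto_integral_of_dominated_convergence (fun _ => ‖φ‖)
      (fun n => (φ.continuous.measurable.comp (SD.mp (D n)).measurable).aestronglyMeasurable)
      (integrable_const _) (fun n => Eventually.of_forall fun p => φ.norm_coe_le_norm _)
      (Eventually.of_forall fun p => (φ.continuous.tendsto _).comp (h1 _))
  have h3 : ∀ n, ∫ p, φ (ind (D n).1 p) = ∫ p, φ p := fun n => by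
    rw [← integral_map (SD.mp (D n)).measurable.aemeasurable φ.continuous.aestronglyMeasurable,
      (SD.mp (D n)).map_eq]
  simp only [h3] at h2
  exact tendsto_nhds_unique h2 tendsto_const_nhds

/-- `F = D 0 + ∑ (D (n+1) - D n)` is smooth (`contDiff_tsum_of_eventually`), the same for the
inverses; `F ∘ G = id` by uniform convergence; `Lat` is a closed condition; the induced maps
converge pointwise, so continuous functions have the same integral for `map (ind F) volume` and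
`volume` (`ext_of_forall_integral_eq_of_IsFiniteMeasure`, dominated convergence). -/
theorem exists_limit (D : ℕ → SD) (δ : ℕ → ℝ) (hs : Summable δ)
    (h : ∀ n, Close n (δ n) (D n) (D (n + 1))) :
    ∃ T : SD, ∀ n, Close 0 (∑' m, δ (n + m)) (D n) T := by
  obtain ⟨F, hF, hFd⟩ := exists_smooth_lim (fun n => (D n).1) δ hs (fun n => SD.smooth (D n))
    fun n j hj x => ((h n).symm j hj x).1
  obtain ⟨G, hG, hGd⟩ := exists_smooth_lim (fun n => (D n).1.symm) δ hs
    (fun n => SD.smooth (D n)⁻¹) fun n j hj x => ((h n).symm j hj x).2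
  have hτ : Tendsto (fun n => ∑' m, δ (n + m)) atTop (𝓝 0) := by
    simpa only [add_comm] using tendsto_sum_nat_add δ
  let T : Equiv.Perm R3 :=
    { toFun := F
      invFun := G
      left_inv := lim_inv hτ hG.continuous hGd hFd fun n => (D n).1.symm_apply_apply
      right_inv := lim_inv hτ hF.continuous hFd hGd fun n => (D n).1.apply_symm_apply }
  have h1 := lim_good hτ hF.continuous D hFd
  have h2 := lim_good hτ hG.continuous (fun n => (D n)⁻¹) hGd
  exact ⟨⟨T, ⟨hF, h1⟩, hG, h2⟩, fun n => close_zero_iff.mpr fun x => ⟨hFd n x, hGd n x⟩⟩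

end Crest.Agent.R81
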