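import Crest.Agent.R81.Tile

/-! Row 81: splitting a bounded function into non-invariant terms and invariant exponentials. -/

set_option autoImplicit false

open MeasureTheory Set Crest.AnalysisR.Torus3
open Crest.Agent.R75 (e)
open scoped ContDiff ComplexConjugate

set_option maxHeartbeats 400000

namespace Crest.Agent.R81
/-- the invariant exponentials `e (j q x₁ + μ y)`, `(μ, j) ≠ 0` -/
noncomputable def inv2 (q : ℕ) : Submodule ℂ L2 :=
  Submodule.span ℂ {u | ∃ μ j : ℤ, (μ, j) ≠ 0 ∧ u = eL ![0, j * q, μ]}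

/-- the invariant exponentials `e (μ y)`, `μ ≠ 0` -/
noncomputable def inv1 : Submodule ℂ L2 := Submodule.span ℂ {u | ∃ μ : ℤ, μ ≠ 0 ∧ u = eL ![0, 0, μ]}

lemma dc_bm_e (μ : ℝ) : BM fun y : ℝ => e (μ * y) := BM.exp (measurable_const.mul measurable_id)

/-- the part of `eL n` off the set `W` (in the variable `y`) -/
noncomputable def dcCut (W : Set ℝ) (n : Fin 3 → ℤ) : L2 :=
  toL2 (md (Wᶜ.indicator fun y => e (n 2 * y)) (n 0) (n 1))

/-- the part of the torus with `y ∉ W` -/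
def dcSet (W : Set ℝ) : Set T3 := {p | Int.fract (lift3 p 2) ∈ Wᶜ}

lemma dcSet_meas {W : Set ℝ} (hW : MeasurableSet W) : MeasurableSet (dcSet W) :=
  (measurable_fract.comp ((measurable_pi_apply 2).comp measurable_lift3)) hW.compl

lemma dcCut_ae {W : Set ℝ} (hW : MeasurableSet W) (n : Fin 3 → ℤ) :
    dcCut W n =ᵐ[volume] (dcSet W).indicator (eL n) := by
  have h1 := coeFn_toL2 (((dc_bm_e (n 2)).indicator hW.compl).md (n 0) (n 1))
  have h2 := coeFn_toL2 ((dc_bm_e (n 2)).md (n 0) (n 1))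
  rw [← eL_eq_md] at h2
  filter_upwards [h1, h2] with p hp1 hp2
  rw [dcCut, hp1]
  by_cases hp : p ∈ dcSet W
  · rw [indicator_of_mem hp, hp2]
    have hp' : Int.fract (lift3 p 2) ∈ Wᶜ := hp
    simp only [Function.comp, md, indicator_of_mem hp']
  · rw [indicator_of_notMem hp]
    have hp' : Int.fract (lift3 p 2) ∉ Wᶜ := hp
    simp only [Function.comp, md, indicator_of_notMem hp', zero_mul]

lemma dcCut_sum_ae {W : Set ℝ} (hW : MeasurableSet W) (S : Finset (Fin 3 → ℤ))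
    (a : (Fin 3 → ℤ) → ℂ) :
    (∑ n ∈ S, a n • dcCut W n : L2) =ᵐ[volume]
      (dcSet W).indicator (∑ n ∈ S, a n • eL n : L2) := by
  classical
  induction S using Finset.induction_on with
  | empty =>
    simp only [Finset.sum_empty]
    filter_upwards [Lp.coeFn_zero ℂ 2 (volume : Measure T3)] with p hp
    by_cases h : p ∈ dcSet W
    · rw [indicator_of_mem h]
    · rw [indicator_of_notMem h, hp]; rfl
  | insert n S hn ih =>
    rw [Finset.sum_insert hn, Finset.sum_insert hn]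
    filter_upwards [ih, dcCut_ae hW n,
      Lp.coeFn_add (a n • dcCut W n) (∑ n ∈ S, a n • dcCut W n),
      Lp.coeFn_add (a n • eL n) (∑ n ∈ S, a n • eL n),
      Lp.coeFn_smul (a n) (dcCut W n), Lp.coeFn_smul (a n) (eL n)] with p h1 h2 h3 h4 h5 h6
    rw [h3, Pi.add_apply, h1, h5, Pi.smul_apply, h2]
    by_cases h : p ∈ dcSet W
    · simp only [indicator_of_mem h]
      rw [h4, Pi.add_apply, h6, Pi.smul_apply]
    · simp only [indicator_of_notMem h, smul_zero, add_zero]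

lemma dcCut_inner {W : Set ℝ} (hW : MeasurableSet W) {n n' : Fin 3 → ℤ}
    (h : ¬ (n 0 = n' 0 ∧ n 1 = n' 1)) : inner ℂ (dcCut W n) (dcCut W n') = 0 := by
  rw [dcCut, dcCut, inner_md ((dc_bm_e _).indicator hW.compl) ((dc_bm_e _).indicator hW.compl),
    if_neg h]

lemma dcCut_norm {W : Set ℝ} (hW : MeasurableSet W) {γ : ℝ} (hγ : 0 ≤ γ)
    (hv : volume (Ioo (0 : ℝ) 1 \ W) ≤ ENNReal.ofReal γ) (n : Fin 3 → ℤ) :
    ‖dcCut W n‖ ≤ √γ := by
  apply Real.le_sqrt_of_sq_le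
  rw [dcCut, norm_md_sq ((dc_bm_e _).indicator hW.compl)]
  have h1 : (fun y : ℝ => ‖Wᶜ.indicator (fun y : ℝ => e (n 2 * y)) y‖ ^ 2) =
      Wᶜ.indicator fun _ => (1 : ℝ) := by
    funext y
    by_cases hy : y ∈ Wᶜ
    · simp only [indicator_of_mem hy, R75.norm_e, one_pow]
    · simp only [indicator_of_notMem hy, norm_zero]; norm_num
  rw [h1, intervalIntegral.integral_of_le zero_le_one, integral_Ioc_eq_integral_Ioo,
    integral_indicator hW.compl, setIntegral_const, smul_eq_mul, mul_one, Measure.real,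
    Measure.restrict_apply hW.compl, inter_comm, ← diff_eq]
  exact ENNReal.toReal_le_of_le_ofReal hγ hv

lemma Model.dc_data (m : Model) {γ : ℝ} (hγ : Gap m.V γ) :
    ∃ W : Set ℝ, MeasurableSet W ∧ (∀ n, ‖dcCut W n‖ ≤ √γ) ∧
      ∀ n : Fin 3 → ℤ, (n 0 ≠ 0 ∨ ¬ (m.q : ℤ) ∣ n 1) → eL n - dcCut W n ∈ tspan m.NI := by
  obtain ⟨N, l, r, hA, hd, htot⟩ := hγ
  have hW : MeasurableSet (⋃ g ∈ (Finset.univ : Finset (Fin N)), Ioo (l g) (r g)) :=
    Finset.measurableSet_biUnion _ fun g _ => measurableSet_Ioo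
  obtain ⟨h1, h2⟩ := volume_uncovered Finset.univ l r (zero_le_one (α := ℝ))
    (fun g _ => by
      obtain ⟨ρ, h⟩ := hA g
      exact ⟨h.1, h.2.1.le, h.2.2.1⟩)
    (fun g _ g' _ hg => hd hg)
  refine ⟨_, hW, dcCut_norm hW (by linarith) (h2.le.trans (ENNReal.ofReal_le_ofReal (by linarith))),
    fun n hn => ?_⟩
  let t : Fin N → Term := fun g => ⟨1, n 2, l g, r g, n 0, n 1⟩
  have key : eL n - dcCut (⋃ g ∈ (Finset.univ : Finset (Fin N)), Ioo (l g) (r g)) n =
      ∑ g, (t g).L := by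
    rw [eL_eq_md, dcCut, ← toL2_sub ((dc_bm_e _).md _ _) (((dc_bm_e _).indicator hW.compl).md _ _)]
    simp only [Term.L]
    rw [← toL2_sum _ fun g _ => (t g).bm_fn]
    congr 1
    funext x
    simp only [Term.fn, md, Term.amp, t, one_mul]
    rw [← sub_mul, ← Finset.sum_mul]
    congr 1
    generalize Int.fract (x 2) = y
    by_cases hy : y ∈ ⋃ g ∈ (Finset.univ : Finset (Fin N)), Ioo (l g) (r g)
    · rw [indicator_of_notMem (notMem_compl_iff.2 hy), sub_zero]
      simp only [Finset.mem_univ, iUnion_true, mem_iUnion] at hy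
      obtain ⟨g, hg⟩ := hy
      rw [Finset.sum_eq_single g, indicator_of_mem hg]
      · intro g' _ hg'
        exact indicator_of_notMem (fun h => Set.disjoint_left.1 (hd hg') h hg) _
      · simp
    · rw [indicator_of_mem (mem_compl hy), sub_self]
      simp only [Finset.mem_univ, iUnion_true, mem_iUnion, not_exists] at hy
      exact (Finset.sum_eq_zero fun g _ => indicator_of_notMem (hy g) _).symm
  rw [key]
  exact Submodule.sum_mem _ fun g _ => Submodule.subset_span ⟨t g, ⟨hA g, hn⟩, rfl⟩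

/-- cut `eL n` to the segments of `Gap`: the terms `⟨1, n 2, l g, r g, n 0, n 1⟩` -/
theorem Model.eL_near (m : Model) {γ : ℝ} (hγ : Gap m.V γ) (n : Fin 3 → ℤ)
    (hn : n 0 ≠ 0 ∨ ¬ (m.q : ℤ) ∣ n 1) : ∃ u ∈ tspan m.NI, ‖eL n - u‖ ≤ √γ := by
  obtain ⟨W, -, h1, h2⟩ := m.dc_data hγ
  exact ⟨_, h2 n hn, by rw [sub_sub_cancel]; exact h1 n⟩

/-- Take `P = ∑_{n ∈ S} a n • eL n` from `exists_trig` within `η/2` of `F`, split `S` into invariant
and non-invariant `n`, cut the non-invariant part `P₁` to the segments.  With `χ` the indicator (in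
`y`) of the complement of the segments, `‖χ P₁‖² + ‖χ P₂‖² = ‖χ P‖²` (`inner_md`: the modes
`(n 0, n 1)` differ) and `‖χ P‖ ≤ ‖P - F‖ + √γ`. -/
theorem Model.decomp (m : Model) {γ : ℝ} (hγ : Gap m.V γ) (F : L2) (hF : ∀ᵐ p, ‖F p‖ ≤ 1)
    (h0 : inner ℂ (eL 0) F = 0) {η : ℝ} (hη : 0 < η) :
    ∃ u ∈ tspan m.NI, ∃ v ∈ inv2 m.q, ‖F - (u + v)‖ ≤ η + √γ := by
  classical
  obtain ⟨W, hW, h1, h2⟩ := m.dc_data hγ
  obtain ⟨S, a, hS, hP⟩ := exists_trig F h0 (half_pos hη)
  let NIp : (Fin 3 → ℤ) → Prop := fun n => n 0 ≠ 0 ∨ ¬ (m.q : ℤ) ∣ n 1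
  set P : L2 := ∑ n ∈ S, a n • eL n with hPdef
  set Q₁ : L2 := ∑ n ∈ S with NIp n, a n • dcCut W n with hQ₁
  set Q₂ : L2 := ∑ n ∈ S with ¬ NIp n, a n • dcCut W n with hQ₂
  have hQ : Q₁ + Q₂ = ∑ n ∈ S, a n • dcCut W n := Finset.sum_filter_add_sum_filter_not _ _ _
  have horth : inner ℂ Q₁ Q₂ = 0 := by
    rw [hQ₁, hQ₂, sum_inner]
    refine Finset.sum_eq_zero fun n hn => ?_
    rw [inner_sum]
    refine Finset.sum_eq_zero fun n' hn' => ?_
    rw [inner_smul_left, inner_smul_right, dcCut_inner hW, mul_zero, mul_zero]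
    rintro ⟨e0, e1⟩
    apply (Finset.mem_filter.1 hn').2
    have := (Finset.mem_filter.1 hn).2
    simp only [NIp] at this ⊢
    rwa [← e0, ← e1]
  have hQ1 : ‖Q₁‖ ≤ ‖Q₁ + Q₂‖ := by
    have := norm_add_sq_eq_norm_sq_add_norm_sq_of_inner_eq_zero Q₁ Q₂ horth
    exact (mul_self_le_mul_self_iff (norm_nonneg _) (norm_nonneg _)).2
      (by linarith [mul_self_nonneg ‖Q₂‖])
  let G : L2 := MemLp.toLp ((dcSet W).indicator F) ((Lp.memLp F).indicator (dcSet_meas hW))
  have hG : G =ᵐ[volume] (dcSet W).indicator F := MemLp.coeFn_toLp _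
  have hG1 : ‖G‖ ≤ √γ := by
    refine le_trans (Lp.norm_le_norm_of_ae_le ?_) (h1 0)
    filter_upwards [hG, hF, dcCut_ae hW 0, coeFn_eL 0] with p e1 e2 e3 e4
    rw [e1, e3]
    by_cases hp : p ∈ dcSet W
    · rw [indicator_of_mem hp, indicator_of_mem hp, e4, UnitAddTorus.mFourier_zero]
      simpa using e2
    · rw [indicator_of_notMem hp, indicator_of_notMem hp]
  have hG2 : ‖(Q₁ + Q₂) - G‖ ≤ ‖F - P‖ := by
    refine Lp.norm_le_norm_of_ae_le ?_
    rw [hQ]
    filter_upwards [hG, dcCut_sum_ae hW S a, Lp.coeFn_sub (∑ n ∈ S, a n • dcCut W n) G,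
      Lp.coeFn_sub F P] with p e1 e2 e3 e4
    rw [e3, e4, Pi.sub_apply, Pi.sub_apply, e1, e2]
    by_cases hp : p ∈ dcSet W
    · rw [indicator_of_mem hp, indicator_of_mem hp, norm_sub_rev]
    · rw [indicator_of_notMem hp, indicator_of_notMem hp, sub_zero, norm_zero]
      exact norm_nonneg _
  refine ⟨∑ n ∈ S with NIp n, a n • (eL n - dcCut W n), Submodule.sum_mem _ fun n hn =>
      Submodule.smul_mem _ _ (h2 n (Finset.mem_filter.1 hn).2),
    ∑ n ∈ S with ¬ NIp n, a n • eL n, Submodule.sum_mem _ fun n hn =>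
      Submodule.smul_mem _ _ (Submodule.subset_span ?_), ?_⟩
  · obtain ⟨hnS, hn'⟩ := Finset.mem_filter.1 hn
    simp only [NIp, not_or, not_not] at hn'
    obtain ⟨e0, j, e1⟩ := hn'
    have hn2 : n = ![0, j * m.q, n 2] := by
      funext i
      fin_cases i
      · simpa using e0
      · simp [e1, mul_comm]
      · simp
    refine ⟨n 2, j, fun h => hS ?_, congrArg eL hn2⟩
    rw [Prod.mk_eq_zero] at h
    have : n = 0 := by
      rw [hn2, h.1, h.2]
      funext i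
      fin_cases i <;> simp
    rwa [← this]
  · have e1 : F - (∑ n ∈ S with NIp n, a n • (eL n - dcCut W n) +
        ∑ n ∈ S with ¬ NIp n, a n • eL n) = (F - P) + Q₁ := by
      simp only [smul_sub, Finset.sum_sub_distrib]
      rw [hPdef, ← Finset.sum_filter_add_sum_filter_not S NIp]
      abel
    have e2 : ‖Q₁ + Q₂‖ ≤ ‖(Q₁ + Q₂) - G‖ + ‖G‖ := by
      have := norm_add_le ((Q₁ + Q₂) - G) G
      rwa [sub_add_cancel] at this
    rw [e1]
    have := norm_add_le (F - P) Q₁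
    linarith

end Crest.Agent.R81
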