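import Crest.Prelude.Def_Torus3
import Crest.Agent.R75.Basic

/-!
# Row 81 (smooth diffeomorphism of `T³` with simple Lebesgue spectrum): definitions

The diffeomorphism is a limit of conjugates `H S H⁻¹` of twist maps
`S (x₀, x₁, y) = (x₀ + V'(y), x₁ + 1/q, y)`.  All functions are written on `ℝ³`; `toL2` turns a
bounded measurable function on `ℝ³` (only its values on `[0,1)³` matter) into an element of `L²(T³)`.
-/

set_option autoImplicit false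

open MeasureTheory Set Crest.AnalysisR.Torus3
open Crest.Agent.R75 (e)
open scoped ContDiff

namespace Crest.Agent.R81

abbrev R3 := Fin 3 → ℝ
noncomputable abbrev L2 := Lp ℂ 2 (volume : Measure T3)

/-- the representative in `[0,1)` -/
noncomputable def rep (p : UnitAddCircle) : ℝ := (AddCircle.equivIco 1 0 p : ℝ)

lemma coe_rep (p : UnitAddCircle) : ((rep p : ℝ) : UnitAddCircle) = p := AddCircle.coe_equivIco

lemma rep_coe (x : ℝ) : rep (x : UnitAddCircle) = Int.fract x := by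
  simp [rep]

lemma rep_mem (p : UnitAddCircle) : rep p ∈ Ico (0 : ℝ) 1 := by
  have := (AddCircle.equivIco (1 : ℝ) 0 p).2
  simpa [rep] using this

noncomputable def lift3 (p : T3) : R3 := fun i => rep (p i)

lemma proj_lift3 (p : T3) : proj (lift3 p) = p := funext fun i => coe_rep (p i)

/-- the torus map induced by a lift -/
noncomputable def ind (F : R3 → R3) (p : T3) : T3 := proj (F (lift3 p))

/-- `F` descends to the torus -/
def Lat (F : R3 → R3) : Prop := ∀ x x', proj x = proj x' → proj (F x) = proj (F x')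

lemma ind_proj {F : R3 → R3} (hF : Lat F) (x : R3) : ind F (proj x) = proj (F x) :=
  hF _ _ (proj_lift3 _)

lemma ind_comp {F : R3 → R3} (hF : Lat F) (G : R3 → R3) : ind (F ∘ G) = ind F ∘ ind G :=
  funext fun _ => (ind_proj hF _).symm

lemma ind_id : ind id = id := funext fun p => proj_lift3 p

/-- The group of smooth lifts of volume preserving diffeomorphisms of the torus. -/
def SD : Subgroup (Equiv.Perm R3) where
  carrier := {F | (ContDiff ℝ ∞ F ∧ Lat F ∧ MeasurePreserving (ind F) volume volume) ∧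
    (ContDiff ℝ ∞ F.symm ∧ Lat F.symm ∧ MeasurePreserving (ind F.symm) volume volume)}
  mul_mem' := by
    rintro F G ⟨⟨h1, h2, h3⟩, h4, h5, h6⟩ ⟨⟨g1, g2, g3⟩, g4, g5, g6⟩
    refine ⟨⟨h1.comp g1, fun x x' h => h2 _ _ (g2 _ _ h), ?_⟩,
      g4.comp h4, fun x x' h => g5 _ _ (h5 _ _ h), ?_⟩
    · have : ind (⇑(F * G)) = ind F ∘ ind G := ind_comp h2 G
      rw [this]; exact h3.comp g3
    · have : ind (⇑(F * G).symm) = ind G.symm ∘ ind F.symm := ind_comp g5 F.symm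
      rw [this]; exact g6.comp h6
  one_mem' := by
    have h : MeasurePreserving (ind id) (volume : Measure T3) volume := by
      rw [ind_id]; exact MeasurePreserving.id _
    exact ⟨⟨contDiff_id, fun _ _ h => h, h⟩, contDiff_id, fun _ _ h => h, h⟩
  inv_mem' := by
    rintro F ⟨h1, h2⟩
    exact ⟨h2, h1⟩

lemma SD.smooth (D : SD) : ContDiff ℝ ∞ D.1 := D.2.1.1
lemma SD.lat (D : SD) : Lat D.1 := D.2.1.2.1
lemma SD.mp (D : SD) : MeasurePreserving (ind D.1) volume volume := D.2.1.2.2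

/-- the Koopman operator `f ↦ f ∘ D` -/
noncomputable def koop (D : SD) : L2 →ₗᵢ[ℂ] L2 :=
  Lp.compMeasurePreservingₗᵢ ℂ (ind D.1) (SD.mp D)

lemma coeFn_koop (D : SD) (f : L2) : koop D f =ᵐ[volume] f ∘ ind D.1 :=
  Lp.coeFn_compMeasurePreserving f (SD.mp D)

lemma koop_mul (D D' : SD) (f : L2) : koop (D * D') f = koop D' (koop D f) := by
  apply Lp.ext
  have h1 := coeFn_koop (D * D') f
  have h2 := coeFn_koop D' (koop D f)
  have h3 := (SD.mp D').quasiMeasurePreserving.ae_eq_comp (coeFn_koop D f)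
  have h4 : ind (D * D').1 = ind D.1 ∘ ind D'.1 := ind_comp (SD.lat D) D'.1
  rw [h4] at h1
  exact h1.trans (h2.trans h3).symm

lemma koop_one (f : L2) : koop 1 f = f := by
  apply Lp.ext
  have h1 := coeFn_koop 1 f
  have h4 : ind (1 : SD).1 = id := ind_id
  rw [h4] at h1
  exact h1

/-- the span of the two-sided orbit of `g` -/
noncomputable def orb (D : SD) (g : L2) : Submodule ℂ L2 :=
  Submodule.span ℂ (range fun n : ℤ => koop (D ^ n) g)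

/-- the two-sided orbit of `g` is orthonormal -/
def ONorb (D : SD) (g : L2) : Prop := Orthonormal ℂ fun n : ℤ => koop (D ^ n) g

/-- `C^k` closeness of the lifts and of their inverses -/
def Close (k : ℕ) (η : ℝ) (D D' : SD) : Prop :=
  ∀ j ≤ k, ∀ x, ‖iteratedFDeriv ℝ j (fun x => D.1 x - D'.1 x) x‖ ≤ η ∧
    ‖iteratedFDeriv ℝ j (fun x => D.1.symm x - D'.1.symm x) x‖ ≤ η

/-- periodic functions on `ℝ³` -/
def Per (φ : R3 → ℂ) : Prop := ∀ x x', proj x = proj x' → φ x = φ x'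

/-- bounded and measurable -/
def BM {α : Type} [MeasurableSpace α] (φ : α → ℂ) : Prop := Measurable φ ∧ ∃ C, ∀ x, ‖φ x‖ ≤ C

open Classical in
/-- the class in `L²(T³)` of the restriction of `φ` to `[0,1)³` -/
noncomputable def toL2 (φ : R3 → ℂ) : L2 :=
  if h : MemLp (φ ∘ lift3) 2 volume then h.toLp _ else 0

/-- the `L²` norm of the restriction of `φ` to `[0,1)³` -/
noncomputable def n2 (φ : R3 → ℂ) : ℝ := √(∫ p : T3, ‖φ (lift3 p)‖ ^ 2)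

/-- the exponential `e (n · x)` -/
noncomputable def eL (n : Fin 3 → ℤ) : L2 := toL2 fun x => e (∑ i, n i * x i)

/-- the function `a({y}) e (b₁ x₀ + b₂ x₁)`, `y = x₂` -/
noncomputable def md (a : ℝ → ℂ) (b₁ b₂ : ℤ) (x : R3) : ℂ :=
  a (Int.fract (x 2)) * e (b₁ * x 0 + b₂ * x 1)

/-- the data of a function `d 1_{(l,r)}(y) e (μ y) e (b₁ x₀ + b₂ x₁)` -/
structure Term where
  d : ℂ
  μ : ℝ
  l : ℝ
  r : ℝ
  b₁ : ℤ
  b₂ : ℤ

noncomputable def Term.amp (t : Term) (y : ℝ) : ℂ :=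
  t.d * (Ioo t.l t.r).indicator (fun y => e (t.μ * y)) y

noncomputable def Term.fn (t : Term) : R3 → ℂ := md t.amp t.b₁ t.b₂

noncomputable def Term.L (t : Term) : L2 := toL2 t.fn

/-- the frequency with which the twist map rotates the term at height `y` -/
noncomputable def Term.th (t : Term) (q : ℕ) (V : ℝ → ℝ) (y : ℝ) : ℝ :=
  (t.b₂ : ℝ) / q + t.b₁ * deriv V y

/-- `V'' = ρ ≠ 0` on the interval `(l, r) ⊆ (0,1)` -/
def Aff (V : ℝ → ℝ) (l r ρ : ℝ) : Prop :=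
  0 ≤ l ∧ l < r ∧ r ≤ 1 ∧ ρ ≠ 0 ∧ ∃ p₁ p₀ : ℝ, ∀ y ∈ Ioo l r, V y = ρ * y ^ 2 / 2 + p₁ * y + p₀

/-- smooth and `1`-periodic -/
def SP (f : ℝ → ℝ) : Prop := ContDiff ℝ ∞ f ∧ Function.Periodic f 1

/-- the lift of the twist map -/
noncomputable def sFun (q : ℕ) (V : ℝ → ℝ) (x : R3) : R3 :=
  ![x 0 + deriv V (x 2), x 1 + 1 / q, x 2]

/-- A family of terms whose frequency arcs are pairwise disjoint and injective modulo `1`. -/
def Arcs {ι : Type} (q : ℕ) (V : ℝ → ℝ) (pc : ι → Term) : Prop :=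
  ∀ (i i' : ι) (y y' : ℝ) (n : ℤ), y ∈ Ioo (pc i).l (pc i).r → y' ∈ Ioo (pc i').l (pc i').r →
    (pc i).th q V y = (pc i').th q V y' + n → i = i' ∧ n = 0

/-- A twist map with a function `g = ∑ pieces` whose frequency arcs tile the circle. -/
structure Model where
  q : ℕ
  V : ℝ → ℝ
  S : SD
  ι : Type
  [fι : Fintype ι]
  pc : ι → Term
  ρ : ι → ℝ
  q_odd : Odd q
  V_sp : SP V
  V_zero : ∃ κ, 0 < κ ∧ ∀ y, |y| ≤ κ → V y = 0
  S_eq : ∀ x, S.1 x = sFun q V x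
  aff : ∀ i, Aff V (pc i).l (pc i).r (ρ i)
  b_ne : ∀ i, (pc i).b₁ ≠ 0
  flat : ∀ i, ‖(pc i).d‖ ^ 2 = |(pc i).b₁ * ρ i|
  arcs : Arcs q V pc
  tot : ∑ i, |(pc i).b₁ * ρ i| * ((pc i).r - (pc i).l) = 1

attribute [instance] Model.fι

noncomputable def Model.g (m : Model) : L2 := ∑ i, (m.pc i).L

/-- the intervals on which `V''` is a nonzero constant cover all but `γ` -/
def Gap (V : ℝ → ℝ) (γ : ℝ) : Prop :=
  ∃ (n : ℕ) (l r : Fin n → ℝ), (∀ g, ∃ ρ, Aff V (l g) (r g) ρ) ∧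
    Pairwise (fun g g' => Disjoint (Ioo (l g) (r g)) (Ioo (l g') (r g'))) ∧
    1 - γ ≤ ∑ g, (r g - l g)

/-- non-invariant terms -/
def Model.NI (m : Model) (t : Term) : Prop :=
  (∃ ρ, Aff m.V t.l t.r ρ) ∧ (t.b₁ ≠ 0 ∨ ¬ (m.q : ℤ) ∣ t.b₂)

/-- aligned terms -/
def Model.Al (m : Model) (t : Term) : Prop :=
  (∃ ρ, Aff m.V t.l t.r ρ) ∧ t.b₁ ≠ 0 ∧ ∃ i, t.b₂ = (m.pc i).b₂ ∧
    ∀ y ∈ Ioo t.l t.r, ∃ y' ∈ Ioo (m.pc i).l (m.pc i).r,
      t.th m.q m.V y = (m.pc i).th m.q m.V y'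

/-- captured terms -/
def Model.Cap (m : Model) (t : Term) : Prop :=
  ∃ i, t.b₁ = (m.pc i).b₁ ∧ t.b₂ = (m.pc i).b₂ ∧ (m.pc i).l ≤ t.l ∧ t.r ≤ (m.pc i).r

/-- the span of the terms with a property -/
noncomputable def tspan (P : Term → Prop) : Submodule ℂ L2 :=
  Submodule.span ℂ (Term.L '' {t | P t})

/-! ### One-dimensional Fourier coefficients and the key lemma -/

/-- Fourier coefficient on `[0,1]` -/
noncomputable def fc (f : ℝ → ℂ) (k : ℤ) : ℂ := ∫ y in (0 : ℝ)..1, f y * e (-(k * y))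

/-- Fourier coefficient of `e (θ U)` -/
noncomputable def zc (U : ℝ → ℝ) (θ : ℝ) (N : ℤ) : ℂ := fc (fun β => e (θ * U β)) N

/-- `θ` is at distance at least `ε` from `½ ℤ` -/
def Good (ε θ : ℝ) : Prop := ∀ n : ℤ, ε ≤ |θ - n / 2|

/-- The data of the key lemma: an almost integer time shift `U` whose exponentials `e (θ U)` have
Fourier coefficients of square modulus `≈ ρ |N|` on an active set of frequencies `N`, and `nG`
segments of length `lam` carrying the affine functions `w g + ρ s`, such that the maps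
`s ↦ N (w g + ρ s)` pack the circle. -/
structure KL (ε X : ℝ) where
  U : ℝ → ℝ
  σ : ℝ → ℝ
  bad : Set ℝ
  nG : ℕ
  lam : ℝ
  ρ : ℝ
  w : Fin nG → ℝ
  act : ℝ → Finset ℤ
  U_sp : SP U
  σ_sp : SP σ
  σ_bd : ∀ β, |σ β| ≤ 2
  bad_meas : MeasurableSet bad
  bad_per : ∀ (β : ℝ) (n : ℤ), β + n ∈ bad ↔ β ∈ bad
  bad_vol : volume (bad ∩ Ioc 0 1) ≤ ENNReal.ofReal ε
  int_U : ∀ β ∉ bad, ∃ n : ℤ, U β + β = n
  int_σ : ∀ β ∉ bad, ∃ n : ℤ, σ β - β = n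
  lam_pos : 0 < lam
  ρ_pos : 0 < ρ
  tot_ge : 1 - ε ≤ nG * lam
  tot_lt : nG * lam < 1
  big : ∀ θ, ∀ N ∈ act θ, X ≤ ε * |(N : ℝ)|
  short : ∀ θ, ∀ N ∈ act θ, |(N : ℝ)| * (ρ * lam) ≤ ε
  near : ∀ θ, ∀ N ∈ act θ, ∀ g, 4 * X * (|w g| + ρ * lam) ≤ ε * (|(N : ℝ)| * (ρ * lam))
  flat : ∀ θ, ∀ N ∈ act θ, abs (‖zc U θ N‖ ^ 2 - ρ * |(N : ℝ)|) ≤ ε * (ρ * |(N : ℝ)|)
  mass : ∀ θ ∈ Ioo (0 : ℝ) 1, Good ε θ → 1 - ε ≤ ∑ N ∈ act θ, ‖zc U θ N‖ ^ 2
  disj : ∀ θ, ∀ N ∈ act θ, ∀ N' ∈ act θ, ∀ (g g' : Fin nG) (α α' u u' : ℝ) (n : ℤ),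
    |α| ≤ X → |α'| ≤ X → u ∈ Ioo 0 (ρ * lam) → u' ∈ Ioo 0 (ρ * lam) →
    (N + α) * (w g + u) - (N' + α') * (w g' + u') = n → N = N' ∧ g = g'

/-- left end of the `g`-th segment -/
noncomputable def KL.segL {ε X : ℝ} (D : KL ε X) (g : Fin D.nG) : ℝ :=
  ((g : ℕ) + 1) * ((1 - D.nG * D.lam) / (D.nG + 1)) + (g : ℕ) * D.lam

/-- All data of a step that do not depend on the new denominator `h = q c`. -/
structure Des (q : ℕ) (ε X : ℝ) extends KL ε X where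
  M : ℕ
  G' : ℕ
  κ₁ : ℝ
  Φ : ℝ → ℝ
  Ω : ℝ → ℝ
  q_dvd : q ∣ M
  M_big : 1 ≤ ε * M
  U_M : ∀ β, |U β| ≤ ε * M
  G_big : 1 ≤ ε * G'
  κ₁_pos : 0 < κ₁
  κ₁_le : κ₁ ≤ ε
  Φ_sp : SP Φ
  Φ_eq : ∀ t ∈ Icc κ₁ (1 - κ₁), Φ t = -t
  Ω_sp : SP Ω
  Ω_zero : ∃ κ, 0 < κ ∧ ∀ y, |y| ≤ κ → Ω y = 0
  Ω_eq : ∀ g, ∀ y ∈ Ioo (toKL.segL g) (toKL.segL g + lam),
    Ω y = ρ * (y - toKL.segL g) ^ 2 / 2 + w g * y

/-- the `u`-th cell of the grid of mesh `1/M` -/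
def cell (M : ℕ) (u : ℤ) : Set ℝ := Ioo (((u : ℝ) - 1 / 2) / M) (((u : ℝ) + 1 / 2) / M)

/-- the centre of the `u`-th cell, reduced to `[0,1)`; the centre is `ctr M u + u / M` -/
noncomputable def ctr (M : ℕ) (u : ℤ) : ℝ := ((u % M : ℤ) : ℝ) / M

/-! ### The new conjugacy -/

noncomputable def mB (h : ℝ) (V : ℝ → ℝ) (x : R3) : R3 := ![x 0 + h * V (x 2), x 1, x 2]

noncomputable def mD (G' : ℕ) (z : R3) : R3 := ![z 2, z 0 + G' * z 2, z 1]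

/-- `U₃ = U + (1 + 1/(q G')) σ` -/
noncomputable def U3 (q G' : ℕ) (U σ : ℝ → ℝ) (β : ℝ) : ℝ := U β + (1 + 1 / (q * G')) * σ β

noncomputable def mA (q G' : ℕ) (U σ : ℝ → ℝ) (ε : ℝ) (z : R3) : R3 :=
  ![z 0 + U3 q G' U σ (z 2 + q * z 0) / q, z 1 + ε * U (z 2 + q * z 0),
    z 2 - U3 q G' U σ (z 2 + q * z 0)]

noncomputable def mC (q : ℕ) (Φ Ω : ℝ → ℝ) (z : R3) : R3 :=
  ![z 0 + Φ (z 1) * deriv Ω (z 2) / q, z 1, z 2]

noncomputable def mL (c : ℕ) (x : R3) : R3 := ![x 0 + c * x 1, x 1, x 2]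

section
variable {q : ℕ} {ε X : ℝ} (D : Des q ε X)

/-- the conjugacy without the last linear shear; `h = q c` -/
noncomputable def Des.K0 (V : ℝ → ℝ) (c : ℕ) (z : R3) : R3 :=
  mB (q * c) V (mD D.G' (mA q D.G' D.U D.σ (1 / (q * c)) (mC q D.Φ D.Ω z)))

/-- the new conjugacy -/
noncomputable def Des.K (V : ℝ → ℝ) (c : ℕ) (x : R3) : R3 := D.K0 V c (mL c x)

/-- the new potential -/
noncomputable def Des.V' (c : ℕ) (y : ℝ) : ℝ := D.Ω y / (q * (q * c))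

/-- the model for `t.fn ∘ K0` on the unit cube -/
noncomputable def Des.mod (V : ℝ → ℝ) (c : ℕ) (t : Term) (z : R3) : ℂ :=
  t.amp (z 1) * e (q * c * (t.b₁ * V (z 1)) +
    t.th q V (z 1) * D.U (z 2 + q * (z 0 - z 1 * deriv D.Ω (z 2) / q)) +
    (t.b₁ + t.b₂ * D.G') * z 2 + t.b₂ * (z 0 - z 1 * deriv D.Ω (z 2) / q))

/-- the new frequency in `x₀` of the term `t` in the cell `u` with the time-shift frequency `N` -/
def Des.mode (t : Term) (u N : ℤ) : ℤ := t.b₂ + q * (N - u / D.M)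

/-- the chirp `1_{(l,r)}(y) e (μ y + h b₁ V y - γ y)` -/
noncomputable def chirpFn (V : ℝ → ℝ) (t : Term) (l r γ h : ℝ) (y : ℝ) : ℂ :=
  (Ioo l r).indicator (fun y => e (t.μ * y + h * (t.b₁ * V y) - γ * y)) y

/-- the term with index `(u, N, g, k)` and coefficient `co` in the expansion of `t.fn ∘ K0`;
`c' = 0` gives the term in the coordinates `z`, `c' = c` after the shear `mL c` -/
noncomputable def Des.newTerm (t : Term) (τ : ℝ) (c' : ℕ) (x : ℤ × ℤ × Fin D.nG × ℤ) (co : ℂ) :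
    Term where
  d := co
  μ := ((t.b₁ + t.b₂ * D.G' + (x.2.1 - x.1 / D.M) : ℤ) : ℝ)
  l := D.toKL.segL x.2.2.1 + τ * D.lam
  r := D.toKL.segL x.2.2.1 + D.lam - τ * D.lam
  b₁ := D.mode t x.1 x.2.1
  b₂ := x.2.2.2 + c' * D.mode t x.1 x.2.1

/-- the expansion of `D.mod V c t` in the time-shift frequencies, over the cells `u ∈ 𝒰` on which
`t` lives on `(l' u, r' u)` -/
noncomputable def Des.expn (V : ℝ → ℝ) (c : ℕ) (t : Term) (τ : ℝ) (𝒰 : Finset ℤ)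
    (l' r' : ℤ → ℝ) (z : R3) : ℂ :=
  ∑ u ∈ 𝒰, ∑ N ∈ D.act (ctr D.M u), ∑ g : Fin D.nG,
    chirpFn V t (l' u) (r' u) (D.mode t u N / q * D.w g) (q * c) (z 1) *
      (D.newTerm t τ 0 (u, N, g, 0) (t.d * zc D.U (ctr D.M u) N)).fn z

end

/-! ### The torus and circle designs behind the key lemma -/

/-- `∫₀¹ e (-ξ x) dx` -/
noncomputable def cs (ξ : ℝ) : ℂ := ∫ x in (0 : ℝ)..1, e (-(ξ * x))

/-- `sinc² (π ξ)` -/
noncomputable def sn (ξ : ℝ) : ℝ := ‖cs ξ‖ ^ 2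

/-- Fourier coefficient of `e (ξ v)` on a torus -/
noncomputable def tc {δ : Type} [Fintype δ] (v : (δ → UnitAddCircle) → ℝ) (ξ : ℝ) (m : δ → ℤ) : ℂ :=
  ∫ p, e (ξ * v p) * UnitAddTorus.mFourier (-m) p

open Classical in
/-- Torus design: for `ξ` in the window `[lo m, hi m]` the coefficient of `e (ξ v)` at `m` has
`sn ξ * |coefficient|² ≈ a m`, and the active coefficients carry almost all the mass. -/
structure TD (ε X : ℝ) where
  δ : Type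
  [fδ : Fintype δ]
  i₀ : δ
  v : (δ → UnitAddCircle) → ℝ
  S : Finset (δ → ℤ)
  lo : (δ → ℤ) → ℝ
  hi : (δ → ℤ) → ℝ
  a : (δ → ℤ) → ℝ
  v_meas : Measurable v
  v_bd : ∃ C, ∀ p, |v p| ≤ C
  big : ∀ m ∈ S, 1 ≤ ε * m i₀
  npar : ∀ m ∈ S, ∀ m' ∈ S, m ≠ m' → ∃ i, m i₀ * m' i ≠ m' i₀ * m i
  a_pos : ∀ m ∈ S, 0 < a m
  comp : ∀ m ∈ S, ∃ j : ℕ, (j : ℝ) / 2 < lo m ∧ hi m < (j + 1) / 2
  bd : ∀ m ∈ S, hi m ≤ X + 1
  flat : ∀ m ∈ S, ∀ ξ ∈ Icc (lo m) (hi m), |sn ξ * ‖tc v ξ m‖ ^ 2 - a m| ≤ ε * a m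
  mass : ∀ ξ, Good ε ξ → 0 < ξ → ξ ≤ X →
    1 - ε ≤ ∑ m ∈ S with ξ ∈ Icc (lo m) (hi m), ‖tc v ξ m‖ ^ 2

attribute [instance] TD.fδ

open Classical in
/-- Circle design: frequencies `B n b + a b` with intensities `c n b`, for every large `B`. -/
structure CD (ε X : ℝ) where
  ι : Type
  [fι : Fintype ι]
  n : ι → ℕ
  a : ι → ℤ
  lo : ι → ℝ
  hi : ι → ℝ
  c : ℝ
  n_pos : ∀ b, 1 ≤ n b
  npar : ∀ b b', b ≠ b' → (n b' : ℤ) * a b ≠ n b * a b'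
  c_pos : 0 < c
  c_le : c ≤ ε
  comp : ∀ b, ∃ j : ℕ, (j : ℝ) / 2 < lo b ∧ hi b < (j + 1) / 2
  bd : ∀ b, hi b ≤ X + 1
  ex : ∃ B₀ : ℕ, ∀ B : ℕ, B₀ ≤ B → ∃ w : ℝ → ℝ, Continuous w ∧ Function.Periodic w 1 ∧
    (∀ b, ∀ ξ ∈ Icc (lo b) (hi b),
      |sn ξ * ‖zc w ξ (B * n b + a b)‖ ^ 2 - c * n b| ≤ ε * (c * n b)) ∧
    ∀ ξ, Good ε ξ → 0 < ξ → ξ ≤ X →
      1 - ε ≤ ∑ b with ξ ∈ Icc (lo b) (hi b), ‖zc w ξ (B * n b + a b)‖ ^ 2

attribute [instance] CD.fι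

end Crest.Agent.R81
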