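import Crest.Agent.R81.Cont

/-! Row 81: the limit of the approximation scheme. -/

set_option autoImplicit false

open MeasureTheory Set Crest.AnalysisR.Torus3
open Crest.Agent.R75 (e)
open scoped ContDiff ComplexConjugate

namespace Crest.Agent.R81
set_option maxHeartbeats 400000 in
/-- Choose recursively states `s n`, and radii `δ (n+1) ≤ δ n / 2` with
`Close n (δ n) (T (s n)) (T (s (n+1)))`, `‖g (s n) - g (s (n+1))‖ ≤ δ n`, `f (unpair n).1` within
`1/(n+1)` of some `u ∈ orb (s (n+1))`, and `2 δ (n+1)` below the radius given by `orb_cont` for `u`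
and `1/(n+1)`.  The limits come from `exists_limit` and completeness of `L2`; orthonormality passes
to the limit by `koop_zpow_cont`. -/
theorem limit {St : Type*} (s₀ : St) (T : St → SD) (g : St → L2) (hON : ∀ s, ONorb (T s) (g s))
    (hmean : ∀ s, inner ℂ (eL 0) (g s) = 0) (f : ℕ → L2)
    (hd : ∀ (s : St) (i k : ℕ) (η : ℝ), 0 < η → ∃ s', Close k η (T s) (T s') ∧
      ‖g s - g s'‖ ≤ η ∧ ∃ u ∈ orb (T s') (g s'), ‖f i - u‖ ≤ η) :
    ∃ (T' : SD) (g' : L2), ONorb T' g' ∧ inner ℂ (eL 0) g' = 0 ∧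
      ∀ i, f i ∈ (orb T' g').topologicalClosure := by
  have step : ∀ (n : ℕ) (p : St × ℝ), ∃ p' : St × ℝ, 0 < p.2 → 0 < p'.2 ∧ p'.2 ≤ p.2 / 2 ∧
      Close n p.2 (T p.1) (T p'.1) ∧ ‖g p.1 - g p'.1‖ ≤ p.2 ∧
      ∀ (D' : SD) (g' : L2), Close 0 (2 * p'.2) (T p'.1) D' → ‖g p'.1 - g'‖ ≤ 2 * p'.2 →
        ∃ u' ∈ orb D' g', ‖f (Nat.unpair n).1 - u'‖ ≤ 2 / ((n : ℝ) + 1) := by
    intro n p
    by_cases hp : 0 < p.2
    swap
    · exact ⟨p, fun h => absurd h hp⟩
    have hn : (0 : ℝ) < 1 / ((n : ℝ) + 1) := by positivity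
    obtain ⟨s', h1, h2, u, hu, h3⟩ := hd p.1 (Nat.unpair n).1 n (min p.2 (1 / ((n : ℝ) + 1)))
      (lt_min hp hn)
    obtain ⟨ρ, hρ, h4⟩ := orb_cont (T s') (g s') hu hn
    refine ⟨(s', min (p.2 / 2) (ρ / 2)), fun _ => ⟨lt_min (by linarith) (by linarith),
      min_le_left _ _, h1.mono le_rfl (min_le_left _ _), h2.trans (min_le_left _ _), ?_⟩⟩
    intro D' g' hc hg
    have hle : 2 * min (p.2 / 2) (ρ / 2) ≤ ρ := by
      have := min_le_right (p.2 / 2) (ρ / 2)
      linarith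
    obtain ⟨u', hu', h5⟩ := h4 D' g' (hc.mono le_rfl hle) (hg.trans hle)
    refine ⟨u', hu', ?_⟩
    calc ‖f (Nat.unpair n).1 - u'‖ ≤ ‖f (Nat.unpair n).1 - u‖ + ‖u - u'‖ :=
          norm_sub_le_norm_sub_add_norm_sub _ _ _
      _ ≤ 1 / ((n : ℝ) + 1) + 1 / ((n : ℝ) + 1) := add_le_add (h3.trans (min_le_right _ _)) h5
      _ = 2 / ((n : ℝ) + 1) := by ring
  choose nx hnx using step
  let p : ℕ → St × ℝ := fun n => Nat.rec (s₀, 1) (fun n q => nx n q) n
  have hp0 : (p 0).2 = 1 := rfl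
  have hps : ∀ n, p (n + 1) = nx n (p n) := fun n => rfl
  have hpos : ∀ n, 0 < (p n).2 := by
    intro n
    induction n with
    | zero => rw [hp0]; exact one_pos
    | succ n ih => rw [hps]; exact (hnx n (p n) ih).1
  let δ : ℕ → ℝ := fun n => (p n).2
  let s : ℕ → St := fun n => (p n).1
  have hhalf : ∀ n, δ (n + 1) ≤ δ n / 2 := fun n => (hnx n (p n) (hpos n)).2.1
  have hcl : ∀ n, Close n (δ n) (T (s n)) (T (s (n + 1))) :=
    fun n => (hnx n (p n) (hpos n)).2.2.1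
  have hg : ∀ n, dist (g (s n)) (g (s (n + 1))) ≤ δ n := fun n => by
    rw [dist_eq_norm]; exact (hnx n (p n) (hpos n)).2.2.2.1
  have happ : ∀ n (D' : SD) (g' : L2), Close 0 (2 * δ (n + 1)) (T (s (n + 1))) D' →
      ‖g (s (n + 1)) - g'‖ ≤ 2 * δ (n + 1) →
        ∃ u' ∈ orb D' g', ‖f (Nat.unpair n).1 - u'‖ ≤ 2 / ((n : ℝ) + 1) :=
    fun n => (hnx n (p n) (hpos n)).2.2.2.2
  replace hpos : ∀ n, 0 < δ n := hpos
  clear_value s δ
  clear hps hp0 p hnx nx
  have hgeo : ∀ n m, δ (n + m) ≤ δ n * (1 / 2) ^ m := by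
    intro n m
    induction m with
    | zero => simp
    | succ m ih =>
      have := hhalf (n + m)
      rw [← add_assoc, pow_succ]
      linarith
  have hsg : Summable fun m : ℕ => ((1 : ℝ) / 2) ^ m := summable_geometric_two
  have hsum' : ∀ n, Summable fun m => δ (n + m) := fun n =>
    Summable.of_nonneg_of_le (fun m => (hpos _).le) (hgeo n) (hsg.mul_left _)
  have hsum : Summable δ := by simpa using hsum' 0
  have htail : ∀ n, ∑' m, δ (n + m) ≤ 2 * δ n := by
    intro n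
    calc ∑' m, δ (n + m) ≤ ∑' m : ℕ, δ n * (1 / 2) ^ m :=
          (hsum' n).tsum_le_tsum (hgeo n) (hsg.mul_left _)
      _ = 2 * δ n := by rw [tsum_mul_left, tsum_geometric_two]; ring
  obtain ⟨T', hT'⟩ := exists_limit (fun n => T (s n)) δ hsum hcl
  obtain ⟨g', hg'⟩ := cauchySeq_tendsto_of_complete
    (cauchySeq_of_dist_le_of_summable (f := fun n => g (s n)) δ hg hsum)
  have hT2 : ∀ n, Close 0 (2 * δ n) (T (s n)) T' := fun n => (hT' n).mono le_rfl (htail n)
  have hg2 : ∀ n, ‖g (s n) - g'‖ ≤ 2 * δ n := fun n => by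
    rw [← dist_eq_norm]
    exact (dist_le_tsum_of_dist_le_of_tendsto (f := fun n => g (s n)) δ hg hsum hg' n).trans
      (htail n)
  have hδ0 : Filter.Tendsto (fun n => 2 * δ n) Filter.atTop (nhds 0) := by
    simpa using hsum.tendsto_atTop_zero.const_mul 2
  have hk : ∀ k : ℤ, Filter.Tendsto (fun n => koop (T (s n) ^ k) (g (s n))) Filter.atTop
      (nhds (koop (T' ^ k) g')) := by
    intro k
    rw [Metric.tendsto_nhds]
    intro ε hε
    obtain ⟨ρ, hρ, h1⟩ := koop_zpow_cont T' g' k (half_pos hε)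
    filter_upwards [hδ0.eventually (gt_mem_nhds hρ)] with n hn
    have := h1 (T (s n)) (g (s n)) ((hT2 n).symm.mono le_rfl hn.le)
      (by rw [norm_sub_rev]; exact (hg2 n).trans hn.le)
    rw [dist_eq_norm, norm_sub_rev]
    linarith
  refine ⟨T', g', ?_, ?_, ?_⟩
  · unfold ONorb
    classical
    rw [orthonormal_iff_ite]
    intro i j
    have h1 := Filter.Tendsto.inner (𝕜 := ℂ) (hk i) (hk j)
    have h2 : (fun n => inner ℂ (koop (T (s n) ^ i) (g (s n))) (koop (T (s n) ^ j) (g (s n)))) =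
        fun _ => if i = j then (1 : ℂ) else 0 := by
      funext n
      have := hON (s n)
      unfold ONorb at this
      rw [orthonormal_iff_ite] at this
      exact this i j
    rw [h2] at h1
    exact tendsto_nhds_unique h1 tendsto_const_nhds
  · have h1 := Filter.Tendsto.inner (𝕜 := ℂ) (tendsto_const_nhds (x := eL 0)) hg'
    have h2 : (fun n => inner ℂ (eL 0) (g (s n))) = fun _ => (0 : ℂ) := funext fun n => hmean _
    rw [h2] at h1
    exact tendsto_nhds_unique h1 tendsto_const_nhds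
  · intro i
    rw [← SetLike.mem_coe, Submodule.topologicalClosure_coe, Metric.mem_closure_iff]
    intro ε hε
    obtain ⟨m, hm⟩ := exists_nat_gt (2 / ε)
    obtain ⟨u', hu', h1⟩ := happ (Nat.pair i m) T' g' (hT2 (Nat.pair i m + 1))
      (hg2 (Nat.pair i m + 1))
    rw [Nat.unpair_pair] at h1
    refine ⟨u', hu', ?_⟩
    rw [dist_eq_norm]
    refine h1.trans_lt ?_
    have h2 : (m : ℝ) ≤ Nat.pair i m := by exact_mod_cast Nat.right_le_pair i m
    rw [div_lt_iff₀ hε] at hm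
    rw [div_lt_iff₀ (by positivity)]
    nlinarith

end Crest.Agent.R81
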