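import Crest.Agent.R81.Step
import Crest.Agent.R81.Limit

/-! Row 81: every exponential is approximated by the orbit after finitely many steps. -/

set_option autoImplicit false

open MeasureTheory Set Crest.AnalysisR.Torus3
open Crest.Agent.R75 (e)
open scoped ContDiff ComplexConjugate

namespace Crest.Agent.R81
lemma koop_inv_koop (D : SD) (f : L2) : koop D⁻¹ (koop D f) = f := by
  rw [← koop_mul, mul_inv_cancel, koop_one]

lemma koop_koop_inv (D : SD) (f : L2) : koop D (koop D⁻¹ f) = f := by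
  rw [← koop_mul, inv_mul_cancel, koop_one]

lemma koop_conj_zpow (H S : SD) (g : L2) (n : ℤ) :
    koop ((H * S * H⁻¹) ^ n) (koop H⁻¹ g) = koop H⁻¹ (koop (S ^ n) g) := by
  rw [conj_zpow, koop_mul, koop_mul, koop_koop_inv]

lemma ONorb.conj {S : SD} {g : L2} (h : ONorb S g) (H : SD) :
    ONorb (H * S * H⁻¹) (koop H⁻¹ g) := by
  unfold ONorb
  simp only [koop_conj_zpow]
  exact (koop H⁻¹).orthonormal_comp_iff.2 h

lemma orb_conj (H S : SD) (g : L2) :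
    orb (H * S * H⁻¹) (koop H⁻¹ g) = (orb S g).map (koop H⁻¹).toLinearMap := by
  unfold orb
  simp only [koop_conj_zpow]
  rw [Submodule.map_span, ← range_comp]
  rfl

lemma mem_orb_conj {H S : SD} {g u : L2} :
    u ∈ orb (H * S * H⁻¹) (koop H⁻¹ g) ↔ koop H u ∈ orb S g := by
  rw [orb_conj, Submodule.mem_map]
  constructor
  · rintro ⟨v, hv, rfl⟩
    change koop H (koop H⁻¹ v) ∈ _
    rwa [koop_koop_inv]
  · intro h
    exact ⟨_, h, koop_inv_koop H u⟩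

lemma norm_conj_sub (H K : SD) (u v : L2) :
    ‖koop H⁻¹ u - koop (H * K)⁻¹ v‖ = ‖koop K u - v‖ := by
  rw [← (koop (H * K)).norm_map, map_sub, koop_koop_inv, ← koop_mul, inv_mul_cancel_left]

/-- approximation of the generators of a span gives approximation of its elements -/
lemma span_approx {τ : Type} (f : τ → L2) (p : τ → Prop) {u : L2}
    (hu : u ∈ Submodule.span ℂ (f '' {t | p t})) :
    ∃ (𝒯 : Finset τ) (C : ℝ), 0 ≤ C ∧ (∀ t ∈ 𝒯, p t) ∧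
      ∀ (K : SD) (W : Submodule ℂ L2) (δ : ℝ), 0 ≤ δ →
        (∀ t ∈ 𝒯, ∃ v ∈ W, ‖koop K (f t) - v‖ ≤ δ) → ∃ v ∈ W, ‖koop K u - v‖ ≤ C * δ := by
  classical
  induction hu using Submodule.span_induction with
  | mem x hx =>
    obtain ⟨t, ht, rfl⟩ := hx
    exact ⟨{t}, 1, zero_le_one, by simpa using ht, fun K W δ _ h => by simpa using h⟩
  | zero => exact ⟨∅, 0, le_rfl, by simp, fun K W δ _ _ => ⟨0, W.zero_mem, by simp⟩⟩
  | add x y _ _ hx hy =>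
    obtain ⟨T₁, C₁, h1, p1, q1⟩ := hx
    obtain ⟨T₂, C₂, h2, p2, q2⟩ := hy
    refine ⟨T₁ ∪ T₂, C₁ + C₂, by positivity, fun t ht => (Finset.mem_union.1 ht).elim (p1 t) (p2 t),
      fun K W δ hδ h => ?_⟩
    obtain ⟨v₁, hv₁, e₁⟩ := q1 K W δ hδ fun t ht => h t (Finset.mem_union_left _ ht)
    obtain ⟨v₂, hv₂, e₂⟩ := q2 K W δ hδ fun t ht => h t (Finset.mem_union_right _ ht)
    refine ⟨v₁ + v₂, W.add_mem hv₁ hv₂, ?_⟩
    rw [map_add, add_sub_add_comm, add_mul]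
    exact (norm_add_le _ _).trans (add_le_add e₁ e₂)
  | smul c x _ hx =>
    obtain ⟨T₁, C₁, h1, p1, q1⟩ := hx
    refine ⟨T₁, ‖c‖ * C₁, by positivity, p1, fun K W δ hδ h => ?_⟩
    obtain ⟨v₁, hv₁, e₁⟩ := q1 K W δ hδ h
    refine ⟨c • v₁, W.smul_mem c hv₁, ?_⟩
    rw [map_smul, ← smul_sub, norm_smul, mul_assoc]
    exact mul_le_mul_of_nonneg_left e₁ (norm_nonneg _)

lemma near_of_closure {W : Submodule ℂ L2} {u : L2} (hu : u ∈ W.topologicalClosure) {δ : ℝ}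
    (hδ : 0 < δ) : ∃ v ∈ W, ‖u - v‖ ≤ δ := by
  obtain ⟨v, hv, h⟩ := Metric.mem_closure_iff.1 hu δ hδ
  exact ⟨v, hv, by rw [← dist_eq_norm]; exact h.le⟩

lemma inv2_eq (q : ℕ) : inv2 q = Submodule.span ℂ
    ((fun p : ℤ × ℤ => eL ![0, p.2 * q, p.1]) '' {p | p ≠ 0}) := by
  unfold inv2
  congr 1
  ext u
  constructor
  · rintro ⟨μ, j, h, rfl⟩
    exact ⟨(μ, j), h, rfl⟩
  · rintro ⟨⟨μ, j⟩, h, rfl⟩
    exact ⟨μ, j, h, rfl⟩

lemma inv1_eq (q : ℕ) : inv1 = Submodule.span ℂ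
    ((fun p : ℤ × ℤ => eL ![0, p.2 * q, p.1]) '' {p | p.1 ≠ 0 ∧ p.2 = 0}) := by
  unfold inv1
  congr 1
  ext u
  constructor
  · rintro ⟨μ, h, rfl⟩
    exact ⟨(μ, 0), ⟨h, rfl⟩, by simp⟩
  · rintro ⟨⟨μ, j⟩, ⟨h, h'⟩, rfl⟩
    obtain rfl : j = 0 := h'
    exact ⟨μ, h, by simp⟩

/-- one step lowers the level of five functions simultaneously -/
lemma step2 (H : SD) (m : Model) {u₀ u₁ u₂ u₃ u₄ : L2} (h₀ : u₀ ∈ orb m.S m.g)
    (h₁ : u₁ ∈ tspan m.Al) (h₂ : u₂ ∈ tspan m.NI) (h₃ : u₃ ∈ inv1) (h₄ : u₄ ∈ inv2 m.q) (k : ℕ)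
    {η : ℝ} (hη : 0 < η) :
    ∃ (K : SD) (m' : Model), Close k η (H * m.S * H⁻¹) (H * K * m'.S * (H * K)⁻¹) ∧
      ‖koop K m.g - m'.g‖ ≤ η ∧ (∃ v ∈ orb m'.S m'.g, ‖koop K u₀ - v‖ ≤ η) ∧
      (∃ v ∈ orb m'.S m'.g, ‖koop K u₁ - v‖ ≤ η) ∧ (∃ v ∈ tspan m'.Al, ‖koop K u₂ - v‖ ≤ η) ∧
      (∃ v ∈ tspan m'.NI, ‖koop K u₃ - v‖ ≤ η) ∧
      ∃ v ∈ tspan m'.NI ⊔ inv1, ‖koop K u₄ - v‖ ≤ η := by
  classical
  have h₀' : koop H⁻¹ u₀ ∈ orb (H * m.S * H⁻¹) (koop H⁻¹ m.g) := by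
    rw [mem_orb_conj, koop_koop_inv]; exact h₀
  obtain ⟨δ₀, hδ₀, H₀⟩ := orb_cont _ _ h₀' hη
  obtain ⟨T₁, C₁, c1, p1, H₁⟩ := span_approx Term.L m.Al h₁
  obtain ⟨T₂, C₂, c2, p2, H₂⟩ := span_approx Term.L m.NI h₂
  rw [inv1_eq m.q] at h₃
  rw [inv2_eq] at h₄
  obtain ⟨T₃, C₃, c3, p3, H₃⟩ := span_approx _ _ h₃
  obtain ⟨T₄, C₄, c4, p4, H₄⟩ := span_approx _ _ h₄
  set C := C₁ + C₂ + C₃ + C₄ + 1 with hC
  have hC0 : 0 < C := by positivity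
  set δ := min (min δ₀ 1) (η / (2 * C)) with hδ
  have hδ0 : 0 < δ := by positivity
  have hδ1 : δ ≤ 1 := (min_le_left _ _).trans (min_le_right _ _)
  have hδ2 : δ ≤ δ₀ := (min_le_left _ _).trans (min_le_left _ _)
  have hδ3 : C * (2 * δ) ≤ η := by
    have : δ ≤ η / (2 * C) := min_le_right _ _
    rw [le_div_iff₀ (by positivity)] at this
    linarith
  have hδ4 : δ ^ 2 ≤ δ := by nlinarith
  have hδ5 : 2 * δ ≤ η := by nlinarith
  obtain ⟨K, m', hcl, hg, hgap, hNI, hAl, G, hG, hI⟩ :=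
    step H m (T₁ ∪ T₂) (T₃ ∪ T₄) k (show 0 < δ ^ 2 by positivity)
  have hsq : √(δ ^ 2) = δ := Real.sqrt_sq hδ0.le
  have hnear : ∀ p ∈ T₃ ∪ T₄, p.1 ≠ 0 →
      ∃ v ∈ tspan m'.NI, ‖koop K (eL ![0, p.2 * m.q, p.1]) - v‖ ≤ 2 * δ := by
    intro p hp hp1
    obtain ⟨hq, he⟩ := hI p hp
    obtain ⟨v, hv, hv'⟩ := m'.eL_near hgap ![0, p.1, p.2 * G] (Or.inr fun hd => by
      have := Int.le_of_dvd (abs_pos.2 hp1) ((dvd_abs _ _).2 hd)
      omega)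
    refine ⟨v, hv, (norm_sub_le_norm_sub_add_norm_sub _ (eL ![0, p.1, p.2 * G]) _).trans ?_⟩
    rw [hsq] at hv'
    linarith
  refine ⟨K, m', hcl.mono le_rfl (by linarith), hg.trans (by linarith), ?_, ?_, ?_, ?_, ?_⟩
  · obtain ⟨v, hv, he⟩ := H₀ (H * K * m'.S * (H * K)⁻¹) (koop (H * K)⁻¹ m'.g)
      (hcl.mono (Nat.zero_le _) (by linarith)) (by rw [norm_conj_sub]; linarith)
    refine ⟨koop (H * K) v, mem_orb_conj.1 hv, ?_⟩
    rwa [← norm_conj_sub H, koop_inv_koop]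
  · obtain ⟨v, hv, he⟩ := H₁ K (orb m'.S m'.g) (2 * δ) (by positivity) fun t ht => by
      obtain ⟨v, hv, he⟩ := hAl t (Finset.mem_union_left _ ht) (p1 t ht)
      have hv' : v ∈ (orb m'.S m'.g).topologicalClosure := by
        refine (Submodule.span_le.2 ?_ : tspan m'.Cap ≤ _) hv
        rintro _ ⟨t', ht', rfl⟩
        exact m'.cap_mem ht'
      obtain ⟨v', hv'', he'⟩ := near_of_closure hv' hδ0
      exact ⟨v', hv'', (norm_sub_le_norm_sub_add_norm_sub _ v _).trans (by linarith)⟩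
    exact ⟨v, hv, he.trans (by nlinarith)⟩
  · obtain ⟨v, hv, he⟩ := H₂ K (tspan m'.Al) (2 * δ) (by positivity) fun t ht => by
      obtain ⟨v, hv, he⟩ := hNI t (Finset.mem_union_right _ ht) (p2 t ht)
      exact ⟨v, hv, by linarith⟩
    exact ⟨v, hv, he.trans (by nlinarith)⟩
  · obtain ⟨v, hv, he⟩ := H₃ K (tspan m'.NI) (2 * δ) (by positivity) fun p hp =>
      hnear p (Finset.mem_union_left _ hp) (p3 p hp).1
    exact ⟨v, hv, he.trans (by nlinarith)⟩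
  · obtain ⟨v, hv, he⟩ := H₄ K (tspan m'.NI ⊔ inv1) (2 * δ) (by positivity) fun p hp => by
      by_cases hp1 : p.1 = 0
      · obtain ⟨-, he⟩ := hI p (Finset.mem_union_right _ hp)
        refine ⟨_, Submodule.mem_sup_right (Submodule.subset_span ⟨p.2 * G, ?_, ?_⟩), he.trans
          (by linarith)⟩
        · refine mul_ne_zero (fun h2 => p4 p hp (Prod.ext hp1 h2)) hG
        · rw [hp1]
      · obtain ⟨v, hv, he⟩ := hnear p (Finset.mem_union_right _ hp) hp1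
        exact ⟨v, Submodule.mem_sup_left hv, he⟩
    exact ⟨v, hv, he.trans (by nlinarith)⟩

/-- the levels -/
noncomputable def lev (m : Model) : ℕ → Submodule ℂ L2
  | 0 => orb m.S m.g
  | 1 => orb m.S m.g ⊔ tspan m.Al
  | 2 => orb m.S m.g ⊔ tspan m.Al ⊔ tspan m.NI
  | 3 => orb m.S m.g ⊔ tspan m.Al ⊔ tspan m.NI ⊔ inv1
  | _ => orb m.S m.g ⊔ tspan m.Al ⊔ tspan m.NI ⊔ inv1 ⊔ inv2 m.q

lemma desc (H : SD) (m : Model) (r : ℕ) (hr : r < 4) {u : L2} (hu : u ∈ lev m (r + 1)) (k : ℕ)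
    {η : ℝ} (hη : 0 < η) :
    ∃ (K : SD) (m' : Model), Close k η (H * m.S * H⁻¹) (H * K * m'.S * (H * K)⁻¹) ∧
      ‖koop K m.g - m'.g‖ ≤ η ∧ ∃ v ∈ lev m' r, ‖koop K u - v‖ ≤ η := by
  have hη5 : 0 < η / 5 := by positivity
  have n2 : ∀ a b a' b' : L2, ∀ x y : ℝ, ‖a - a'‖ ≤ x → ‖b - b'‖ ≤ y →
      ‖a + b - (a' + b')‖ ≤ x + y := fun a b a' b' x y h h' => by
    rw [add_sub_add_comm]; exact (norm_add_le _ _).trans (add_le_add h h')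
  interval_cases r
  · obtain ⟨u₀, h₀, u₁, h₁, rfl⟩ := Submodule.mem_sup.1 hu
    obtain ⟨K, m', hc, hg, ⟨v₀, g₀, e₀⟩, ⟨v₁, g₁, e₁⟩, -⟩ :=
      step2 H m h₀ h₁ (zero_mem _) (zero_mem _) (zero_mem _) k hη5
    refine ⟨K, m', hc.mono le_rfl (by linarith), by linarith, v₀ + v₁, add_mem g₀ g₁, ?_⟩
    rw [map_add]
    exact (n2 _ _ _ _ _ _ e₀ e₁).trans (by linarith)
  · obtain ⟨_, h, u₂, h₂, rfl⟩ := Submodule.mem_sup.1 hu
    obtain ⟨u₀, h₀, u₁, h₁, rfl⟩ := Submodule.mem_sup.1 h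
    obtain ⟨K, m', hc, hg, ⟨v₀, g₀, e₀⟩, ⟨v₁, g₁, e₁⟩, ⟨v₂, g₂, e₂⟩, -⟩ :=
      step2 H m h₀ h₁ h₂ (zero_mem _) (zero_mem _) k hη5
    refine ⟨K, m', hc.mono le_rfl (by linarith), by linarith, v₀ + v₁ + v₂,
      Submodule.add_mem_sup (add_mem g₀ g₁) g₂, ?_⟩
    rw [map_add, map_add]
    exact (n2 _ _ _ _ _ _ (n2 _ _ _ _ _ _ e₀ e₁) e₂).trans (by linarith)
  · obtain ⟨_, h, u₃, h₃, rfl⟩ := Submodule.mem_sup.1 hu
    obtain ⟨_, h', u₂, h₂, rfl⟩ := Submodule.mem_sup.1 h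
    obtain ⟨u₀, h₀, u₁, h₁, rfl⟩ := Submodule.mem_sup.1 h'
    obtain ⟨K, m', hc, hg, ⟨v₀, g₀, e₀⟩, ⟨v₁, g₁, e₁⟩, ⟨v₂, g₂, e₂⟩, ⟨v₃, g₃, e₃⟩, -⟩ :=
      step2 H m h₀ h₁ h₂ h₃ (zero_mem _) k hη5
    refine ⟨K, m', hc.mono le_rfl (by linarith), by linarith, v₀ + v₁ + v₂ + v₃,
      Submodule.add_mem_sup (Submodule.add_mem_sup (add_mem g₀ g₁) g₂) g₃, ?_⟩
    rw [map_add, map_add, map_add]
    exact (n2 _ _ _ _ _ _ (n2 _ _ _ _ _ _ (n2 _ _ _ _ _ _ e₀ e₁) e₂) e₃).trans (by linarith)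
  · obtain ⟨_, h, u₄, h₄, rfl⟩ := Submodule.mem_sup.1 hu
    obtain ⟨_, h', u₃, h₃, rfl⟩ := Submodule.mem_sup.1 h
    obtain ⟨_, h'', u₂, h₂, rfl⟩ := Submodule.mem_sup.1 h'
    obtain ⟨u₀, h₀, u₁, h₁, rfl⟩ := Submodule.mem_sup.1 h''
    obtain ⟨K, m', hc, hg, ⟨v₀, g₀, e₀⟩, ⟨v₁, g₁, e₁⟩, ⟨v₂, g₂, e₂⟩, ⟨v₃, g₃, e₃⟩, v₄, g₄, e₄⟩ :=
      step2 H m h₀ h₁ h₂ h₃ h₄ k hη5
    refine ⟨K, m', hc.mono le_rfl (by linarith), by linarith, v₀ + v₁ + v₂ + v₃ + v₄, ?_, ?_⟩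
    · refine add_mem (Submodule.mem_sup_left
        (Submodule.add_mem_sup (Submodule.add_mem_sup (add_mem g₀ g₁) g₂) g₃)) ?_
      exact (sup_le_sup_right le_sup_right _ : tspan m'.NI ⊔ inv1 ≤ _) g₄
    · rw [map_add, map_add, map_add, map_add]
      exact (n2 _ _ _ _ _ _ (n2 _ _ _ _ _ _ (n2 _ _ _ _ _ _ (n2 _ _ _ _ _ _ e₀ e₁) e₂) e₃)
        e₄).trans (by linarith)

lemma reach (r : ℕ) (hr : r ≤ 4) : ∀ (H : SD) (m : Model) {u : L2}, u ∈ lev m r → ∀ (k : ℕ)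
    {η : ℝ}, 0 < η →
    ∃ (K : SD) (m' : Model), Close k η (H * m.S * H⁻¹) (H * K * m'.S * (H * K)⁻¹) ∧
      ‖koop K m.g - m'.g‖ ≤ η ∧ ∃ v ∈ orb m'.S m'.g, ‖koop K u - v‖ ≤ η := by
  induction r with
  | zero =>
    intro H m u hu k η hη
    refine ⟨1, m, ?_, by simp [koop_one, hη.le], u, hu, by simp [koop_one, hη.le]⟩
    rw [mul_one]
    exact (Close.refl k _).mono le_rfl hη.le
  | succ r ih =>
    intro H m u hu k η hη
    obtain ⟨K, m', hc, hg, v, hv, he⟩ := desc H m r (by omega) hu k (half_pos hη)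
    obtain ⟨K', m'', hc', hg', v', hv', he'⟩ := ih (by omega) (H * K) m' hv k (half_pos hη)
    refine ⟨K * K', m'', ?_, ?_, v', hv', ?_⟩
    · rw [← mul_assoc H K K']
      exact (hc.trans hc').mono le_rfl (by linarith)
    · refine (norm_sub_le_norm_sub_add_norm_sub _ (koop K' m'.g) _).trans ?_
      rw [koop_mul, ← map_sub, LinearIsometry.norm_map]
      linarith
    · refine (norm_sub_le_norm_sub_add_norm_sub _ (koop K' v) _).trans ?_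
      rw [koop_mul, ← map_sub, LinearIsometry.norm_map]
      linarith

lemma inner_eL_zero_koop (D : SD) (f : L2) : inner ℂ (eL 0) (koop D f) = inner ℂ (eL 0) f := by
  conv_lhs => rw [← koop_eL_zero D]
  exact (koop D).inner_map_map _ _

theorem dense_step (H : SD) (m : Model) {n : Fin 3 → ℤ} (hn : n ≠ 0) (k : ℕ) {η : ℝ} (hη : 0 < η) :
    ∃ (H' : SD) (m' : Model), Close k η (H * m.S * H⁻¹) (H' * m'.S * H'⁻¹) ∧
      ‖koop H⁻¹ m.g - koop H'⁻¹ m'.g‖ ≤ η ∧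
      ∃ u ∈ orb (H' * m'.S * H'⁻¹) (koop H'⁻¹ m'.g), ‖eL n - u‖ ≤ η := by
  set δ := min (η / 3) 1 with hδ
  have hδ0 : 0 < δ := by positivity
  have hδ1 : δ ≤ 1 := min_le_right _ _
  have hδ2 : δ ≤ η / 3 := min_le_left _ _
  have hδ4 : δ ^ 2 ≤ δ := by nlinarith
  obtain ⟨K, m', hc, hg, hgap, -⟩ := step H m ∅ ∅ k (show 0 < δ ^ 2 by positivity)
  have hb : ∀ᵐ p, ‖koop (H * K) (eL n) p‖ ≤ 1 := by
    have h1 := (SD.mp (H * K)).quasiMeasurePreserving.ae_eq_comp (coeFn_eL n)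
    filter_upwards [coeFn_koop (H * K) (eL n), h1] with p hp hp'
    rw [hp, hp']
    exact ((UnitAddTorus.mFourier n).norm_coe_le_norm _).trans UnitAddTorus.mFourier_norm.le
  have h0 : inner ℂ (eL 0) (koop (H * K) (eL n)) = 0 := by
    rw [inner_eL_zero_koop]
    exact orthonormal_eL.inner_eq_zero hn.symm
  obtain ⟨u, hu, v, hv, he⟩ := m'.decomp hgap _ hb h0 hδ0
  rw [Real.sqrt_sq hδ0.le] at he
  have huv : u + v ∈ lev m' 4 :=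
    Submodule.add_mem_sup (Submodule.mem_sup_left (Submodule.mem_sup_right hu)) hv
  obtain ⟨K', m'', hc', hg', w, hw, he'⟩ := reach 4 le_rfl (H * K) m' huv k hδ0
  refine ⟨H * K * K', m'', (hc.trans hc').mono le_rfl (by linarith), ?_, koop (H * K * K')⁻¹ w,
    by rw [mem_orb_conj, koop_koop_inv]; exact hw, ?_⟩
  · refine (norm_sub_le_norm_sub_add_norm_sub _ (koop (H * K)⁻¹ m'.g) _).trans ?_
    rw [norm_conj_sub, norm_conj_sub]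
    linarith
  · rw [← koop_inv_koop (H * K) (eL n), norm_conj_sub]
    refine (norm_sub_le_norm_sub_add_norm_sub _ (koop K' (u + v)) _).trans ?_
    rw [← map_sub, LinearIsometry.norm_map]
    linarith

theorem exists_complex : ∃ (T : SD) (g : L2), ONorb T g ∧ inner ℂ (eL 0) g = 0 ∧
    ∀ n ≠ 0, eL n ∈ (orb T g).topologicalClosure := by
  obtain ⟨m₀⟩ := nonempty_model
  have : Nonempty {n : Fin 3 → ℤ // n ≠ 0} := ⟨⟨fun _ => 1, fun h => by simpa using congrFun h 0⟩⟩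
  obtain ⟨f, hf⟩ := exists_surjective_nat {n : Fin 3 → ℤ // n ≠ 0}
  obtain ⟨T, g, h1, h2, h3⟩ := limit (St := SD × Model) (1, m₀) (fun s => s.1 * s.2.S * s.1⁻¹)
    (fun s => koop s.1⁻¹ s.2.g) (fun s => s.2.onorb.conj s.1)
    (fun s => by rw [inner_eL_zero_koop]; exact s.2.mean_g) (fun i => eL (f i).1)
    (fun s i k η hη => by
      obtain ⟨H', m', h⟩ := dense_step s.1 s.2 (f i).2 k hη
      exact ⟨(H', m'), h⟩)
  refine ⟨T, g, h1, h2, fun n hn => ?_⟩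
  obtain ⟨i, hi⟩ := hf ⟨n, hn⟩
  have := h3 i
  rwa [hi] at this

end Crest.Agent.R81
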