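import Crest.Agent.R81.Tile

/-! Row 81: cutting a non-invariant term along the cells. -/

set_option autoImplicit false

open MeasureTheory Set Crest.AnalysisR.Torus3
open Crest.Agent.R75 (e)
open scoped ContDiff ComplexConjugate

namespace Crest.Agent.R81
theorem cell_disjoint {M : ℕ} (hM : 0 < M) {u u' : ℤ} (h : u ≠ u') :
    Disjoint (cell M u) (cell M u') := by
  have hM' : (0 : ℝ) < M := by exact_mod_cast hM
  rw [Set.disjoint_left]
  intro x hx hx'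
  simp only [cell, mem_Ioo, div_lt_iff₀ hM', lt_div_iff₀ hM'] at hx hx'
  have h1 : (u : ℝ) < u' + 1 := by linarith [hx.1, hx'.2]
  have h2 : (u' : ℝ) < u + 1 := by linarith [hx.2, hx'.1]
  have h3 : u < u' + 1 := by exact_mod_cast h1
  have h4 : u' < u + 1 := by exact_mod_cast h2
  omega

theorem sp_cast_mod (M : ℕ) (u : ℤ) : ((u % M : ℤ) : ℝ) = u - M * ((u / M : ℤ) : ℝ) := by
  rw [Int.emod_def]; push_cast; ring

theorem ctr_add {M : ℕ} (hM : 0 < M) (u : ℤ) : ctr M u + (u / M : ℤ) = (u : ℝ) / M := by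
  have hM' : (M : ℝ) ≠ 0 := by exact_mod_cast hM.ne'
  rw [ctr, sp_cast_mod]
  field_simp
  ring

theorem mem_cell_iff {M : ℕ} (hM : 0 < M) (u : ℤ) (x : ℝ) :
    x ∈ cell M u ↔ x - (u / M : ℤ) ∈ cell M (u % M) := by
  have hM' : (0 : ℝ) < M := by exact_mod_cast hM
  simp only [cell, mem_Ioo, div_lt_iff₀ hM', lt_div_iff₀ hM', sp_cast_mod]
  constructor <;> rintro ⟨h1, h2⟩ <;> constructor <;> linarith

theorem sp_ctr_mem {M : ℕ} (hM : 0 < M) (u : ℤ) : ctr M u ∈ Ico (0 : ℝ) 1 := by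
  have hM' : (0 : ℝ) < M := by exact_mod_cast hM
  have hM0 : (0 : ℤ) < M := by exact_mod_cast hM
  have h1 : (0 : ℝ) ≤ ((u % M : ℤ) : ℝ) := by exact_mod_cast Int.emod_nonneg u hM0.ne'
  have h2 : ((u % M : ℤ) : ℝ) < M := by exact_mod_cast Int.emod_lt_of_pos u hM0
  exact ⟨div_nonneg h1 hM'.le, (div_lt_one hM').2 h2⟩

/-- a good cell reduced mod `1` lies in `(0,1)` -/
theorem cell_subset {M : ℕ} (hM : 0 < M) {ε : ℝ} (hε : 0 < ε) {u : ℤ} (hu : Good ε (ctr M u)) :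
    cell M (u % M) ⊆ Ioo 0 1 ∧ ctr M u ∈ Ioo (0 : ℝ) 1 := by
  have hM' : (0 : ℝ) < M := by exact_mod_cast hM
  have hM0 : (0 : ℤ) < M := by exact_mod_cast hM
  have h0 := hu 0
  have hc := sp_ctr_mem hM u
  have hne : u % M ≠ 0 := by
    intro h
    rw [ctr, h] at h0
    simp at h0
    linarith
  have h1 : 1 ≤ u % M := by have := Int.emod_nonneg u hM0.ne'; omega
  have h2 : u % M + 1 ≤ M := Int.emod_lt_of_pos u hM0
  have h1' : (1 : ℝ) ≤ ((u % M : ℤ) : ℝ) := by exact_mod_cast h1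
  have h2' : ((u % M : ℤ) : ℝ) + 1 ≤ M := by exact_mod_cast h2
  refine ⟨Ioo_subset_Ioo (div_nonneg (by linarith) hM'.le) ((div_le_one hM').2 (by linarith)),
    div_pos (by linarith) hM', hc.2⟩

theorem sp_split_zero {q : ℕ} (hq : Odd q) {b : ℤ} (hb : ¬ (q : ℤ) ∣ b) {ε : ℝ}
    (hε : ε ≤ 1 / (2 * q)) {M : ℕ} (hM : 0 < M) (hqM : q ∣ M) :
    ∃ u : ℤ, Good ε (ctr M u) ∧ |(b : ℝ) / q - (u / M : ℤ)| ≤ 1 ∧ (b : ℝ) / q ∈ cell M u := by
  obtain ⟨m, hm⟩ := hqM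
  have hq0 : (0 : ℝ) < q := by exact_mod_cast hq.pos
  have hM' : (0 : ℝ) < M := by exact_mod_cast hM
  have hu : ((b * m : ℤ) : ℝ) / M = (b : ℝ) / q := by
    have : (M : ℝ) = q * m := by exact_mod_cast hm
    rw [div_eq_div_iff hM'.ne' hq0.ne', this]; push_cast; ring
  have hc := ctr_add hM (b * m)
  have hm' := sp_ctr_mem hM (b * m)
  rw [hu] at hc
  refine ⟨b * m, fun n => hε.trans ?_, ?_, ?_⟩
  · set k : ℤ := b * m / M
    have hne : 2 * b - q * (2 * k + n) ≠ 0 := by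
      intro h
      apply hb
      have h2 : (q : ℤ) ∣ 2 * b := ⟨2 * k + n, by linarith⟩
      have hco : IsCoprime (q : ℤ) 2 := by
        obtain ⟨j, hj⟩ := hq
        exact ⟨1, -j, by rw [hj]; push_cast; ring⟩
      exact hco.dvd_of_dvd_mul_left h2
    have h1 : (1 : ℝ) ≤ |((2 * b - q * (2 * k + n) : ℤ) : ℝ)| := by
      exact_mod_cast Int.one_le_abs hne
    have h2 : ctr M (b * m) - (n : ℝ) / 2 = ((2 * b - q * (2 * k + n) : ℤ) : ℝ) / (2 * q) := by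
      rw [eq_sub_of_add_eq hc]; push_cast; field_simp; ring
    rw [h2, abs_div, abs_of_pos (by positivity : (0 : ℝ) < 2 * q)]
    exact div_le_div_of_nonneg_right h1 (by positivity)
  · rw [← hc, add_sub_cancel_right, abs_of_nonneg hm'.1]; exact hm'.2.le
  · rw [← hu]
    exact ⟨div_lt_div_of_pos_right (by linarith) hM', div_lt_div_of_pos_right (by linarith) hM'⟩

open Classical in
/-- the good cells meeting the arc `(A, B)` cover most of it -/
theorem sp_cover {A B : ℝ} (hAB : A ≤ B) {ε : ℝ} (hε : 0 < ε) (hε' : ε ≤ 1 / 4) {M : ℕ}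
    (hM : 1 ≤ ε * M) :
    ∃ 𝒰 : Finset ℤ, (∀ u ∈ 𝒰, Good ε (ctr M u) ∧
        max A (((u : ℝ) - 1 / 2) / M) < min B (((u : ℝ) + 1 / 2) / M)) ∧
      B - A - ∑ u ∈ 𝒰, (min B (((u : ℝ) + 1 / 2) / M) - max A (((u : ℝ) - 1 / 2) / M)) ≤
        (Finset.Icc ⌊2 * A - 1⌋ ⌈2 * B + 1⌉).card * (4 * ε) := by
  have hM' : (0 : ℝ) < M := by
    by_contra h
    have : ε * M ≤ 0 := mul_nonpos_of_nonneg_of_nonpos hε.le (not_lt.1 h)
    linarith
  have hM0 : 0 < M := by exact_mod_cast hM'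
  set a : ℤ → ℝ := fun u => max A (((u : ℝ) - 1 / 2) / M) with ha
  set b : ℤ → ℝ := fun u => min B (((u : ℝ) + 1 / 2) / M) with hb
  set 𝒰 := (Finset.Icc ⌊A * M - 1⌋ ⌈B * M + 1⌉).filter fun u => Good ε (ctr M u) ∧ a u < b u
    with h𝒰
  refine ⟨𝒰, fun u hu => (Finset.mem_filter.1 hu).2, ?_⟩
  have hsub : ∀ u, Ioo (a u) (b u) ⊆ cell M u := fun u =>
    Ioo_subset_Ioo (le_max_right _ _) (min_le_right _ _)
  obtain ⟨-, hvol⟩ := volume_uncovered 𝒰 a b hAB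
    (fun u hu => ⟨le_max_left _ _, (Finset.mem_filter.1 hu).2.2.le, min_le_left _ _⟩)
    (fun u _ u' _ h => (cell_disjoint hM0 h).mono (hsub u) (hsub u'))
  set S := Finset.Icc ⌊2 * A - 1⌋ ⌈2 * B + 1⌉ with hS
  have hcov : (Ioo A B \ ⋃ u ∈ 𝒰, Ioo (a u) (b u)) ⊆
      range (fun u : ℤ => ((u : ℝ) - 1 / 2) / M) ∪
        ⋃ n ∈ S, Ioo ((n : ℝ) / 2 - 2 * ε) ((n : ℝ) / 2 + 2 * ε) := by
    rintro x ⟨⟨hx1, hx2⟩, hx⟩
    set u := ⌊x * M + 1 / 2⌋ with hu
    have hu1 : (u : ℝ) ≤ x * M + 1 / 2 := Int.floor_le _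
    have hu2 : x * M + 1 / 2 < u + 1 := Int.lt_floor_add_one _
    rcases eq_or_lt_of_le hu1 with he | hlt
    · left
      refine ⟨u, ?_⟩
      show ((u : ℝ) - 1 / 2) / M = x
      rw [div_eq_iff hM'.ne']; linarith
    right
    have hxa : a u < x := max_lt hx1 (by rw [div_lt_iff₀ hM']; linarith)
    have hxb : x < b u := lt_min hx2 (by rw [lt_div_iff₀ hM']; linarith)
    have hng : ¬ Good ε (ctr M u) := by
      intro hg
      apply hx
      refine mem_iUnion₂.2 ⟨u, Finset.mem_filter.2 ⟨Finset.mem_Icc.2 ⟨?_, ?_⟩, hg, hxa.trans hxb⟩,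
        hxa, hxb⟩
      · have h1 : A * M ≤ x * M := mul_le_mul_of_nonneg_right hx1.le hM'.le
        have h2 := Int.floor_le (A * M - 1)
        have : ((⌊A * M - 1⌋ : ℤ) : ℝ) ≤ u := by linarith
        exact_mod_cast this
      · have h1 : x * M ≤ B * M := mul_le_mul_of_nonneg_right hx2.le hM'.le
        have h2 := Int.le_ceil (B * M + 1)
        have : (u : ℝ) ≤ ((⌈B * M + 1⌉ : ℤ) : ℝ) := by linarith
        exact_mod_cast this
    simp only [Good, not_forall, not_le] at hng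
    obtain ⟨n, hn⟩ := hng
    have hc := ctr_add hM0 u
    have hd : |x - (u : ℝ) / M| ≤ ε := by
      have e : x - (u : ℝ) / M = (x * M - u) / M := by field_simp
      rw [e, abs_div, abs_of_pos hM', div_le_iff₀ hM', abs_le]
      constructor <;> linarith
    rw [abs_lt] at hn
    rw [abs_le] at hd
    have e : ((n + 2 * (u / M) : ℤ) : ℝ) / 2 = (n : ℝ) / 2 + ((u / M : ℤ) : ℝ) := by
      push_cast; ring
    have h1 : ((n + 2 * (u / M) : ℤ) : ℝ) / 2 - 2 * ε < x := by rw [e]; linarith [hn.1, hd.1]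
    have h2 : x < ((n + 2 * (u / M) : ℤ) : ℝ) / 2 + 2 * ε := by rw [e]; linarith [hn.2, hd.2]
    refine mem_iUnion₂.2 ⟨n + 2 * (u / M), Finset.mem_Icc.2 ⟨?_, ?_⟩, h1, h2⟩
    · have h3 := Int.floor_le (2 * A - 1)
      have : ((⌊2 * A - 1⌋ : ℤ) : ℝ) ≤ ((n + 2 * (u / M) : ℤ) : ℝ) := by linarith
      exact_mod_cast this
    · have h3 := Int.le_ceil (2 * B + 1)
      have : ((n + 2 * (u / M) : ℤ) : ℝ) ≤ ((⌈2 * B + 1⌉ : ℤ) : ℝ) := by linarith
      exact_mod_cast this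
  have hle := (measure_mono (μ := volume) hcov).trans (measure_union_le _ _)
  rw [hvol, (countable_range _).measure_zero, zero_add] at hle
  have hle2 := hle.trans (measure_biUnion_finset_le _ _)
  have e : ∑ n ∈ S, volume (Ioo ((n : ℝ) / 2 - 2 * ε) ((n : ℝ) / 2 + 2 * ε)) =
      ENNReal.ofReal (S.card * (4 * ε)) := by
    rw [Finset.sum_congr rfl (g := fun _ => ENNReal.ofReal (4 * ε))
      (fun n _ => by rw [Real.volume_Ioo]; congr 1; ring), Finset.sum_const, nsmul_eq_mul,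
      ENNReal.ofReal_mul (Nat.cast_nonneg _), ENNReal.ofReal_natCast]
  rw [e] at hle2
  exact (ENNReal.ofReal_le_ofReal_iff (by positivity)).1 hle2

/-- * `b₁ = 0`: one cell `u = b₂ M / q`, whose centre is `th = b₂/q`; it is at distance
  `≥ 1/(2q)` from `½ ℤ` because `q` is odd and `q ∤ b₂`.
* `b₁ ≠ 0`: by `Term.arc` the image is an arc `(A, B)`; take the good `u` whose cell meets `(A, B)`
  and the preimages of the intersections.  A point of the arc outside these cells is a cell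
  endpoint or within `ε + 1/M ≤ 2 ε` of `½ ℤ`, so (`volume_uncovered`) the uncovered length is at
  most `(2 (B - A) + 3) · 4 ε / |b₁ ρ|` (for `ε ≤ 1/4`). -/
theorem split {q : ℕ} (hq : Odd q) {V : ℝ → ℝ} (hV : SP V) (t : Term) {ρ : ℝ}
    (hA : Aff V t.l t.r ρ) (hNI : t.b₁ ≠ 0 ∨ ¬ (q : ℤ) ∣ t.b₂) {a : ℝ} (ha : 0 < a) :
    ∃ ε₀ > 0, ∃ X₀ : ℝ, ∀ ε : ℝ, 0 < ε → ε ≤ ε₀ → ∀ M : ℕ, q ∣ M → 1 ≤ ε * M →
      ∃ (𝒰 : Finset ℤ) (l' r' : ℤ → ℝ),
        (∀ u ∈ 𝒰, Good ε (ctr M u) ∧ t.l ≤ l' u ∧ l' u < r' u ∧ r' u ≤ t.r ∧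
          |(t.b₂ : ℝ) / q - (u / M : ℤ)| ≤ X₀ ∧ ∀ y ∈ Ioo (l' u) (r' u), t.th q V y ∈ cell M u) ∧
        t.r - t.l - ∑ u ∈ 𝒰, (r' u - l' u) ≤ a := by
  have pos : ∀ {ε : ℝ} {M : ℕ}, 0 < ε → 1 ≤ ε * M → (0 : ℝ) < M := by
    intro ε M hε hM
    by_contra h
    have : ε * M ≤ 0 := mul_nonpos_of_nonneg_of_nonpos hε.le (not_lt.1 h)
    linarith
  by_cases hb : t.b₁ = 0
  · have hnd : ¬ (q : ℤ) ∣ t.b₂ := hNI.resolve_left (not_not.2 hb)
    have hq0 : (0 : ℝ) < q := by exact_mod_cast hq.pos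
    refine ⟨1 / (2 * q), by positivity, 1, fun ε hε hε' M hqM hM => ?_⟩
    obtain ⟨u, h1, h2, h3⟩ := sp_split_zero hq hnd hε' (by exact_mod_cast pos hε hM) hqM
    refine ⟨{u}, fun _ => t.l, fun _ => t.r, fun u' hu' => ?_, by simp [ha.le]⟩
    rw [Finset.mem_singleton.1 hu']
    refine ⟨h1, le_rfl, hA.2.1, le_rfl, h2, fun y _ => ?_⟩
    simpa [Term.th, hb] using h3
  · obtain ⟨A, B, hAB, hlen, -, -, -, hsub, -⟩ := t.arc q hA hb
    have hs : 0 < |t.b₁ * ρ| := abs_pos.2 (mul_ne_zero (by exact_mod_cast hb) hA.2.2.2.1)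
    set s := |t.b₁ * ρ| with hsdef
    set c : ℝ := ((Finset.Icc ⌊2 * A - 1⌋ ⌈2 * B + 1⌉).card : ℝ) with hc
    have hc0 : 0 ≤ c := Nat.cast_nonneg _
    refine ⟨min (1 / 4) (a * s / (4 * (c + 1))), by positivity,
      |(t.b₂ : ℝ) / q| + |A| + |B| + 2, fun ε hε hε' M hqM hM => ?_⟩
    have hM' := pos hε hM
    have hM0 : 0 < M := by exact_mod_cast hM'
    have hM1 : (1 : ℝ) ≤ M := by exact_mod_cast hM0
    obtain ⟨𝒰, h1, h2⟩ := sp_cover hAB.le hε (hε'.trans (min_le_left _ _)) hM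
    have hex : ∀ u : ℤ, ∃ l' r' : ℝ, u ∈ 𝒰 → t.l ≤ l' ∧ l' < r' ∧ r' ≤ t.r ∧
        min B (((u : ℝ) + 1 / 2) / M) - max A (((u : ℝ) - 1 / 2) / M) = s * (r' - l') ∧
        t.th q V '' Ioo l' r' =
          Ioo (max A (((u : ℝ) - 1 / 2) / M)) (min B (((u : ℝ) + 1 / 2) / M)) := by
      intro u
      by_cases hu : u ∈ 𝒰
      · obtain ⟨l', r', h⟩ := hsub _ _ (le_max_left _ _) (h1 u hu).2 (min_le_left _ _)
        exact ⟨l', r', fun _ => h⟩
      · exact ⟨0, 0, fun h => absurd h hu⟩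
    choose l' r' hlr using hex
    refine ⟨𝒰, l', r', fun u hu => ?_, ?_⟩
    · obtain ⟨g1, g2, g3, -, g5⟩ := hlr u hu
      refine ⟨(h1 u hu).1, g1, g2, g3, ?_, fun y hy => ?_⟩
      · have k1 : A < ((u : ℝ) + 1 / 2) / M :=
          ((le_max_left _ _).trans_lt (h1 u hu).2).trans_le (min_le_right _ _)
        have k2 : ((u : ℝ) - 1 / 2) / M < B :=
          ((le_max_right _ _).trans_lt (h1 u hu).2).trans_le (min_le_left _ _)
        have k3 : (1 / 2 : ℝ) / M ≤ 1 := by rw [div_le_one hM']; linarith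
        rw [add_div] at k1
        rw [sub_div] at k2
        have k4 := ctr_add hM0 u
        have k5 := sp_ctr_mem hM0 u
        have k6 := le_abs_self ((t.b₂ : ℝ) / q)
        have k7 := neg_abs_le ((t.b₂ : ℝ) / q)
        have k8 := neg_abs_le A
        have k9 := le_abs_self B
        have k10 := abs_nonneg A
        have k11 := abs_nonneg B
        rw [abs_le]
        constructor <;> linarith [k5.1, k5.2]
      · have : t.th q V y ∈ t.th q V '' Ioo (l' u) (r' u) := mem_image_of_mem _ hy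
        rw [g5] at this
        exact Ioo_subset_Ioo (le_max_right _ _) (min_le_right _ _) this
    · rw [Finset.sum_congr rfl fun u hu => (hlr u hu).2.2.2.1, ← Finset.mul_sum, hlen, ← mul_sub]
        at h2
      have h3 : ε ≤ a * s / (4 * (c + 1)) := hε'.trans (min_le_right _ _)
      rw [le_div_iff₀ (by positivity)] at h3
      refine le_of_mul_le_mul_left (a := s) ?_ hs
      nlinarith

end Crest.Agent.R81
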