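import Crest.Agent.R81.Transfer
import Crest.Agent.R81.Split
import Crest.Agent.R81.Chirp

/-! Row 81: expansion in the frequencies of the time shift. -/

set_option autoImplicit false

open MeasureTheory Set Crest.AnalysisR.Torus3
open Crest.Agent.R75 (e)
open scoped ContDiff ComplexConjugate

namespace Crest.Agent.R81
theorem Des.bm_expn {q : ℕ} {ε X : ℝ} (D : Des q ε X) {V : ℝ → ℝ} (hV : SP V) (c : ℕ) (t : Term)
    (τ : ℝ) (𝒰 : Finset ℤ) (l' r' : ℤ → ℝ) : BM (D.expn V c t τ 𝒰 l' r') := by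
  unfold Des.expn
  refine BM.sum _ fun u _ => BM.sum _ fun N _ => BM.sum _ fun g _ => BM.mul ?_ (Term.bm_fn _)
  exact (bm_chirpFn hV.1.continuous.measurable t _ _ _ _).comp (measurable_pi_apply 1)

theorem ex_M_pos {q : ℕ} {ε X : ℝ} (D : Des q ε X) : 0 < D.M := by
  rcases Nat.eq_zero_or_pos D.M with h | h
  · have := D.M_big
    rw [h] at this
    norm_num at this
  · exact h

theorem ex_bm_trig (K : Finset ℤ) (a : ℤ → ℂ) (n : ℤ → ℤ) :
    BM fun β : ℝ => ∑ N ∈ K, a N * e (n N * β) :=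
  BM.sum _ fun _ _ => (BM.const _).mul (BM.exp (measurable_id.const_mul _))

theorem ex_sqrt_le {f : ℝ → ℂ} {B : ℝ} (hB : 0 ≤ B) (h : ∫ y in (0 : ℝ)..1, ‖f y‖ ^ 2 ≤ B ^ 2) :
    √(∫ y in (0 : ℝ)..1, ‖f y‖ ^ 2) ≤ B := Real.sqrt_le_iff.mpr ⟨hB, h⟩

/-- One-dimensional core: `θ = θ₀ + j + δ`; off `bad`, `e (j U β) = e (-j β)`;
`|e (δ U) - 1| ≤ 2π ε/2`; `bessel_id` and `mass` for `e (θ₀ U)`; the factors `v N` cost
`(∑ ‖zc‖² ‖v N - 1‖²)^{1/2} ≤ 13 · 2 ε`.  Total `≤ 2√ε + π ε + √ε + 26 ε`. -/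
theorem Des.expn_core {q : ℕ} {ε X : ℝ} (D : Des q ε X) (hε : 0 < ε) (hε1 : ε ≤ 1) (u : ℤ)
    (hu : Good ε (ctr D.M u)) {θ : ℝ} (hθ : θ ∈ cell D.M u) (v : ℤ → ℂ)
    (hv : ∀ N ∈ D.act (ctr D.M u), ‖v N - 1‖ ≤ 26 * ε) :
    ∫ β in (0 : ℝ)..1, ‖e (θ * D.U β) - ∑ N ∈ D.act (ctr D.M u),
      zc D.U (ctr D.M u) N * v N * e ((N - u / D.M : ℤ) * β)‖ ^ 2 ≤ 33 ^ 2 * ε := by
  have hM := ex_M_pos D
  have hM' : (0 : ℝ) < D.M := by exact_mod_cast hM
  have hU : Measurable D.U := D.U_sp.1.continuous.measurable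
  set θ₀ := ctr D.M u with hθ₀
  set j : ℤ := u / D.M with hj
  set K := D.act θ₀ with hK
  set δ : ℝ := θ - θ₀ - j with hδ
  have hδ1 : |δ| ≤ 1 / (2 * D.M) := by
    have h1 := ctr_add hM u
    obtain ⟨h2, h3⟩ := hθ
    have h4 : ((u : ℝ) - 1 / 2) / D.M = u / D.M - 1 / (2 * D.M) := by field_simp
    have h5 : ((u : ℝ) + 1 / 2) / D.M = u / D.M + 1 / (2 * D.M) := by field_simp
    rw [abs_le]
    constructor <;> linarith
  set f1 : ℝ → ℂ := fun β => e (θ * D.U β + j * β) - e (θ₀ * D.U β + δ * D.U β) with hf1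
  set f2 : ℝ → ℂ := fun β => e (θ₀ * D.U β + δ * D.U β) - e (θ₀ * D.U β) with hf2
  set f3 : ℝ → ℂ := fun β => e (θ₀ * D.U β) - ∑ N ∈ K, zc D.U θ₀ N * e (N * β) with hf3
  set f4 : ℝ → ℂ := fun β => ∑ N ∈ K, zc D.U θ₀ N * (1 - v N) * e (N * β) with hf4
  have b0 : BM fun β => e (θ₀ * D.U β) := BM.exp (hU.const_mul _)
  have b0' : BM fun β => e (θ₀ * D.U β + δ * D.U β) := BM.exp ((hU.const_mul _).add (hU.const_mul _))
  have b1 : BM f1 := (BM.exp ((hU.const_mul _).add (measurable_id.const_mul _))).sub b0'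
  have b2 : BM f2 := b0'.sub b0
  have b3 : BM f3 := b0.sub (ex_bm_trig K _ id)
  have b4 : BM f4 := ex_bm_trig K _ id
  have hs : 0 < √ε := Real.sqrt_pos.mpr hε
  have hs2 : √ε ^ 2 = ε := Real.sq_sqrt hε.le
  have hs3 : ε ≤ √ε := by
    have : √ε ≤ 1 := Real.sqrt_le_one.mpr hε1
    nlinarith
  have e1 : √(∫ β in (0 : ℝ)..1, ‖f1 β‖ ^ 2) ≤ 2 * √ε := by
    refine ex_sqrt_le (by positivity) ?_
    have h1 := D.toKL.integral_bad hε.le (q := 1) one_pos 0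
    simp only [Nat.cast_one, one_mul, add_zero] at h1
    have h2 : IntervalIntegrable (D.bad.indicator (fun _ => (1 : ℝ))) volume 0 1 := by
      rw [intervalIntegrable_iff]
      exact (integrableOn_const (by simp)).indicator D.bad_meas
    calc ∫ β in (0 : ℝ)..1, ‖f1 β‖ ^ 2
        ≤ ∫ β in (0 : ℝ)..1, 4 * D.bad.indicator (fun _ => (1 : ℝ)) β := by
          refine intervalIntegral.integral_mono_on zero_le_one (b1.intervalIntegrable_sq _ _)
            (h2.const_mul _) fun β _ => ?_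
          by_cases hβ : β ∈ D.bad
          · rw [indicator_of_mem hβ]
            have := R75.norm_e_sub_e_le_two (θ * D.U β + j * β) (θ₀ * D.U β + δ * D.U β)
            have h0 := norm_nonneg (f1 β)
            simp only [hf1] at h0 ⊢
            nlinarith
          · obtain ⟨n, hn⟩ := D.int_U β hβ
            have : e (θ * D.U β + j * β) = e (θ₀ * D.U β + δ * D.U β) := by
              refine R75.e_eq_of_sub_int (j * n) ?_
              push_cast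
              rw [← hn, hδ]
              ring
            rw [indicator_of_notMem hβ]
            simp [hf1, this]
      _ ≤ (2 * √ε) ^ 2 := by
          rw [intervalIntegral.integral_const_mul, mul_pow, hs2]
          linarith
  have e2 : √(∫ β in (0 : ℝ)..1, ‖f2 β‖ ^ 2) ≤ 4 * √ε := by
    refine ex_sqrt_le (by positivity) ?_
    calc ∫ β in (0 : ℝ)..1, ‖f2 β‖ ^ 2 ≤ ∫ β in (0 : ℝ)..1, (4 * √ε) ^ 2 := by
          refine intervalIntegral.integral_mono_on zero_le_one (b2.intervalIntegrable_sq _ _)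
            intervalIntegrable_const fun β _ => ?_
          refine pow_le_pow_left₀ (norm_nonneg _) ?_ 2
          refine (R75.norm_e_sub_e_le _ _).trans ?_
          rw [add_sub_cancel_left, abs_mul]
          have h1 : |δ| * |D.U β| ≤ 1 / (2 * D.M) * (ε * D.M) :=
            mul_le_mul hδ1 (D.U_M β) (abs_nonneg _) (by positivity)
          have h2 : 1 / (2 * (D.M : ℝ)) * (ε * D.M) = ε / 2 := by field_simp
          have h3 := Real.pi_le_four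
          have h4 := Real.pi_pos
          rw [h2] at h1
          calc 2 * Real.pi * (|δ| * |D.U β|) ≤ 2 * Real.pi * (ε / 2) := by gcongr
            _ ≤ 2 * 4 * (√ε / 2) := by gcongr
            _ = 4 * √ε := by ring
      _ = (4 * √ε) ^ 2 := by simp
  have e3 : √(∫ β in (0 : ℝ)..1, ‖f3 β‖ ^ 2) ≤ √ε := by
    refine Real.sqrt_le_sqrt ?_
    have h1 := bessel_id b0 K
    have h2 := D.mass θ₀ (cell_subset hM hε hu).2 hu
    simp only [R75.norm_e, one_pow, intervalIntegral.integral_const, sub_zero, smul_eq_mul,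
      mul_one] at h1
    have h3 : ∫ β in (0 : ℝ)..1, ‖f3 β‖ ^ 2 = 1 - ∑ N ∈ K, ‖zc D.U θ₀ N‖ ^ 2 := h1
    rw [h3]
    linarith
  have e4 : √(∫ β in (0 : ℝ)..1, ‖f4 β‖ ^ 2) ≤ 26 * √ε := by
    refine ex_sqrt_le (by positivity) ?_
    have h1 := integral_normSq_sum K fun N => zc D.U θ₀ N * (1 - v N)
    have h2 := bessel_zc hU θ₀ K id (Set.injOn_id _)
    have h3 : ∫ β in (0 : ℝ)..1, ‖f4 β‖ ^ 2 = ∑ N ∈ K, ‖zc D.U θ₀ N * (1 - v N)‖ ^ 2 := h1
    rw [h3]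
    calc ∑ N ∈ K, ‖zc D.U θ₀ N * (1 - v N)‖ ^ 2
        ≤ ∑ N ∈ K, ‖zc D.U θ₀ (id N)‖ ^ 2 * (26 * √ε) ^ 2 := by
          refine Finset.sum_le_sum fun N hN => ?_
          rw [norm_mul, mul_pow, norm_sub_rev]
          have := (hv N hN).trans (by linarith : 26 * ε ≤ 26 * √ε)
          gcongr
          exact le_rfl
      _ ≤ 1 * (26 * √ε) ^ 2 := by rw [← Finset.sum_mul]; gcongr
      _ = _ := one_mul _
  have key : ∀ β : ℝ, ‖e (θ * D.U β) - ∑ N ∈ K, zc D.U θ₀ N * v N * e ((N - j : ℤ) * β)‖ =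
      ‖f1 β + f2 β + f3 β + f4 β‖ := by
    intro β
    have h1 : f1 β + f2 β + f3 β + f4 β =
        (e (θ * D.U β) - ∑ N ∈ K, zc D.U θ₀ N * v N * e ((N - j : ℤ) * β)) * e (j * β) := by
      have h2 : ∀ N : ℤ, e (N * β) = e ((N - j : ℤ) * β) * e (j * β) := by
        intro N
        rw [← R75.e_add]
        congr 1
        push_cast
        ring
      have h3 : ∑ N ∈ K, zc D.U θ₀ N * (1 - v N) * e (N * β) =
          ∑ N ∈ K, zc D.U θ₀ N * e (N * β) -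
            (∑ N ∈ K, zc D.U θ₀ N * v N * e ((N - j : ℤ) * β)) * e (j * β) := by
        rw [Finset.sum_mul, ← Finset.sum_sub_distrib]
        refine Finset.sum_congr rfl fun N _ => ?_
        rw [h2 N]
        ring
      simp only [hf1, hf2, hf3, hf4]
      rw [h3, R75.e_add (θ * D.U β)]
      ring
    rw [h1, norm_mul, R75.norm_e, mul_one]
  simp only [key]
  have t1 := sqrt_integral_add_le ((b1.add b2).add b3) b4
  have t2 := sqrt_integral_add_le (b1.add b2) b3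
  have t3 := sqrt_integral_add_le b1 b2
  have t4 : √(∫ β in (0 : ℝ)..1, ‖f1 β + f2 β + f3 β + f4 β‖ ^ 2) ≤ 33 * √ε := by linarith
  have t5 := Real.sqrt_le_iff.mp t4
  rw [mul_pow, hs2] at t5
  exact t5.2

section
variable {q : ℕ} {ε X : ℝ} (D : Des q ε X) (V : ℝ → ℝ) (c : ℕ) (t : Term) (τ : ℝ) (𝒰 : Finset ℤ)
  (l' r' : ℤ → ℝ)

/-- the shrunken segment -/
def Des.sseg (g : Fin D.nG) : Set ℝ :=
  Ioo (D.toKL.segL g + τ * D.lam) (D.toKL.segL g + D.lam - τ * D.lam)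

theorem ex_newTerm_zero {z : R3} (hz : z 2 ∈ Ioo (0 : ℝ) 1) {g : Fin D.nG} (hg : z 2 ∉ D.sseg τ g)
    (u N : ℤ) (co : ℂ) : (D.newTerm t τ 0 (u, N, g, 0) co).fn z = 0 := by
  have h1 : Int.fract (z 2) = z 2 := Int.fract_eq_self.mpr ⟨hz.1.le, hz.2⟩
  unfold Term.fn md Term.amp
  rw [h1, indicator_of_notMem (by exact hg)]
  simp

theorem ex_newTerm_eq {z : R3} (hz : z 2 ∈ Ioo (0 : ℝ) 1) {g : Fin D.nG} (hg : z 2 ∈ D.sseg τ g)
    (u N : ℤ) (co : ℂ) : (D.newTerm t τ 0 (u, N, g, 0) co).fn z =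
      co * e (((t.b₁ + t.b₂ * D.G' + (N - u / D.M) : ℤ) : ℝ) * z 2) * e (D.mode t u N * z 0) := by
  have h1 : Int.fract (z 2) = z 2 := Int.fract_eq_self.mpr ⟨hz.1.le, hz.2⟩
  unfold Term.fn md Term.amp
  rw [h1, indicator_of_mem (by exact hg)]
  simp [Des.newTerm]

theorem ex_expn_zero₁ {z : R3} (h : ∀ u ∈ 𝒰, z 1 ∉ Ioo (l' u) (r' u)) :
    D.expn V c t τ 𝒰 l' r' z = 0 := by
  refine Finset.sum_eq_zero fun u hu => Finset.sum_eq_zero fun N _ =>
    Finset.sum_eq_zero fun g _ => ?_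
  rw [chirpFn, indicator_of_notMem (h u hu), zero_mul]

theorem ex_expn_zero₂ {z : R3} (hz : z 2 ∈ Ioo (0 : ℝ) 1) (h : ∀ g, z 2 ∉ D.sseg τ g) :
    D.expn V c t τ 𝒰 l' r' z = 0 := by
  refine Finset.sum_eq_zero fun u _ => Finset.sum_eq_zero fun N _ =>
    Finset.sum_eq_zero fun g _ => ?_
  rw [ex_newTerm_zero D t τ hz (h g), mul_zero]

theorem ex_norm_mod (z : R3) : ‖D.mod V c t z‖ ≤ ‖t.d‖ := by
  unfold Des.mod Term.amp
  rw [norm_mul, norm_mul, R75.norm_e, mul_one]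
  refine mul_le_of_le_one_right (norm_nonneg _) ?_
  by_cases h : z 1 ∈ Ioo t.l t.r
  · rw [indicator_of_mem h, R75.norm_e]
  · rw [indicator_of_notMem h, norm_zero]; exact zero_le_one

theorem ex_sseg_sub {τ : ℝ} (hτ0 : 0 ≤ τ) (g : Fin D.nG) :
    D.sseg τ g ⊆ Ioo (D.toKL.segL g) (D.toKL.segL g + D.lam) := by
  have : 0 ≤ τ * D.lam := mul_nonneg hτ0 D.lam_pos.le
  exact Ioo_subset_Ioo (by linarith) (by linarith)

theorem ex_sseg_disj {τ : ℝ} (hτ0 : 0 ≤ τ) {g g' : Fin D.nG} (h : g ≠ g') :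
    Disjoint (D.sseg τ g) (D.sseg τ g') :=
  (D.toKL.seg_disj h).mono ((ex_sseg_sub D hτ0 g).trans Ioo_subset_Icc_self)
    ((ex_sseg_sub D hτ0 g').trans Ioo_subset_Icc_self)

/-- the difference on a good slice -/
theorem ex_diff (hq : 0 < q) {τ : ℝ} (hτ0 : 0 ≤ τ) {u : ℤ} (hu : u ∈ 𝒰) {g : Fin D.nG}
    {z₁ z₂ : ℝ} (hz : z₂ ∈ Ioo (0 : ℝ) 1) (h1 : z₁ ∈ Ioo (l' u) (r' u)) (h1' : z₁ ∈ Ioo t.l t.r)
    (h1'' : ∀ u' ∈ 𝒰, u' ≠ u → z₁ ∉ Ioo (l' u') (r' u')) (h2 : z₂ ∈ D.sseg τ g) (z₀ : ℝ) :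
    ‖D.mod V c t ![z₀, z₁, z₂] - D.expn V c t τ 𝒰 l' r' ![z₀, z₁, z₂]‖ = ‖t.d‖ *
      ‖e (t.th q V z₁ * D.U (q * z₀ + (z₂ - z₁ * deriv D.Ω z₂))) - ∑ N ∈ D.act (ctr D.M u),
        zc D.U (ctr D.M u) N * e (D.mode t u N / q * z₁ * (deriv D.Ω z₂ - D.w g)) *
          e ((N - u / D.M : ℤ) * (q * z₀ + (z₂ - z₁ * deriv D.Ω z₂)))‖ := by
  have hq' : (q : ℝ) ≠ 0 := by exact_mod_cast hq.ne'
  set P : ℝ := t.μ * z₁ + q * c * (t.b₁ * V z₁) + (t.b₁ + t.b₂ * D.G') * z₂ +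
    t.b₂ * (z₀ - z₁ * deriv D.Ω z₂ / q) with hP
  have hβ : z₂ + q * (z₀ - z₁ * deriv D.Ω z₂ / q) = q * z₀ + (z₂ - z₁ * deriv D.Ω z₂) := by
    field_simp
    ring
  have e1 : D.mod V c t ![z₀, z₁, z₂] =
      t.d * e P * e (t.th q V z₁ * D.U (q * z₀ + (z₂ - z₁ * deriv D.Ω z₂))) := by
    unfold Des.mod Term.amp
    simp only [Matrix.cons_val_zero, Matrix.cons_val_one, Matrix.cons_val]
    rw [indicator_of_mem h1', hβ, mul_assoc t.d, mul_assoc t.d, ← R75.e_add, ← R75.e_add]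
    congr 2
    rw [hP]
    ring
  have e2 : D.expn V c t τ 𝒰 l' r' ![z₀, z₁, z₂] = t.d * e P * ∑ N ∈ D.act (ctr D.M u),
        zc D.U (ctr D.M u) N * e (D.mode t u N / q * z₁ * (deriv D.Ω z₂ - D.w g)) *
          e ((N - u / D.M : ℤ) * (q * z₀ + (z₂ - z₁ * deriv D.Ω z₂))) := by
    unfold Des.expn
    rw [Finset.sum_eq_single_of_mem u hu, Finset.mul_sum]
    · refine Finset.sum_congr rfl fun N _ => ?_
      rw [Finset.sum_eq_single g]
      · rw [ex_newTerm_eq D t τ (z := ![z₀, z₁, z₂]) hz h2, chirpFn]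
        simp only [Matrix.cons_val_zero, Matrix.cons_val_one, Matrix.cons_val]
        rw [indicator_of_mem h1]
        have : ∀ a1 a2 a3 b1 b2 b3 : ℝ, a1 + a2 + a3 = b1 + b2 + b3 → ∀ x y : ℂ,
            e a1 * (x * y * e a2 * e a3) = x * e b1 * (y * e b2 * e b3) := by
          intro a1 a2 a3 b1 b2 b3 h x y
          have h' : e a1 * e a2 * e a3 = e b1 * e b2 * e b3 := by
            simp only [← R75.e_add, h]
          linear_combination x * y * h'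
        apply this
        rw [hP]
        unfold Des.mode
        push_cast
        field_simp
        ring
      · intro g' _ hg'
        rw [ex_newTerm_zero D t τ (z := ![z₀, z₁, z₂]) hz
          (fun h => Set.disjoint_left.mp (ex_sseg_disj D hτ0 hg') h h2), mul_zero]
      · intro h
        exact absurd (Finset.mem_univ g) h
    · intro u' hu' hne
      refine Finset.sum_eq_zero fun N _ => Finset.sum_eq_zero fun g _ => ?_
      rw [chirpFn, indicator_of_notMem (by exact h1'' u' hu' hne), zero_mul]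
  rw [e1, e2, ← mul_sub, norm_mul, norm_mul, R75.norm_e, mul_one]

end

/-- For `z 1 ∈ (l' u, r' u)` and `z 2` in the shrunken segment `g`, only these `u`, `g` contribute,
and with `β = z 2 + q z♭` the difference is a unimodular multiple of
`d (e (θ U β) - ∑_N zc N · v N · e ((N - j) β))`, `v N = e (mode/q · z 1 · (ω (z 2) - w g))`,
`|mode/q| ≤ |N| + X`; use `expn_core` and `integral_periodic_scale`.  Otherwise `expn = 0` and
`‖mod‖ ≤ ‖d‖`.  The exceptional sets have measure `≤ a` and `≤ 3 ε` (`volume_uncovered`). -/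
theorem Des.expn_approx {q : ℕ} (hq : 0 < q) {ε X : ℝ} (D : Des q ε X) (hε : 0 < ε)
    (hε1 : ε ≤ 1 / 4) {V : ℝ → ℝ} (hV : SP V) (c : ℕ) (t : Term) {τ : ℝ} (hτ0 : 0 ≤ τ) (hτ : τ ≤ ε)
    (𝒰 : Finset ℤ) (l' r' : ℤ → ℝ) {a : ℝ} (hlr : t.l ≤ t.r)
    (h𝒰 : ∀ u ∈ 𝒰, Good ε (ctr D.M u) ∧ t.l ≤ l' u ∧ l' u < r' u ∧ r' u ≤ t.r ∧
      |(t.b₂ : ℝ) / q - (u / D.M : ℤ)| ≤ X ∧ ∀ y ∈ Ioo (l' u) (r' u), t.th q V y ∈ cell D.M u)
    (ha : t.r - t.l - ∑ u ∈ 𝒰, (r' u - l' u) ≤ a) :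
    n2 (fun z => D.mod V c t z - D.expn V c t τ 𝒰 l' r' z) ≤
      ‖t.d‖ * √(33 ^ 2 * ε + (a + 3 * ε)) := by
  have hM := ex_M_pos D
  have hq' : (q : ℝ) ≠ 0 := by exact_mod_cast hq.ne'
  have hlam := D.lam_pos
  have hdis : ∀ u ∈ 𝒰, ∀ u' ∈ 𝒰, u ≠ u' → Disjoint (Ioo (l' u) (r' u)) (Ioo (l' u') (r' u')) :=
    fun u hu u' hu' hne => Set.disjoint_left.mpr fun y h1 h2 =>
      Set.disjoint_left.mp (cell_disjoint hM hne) ((h𝒰 u hu).2.2.2.2.2 y h1)
        ((h𝒰 u' hu').2.2.2.2.2 y h2)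
  obtain ⟨a1, a2⟩ := volume_uncovered 𝒰 l' r' hlr
    (fun u hu => ⟨(h𝒰 u hu).2.1, (h𝒰 u hu).2.2.1.le, (h𝒰 u hu).2.2.2.1⟩) hdis
  have hτl : 0 ≤ τ * D.lam := mul_nonneg hτ0 hlam.le
  obtain ⟨-, a4⟩ := volume_uncovered (Finset.univ : Finset (Fin D.nG))
    (fun g => D.toKL.segL g + τ * D.lam) (fun g => D.toKL.segL g + D.lam - τ * D.lam) zero_le_one
    (fun g _ => ⟨by linarith [D.toKL.segL_pos g], by nlinarith, by linarith [D.toKL.segR_lt g]⟩)
    (fun g _ g' _ hne => ex_sseg_disj D hτ0 hne)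
  have hbm : BM fun z => D.mod V c t z - D.expn V c t τ 𝒰 l' r' z :=
    (D.bm_mod hV c t).sub (D.bm_expn hV c t τ 𝒰 l' r')
  have good : ∀ z₁ ∈ Ioo (0 : ℝ) 1, ∀ z₂ ∈ Ioo (0 : ℝ) 1, ∀ u ∈ 𝒰, ∀ g, z₁ ∈ Ioo (l' u) (r' u) →
      z₂ ∈ D.sseg τ g → ∫ z₀ in (0 : ℝ)..1,
        ‖D.mod V c t ![z₀, z₁, z₂] - D.expn V c t τ 𝒰 l' r' ![z₀, z₁, z₂]‖ ^ 2 ≤
          ‖t.d‖ ^ 2 * (33 ^ 2 * ε) := by
    intro z₁ hz₁ z₂ hz₂ u hu g h1 h2
    obtain ⟨b1, b2, b3, b4, b5, b6⟩ := h𝒰 u hu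
    have h1' : z₁ ∈ Ioo t.l t.r := ⟨b2.trans_lt h1.1, h1.2.trans_le b4⟩
    simp only [ex_diff D V c t 𝒰 l' r' hq hτ0 hu hz₂ h1 h1'
      (fun u' hu' hne h => Set.disjoint_left.mp (hdis u' hu' u hu hne) h h1) h2, mul_pow]
    rw [intervalIntegral.integral_const_mul]
    gcongr
    set F : ℝ → ℂ := fun β => e (t.th q V z₁ * D.U β) - ∑ N ∈ D.act (ctr D.M u),
        zc D.U (ctr D.M u) N * e (D.mode t u N / q * z₁ * (deriv D.Ω z₂ - D.w g)) *
          e ((N - u / D.M : ℤ) * β) with hF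
    have hFb : BM F := (BM.exp (D.U_sp.1.continuous.measurable.const_mul _)).sub
      (ex_bm_trig _ _ fun N => N - u / D.M)
    have hFp : Function.Periodic (fun β => ‖F β‖ ^ 2) 1 := by
      intro β
      simp only [hF]
      rw [D.U_sp.2 β]
      congr 3
      refine Finset.sum_congr rfl fun N _ => ?_
      rw [mul_add, mul_one, R75.e_add_int]
    have h3 := integral_periodic_scale hFp (fun a b => hFb.intervalIntegrable_sq a b) hq
      (z₂ - z₁ * deriv D.Ω z₂)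
    refine le_of_eq_of_le h3 (D.expn_core hε (by linarith) u b1 (b6 z₁ h1) _ fun N hN => ?_)
    refine (R75.norm_e_sub_one_le _).trans ?_
    have h4 := ex_sseg_sub D hτ0 g h2
    rw [D.deriv_Ω g h4, add_sub_cancel_left, abs_mul, abs_mul]
    have h5 : |(D.mode t u N : ℝ) / q| ≤ 2 * |(N : ℝ)| := by
      have : (D.mode t u N : ℝ) / q = ((t.b₂ : ℝ) / q - (u / D.M : ℤ)) + N := by
        unfold Des.mode
        push_cast
        field_simp
        ring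
      rw [this]
      refine (abs_add_le _ _).trans ?_
      have h6 := D.big _ N hN
      have h7 := abs_nonneg (N : ℝ)
      nlinarith
    have h6 : |z₁| ≤ 1 := by rw [abs_of_pos hz₁.1]; exact hz₁.2.le
    have hρ := D.ρ_pos
    have h7 : |D.ρ * (z₂ - D.toKL.segL g)| ≤ D.ρ * D.lam := by
      rw [abs_mul, abs_of_pos hρ, abs_of_pos (sub_pos.mpr h4.1)]
      gcongr
      linarith [h4.2]
    have h8 := D.short _ N hN
    have h9 := Real.pi_le_four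
    have h10 := Real.pi_pos
    calc 2 * Real.pi * (|(D.mode t u N : ℝ) / q| * |z₁| * |D.ρ * (z₂ - D.toKL.segL g)|)
        ≤ 2 * 4 * (2 * |(N : ℝ)| * 1 * (D.ρ * D.lam)) := by gcongr
      _ ≤ 26 * ε := by nlinarith
  have rough : ∀ z₁ z₂ : ℝ, (∀ z₀ : ℝ, D.expn V c t τ 𝒰 l' r' ![z₀, z₁, z₂] = 0) →
      ∫ z₀ in (0 : ℝ)..1,
        ‖D.mod V c t ![z₀, z₁, z₂] - D.expn V c t τ 𝒰 l' r' ![z₀, z₁, z₂]‖ ^ 2 ≤ ‖t.d‖ ^ 2 := by
    intro z₁ z₂ h
    have hm : Measurable fun z₀ : ℝ => (![z₀, z₁, z₂] : R3) := by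
      refine measurable_pi_lambda _ fun i => ?_
      fin_cases i
      · exact measurable_id
      · exact measurable_const
      · exact measurable_const
    calc _ ≤ ∫ z₀ in (0 : ℝ)..1, ‖t.d‖ ^ 2 := by
          refine intervalIntegral.integral_mono_on zero_le_one
            ((hbm.comp hm).intervalIntegrable_sq _ _) intervalIntegrable_const fun z₀ _ => ?_
          rw [h z₀, sub_zero]
          exact pow_le_pow_left₀ (norm_nonneg _) (ex_norm_mod D V c t _) 2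
      _ = _ := by simp
  have hA : 0 ≤ ‖t.d‖ ^ 2 * (33 ^ 2 * ε) := by positivity
  have hB : 0 ≤ ‖t.d‖ ^ 2 := by positivity
  have main := n2_le_of_slices hbm (A := ‖t.d‖ ^ 2 * (33 ^ 2 * ε)) (B := ‖t.d‖ ^ 2) (a₁ := a)
    (a₂ := 3 * ε) hA hB (E₁ := Ioo t.l t.r \ ⋃ u ∈ 𝒰, Ioo (l' u) (r' u))
    (E₂ := Ioo 0 1 \ ⋃ g ∈ (Finset.univ : Finset (Fin D.nG)), D.sseg τ g)
    (measurableSet_Ioo.diff (Finset.measurableSet_biUnion _ fun _ _ => measurableSet_Ioo))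
    (measurableSet_Ioo.diff (Finset.measurableSet_biUnion _ fun _ _ => measurableSet_Ioo))
    (a1.trans ha) (by positivity)
    ((measure_mono inter_subset_left).trans (a2.le.trans (ENNReal.ofReal_le_ofReal ha)))
    ((measure_mono inter_subset_left).trans (a4.le.trans (ENNReal.ofReal_le_ofReal ?_))) ?_ ?_
  · refine main.trans (le_of_eq ?_)
    rw [← mul_add, Real.sqrt_mul hB, Real.sqrt_sq (norm_nonneg _)]
  · have h1 : ∑ g : Fin D.nG, (D.toKL.segL g + D.lam - τ * D.lam - (D.toKL.segL g + τ * D.lam)) =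
        D.nG * D.lam * (1 - 2 * τ) := by
      rw [Finset.sum_congr rfl (g := fun _ => D.lam * (1 - 2 * τ)) fun g _ => by ring]
      simp [mul_assoc]
    rw [h1]
    have h2 := D.tot_ge
    have h3 : (1 - ε) * (1 - 2 * τ) ≤ D.nG * D.lam * (1 - 2 * τ) := by
      gcongr
      linarith
    nlinarith
  · intro z₁ hz₁ z₂ hz₂
    by_cases h1 : ∃ u ∈ 𝒰, z₁ ∈ Ioo (l' u) (r' u)
    · by_cases h2 : ∃ g, z₂ ∈ D.sseg τ g
      · obtain ⟨u, hu, h1⟩ := h1
        obtain ⟨g, h2⟩ := h2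
        exact (good z₁ hz₁ z₂ hz₂ u hu g h1 h2).trans (le_add_of_nonneg_right hB)
      · push Not at h2
        exact (rough z₁ z₂ fun z₀ => ex_expn_zero₂ D V c t τ 𝒰 l' r' hz₂ h2).trans
          (le_add_of_nonneg_left hA)
    · push Not at h1
      exact (rough z₁ z₂ fun z₀ => ex_expn_zero₁ D V c t τ 𝒰 l' r' h1).trans
        (le_add_of_nonneg_left hA)
  · intro z₁ hz₁ z₂ hz₂ hE₁ hE₂
    by_cases h1 : ∃ u ∈ 𝒰, z₁ ∈ Ioo (l' u) (r' u)
    · obtain ⟨u, hu, h1⟩ := h1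
      have h2 : ∃ g, z₂ ∈ D.sseg τ g := by
        by_contra h2
        exact hE₂ ⟨hz₂, by simpa using h2⟩
      obtain ⟨g, h2⟩ := h2
      exact good z₁ hz₁ z₂ hz₂ u hu g h1 h2
    · have h2 : z₁ ∉ Ioo t.l t.r := fun h => hE₁ ⟨h, fun h' => by
        obtain ⟨u, hu, h'⟩ := mem_iUnion₂.mp h'
        exact h1 ⟨u, hu, h'⟩⟩
      push Not at h1
      have h3 : ∀ z₀ : ℝ, D.mod V c t ![z₀, z₁, z₂] - D.expn V c t τ 𝒰 l' r' ![z₀, z₁, z₂] = 0 := by
        intro z₀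
        rw [ex_expn_zero₁ D V c t τ 𝒰 l' r' h1, Des.mod, Term.amp,
          indicator_of_notMem (by exact h2)]
        simp
      simp only [h3]
      simpa using hA

end Crest.Agent.R81
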