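import Crest.Agent.R81.Defs

/-! Row 81: a real generator from a complex one.

Let `V : L²(𝕋) → H` be the linear isometry with `V (fourier n) = U n g` (from `fourierBasis.repr` and
`hON.orthogonalFamily.linearIsometry`, or `LinearIsometry` extension); its range is the closed span
`Z` of the orbit, and `V (fourier n * φ) = U n (V φ)`.  Put `κ = V⁻¹ (J g)`.
* `⟪fourier m * κ, fourier n * κ⟫ = ⟪U m (J g), U n (J g)⟫ = δ`, so the `L¹` function `|κ|² - 1` has
  vanishing Fourier coefficients, hence integrates to zero against all continuous functions: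
  `|κ| = 1` a.e.
* `J (V φ) = V (κ φ⋆)` with `φ⋆ t = conj (φ (-t))` (true for `fourier n`, both sides are continuous
  and conjugate linear).  From `J (J g) = g`: `κ κ⋆ = 1`, so `κ (-t) = κ t` a.e.
* `s = exp (i arg κ / 2)` is unimodular, even, `s² = κ`; `g' = V s` has
  `J g' = V (κ conj s) = V s`, its orbit `V (fourier n * s)` is orthonormal, and multiplication by
  `s` is unitary, so `1` is in the closed span of the `fourier n * s`. -/

set_option autoImplicit false

open MeasureTheory Set Crest.AnalysisR.Torus3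
open Crest.Agent.R75 (e)
open scoped ContDiff ComplexConjugate

namespace Crest.Agent.R81

namespace RealAux

/-- the circle -/
abbrev XX := AddCircle (1 : ℝ)

/-- Haar measure -/
noncomputable abbrev mu : Measure XX := AddCircle.haarAddCircle

/-- `L²` of the circle -/
noncomputable abbrev LL := Lp ℂ 2 mu

/-- the monomials -/
noncomputable abbrev ff (n : ℤ) : LL := fourierLp 2 n

lemma dens_gen {E : Type*} [AddCommGroup E] [Module ℂ E] [TopologicalSpace E] [ContinuousAdd E]
    [ContinuousConstSMul ℂ E] {v : ℤ → E} {P : E → Prop} (hc : IsClosed {φ | P φ}) (h0 : P 0)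
    (ha : ∀ φ ψ, P φ → P ψ → P (φ + ψ)) (hs : ∀ (c : ℂ) φ, P φ → P (c • φ)) (hf : ∀ n, P (v n))
    {φ : E} (hφ : φ ∈ (Submodule.span ℂ (range v)).topologicalClosure) : P φ := by
  have h1 : (Submodule.span ℂ (range v) : Set E) ⊆ {φ | P φ} := by
    intro ψ hψ
    induction hψ using Submodule.span_induction with
    | mem x hx => obtain ⟨n, rfl⟩ := hx; exact hf n
    | zero => exact h0
    | add x y _ _ hx hy => exact ha x y hx hy
    | smul c x _ hx => exact hs c x hx
  exact closure_minimal h1 hc hφ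

lemma dens {P : LL → Prop} (hc : IsClosed {φ | P φ}) (h0 : P 0)
    (ha : ∀ φ ψ, P φ → P ψ → P (φ + ψ)) (hs : ∀ (c : ℂ) φ, P φ → P (c • φ)) (hf : ∀ n, P (ff n))
    (φ : LL) : P φ :=
  dens_gen hc h0 ha hs hf (by
    rw [span_fourierLp_closure_eq_top (by norm_num)]; trivial)

/-- unimodular measurable functions -/
structure Uni (s : XX → ℂ) : Prop where
  meas : Measurable s
  norm : ∀ x, ‖s x‖ = 1

lemma Uni.memLp {s : XX → ℂ} (hs : Uni s) (φ : LL) : MemLp (fun x => s x * φ x) 2 mu :=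
  (Lp.memLp φ).of_le (hs.meas.aestronglyMeasurable.mul (Lp.aestronglyMeasurable φ))
    (Filter.Eventually.of_forall fun x => by rw [norm_mul, hs.norm, one_mul])

/-- multiplication by a unimodular function -/
noncomputable def mulL {s : XX → ℂ} (hs : Uni s) : LL →ₗᵢ[ℂ] LL where
  toFun φ := (hs.memLp φ).toLp _
  map_add' φ ψ := by
    apply Lp.ext
    filter_upwards [(hs.memLp (φ + ψ)).coeFn_toLp, (hs.memLp φ).coeFn_toLp,
      (hs.memLp ψ).coeFn_toLp, Lp.coeFn_add φ ψ,
      Lp.coeFn_add ((hs.memLp φ).toLp _) ((hs.memLp ψ).toLp _)] with x h1 h2 h3 h4 h5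
    rw [h1, h5, Pi.add_apply, h2, h3, h4, Pi.add_apply, mul_add]
  map_smul' c φ := by
    apply Lp.ext
    filter_upwards [(hs.memLp (c • φ)).coeFn_toLp, (hs.memLp φ).coeFn_toLp, Lp.coeFn_smul c φ,
      Lp.coeFn_smul c ((hs.memLp φ).toLp _)] with x h1 h2 h4 h5
    rw [h1, RingHom.id_apply, h5, Pi.smul_apply, h2, h4, Pi.smul_apply, smul_eq_mul, smul_eq_mul]
    ring
  norm_map' φ := by
    show ‖(hs.memLp φ).toLp _‖ = _
    rw [Lp.norm_toLp, Lp.norm_def]
    congr 1
    exact eLpNorm_congr_norm_ae (Filter.Eventually.of_forall fun x => by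
      rw [norm_mul, hs.norm, one_mul])

lemma coe_mulL {s : XX → ℂ} (hs : Uni s) (φ : LL) : mulL hs φ =ᵐ[mu] fun x => s x * φ x :=
  (hs.memLp φ).coeFn_toLp

lemma uni_fourier (n : ℤ) : Uni (fourier n : XX → ℂ) :=
  ⟨(fourier n).continuous.measurable, fun x => by rw [fourier_apply, Circle.norm_coe]⟩

lemma mp_neg : MeasurePreserving (fun x : XX => -x) mu mu := Measure.measurePreserving_neg mu

lemma ae_neg {p : XX → Prop} (h : ∀ᵐ x ∂mu, p x) : ∀ᵐ x ∂mu, p (-x) :=
  mp_neg.quasiMeasurePreserving.ae h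

lemma cj_memLp (φ : LL) : MemLp (fun x => conj (φ (-x))) 2 mu := by
  have h := (Lp.memLp φ).comp_measurePreserving mp_neg
  exact h.of_le (Complex.continuous_conj.comp_aestronglyMeasurable h.1)
    (Filter.Eventually.of_forall fun x => by simp)

/-- conjugate reflection -/
noncomputable def cj (φ : LL) : LL := (cj_memLp φ).toLp _

lemma coe_cj (φ : LL) : cj φ =ᵐ[mu] fun x => conj (φ (-x)) := (cj_memLp φ).coeFn_toLp

lemma cj_add (φ ψ : LL) : cj (φ + ψ) = cj φ + cj ψ := by
  apply Lp.ext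
  filter_upwards [coe_cj (φ + ψ), coe_cj φ, coe_cj ψ, ae_neg (Lp.coeFn_add φ ψ),
    Lp.coeFn_add (cj φ) (cj ψ)] with x h1 h2 h3 h4 h5
  rw [h1, h5, Pi.add_apply, h2, h3, h4, Pi.add_apply, map_add]

lemma cj_smul (c : ℂ) (φ : LL) : cj (c • φ) = conj c • cj φ := by
  apply Lp.ext
  filter_upwards [coe_cj (c • φ), coe_cj φ, ae_neg (Lp.coeFn_smul c φ),
    Lp.coeFn_smul (conj c) (cj φ)] with x h1 h2 h4 h5
  rw [h1, h5, Pi.smul_apply, h2, h4, Pi.smul_apply, smul_eq_mul, smul_eq_mul, map_mul]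

lemma cj_norm (φ : LL) : ‖cj φ‖ = ‖φ‖ := by
  rw [cj, Lp.norm_toLp, Lp.norm_def]
  congr 1
  rw [← eLpNorm_comp_measurePreserving (Lp.aestronglyMeasurable φ) mp_neg]
  exact eLpNorm_congr_norm_ae (Filter.Eventually.of_forall fun x => by simp)

lemma conj_sub {E : Type*} [NormedAddCommGroup E] [NormedSpace ℂ E] {J : E → E}
    (hJa : ∀ x y, J (x + y) = J x + J y) (hJs : ∀ (c : ℂ) x, J (c • x) = conj c • J x) (x y : E) :
    J (x - y) = J x - J y := by
  have h := hJs (-1) y
  rw [map_neg, map_one, neg_one_smul, neg_one_smul] at h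
  rw [sub_eq_add_neg, hJa, h, sub_eq_add_neg]

lemma conj_cont {E : Type*} [NormedAddCommGroup E] [NormedSpace ℂ E] {J : E → E}
    (hJa : ∀ x y, J (x + y) = J x + J y) (hJs : ∀ (c : ℂ) x, J (c • x) = conj c • J x)
    (hJn : ∀ x, ‖J x‖ = ‖x‖) : Continuous J := by
  refine Isometry.continuous (Isometry.of_dist_eq fun x y => ?_)
  rw [dist_eq_norm, dist_eq_norm, ← conj_sub hJa hJs, hJn]

lemma conj_inner {H : Type*} [NormedAddCommGroup H] [InnerProductSpace ℂ H] {J : H → H}
    (hJa : ∀ x y, J (x + y) = J x + J y) (hJs : ∀ (c : ℂ) x, J (c • x) = conj c • J x)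
    (hJn : ∀ x, ‖J x‖ = ‖x‖) (x y : H) : inner ℂ (J x) (J y) = conj (inner ℂ x y) := by
  have h1 : J x - (RCLike.I : ℂ) • J y = J (x + (RCLike.I : ℂ) • y) := by
    rw [hJa, hJs]; simp [sub_eq_add_neg]
  have h2 : J x + (RCLike.I : ℂ) • J y = J (x - (RCLike.I : ℂ) • y) := by
    rw [conj_sub hJa hJs, hJs]; simp
  rw [inner_eq_sum_norm_sq_div_four, inner_eq_sum_norm_sq_div_four, h1, h2, ← hJa,
    ← conj_sub hJa hJs, hJn, hJn, hJn, hJn]
  simp only [map_div₀, map_add, map_sub, map_mul, map_pow, RCLike.conj_ofReal, RCLike.conj_I,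
    map_ofNat]
  ring

lemma mul_ff (n m : ℤ) : mulL (uni_fourier n) (ff m) = ff (n + m) := by
  apply Lp.ext
  filter_upwards [coe_mulL (uni_fourier n) (ff m), coeFn_fourierLp (T := 1) 2 m,
    coeFn_fourierLp (T := 1) 2 (n + m)] with x h1 h2 h3
  rw [h1, h2, h3, fourier_add]

lemma cj_ff (n : ℤ) : cj (ff n) = ff n := by
  apply Lp.ext
  filter_upwards [coe_cj (ff n), coeFn_fourierLp (T := 1) 2 n,
    ae_neg (coeFn_fourierLp (T := 1) 2 n)] with x h1 h2 h3
  rw [h1, h2, h3, ← fourier_neg, fourier_apply, fourier_apply, neg_smul, smul_neg, neg_neg]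

lemma int_cont (ν : Measure XX) [IsFiniteMeasure ν] :
    Continuous fun φ : C(XX, ℂ) => ∫ x, φ x ∂ν := by
  have e : (fun φ : C(XX, ℂ) => ∫ x, φ x ∂ν) =
      (fun f : Lp ℂ 1 ν => ∫ x, f x ∂ν) ∘ ContinuousMap.toLp 1 ν ℂ := by
    funext φ
    exact (integral_congr_ae (ContinuousMap.coeFn_toLp (p := 1) (𝕜 := ℂ) ν φ)).symm
  rw [e]
  exact continuous_integral.comp (ContinuousMap.toLp 1 ν ℂ).continuous

lemma int_cm (ν : Measure XX) [IsFiniteMeasure ν] (φ : C(XX, ℂ)) : Integrable φ ν :=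
  φ.continuous.integrable_of_hasCompactSupport (HasCompactSupport.of_compactSpace _)

lemma meas_ext (ν ν' : Measure XX) [IsFiniteMeasure ν] [IsFiniteMeasure ν']
    (h : ∀ n : ℤ, ∫ x, fourier n x ∂ν = ∫ x, fourier n x ∂ν') : ν = ν' := by
  have key : ∀ φ : C(XX, ℂ), ∫ x, φ x ∂ν = ∫ x, φ x ∂ν' := by
    intro φ
    refine dens_gen (P := fun φ : C(XX, ℂ) => ∫ x, φ x ∂ν = ∫ x, φ x ∂ν') (v := fourier)
      (isClosed_eq (int_cont ν) (int_cont ν')) (by simp) (fun φ ψ h1 h2 => ?_)
      (fun c φ h1 => ?_) h (by rw [span_fourier_closure_eq_top]; trivial)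
    · simp only [ContinuousMap.add_apply]
      rw [integral_add (int_cm _ _) (int_cm _ _), integral_add (int_cm _ _) (int_cm _ _), h1, h2]
    · simp only [ContinuousMap.smul_apply]
      rw [integral_smul, integral_smul, h1]
  refine ext_of_forall_integral_eq_of_IsFiniteMeasure fun f => ?_
  have h1 := key ⟨fun x => (f x : ℂ), by fun_prop⟩
  simp only [ContinuousMap.coe_mk, integral_complex_ofReal] at h1
  exact_mod_cast h1

lemma unimod (κ : LL)
    (h : ∀ n : ℤ, inner ℂ κ (mulL (uni_fourier n) κ) = inner ℂ (ff 0) (ff n)) :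
    ∀ᵐ x ∂mu, ‖κ x‖ = 1 := by
  have hm : Measurable fun x => ENNReal.ofReal (‖κ x‖ ^ 2) :=
    ((Lp.stronglyMeasurable κ).measurable.norm.pow_const 2).ennreal_ofReal
  have hi : Integrable (fun x => ‖κ x‖ ^ 2) mu := (Lp.memLp κ).norm.integrable_sq
  have := isFiniteMeasure_withDensity_ofReal hi.2
  have e : mu.withDensity (fun x => ENNReal.ofReal (‖κ x‖ ^ 2)) = mu := by
    refine meas_ext _ _ fun n => ?_
    rw [integral_withDensity_eq_integral_toReal_smul hm
      (Filter.Eventually.of_forall fun _ => ENNReal.ofReal_lt_top)]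
    have h1 := h n
    rw [L2.inner_def, L2.inner_def] at h1
    refine Eq.trans (integral_congr_ae ?_) (h1.trans (integral_congr_ae ?_))
    · filter_upwards [coe_mulL (uni_fourier n) κ] with x hx
      rw [hx, RCLike.inner_apply', ENNReal.toReal_ofReal (by positivity), Complex.real_smul,
        mul_left_comm, Complex.conj_mul', mul_comm]
      push_cast
      rfl
    · filter_upwards [coeFn_fourierLp (T := 1) 2 0, coeFn_fourierLp (T := 1) 2 n] with x h2 h3
      rw [h2, h3, RCLike.inner_apply', fourier_zero, map_one, one_mul]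
  have e2 : mu.withDensity (fun x => ENNReal.ofReal (‖κ x‖ ^ 2)) = mu.withDensity 1 := by
    rw [e, withDensity_one]
  have e3 := (withDensity_eq_iff_of_sigmaFinite hm.aemeasurable aemeasurable_one).1 e2
  filter_upwards [e3] with x hx
  rw [ENNReal.ofReal_eq_one] at hx
  exact (pow_eq_one_iff_of_nonneg (norm_nonneg _) two_ne_zero).1 hx

lemma exists_V {H : Type*} [NormedAddCommGroup H] [InnerProductSpace ℂ H] [CompleteSpace H]
    {v : ℤ → H} (hv : Orthonormal ℂ v) : ∃ V : LL →ₗᵢ[ℂ] H, ∀ n, V (ff n) = v n := by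
  refine ⟨hv.orthogonalFamily.linearIsometry.comp
    (fourierBasis (T := 1)).repr.toLinearIsometry, fun n => ?_⟩
  have e : ff n = fourierBasis (T := 1) n := by rw [coe_fourierBasis]
  rw [e, LinearIsometry.coe_comp, Function.comp_apply, LinearIsometryEquiv.coe_toLinearIsometry,
    HilbertBasis.repr_self, OrthogonalFamily.linearIsometry_apply_single]
  simp

end RealAux

open RealAux in
theorem abstract_real {H : Type*} [NormedAddCommGroup H] [InnerProductSpace ℂ H] [CompleteSpace H]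
    (U : ℤ → H →ₗᵢ[ℂ] H) (hU0 : ∀ x, U 0 x = x) (hU : ∀ m n x, U (m + n) x = U m (U n x))
    (J : H → H) (hJa : ∀ x y, J (x + y) = J x + J y) (hJs : ∀ (c : ℂ) x, J (c • x) = conj c • J x)
    (hJn : ∀ x, ‖J x‖ = ‖x‖) (hJJ : ∀ x, J (J x) = x) (hJU : ∀ n x, J (U n x) = U n (J x))
    (g : H) (hON : Orthonormal ℂ fun n => U n g)
    (hJg : J g ∈ (Submodule.span ℂ (range fun n => U n g)).topologicalClosure) :
    ∃ g' ∈ (Submodule.span ℂ (range fun n => U n g)).topologicalClosure, J g' = g' ∧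
      (Orthonormal ℂ fun n => U n g') ∧
      g ∈ (Submodule.span ℂ (range fun n => U n g')).topologicalClosure := by
  obtain ⟨V, hV⟩ := exists_V hON
  have hJc := conj_cont hJa hJs hJn
  have hJ0 : J 0 = 0 := by
    rw [← norm_eq_zero, hJn, norm_zero]
  have hcj0 : cj 0 = 0 := by
    rw [← norm_eq_zero, cj_norm, norm_zero]
  -- images lie in closed spans
  have mem : ∀ (W : LL →ₗᵢ[ℂ] H) (v : ℤ → H), (∀ n, W (ff n) = v n) → ∀ φ,
      W φ ∈ (Submodule.span ℂ (range v)).topologicalClosure := by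
    intro W v hW
    refine dens ((Submodule.isClosed_topologicalClosure _).preimage W.continuous)
      (by rw [map_zero]; exact zero_mem _) (fun φ ψ h1 h2 => by rw [map_add]; exact add_mem h1 h2)
      (fun c φ h1 => by rw [map_smul]; exact Submodule.smul_mem _ c h1) fun n => ?_
    rw [hW]
    exact Submodule.le_topologicalClosure _ (Submodule.subset_span ⟨n, rfl⟩)
  -- intertwining
  have tw : ∀ n φ, V (mulL (uni_fourier n) φ) = U n (V φ) := by
    intro n
    refine dens (isClosed_eq (V.continuous.comp (mulL (uni_fourier n)).continuous)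
      ((U n).continuous.comp V.continuous)) (by simp)
      (fun φ ψ h1 h2 => by simp only [map_add, h1, h2])
      (fun c φ h1 => by simp only [map_smul, h1]) fun m => ?_
    rw [mul_ff, hV, hV, hU]
  obtain ⟨κ, hκ⟩ : ∃ κ, V κ = J g := by
    refine dens_gen (P := fun y => ∃ κ, V κ = y) V.isometry.isClosedEmbedding.isClosed_range
      ⟨0, map_zero _⟩ ?_ ?_ (fun n => ⟨ff n, hV n⟩) hJg
    · rintro _ _ ⟨a, rfl⟩ ⟨b, rfl⟩
      exact ⟨a + b, map_add _ _ _⟩
    · rintro c _ ⟨a, rfl⟩
      exact ⟨c • a, map_smul _ _ _⟩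
  have hg0 : V (ff 0) = g := by rw [hV, hU0]
  have hκ1 : ∀ᵐ x ∂mu, ‖κ x‖ = 1 := by
    refine unimod κ fun n => ?_
    rw [← V.inner_map_map, tw, hκ, ← hJU, conj_inner hJa hJs hJn, ← V.inner_map_map (ff 0), hV, hV]
    have h1 := orthonormal_iff_ite.1 hON 0 n
    rw [h1]
    rw [hU0] at h1
    rw [h1]
    split_ifs <;> simp
  let s : XX → ℂ := fun x => Complex.exp (((Complex.arg (κ x) / 2 : ℝ) : ℂ) * Complex.I)
  have hs : Uni s := by
    refine ⟨?_, fun x => Complex.norm_exp_ofReal_mul_I _⟩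
    have := Complex.measurable_arg.comp (Lp.stronglyMeasurable κ).measurable
    exact Complex.measurable_exp.comp
      ((Complex.measurable_ofReal.comp (this.div_const 2)).mul_const _)
  have hss : Uni fun x => s x * s x :=
    ⟨hs.meas.mul hs.meas, fun x => by rw [norm_mul, hs.norm, one_mul]⟩
  have hsc : Uni fun x => conj (s x) :=
    ⟨Complex.continuous_conj.measurable.comp hs.meas, fun x => by rw [RCLike.norm_conj, hs.norm]⟩
  have hs1 : ∀ x, s x * conj (s x) = 1 := fun x => by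
    rw [Complex.mul_conj', hs.norm]; simp
  have hsq : ∀ᵐ x ∂mu, s x * s x = κ x := by
    filter_upwards [hκ1] with x hx
    have h1 := Complex.norm_mul_exp_arg_mul_I (κ x)
    rw [hx, Complex.ofReal_one, one_mul] at h1
    refine Eq.trans ?_ h1
    simp only [s]
    rw [← Complex.exp_add]
    congr 1
    push_cast
    ring
  have hJV : ∀ φ, J (V φ) = V (mulL hss (cj φ)) := by
    refine dens (isClosed_eq (hJc.comp V.continuous)
      (V.continuous.comp ((mulL hss).continuous.comp (conj_cont cj_add cj_smul cj_norm))))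
      (by simp [hJ0, hcj0])
      (fun φ ψ h1 h2 => by simp only [map_add, hJa, cj_add, h1, h2])
      (fun c φ h1 => by simp only [map_smul, hJs, cj_smul, h1]) fun n => ?_
    rw [cj_ff, hV, hJU, ← hκ, ← tw]
    congr 1
    apply Lp.ext
    filter_upwards [coe_mulL (uni_fourier n) κ, coe_mulL hss (ff n), hsq,
      coeFn_fourierLp (T := 1) 2 n] with x h1 h2 h3 h4
    rw [h1, h2, h3, h4, mul_comm]
  have heven : ∀ᵐ x ∂mu, s (-x) = s x := by
    have h1 : mulL hss (cj κ) = ff 0 := by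
      apply V.injective
      rw [← hJV, hκ, hJJ, hg0]
    filter_upwards [coe_mulL hss (cj κ), coe_cj κ, hsq, hκ1, coeFn_fourierLp (T := 1) 2 0]
      with x h2 h3 h4 h5 h6
    rw [h1, h3, h4, h6, fourier_zero] at h2
    have h7 : κ x * conj (κ x) = 1 := by
      rw [Complex.mul_conj', h5]; simp
    have h8 : κ x ≠ 0 := left_ne_zero_of_mul_eq_one h7
    have h9 : conj (κ (-x)) = conj (κ x) := mul_left_cancel₀ h8 (h2.symm.trans h7.symm)
    have h10 : κ (-x) = κ x := by simpa using congrArg conj h9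
    simp only [s, h10]
  have horb : ∀ n, (V.comp (mulL hs)) (ff n) = U n (V (mulL hs (ff 0))) := by
    intro n
    rw [← tw, LinearIsometry.coe_comp, Function.comp_apply]
    congr 1
    apply Lp.ext
    filter_upwards [coe_mulL hs (ff n), coe_mulL (uni_fourier n) (mulL hs (ff 0)),
      coe_mulL hs (ff 0), coeFn_fourierLp (T := 1) 2 n, coeFn_fourierLp (T := 1) 2 0]
      with x h1 h2 h3 h4 h5
    rw [h1, h2, h3, h4, h5, fourier_zero, mul_one, mul_comm]
  refine ⟨V (mulL hs (ff 0)), mem V _ hV _, ?_, ?_, ?_⟩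
  · rw [hJV]
    congr 1
    apply Lp.ext
    filter_upwards [coe_mulL hss (cj (mulL hs (ff 0))), coe_cj (mulL hs (ff 0)),
      coe_mulL hs (ff 0), ae_neg (coe_mulL hs (ff 0)), coeFn_fourierLp (T := 1) 2 0,
      ae_neg (coeFn_fourierLp (T := 1) 2 0), heven] with x h1 h2 h3 h4 h5 h6 h7
    rw [h1, h2, h3, h4, h5, h6, h7, fourier_zero, fourier_zero, mul_one, mul_assoc, hs1, mul_one]
  · have h1 := (orthonormal_fourier (T := 1)).comp_linearIsometry (V.comp (mulL hs))
    have e : (fun n => U n (V (mulL hs (ff 0)))) = (V.comp (mulL hs)) ∘ fourierLp 2 :=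
      funext fun n => (horb n).symm
    rw [e]; exact h1
  · have h1 := mem (V.comp (mulL hs)) _ horb (mulL hsc (ff 0))
    have e : mulL hs (mulL hsc (ff 0)) = ff 0 := by
      apply Lp.ext
      filter_upwards [coe_mulL hs (mulL hsc (ff 0)), coe_mulL hsc (ff 0)] with x h2 h3
      rw [h2, h3, ← mul_assoc, hs1, one_mul]
    rw [LinearIsometry.coe_comp, Function.comp_apply, e, hg0] at h1
    exact h1

end Crest.Agent.R81
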