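import Crest.Agent.R81.Dense
import Crest.Agent.R81.Real

/-! Row 81: the real generator and the statement on the torus. -/

set_option autoImplicit false

open MeasureTheory Set Crest.AnalysisR.Torus3
open Crest.Agent.R75 (e)
open scoped ContDiff ComplexConjugate

namespace Crest.Agent.R81
lemma mem_of_mean_zero {W : Submodule ℂ L2} (hW : ∀ n ≠ 0, eL n ∈ W.topologicalClosure) {F : L2}
    (hF : inner ℂ (eL 0) F = 0) : F ∈ W.topologicalClosure := by
  have : F ∈ closure (W.topologicalClosure : Set L2) := by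
    refine Metric.mem_closure_iff.2 fun η hη => ?_
    obtain ⟨S, a, h0, h⟩ := exists_trig F hF (half_pos hη)
    refine ⟨_, sum_mem fun n hn => Submodule.smul_mem _ (a n) (hW n fun h => h0 (h ▸ hn)), ?_⟩
    rw [dist_eq_norm]
    linarith
  rwa [W.isClosed_topologicalClosure.closure_eq] at this

lemma star_add_L2 (x y : L2) : star (x + y) = star x + star y := by
  apply Lp.ext
  filter_upwards [Lp.coeFn_star (x + y), Lp.coeFn_add x y, Lp.coeFn_add (star x) (star y),
    Lp.coeFn_star x, Lp.coeFn_star y] with p h1 h2 h3 h4 h5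
  rw [h1, h3, Pi.star_apply, h2, Pi.add_apply, Pi.add_apply, h4, h5, star_add]
  rfl

lemma star_smul_L2 (c : ℂ) (x : L2) : star (c • x) = conj c • star x := by
  apply Lp.ext
  filter_upwards [Lp.coeFn_star (c • x), Lp.coeFn_smul c x, Lp.coeFn_smul (conj c) (star x),
    Lp.coeFn_star x] with p h1 h2 h3 h4
  rw [h1, h3, Pi.star_apply, h2, Pi.smul_apply, Pi.smul_apply, h4]
  simp

lemma norm_star_L2 (x : L2) : ‖star x‖ = ‖x‖ := by
  apply le_antisymm <;> apply Lp.norm_le_norm_of_ae_le <;>
    filter_upwards [Lp.coeFn_star x] with p h <;> simp [h]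

lemma star_koop (D : SD) (x : L2) : star (koop D x) = koop D (star x) := by
  apply Lp.ext
  filter_upwards [Lp.coeFn_star (koop D x), coeFn_koop D x, coeFn_koop D (star x),
    (SD.mp D).quasiMeasurePreserving.ae_eq_comp (Lp.coeFn_star x)] with p h1 h2 h3 h4
  rw [h1, h3, h4, Pi.star_apply, h2]
  rfl

lemma koop_zpow_add (T : SD) (m n : ℤ) (x : L2) :
    koop (T ^ (m + n)) x = koop (T ^ m) (koop (T ^ n) x) := by
  rw [add_comm, zpow_add, koop_mul]

lemma mean_zero_of_mem {T : SD} {g u : L2} (hg : inner ℂ (eL 0) g = 0)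
    (hu : u ∈ (orb T g).topologicalClosure) : inner ℂ (eL 0) u = 0 := by
  have h : (orb T g).topologicalClosure ≤ (ℂ ∙ eL 0)ᗮ := by
    refine Submodule.topologicalClosure_minimal _ (Submodule.span_le.2 ?_)
      (Submodule.isClosed_orthogonal _)
    rintro _ ⟨n, rfl⟩
    exact Submodule.mem_orthogonal_singleton_iff_inner_right.2 (by rw [inner_eL_zero_koop, hg])
  exact Submodule.mem_orthogonal_singleton_iff_inner_right.1 (h hu)

lemma orb_le_of_mem {T : SD} {g g' : L2} (h : g ∈ (orb T g').topologicalClosure) :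
    (orb T g).topologicalClosure ≤ (orb T g').topologicalClosure := by
  refine Submodule.topologicalClosure_minimal _ (Submodule.span_le.2 ?_)
    (Submodule.isClosed_topologicalClosure _)
  rintro _ ⟨n, rfl⟩
  have h1 : MapsTo (koop (T ^ n)) (orb T g') (orb T g') := by
    intro x hx
    have : orb T g' ≤ (orb T g').comap (koop (T ^ n)).toLinearMap := by
      refine Submodule.span_le.2 ?_
      rintro _ ⟨k, rfl⟩
      change koop (T ^ n) (koop (T ^ k) g') ∈ orb T g'
      rw [← koop_zpow_add]
      exact Submodule.subset_span ⟨n + k, rfl⟩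
    exact this hx
  exact h1.closure (koop (T ^ n)).continuous h

theorem exists_real : ∃ (T : SD) (g : L2), star g = g ∧ ONorb T g ∧ inner ℂ (eL 0) g = 0 ∧
    ∀ n ≠ 0, eL n ∈ (orb T g).topologicalClosure := by
  obtain ⟨T, g, h1, h2, h3⟩ := exists_complex
  have hJ : star g ∈ (orb T g).topologicalClosure := by
    refine mem_of_mean_zero h3 ?_
    rw [inner_eL_zero] at h2 ⊢
    rw [integral_congr_ae (Lp.coeFn_star g)]
    have := integral_conj (μ := (volume : Measure T3)) (f := fun p => g p)
    rw [h2, map_zero] at this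
    exact this
  obtain ⟨g', hg', hs, hON, hm⟩ := abstract_real (fun n => koop (T ^ n))
    (fun x => by rw [zpow_zero, koop_one]) (koop_zpow_add T) star star_add_L2 star_smul_L2
    norm_star_L2 star_star (fun n x => star_koop _ x) g h1 hJ
  exact ⟨T, g', hs, hON, mean_zero_of_mem h2 hg', fun n hn => orb_le_of_mem hm (h3 n hn)⟩

/-- the induced permutation of the torus -/
noncomputable def toPerm : SD →* Equiv.Perm T3 where
  toFun D :=
    { toFun := ind D.1
      invFun := ind D.1.symm
      left_inv := fun p => by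
        have h : ind D.1.symm ∘ ind D.1 = ind (D.1.symm ∘ D.1) := (ind_comp D.2.2.2.1 _).symm
        rw [Equiv.symm_comp_self, ind_id] at h
        exact congrFun h p
      right_inv := fun p => by
        have h : ind D.1 ∘ ind D.1.symm = ind (D.1 ∘ D.1.symm) := (ind_comp D.2.1.2.1 _).symm
        rw [Equiv.self_comp_symm, ind_id] at h
        exact congrFun h p }
  map_one' := Equiv.ext fun p => congrFun ind_id p
  map_mul' D D' := Equiv.ext fun p => congrFun (ind_comp (SD.lat D) D'.1) p

theorem final :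
    ∃ (T : Equiv.Perm T3) (g : T3 → ℝ), IsSmoothDiffeo T ∧
      MeasurePreserving T volume volume ∧ MemLp g 2 volume ∧ ∫ x, g x = 0 ∧
      (∀ m n : ℤ, ∫ x, g ((T ^ m) x) * g ((T ^ n) x) = if m = n then 1 else 0) ∧
      (∀ h : T3 → ℂ, MemLp h 2 volume → ∫ x, h x = 0 →
        (∀ n : ℤ, ∫ x, h x * (g ((T ^ n) x) : ℂ) = 0) → h =ᵐ[volume] 0) := by
  obtain ⟨T, g, hs, hON, h0, hd⟩ := exists_real
  have hre : ∀ᵐ p, g p = ((g p).re : ℂ) := by
    have := Lp.coeFn_star g
    rw [hs] at this
    filter_upwards [this] with p hp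
    exact (Complex.conj_eq_iff_re.1 hp.symm).symm
  have hk : ∀ n : ℤ, ∀ᵐ p, koop (T ^ n) g p = ((g ((toPerm T ^ n) p)).re : ℂ) := by
    intro n
    rw [← map_zpow]
    filter_upwards [coeFn_koop (T ^ n) g,
      (SD.mp (T ^ n)).quasiMeasurePreserving.ae hre] with p h1 h2
    rw [h1]
    exact h2
  have hin : ∀ (n : ℤ) (u : L2),
      inner ℂ (koop (T ^ n) g) u = ∫ x, u x * ((g ((toPerm T ^ n) x)).re : ℂ) := by
    intro n u
    rw [L2.inner_def]
    refine integral_congr_ae ?_
    filter_upwards [hk n] with p hp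
    rw [hp]
    simp
  refine ⟨toPerm T, fun p => (g p).re, ⟨⟨T.1, SD.smooth T, ind_proj (SD.lat T)⟩,
    T.1.symm, T.2.2.1, ind_proj T.2.2.2.1⟩, SD.mp T, (Lp.memLp g).re, ?_, fun m n => ?_,
    fun h hh hm ho => ?_⟩
  · rw [inner_eL_zero, integral_congr_ae hre, integral_complex_ofReal] at h0
    exact_mod_cast h0
  · have h1 := orthonormal_iff_ite.1 hON n m
    rw [hin] at h1
    have h2 : ∫ x, koop (T ^ m) g x * ((g ((toPerm T ^ n) x)).re : ℂ) =
        ∫ x, (((g ((toPerm T ^ m) x)).re * (g ((toPerm T ^ n) x)).re : ℝ) : ℂ) := by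
      refine integral_congr_ae ?_
      filter_upwards [hk m] with p hp
      rw [hp]
      push_cast
      rfl
    rw [h2, integral_complex_ofReal] at h1
    rcases eq_or_ne m n with rfl | hne
    · simp only [if_true] at h1 ⊢
      exact_mod_cast h1
    · rw [if_neg hne.symm] at h1
      rw [if_neg hne]
      exact_mod_cast h1
  · have hc := hh.coeFn_toLp
    have h1 : hh.toLp h ∈ (orb T g).topologicalClosure :=
      mem_of_mean_zero hd (by rw [inner_eL_zero, integral_congr_ae hc, hm])
    have h2 : (orb T g).topologicalClosure ≤ (ℂ ∙ hh.toLp h)ᗮ := by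
      refine Submodule.topologicalClosure_minimal _ (Submodule.span_le.2 ?_)
        (Submodule.isClosed_orthogonal _)
      rintro _ ⟨n, rfl⟩
      refine Submodule.mem_orthogonal_singleton_iff_inner_left.2 ?_
      rw [hin, ← ho n]
      refine integral_congr_ae ?_
      filter_upwards [hc] with p hp
      rw [hp]
    have h3 : hh.toLp h = 0 :=
      inner_self_eq_zero.1 (Submodule.mem_orthogonal_singleton_iff_inner_left.1 (h2 h1))
    rw [h3] at hc
    exact hc.symm.trans (Lp.coeFn_zero _ _ _)

end Crest.Agent.R81
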