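import Crest.Agent.R81.Basic

/-! Row 81: Fourier coefficients on `[0,1]`. -/

set_option autoImplicit false

open MeasureTheory Set Crest.AnalysisR.Torus3
open Crest.Agent.R75 (e)
open scoped ContDiff ComplexConjugate

namespace Crest.Agent.R81

lemma One.ftc (c : ℝ) : (2 * Real.pi * Complex.I * c) * ∫ y in (0 : ℝ)..1, e (c * y) = e c - 1 := by
  rw [← intervalIntegral.integral_const_mul, intervalIntegral.integral_eq_sub_of_hasDerivAt
    (f := fun y => e (c * y)) (fun y _ => R75.hasDerivAt_e_comp (by simpa using (hasDerivAt_id y).const_mul c))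
    (Continuous.intervalIntegrable (by fun_prop) _ _)]
  simp

lemma One.orth (n m : ℤ) :
    ∫ y in (0 : ℝ)..1, e (n * y) * conj (e (m * y)) = if n = m then 1 else 0 := by
  have : ∀ y : ℝ, e (n * y) * conj (e (m * y)) = e ((n - m : ℤ) * y) := fun y => by
    rw [← R75.e_sub]; congr 1; push_cast; ring
  simp only [this]
  split_ifs with h
  · simp [h]
  · have h1 := One.ftc (n - m : ℤ)
    rw [R75.e_int, sub_self] at h1
    refine (mul_eq_zero.1 h1).resolve_left ?_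
    simp [Real.pi_ne_zero, sub_eq_zero, h]

lemma One.conj_int (f : ℝ → ℂ) : ∫ y in (0 : ℝ)..1, conj (f y) = conj (∫ y in (0 : ℝ)..1, f y) := by
  simp only [intervalIntegral.integral_of_le zero_le_one, integral_conj]

lemma One.ofReal_sq (f : ℝ → ℂ) :
    ((∫ y in (0 : ℝ)..1, ‖f y‖ ^ 2 : ℝ) : ℂ) = ∫ y in (0 : ℝ)..1, f y * conj (f y) := by
  rw [← intervalIntegral.integral_ofReal]
  simp only [Complex.mul_conj', Complex.ofReal_pow]

lemma One.normSq_sum {ι : Type*} (K : Finset ι) (a : ι → ℂ) (n : ι → ℤ) (hn : Set.InjOn n K) :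
    ∫ y in (0 : ℝ)..1, ‖∑ k ∈ K, a k * e (n k * y)‖ ^ 2 = ∑ k ∈ K, ‖a k‖ ^ 2 := by
  apply Complex.ofReal_injective
  rw [One.ofReal_sq]
  simp only [map_sum, map_mul, Finset.sum_mul_sum, mul_mul_mul_comm (a _) (e _)]
  rw [intervalIntegral.integral_finsetSum fun _ _ => Continuous.intervalIntegrable (by fun_prop) _ _]
  push_cast
  refine Finset.sum_congr rfl fun k hk => ?_
  rw [intervalIntegral.integral_finsetSum fun _ _ => Continuous.intervalIntegrable (by fun_prop) _ _,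
    Finset.sum_eq_single k (fun j hj h => ?_) fun h => absurd hk h]
  · rw [intervalIntegral.integral_const_mul, One.orth, if_pos rfl, mul_one, Complex.mul_conj']
  · rw [intervalIntegral.integral_const_mul, One.orth, if_neg fun h' => h (hn hk hj h').symm,
      mul_zero]

lemma One.memLp {f : ℝ → ℂ} (hf : BM f) : MemLp f 2 (volume.restrict (Ioc (0 : ℝ) 1)) := by
  obtain ⟨h, C, hC⟩ := hf
  exact MemLp.of_bound h.aestronglyMeasurable C (.of_forall hC)

theorem integral_normSq_sum (K : Finset ℤ) (a : ℤ → ℂ) :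
    ∫ y in (0 : ℝ)..1, ‖∑ k ∈ K, a k * e (k * y)‖ ^ 2 = ∑ k ∈ K, ‖a k‖ ^ 2 := 
  One.normSq_sum K a id (Set.injOn_id _)

/-- the same for an injective family of frequencies -/
theorem integral_normSq_sum' {ι : Type*} (K : Finset ι) (a : ι → ℂ) (n : ι → ℤ)
    (hn : Set.InjOn n K) :
    ∫ y in (0 : ℝ)..1, ‖∑ k ∈ K, a k * e (n k * y)‖ ^ 2 = ∑ k ∈ K, ‖a k‖ ^ 2 := 
  One.normSq_sum K a n hn

theorem bessel_id {f : ℝ → ℂ} (hf : BM f) (K : Finset ℤ) :
    ∫ y in (0 : ℝ)..1, ‖f y - ∑ k ∈ K, fc f k * e (k * y)‖ ^ 2 =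
      (∫ y in (0 : ℝ)..1, ‖f y‖ ^ 2) - ∑ k ∈ K, ‖fc f k‖ ^ 2 := by
  have hs : BM fun y : ℝ => ∑ k ∈ K, fc f k * e (k * y) :=
    BM.sum K fun k _ => (BM.const _).mul (BM.exp (by fun_prop))
  have h1 : ∫ y in (0 : ℝ)..1, f y * conj (∑ k ∈ K, fc f k * e (k * y)) =
      ((∑ k ∈ K, ‖fc f k‖ ^ 2 : ℝ) : ℂ) := by
    simp only [map_sum, map_mul, Finset.mul_sum, mul_left_comm (f _), R75.conj_e]
    rw [intervalIntegral.integral_finsetSum fun k _ =>
      ((BM.const _).mul (hf.mul (BM.exp (by fun_prop)))).intervalIntegrable _ _]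
    push_cast
    refine Finset.sum_congr rfl fun k _ => ?_
    rw [intervalIntegral.integral_const_mul, ← Complex.conj_mul']
    rfl
  have h2 := congrArg conj h1
  rw [← One.conj_int, Complex.conj_ofReal] at h2
  have h3 := congrArg Complex.ofReal (integral_normSq_sum K (fc f))
  apply Complex.ofReal_injective
  rw [Complex.ofReal_sub, One.ofReal_sq, One.ofReal_sq] at *
  rw [show ∀ a b : ℂ, a - b = a - b - b + b from fun a b => by ring]
  nth_rw 3 [← h3]
  nth_rw 2 [← h2]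
  rw [← h1, ← intervalIntegral.integral_sub, ← intervalIntegral.integral_sub,
    ← intervalIntegral.integral_add]
  · congr 1; ext y; simp only [map_sub, map_mul, Complex.conj_conj]; ring
  all_goals apply BM.intervalIntegrable
  exacts [((hf.mul hf.conj).sub (hf.mul hs.conj)).sub (hf.mul hs.conj).conj, hs.mul hs.conj,
    (hf.mul hf.conj).sub (hf.mul hs.conj), (hf.mul hs.conj).conj, hf.mul hf.conj, hf.mul hs.conj]

theorem bessel {f : ℝ → ℂ} (hf : BM f) (K : Finset ℤ) :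
    ∑ k ∈ K, ‖fc f k‖ ^ 2 ≤ ∫ y in (0 : ℝ)..1, ‖f y‖ ^ 2 := by
  rw [← sub_nonneg, ← bessel_id hf]
  exact intervalIntegral.integral_nonneg zero_le_one fun _ _ => by positivity

theorem bessel_zc {U : ℝ → ℝ} (hU : Measurable U) (θ : ℝ) {ι : Type*} (K : Finset ι) (n : ι → ℤ)
    (hn : Set.InjOn n K) : ∑ k ∈ K, ‖zc U θ (n k)‖ ^ 2 ≤ 1 := by
  have := bessel (f := fun β => e (θ * U β)) (BM.exp (by fun_prop)) (K.image n)
  rw [Finset.sum_image hn] at this
  simpa [zc] using this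

/-- Parseval (`hasSum_sq_fourierCoeffOn`) -/
theorem parseval {f : ℝ → ℂ} (hf : BM f) :
    HasSum (fun k : ℤ => ‖fc f k‖ ^ 2) (∫ y in (0 : ℝ)..1, ‖f y‖ ^ 2) := by
  have := hasSum_sq_fourierCoeffOn zero_lt_one (One.memLp hf)
  simp only [fourierCoeffOn_eq_integral, fourier_coe_apply, sub_zero, inv_one, one_smul, div_one,
    smul_eq_mul, one_mul] at this
  convert this using 4 with k
  refine intervalIntegral.integral_congr fun y _ => ?_
  simp only [mul_comm (f y), e]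
  congr 2
  push_cast
  ring

theorem zc_neg (U : ℝ → ℝ) (θ : ℝ) (N : ℤ) : zc U (-θ) (-N) = conj (zc U θ N) := by
  simp only [zc, fc, ← One.conj_int, map_mul, R75.conj_e, Int.cast_neg, neg_mul]

/-- triangle inequality in `L²[0,1]` -/
theorem sqrt_integral_add_le {f g : ℝ → ℂ} (hf : BM f) (hg : BM g) :
    √(∫ y in (0 : ℝ)..1, ‖f y + g y‖ ^ 2) ≤
      √(∫ y in (0 : ℝ)..1, ‖f y‖ ^ 2) + √(∫ y in (0 : ℝ)..1, ‖g y‖ ^ 2) := by
  have key : ∀ {f : ℝ → ℂ} (h : MemLp f 2 (volume.restrict (Ioc (0 : ℝ) 1))),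
      √(∫ y in (0 : ℝ)..1, ‖f y‖ ^ 2) = ‖h.toLp f‖ := fun h => by
    rw [Lp.norm_toLp, h.eLpNorm_eq_integral_rpow_norm two_ne_zero ENNReal.ofNat_ne_top,
      ENNReal.toReal_ofReal (by positivity), intervalIntegral.integral_of_le zero_le_one,
      Real.sqrt_eq_rpow]
    simp
  rw [key (One.memLp hf), key (One.memLp hg)]
  exact (key ((One.memLp hf).add (One.memLp hg))).trans_le
    (norm_add_le ((One.memLp hf).toLp f) ((One.memLp hg).toLp g))

/-- a periodic function of `q z + c` has the same mean -/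
theorem integral_periodic_scale {E : Type} [NormedAddCommGroup E] [NormedSpace ℝ E]
    [CompleteSpace E] {φ : ℝ → E} (hp : Function.Periodic φ 1)
    (hi : ∀ a b, IntervalIntegrable φ volume a b) {q : ℕ} (hq : 0 < q) (c : ℝ) :
    ∫ z in (0 : ℝ)..1, φ (q * z + c) = ∫ z in (0 : ℝ)..1, φ z := by
  have hq' : (q : ℝ) ≠ 0 := by positivity
  have := hp.intervalIntegral_add_zsmul_eq q c hi
  rw [hp.intervalIntegral_add_eq c 0, zero_add] at this
  rw [intervalIntegral.integral_comp_mul_add φ hq', mul_zero, zero_add, mul_one, add_comm]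
  simp only [natCast_zsmul, nsmul_eq_mul, mul_one] at this
  rw [this, ← Nat.cast_smul_eq_nsmul ℝ, inv_smul_smul₀ hq']

theorem SP.bound {f : ℝ → ℝ} (h : SP f) : ∃ C, 0 ≤ C ∧ ∀ y, |f y| ≤ C := by
  obtain ⟨C, hC⟩ := (h.2.isBounded_of_continuous one_ne_zero h.1.continuous).exists_norm_le
  exact ⟨C, (norm_nonneg _).trans (hC _ ⟨0, rfl⟩), fun y => hC _ ⟨y, rfl⟩⟩

theorem SP.deriv {f : ℝ → ℝ} (h : SP f) : SP (deriv f) := by
  refine ⟨(contDiff_infty_iff_deriv.1 h.1).2, fun y => ?_⟩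
  rw [← deriv_comp_add_const, funext h.2]

theorem SP.add_int {f : ℝ → ℝ} (h : SP f) (y : ℝ) (n : ℤ) : f (y + n) = f y := by
  simpa using h.2.int_mul n y

theorem Aff.deriv {V : ℝ → ℝ} {l r ρ : ℝ} (h : Aff V l r ρ) :
    ∃ p₁ p₀ : ℝ, (∀ y ∈ Ioo l r, V y = ρ * y ^ 2 / 2 + p₁ * y + p₀) ∧
      ∀ y ∈ Ioo l r, deriv V y = ρ * y + p₁ := by
  obtain ⟨-, -, -, -, p₁, p₀, h⟩ := h
  refine ⟨p₁, p₀, h, fun y hy => ?_⟩
  rw [(Filter.eventuallyEq_of_mem (isOpen_Ioo.mem_nhds hy) h).deriv_eq]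
  refine HasDerivAt.deriv ?_
  convert ((((hasDerivAt_pow 2 y).const_mul ρ).div_const 2).add
    ((hasDerivAt_id y).const_mul p₁)).add_const p₀ using 1
  simp; ring

theorem Aff.mono {V : ℝ → ℝ} {l r ρ l' r' : ℝ} (h : Aff V l r ρ) (h1 : l ≤ l') (h2 : l' < r')
    (h3 : r' ≤ r) : Aff V l' r' ρ := by
  obtain ⟨a, -, b, c, p₁, p₀, h⟩ := h
  exact ⟨a.trans h1, h2, h3.trans b, c, p₁, p₀, fun y hy => h y (Ioo_subset_Ioo h1 h3 hy)⟩

theorem continuous_sn : Continuous sn := 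
  (intervalIntegral.continuous_parametric_intervalIntegral_of_continuous'
    (f := fun ξ x : ℝ => e (-(ξ * x))) (by fun_prop) 0 1).norm.pow 2

theorem sn_neg (ξ : ℝ) : sn (-ξ) = sn ξ := by
  rw [sn, sn, ← Complex.norm_conj (cs ξ), cs, cs, ← One.conj_int]
  simp only [R75.conj_e, neg_mul]

theorem sn_le_one (ξ : ℝ) : sn ξ ≤ 1 := by
  refine pow_le_one₀ (norm_nonneg _) ?_
  simpa [cs] using intervalIntegral.norm_integral_le_of_norm_le_const (a := 0) (b := 1) (C := 1)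
    (f := fun x => e (-(ξ * x))) fun _ _ => by simp

/-- `cs ξ = (e (-ξ) - 1) / (-2 π i ξ)` vanishes only at nonzero integers -/
theorem sn_pos {ξ : ℝ} (h : ∀ n : ℤ, ξ ≠ n) : 0 < sn ξ := by
  refine pow_pos (norm_pos_iff.2 fun h0 => ?_) 2
  have := One.ftc (-ξ)
  simp only [neg_mul, ← cs.eq_1, h0, mul_zero] at this
  obtain ⟨n, hn⟩ := (R75.e_eq_one_iff _).1 (sub_eq_zero.1 this.symm)
  exact h (-n) (by push_cast; linarith)

lemma One.hasSum_sn (θ : ℝ) : HasSum (fun ν : ℤ => sn (θ + ν)) 1 := by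
  have := parseval (f := fun x => e (-(θ * x))) (BM.exp (by fun_prop))
  simp only [fc, ← R75.e_add, ← neg_add, ← add_mul] at this
  simpa [sn, cs] using this

/-- Bessel for `x ↦ e (-θ x)`, whose `ν`-th coefficient is `cs (θ + ν)` -/
theorem sum_sn_le (θ : ℝ) (K : Finset ℤ) : ∑ ν ∈ K, sn (θ + ν) ≤ 1 := 
  sum_le_hasSum K (fun _ _ => sq_nonneg _) (One.hasSum_sn θ)

/-- Parseval and Dini's theorem -/
theorem sn_tail {ε : ℝ} (hε : 0 < ε) :
    ∃ X₀ : ℕ, ∀ θ ∈ Icc (0 : ℝ) 1, 1 - ε ≤ ∑ ν ∈ Finset.Icc (-(X₀ : ℤ)) X₀, sn (θ + ν) := by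
  have h := Monotone.tendstoUniformlyOn_of_forall_tendsto (s := Icc (0 : ℝ) 1)
    (F := fun (K : Finset ℤ) θ => ∑ ν ∈ K, sn (θ + ν)) (f := fun _ => 1) isCompact_Icc
    (fun K => (continuous_finsetSum _ fun ν _ => continuous_sn.comp (by fun_prop)).continuousOn)
    (fun θ _ K K' h => Finset.sum_le_sum_of_subset_of_nonneg h fun _ _ _ => sq_nonneg _)
    continuousOn_const fun θ _ => One.hasSum_sn θ
  obtain ⟨K, hK⟩ := Filter.eventually_atTop.1 (Metric.tendstoUniformlyOn_iff.1 h ε hε)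
  obtain ⟨X, hX⟩ := (K.image Int.natAbs).exists_le
  refine ⟨X, fun θ hθ => ?_⟩
  have := hK (Finset.Icc (-(X : ℤ)) X) (fun ν hν => by
    have := hX _ (Finset.mem_image_of_mem _ hν)
    rw [Finset.mem_Icc]; omega) θ hθ
  linarith [(abs_lt.1 this).2]

end Crest.Agent.R81
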