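import Crest.Agent.R81.Pack
import Crest.Agent.R81.One

/-! Row 81: folding the windows of a circle design into `(0, 1/2)`, and the real form of the
packing. -/

set_option autoImplicit false

open MeasureTheory Set Crest.AnalysisR.Torus3
open Crest.Agent.R75 (e)
open scoped ContDiff ComplexConjugate

namespace Crest.Agent.R81

lemma fold_sign {θ : ℝ} (h0 : 0 < θ) (h1 : θ < 1) {t k : ℤ} (ht : t = 1 ∨ t = -1)
    (h2 : 0 < t * θ + k) (h3 : t * θ + k < 1 / 2) :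
    (if θ < 1 / 2 then 1 else -1) = t ∧ t * θ + k = if θ < 1 / 2 then θ else 1 - θ := by
  split_ifs with h
  · rcases ht with rfl | rfl
    · push_cast at h2 h3
      have h4 : (-1 : ℝ) < k := by linarith
      have h5 : (k : ℝ) < 1 := by linarith
      obtain rfl : k = 0 := by
        have h6 : -1 < k := by exact_mod_cast h4
        have h7 : k < 1 := by exact_mod_cast h5
        omega
      simp
    · push_cast at h2 h3
      have h4 : (0 : ℝ) < k := by linarith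
      have h5 : (k : ℝ) < 1 := by linarith
      have h6 : 0 < k := by exact_mod_cast h4
      have h7 : k < 1 := by exact_mod_cast h5
      omega
  · rcases ht with rfl | rfl
    · push_cast at h2 h3
      have h4 : (-1 : ℝ) < k := by linarith
      have h5 : (k : ℝ) < 0 := by linarith
      have h6 : -1 < k := by exact_mod_cast h4
      have h7 : k < 0 := by exact_mod_cast h5
      omega
    · push_cast at h2 h3
      have h4 : (0 : ℝ) < k := by linarith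
      have h5 : (k : ℝ) < 2 := by linarith
      obtain rfl : k = 1 := by
        have h6 : 0 < k := by exact_mod_cast h4
        have h7 : k < 2 := by exact_mod_cast h5
        omega
      refine ⟨rfl, ?_⟩
      push_cast
      ring

lemma exists_fold {lo hi : ℝ} (h : ∃ j : ℕ, (j : ℝ) / 2 < lo ∧ hi < (j + 1) / 2) :
    ∃ (s ν : ℤ) (lo' hi' : ℝ), (s = 1 ∨ s = -1) ∧
      (∀ x, x ∈ Icc lo' hi' ↔ s * (x + ν) ∈ Icc lo hi) ∧
      ∀ ξ ∈ Icc lo hi, 0 < ξ ∧ 0 < s * ξ - ν ∧ s * ξ - ν < 1 / 2 := by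
  obtain ⟨j, h1, h2⟩ := h
  have hj : (0 : ℝ) ≤ j := Nat.cast_nonneg j
  obtain ⟨i, rfl | rfl⟩ := Nat.even_or_odd' j
  · refine ⟨1, i, lo - i, hi - i, Or.inl rfl, fun x => ?_, fun ξ hξ => ?_⟩
    · simp only [mem_Icc]
      push_cast
      constructor <;> rintro ⟨h3, h4⟩ <;> constructor <;> linarith
    · push_cast at h1 h2 hj ⊢
      refine ⟨?_, ?_, ?_⟩ <;> linarith [hξ.1, hξ.2]
  · refine ⟨-1, -(i + 1), i + 1 - hi, i + 1 - lo, Or.inr rfl, fun x => ?_, fun ξ hξ => ?_⟩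
    · simp only [mem_Icc]
      push_cast
      constructor <;> rintro ⟨h3, h4⟩ <;> constructor <;> linarith
    · push_cast at h1 h2 hj ⊢
      refine ⟨?_, ?_, ?_⟩ <;> linarith [hξ.1, hξ.2]

lemma CD.freq_inj {ε X : ℝ} (C : CD ε X) {B : ℕ} (hB : 2 * ∑ b, (C.a b).natAbs < B) :
    Function.Injective fun b => (B : ℤ) * C.n b + C.a b := by
  intro b b' h
  simp only at h
  have h1 : ∀ b, (C.a b).natAbs ≤ ∑ b, (C.a b).natAbs := fun b =>
    Finset.single_le_sum (f := fun b => (C.a b).natAbs) (fun _ _ => Nat.zero_le _)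
      (Finset.mem_univ b)
  have h2 : (B : ℤ) ∣ C.a b' - C.a b := ⟨C.n b - C.n b', by linarith⟩
  have h3 : C.a b' - C.a b = 0 := Int.eq_zero_of_abs_lt_dvd h2 (by
    have := h1 b
    have := h1 b'
    rw [abs_lt]
    omega)
  have h4 : (C.n b : ℤ) = C.n b' :=
    mul_left_cancel₀ (show (B : ℤ) ≠ 0 by omega) (by linarith)
  by_contra hne
  exact C.npar b b' hne (by rw [h4, sub_eq_zero.1 h3])

open Classical in
/-- Let `j` be the index of `comp` for `b`.  If `j` is even, `s b = 1` and the folded window is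
`[lo - j/2, hi - j/2]`; if `j` is odd, `s b = -1` and it is `[(j+1)/2 - hi, (j+1)/2 - lo]`.
`conf b b'` = the folded windows meet.  Clique bound at a point `x` of the folded line: with
`ν b = j/2` or `-(j+1)/2` one has `|x + ν b| ∈ [lo b, hi b]`, so for one large `B`
(`B n b + a b` injective in `b`, by `npar` and `B > 2 max |a|`) grouping by `ν` gives
`(1-ε) c ∑ n b ≤ ∑_ν sn (x + ν) ∑_b ‖zc w |x + ν| (B n b + a b)‖² ≤ ∑_ν sn (x + ν) ≤ 1`
(`bessel_zc`, `sum_sn_le`, `sn_neg`).  Take `n0 = ⌈1 / (2 (1-ε) c)⌉₊` and `colour_weighted`.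
For `θ < 1/2` take `s₀ = 1` and the folded point `θ`, otherwise `s₀ = -1` and `1 - θ`. -/
theorem CD.fold {ε X : ℝ} (C : CD ε X) (hε : 0 < ε) (hε1 : ε ≤ 1 / 2) :
    ∃ (s : C.ι → ℤ) (conf : C.ι → C.ι → Prop) (n0 : ℕ) (col : C.ι → ℕ → ℕ),
      (∀ b, s b = 1 ∨ s b = -1) ∧ 0 < n0 ∧ 1 ≤ 2 * n0 * C.c ∧
      2 * n0 * C.c ≤ 1 / (1 - ε) + 2 * C.c ∧ (∀ b κ, col b κ < 2 * n0) ∧
      (∀ b b' κ κ', κ < C.n b → κ' < C.n b' → conf b b' → col b κ = col b' κ' →
        b = b' ∧ κ = κ') ∧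
      ∀ θ ∈ Ioo (0 : ℝ) 1, ∃ s₀ : ℤ, (s₀ = 1 ∨ s₀ = -1) ∧
        (∀ (b : C.ι) (ν : ℤ), |θ + ν| ∈ Icc (C.lo b) (C.hi b) →
          s₀ * s b = if 0 ≤ ν then 1 else -1) ∧
        ∀ (b b' : C.ι) (ν ν' : ℤ), |θ + ν| ∈ Icc (C.lo b) (C.hi b) →
          |θ + ν'| ∈ Icc (C.lo b') (C.hi b') → conf b b' := by
  choose s ν lo' hi' hs hmem hwin using fun b => exists_fold (C.comp b)
  have hc := C.c_pos
  have hε2 : 0 < 1 - ε := by linarith
  set n0 := ⌈1 / (2 * (1 - ε) * C.c)⌉₊ with hn0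
  have hn1 : 1 / (2 * (1 - ε) * C.c) ≤ n0 := Nat.le_ceil _
  have hn2 : (n0 : ℝ) < 1 / (2 * (1 - ε) * C.c) + 1 := Nat.ceil_lt_add_one (by positivity)
  have hn3 : 0 < n0 := Nat.ceil_pos.2 (by positivity)
  rw [div_le_iff₀ (by positivity)] at hn1
  obtain ⟨B₀, hB⟩ := C.ex
  obtain ⟨w, hw, -, hflat, -⟩ := hB (B₀ + (2 * ∑ b, (C.a b).natAbs + 1)) (Nat.le_add_right _ _)
  have hinj := C.freq_inj (B := B₀ + (2 * ∑ b, (C.a b).natAbs + 1)) (by omega)
  set B := B₀ + (2 * ∑ b, (C.a b).natAbs + 1)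
  obtain ⟨col, h1, h2, h3⟩ := colour_weighted lo' hi' C.n (R := 2 * n0) (by omega) fun x => by
    set F := Finset.univ.filter fun b => x ∈ Icc (lo' b) (hi' b) with hF
    have h4 : ∀ b ∈ F, (1 - ε) * C.c * C.n b ≤
        sn (x + ν b) * ‖zc w |x + ν b| (B * C.n b + C.a b)‖ ^ 2 := fun b hb => by
      have h5 := (hmem b x).1 (Finset.mem_filter.1 hb).2
      have h6 := (abs_le.1 (hflat b _ h5)).1
      have h7 := (hwin b _ h5).1
      rcases hs b with h | h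
      · rw [h, Int.cast_one, one_mul] at h6 h7
        rw [abs_of_pos h7]
        linarith
      · rw [h, Int.cast_neg, Int.cast_one, neg_one_mul] at h6 h7
        rw [abs_of_neg (by linarith), ← sn_neg]
        linarith
    have h5 : ∑ b ∈ F, sn (x + ν b) * ‖zc w |x + ν b| (B * C.n b + C.a b)‖ ^ 2 ≤ 1 := by
      rw [← Finset.sum_fiberwise_of_maps_to (g := ν) (t := F.image ν)
        fun b hb => Finset.mem_image_of_mem ν hb]
      refine le_trans (Finset.sum_le_sum fun k _ => ?_) (sum_sn_le x (F.image ν))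
      rw [Finset.sum_congr rfl fun b hb => by rw [(Finset.mem_filter.1 hb).2], ← Finset.mul_sum]
      exact mul_le_of_le_one_right (sq_nonneg _)
        (bessel_zc hw.measurable _ _ _ hinj.injOn)
    have h6 := (Finset.sum_le_sum h4).trans h5
    rw [← Finset.mul_sum, ← Nat.cast_sum] at h6
    have h7 : ((∑ b ∈ F, C.n b : ℕ) : ℝ) ≤ ((2 * n0 : ℕ) : ℝ) := by
      refine le_of_mul_le_mul_left (h6.trans (hn1.trans_eq ?_)) (mul_pos hε2 hc)
      push_cast
      ring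
    exact_mod_cast h7
  refine ⟨s, fun b b' => ∃ x, x ∈ Icc (lo' b) (hi' b) ∧ x ∈ Icc (lo' b') (hi' b'), n0, col, hs, hn3,
    ?_, ?_, h1, fun b b' κ κ' hκ hκ' hconf hcol => ?_, fun θ hθ => ?_⟩
  · nlinarith [mul_pos (mul_pos hε hc) (Nat.cast_pos (α := ℝ).2 hn3)]
  · have h4 := mul_le_mul_of_nonneg_left hn2.le (show 0 ≤ 2 * C.c by positivity)
    have e : 2 * C.c * (1 / (2 * (1 - ε) * C.c) + 1) = 1 / (1 - ε) + 2 * C.c := by
      field_simp
    linarith
  · by_cases hb : b = b'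
    · subst hb
      obtain ⟨x, hx, -⟩ := hconf
      exact ⟨rfl, h2 b κ κ' hκ hκ' (hx.1.trans hx.2) hcol⟩
    · exact absurd hcol (h3 b b' κ κ' hκ hκ' hb hconf)
  have key : ∀ (b : C.ι) (k : ℤ), |θ + k| ∈ Icc (C.lo b) (C.hi b) →
      ((if θ < 1 / 2 then 1 else -1) * s b = if 0 ≤ k then 1 else -1) ∧
        (if θ < 1 / 2 then θ else 1 - θ) ∈ Icc (lo' b) (hi' b) := by
    intro b k hk
    obtain ⟨-, h5, h6⟩ := hwin b _ hk
    have hss : (s b : ℝ) * s b = 1 := by rcases hs b with h | h <;> simp [h]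
    have h7 : (if θ < 1 / 2 then θ else 1 - θ) = s b * |θ + k| - ν b →
        (if θ < 1 / 2 then θ else 1 - θ) ∈ Icc (lo' b) (hi' b) := fun h => by
      rw [hmem, h, sub_add_cancel, ← mul_assoc, hss, one_mul]
      exact hk
    by_cases hk0 : 0 ≤ k
    · have h8 : (0 : ℝ) ≤ k := by exact_mod_cast hk0
      have e : s b * |θ + k| - ν b = s b * θ + (s b * k - ν b : ℤ) := by
        rw [abs_of_pos (by linarith [hθ.1])]
        push_cast
        ring
      rw [e] at h5 h6 h7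
      obtain ⟨h9, h10⟩ := fold_sign hθ.1 hθ.2 (hs b) h5 h6
      refine ⟨?_, h7 h10.symm⟩
      rw [h9, if_pos hk0]
      rcases hs b with h | h <;> simp [h]
    · have h8 : (k : ℝ) ≤ -1 := by exact_mod_cast (show k ≤ -1 by omega)
      have e : s b * |θ + k| - ν b = (-s b : ℤ) * θ + (-s b * k - ν b : ℤ) := by
        rw [abs_of_neg (by linarith [hθ.2])]
        push_cast
        ring
      rw [e] at h5 h6 h7
      obtain ⟨h9, h10⟩ := fold_sign hθ.1 hθ.2 (by have := hs b; omega) h5 h6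
      refine ⟨?_, h7 h10.symm⟩
      rw [h9, if_neg hk0]
      rcases hs b with h | h <;> simp [h]
  refine ⟨if θ < 1 / 2 then 1 else -1, by split_ifs <;> simp, fun b k hk => (key b k hk).1,
    fun b b' k k' hk hk' => ⟨_, (key b k hk).2, (key b' k' hk').2⟩⟩

lemma pack_core {N B Q n a A η L C u α T Y : ℝ} {σ : ℤ} (hN : 1 ≤ N) (hB : 1 ≤ B) (hQ : 1 ≤ Q)
    (hn : 1 ≤ n) (hσ : σ = 1 ∨ σ = -1) (hη : 0 < η) (hη1 : η ≤ 1 / 4) (ha : |a| ≤ A)
    (hα : |α| ≤ L) (hBA : 4 * A * N / η < B) (hQL : 2 * |L| * (C + 1) * N / η < Q)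
    (hw : |(T / N + Int.fract (Y / N - B * T / N) / B + η / (N * B)) / Q| ≤ C / Q)
    (hu : u ∈ Ioo 0 ((1 - 2 * η) / (N * B * Q))) :
    ∃ v ∈ Ioo (0 : ℝ) 1, (Q * (σ * (B * n + a)) + α) *
      ((T / N + Int.fract (Y / N - B * T / N) / B + η / (N * B)) / Q + u) =
      σ * ((n * (Y + v) + a * T) / N - n * ⌊Y / N - B * T / N⌋) := by
  have hN0 : 0 < N := by linarith
  have hB0 : 0 < B := by linarith
  have hQ0 : 0 < Q := by linarith
  have hn0 : 0 < n := by linarith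
  set f := Int.fract (Y / N - B * T / N) with hf
  set w := (T / N + f / B + η / (N * B)) / Q with hw'
  have hf0 : 0 ≤ f := Int.fract_nonneg _
  have hf1 : f < 1 := Int.fract_lt_one _
  obtain ⟨hu0, hu1⟩ := hu
  rw [lt_div_iff₀ (by positivity)] at hu1
  have hu2 : 0 < u * (N * B * Q) := by positivity
  have hu3 : u ≤ 1 / Q := by
    rw [le_div_iff₀ hQ0]
    have h1 : 1 ≤ N * B := one_le_mul_of_one_le_of_one_le hN hB
    nlinarith [mul_le_mul_of_nonneg_left h1 (mul_pos hu0 hQ0).le]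
  set err := a * (f + (η + u * (N * B * Q)) / N) / B + σ * α * (w + u) with herr
  have h1 : |a * (f + (η + u * (N * B * Q)) / N) / B| ≤ A * 2 / B := by
    rw [abs_div, abs_mul, abs_of_pos hB0]
    refine div_le_div_of_nonneg_right (mul_le_mul ha ?_ (abs_nonneg _)
      ((abs_nonneg _).trans ha)) hB0.le
    have h2 : (η + u * (N * B * Q)) / N ≤ η + u * (N * B * Q) := div_le_self (by positivity) hN
    rw [abs_of_nonneg (by positivity)]
    linarith
  have h2 : |σ * α * (w + u)| ≤ |L| * ((C + 1) / Q) := by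
    have h3 : |(σ : ℝ)| = 1 := by rcases hσ with rfl | rfl <;> simp
    rw [abs_mul, abs_mul, h3, one_mul]
    refine mul_le_mul (hα.trans (le_abs_self _)) ((abs_add_le _ _).trans ?_) (abs_nonneg _)
      (abs_nonneg _)
    rw [abs_of_pos hu0, add_div]
    linarith
  have h3 : A * 2 / B * N < η / 2 := by
    rw [div_lt_iff₀ hη] at hBA
    rw [div_mul_eq_mul_div, div_lt_iff₀ hB0]
    linarith
  have h4 : |L| * ((C + 1) / Q) * N < η / 2 := by
    rw [div_lt_iff₀ hη] at hQL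
    rw [← mul_div_assoc, div_mul_eq_mul_div, div_lt_iff₀ hQ0]
    linarith
  have h5 : |err * N / n| < η := by
    rw [abs_div, abs_mul, abs_of_pos hN0, abs_of_pos hn0]
    refine (div_le_self (by positivity) hn).trans_lt ?_
    have h6 := mul_le_mul_of_nonneg_right ((abs_add_le _ _).trans (add_le_add h1 h2)) hN0.le
    linarith
  obtain ⟨h6, h7⟩ := abs_lt.1 h5
  refine ⟨η + u * (N * B * Q) + err * N / n, ⟨by linarith, by linarith⟩, ?_⟩
  have e : (⌊Y / N - B * T / N⌋ : ℝ) = Y / N - B * T / N - f := by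
    rw [hf, Int.self_sub_fract]
  rw [e, herr, hw']
  rcases hσ with rfl | rfl
  · push_cast
    field_simp
    ring
  · push_cast
    field_simp
    ring

/-- With `W = 1/N₀`: `y g = T g W + fract (Y g W - B T g W) / B`, so `B y g ≡ Y g W (mod 1)`;
`w g = (y g + η W / B) / Q`.  For `u = u₁ W / (B Q)`, `u₁ ∈ (0, 1 - 2η)`, `ũ = η + u₁`:
`(Q s₀ s (B n + a) + α) (w + u) ≡ s₀ s W (n (Y + ũ) + a T) + err (mod 1)` with
`|err| ≤ 2 |a| / B + L C / Q < η W ≤ η W n`; absorb `err` into `ũ`, which stays in `(0,1)`. -/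
theorem pack_real {ι : Type} [Fintype ι] (n : ι → ℕ) (a : ι → ℤ) (hn : ∀ b, 1 ≤ n b) (s : ι → ℤ)
    (hs : ∀ b, s b = 1 ∨ s b = -1) (conf : ι → ι → Prop) {N₀ nG : ℕ} (hN₀ : 0 < N₀)
    (Y T : Fin nG → ℤ)
    (hp : ∀ (b b' : ι) (g g' : Fin nG) (u u' : ℝ) (k : ℤ), conf b b' → u ∈ Ioo (0 : ℝ) 1 →
      u' ∈ Ioo (0 : ℝ) 1 →
      s b * (n b * (Y g + u) + a b * T g) - s b' * (n b' * (Y g' + u') + a b' * T g') = N₀ * k →
      b = b' ∧ g = g')
    {η : ℝ} (hη : 0 < η) (hη1 : η ≤ 1 / 4) (L : ℝ) :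
    ∃ (C : ℝ) (B₁ Q₁ : ℕ), ∀ B Q : ℕ, B₁ ≤ B → Q₁ ≤ Q → ∃ w : Fin nG → ℝ, (∀ g, |w g| ≤ C / Q) ∧
      ∀ (b b' : ι) (g g' : Fin nG) (s₀ : ℤ) (α α' u u' : ℝ) (k : ℤ), (s₀ = 1 ∨ s₀ = -1) →
        conf b b' → |α| ≤ L → |α'| ≤ L → u ∈ Ioo 0 ((1 - 2 * η) / (N₀ * B * Q)) →
        u' ∈ Ioo 0 ((1 - 2 * η) / (N₀ * B * Q)) →
        ((Q * (s₀ * s b * (B * n b + a b)) : ℤ) + α) * (w g + u) -
          ((Q * (s₀ * s b' * (B * n b' + a b')) : ℤ) + α') * (w g' + u') = k → b = b' ∧ g = g' := by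
  have hN : (1 : ℝ) ≤ N₀ := by exact_mod_cast hN₀
  have hN0 : (0 : ℝ) < N₀ := by linarith
  set A : ℝ := ∑ b, |(a b : ℝ)| with hA
  set C : ℝ := ∑ g, |(T g : ℝ)| + 2 with hC
  refine ⟨C, ⌈4 * A * N₀ / η⌉₊ + 1, ⌈2 * |L| * (C + 1) * N₀ / η⌉₊ + 1, fun B Q hB hQ => ?_⟩
  have hB1 : (1 : ℝ) ≤ B := by exact_mod_cast (show 1 ≤ B by omega)
  have hQ1 : (1 : ℝ) ≤ Q := by exact_mod_cast (show 1 ≤ Q by omega)
  have hB2 : 4 * A * N₀ / η < B := (Nat.le_ceil _).trans_lt (by exact_mod_cast hB)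
  have hQ2 : 2 * |L| * (C + 1) * N₀ / η < Q := (Nat.le_ceil _).trans_lt (by exact_mod_cast hQ)
  have hw : ∀ g, |((T g : ℝ) / N₀ + Int.fract ((Y g : ℝ) / N₀ - B * T g / N₀) / B +
      η / (N₀ * B)) / Q| ≤ C / Q := fun g => by
    rw [abs_div, abs_of_pos (show (0 : ℝ) < Q by linarith)]
    refine div_le_div_of_nonneg_right ?_ (by linarith)
    have h1 : |(T g : ℝ) / N₀| ≤ ∑ g, |(T g : ℝ)| := by
      rw [abs_div, abs_of_pos hN0]
      exact (div_le_self (abs_nonneg _) hN).trans (Finset.single_le_sum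
        (f := fun g => |(T g : ℝ)|) (fun _ _ => abs_nonneg _) (Finset.mem_univ g))
    have h2 := div_le_self (Int.fract_nonneg ((Y g : ℝ) / N₀ - B * T g / N₀)) hB1
    have h3 := Int.fract_lt_one ((Y g : ℝ) / N₀ - B * T g / N₀)
    have h4 := div_le_self hη.le (one_le_mul_of_one_le_of_one_le hN hB1)
    have h5 := div_nonneg (Int.fract_nonneg ((Y g : ℝ) / N₀ - B * T g / N₀))
      (show (0 : ℝ) ≤ B by linarith)
    have h6 : 0 ≤ η / (N₀ * B) := by positivity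
    obtain ⟨h7, h8⟩ := abs_le.1 h1
    rw [abs_le]
    constructor <;> linarith
  refine ⟨_, hw, fun b b' g g' s₀ α α' u u' k hs₀ hconf hα hα' hu hu' h => ?_⟩
  have ha : ∀ b, |(a b : ℝ)| ≤ A := fun b => Finset.single_le_sum
    (f := fun b => |(a b : ℝ)|) (fun _ _ => abs_nonneg _) (Finset.mem_univ b)
  have hσ : ∀ b, s₀ * s b = 1 ∨ s₀ * s b = -1 := fun b => by
    rcases hs₀ with rfl | rfl <;> rcases hs b with h | h <;> simp [h]
  obtain ⟨v, hv, e⟩ := pack_core (n := n b) hN hB1 hQ1 (by exact_mod_cast hn b) (hσ b) hη hη1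
    (ha b) hα hB2 hQ2 (hw g) hu
  obtain ⟨v', hv', e'⟩ := pack_core (n := n b') hN hB1 hQ1 (by exact_mod_cast hn b') (hσ b') hη hη1
    (ha b') hα' hB2 hQ2 (hw g') hu'
  push_cast at h e e'
  rw [e, e'] at h
  refine hp b b' g g' v v' (s₀ * k + s b * n b * ⌊(Y g : ℝ) / N₀ - B * T g / N₀⌋ -
    s b' * n b' * ⌊(Y g' : ℝ) / N₀ - B * T g' / N₀⌋) hconf hv hv' ?_
  push_cast
  rw [← h]
  rcases hs₀ with rfl | rfl
  · push_cast
    field_simp
    ring
  · push_cast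
    field_simp
    ring

end Crest.Agent.R81
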