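import Crest.Agent.R81.One

/-! Row 81: the almost integer time shift `U β ≈ ⌊β + w (Q β)⌋ - β` and its smoothing. -/

set_option autoImplicit false

open MeasureTheory Set Crest.AnalysisR.Torus3
open Crest.Agent.R75 (e)
open scoped ContDiff ComplexConjugate

namespace Crest.Agent.R81
/-- Averaging over the translations by `j / Q`. -/
theorem integral_avg {E : Type} [NormedAddCommGroup E] [NormedSpace ℝ E] [CompleteSpace E]
    {φ : ℝ → E} (hp : Function.Periodic φ 1) (hi : ∀ a b, IntervalIntegrable φ volume a b) {Q : ℕ}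
    (hQ : 0 < Q) : ∫ β in (0 : ℝ)..1, φ β =
      ∫ β in (0 : ℝ)..1, (1 / Q : ℝ) • ∑ j ∈ Finset.range Q, φ (β + j / Q) := by
  have h1 : ∀ c : ℝ, ∫ β in (0 : ℝ)..1, φ (β + c) = ∫ β in (0 : ℝ)..1, φ β := by
    intro c
    rw [intervalIntegral.integral_comp_add_right (fun β => φ β) c]
    have := hp.intervalIntegral_add_eq c 0
    rw [zero_add, add_comm 1 c, this, zero_add]
  have h2 : ∀ c : ℝ, IntervalIntegrable (fun β => φ (β + c)) volume 0 1 := by
    intro c
    have := (hi (0 + c) (1 + c)).comp_add_right c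
    simpa using this
  rw [intervalIntegral.integral_smul, intervalIntegral.integral_finsetSum fun j _ => h2 _]
  simp_rw [h1]
  have hQ' : (Q : ℝ) ≠ 0 := by positivity
  rw [Finset.sum_const, Finset.card_range, ← Nat.cast_smul_eq_nsmul ℝ, smul_smul,
    one_div_mul_cancel hQ', one_smul]

lemma sm_shift {G : ℝ → ℂ} (hp : Function.Periodic G 1) {Q : ℕ} (hQ : 0 < Q) :
    Function.Periodic (fun x => ∑ j ∈ Finset.range Q, G (x + j / Q)) (1 / Q) := by
  intro x
  have hQ' : (Q : ℝ) ≠ 0 := by positivity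
  have h1 := Finset.sum_range_succ (fun j : ℕ => G (x + j / Q)) Q
  have h2 := Finset.sum_range_succ' (fun j : ℕ => G (x + j / Q)) Q
  have h3 : G (x + (Q : ℝ) / Q) = G (x + ((0 : ℕ) : ℝ) / Q) := by
    rw [div_self hQ', hp]; simp
  rw [h1, h3] at h2
  have h4 := add_right_cancel h2
  simp only
  rw [h4]
  refine Finset.sum_congr rfl fun j _ => ?_
  congr 1
  push_cast
  ring

/-- Riemann sums of `x ↦ e (-θ {x} - ν x)` -/
theorem riemann_cs (θ : ℝ) (ν : ℤ) {Q : ℕ} (hQ : 0 < Q) (x : ℝ) :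
    ‖(1 / Q : ℝ) • ∑ j ∈ Finset.range Q,
      e (-(θ * Int.fract (x + j / Q)) - ν * (x + j / Q)) - cs (θ + ν)‖ ≤
      2 * Real.pi * |θ + ν| / Q := by
  have hQ' : (0 : ℝ) < Q := by positivity
  set ξ := θ + ν with hξ
  have hG : ∀ t : ℝ, e (-(θ * Int.fract t) - ν * t) = e (-(ξ * Int.fract t)) := by
    intro t
    refine R75.e_eq_of_sub_int (-(ν * ⌊t⌋)) ?_
    rw [hξ]
    have := Int.floor_add_fract t
    push_cast
    linear_combination ν * this
  simp_rw [hG]
  have hp : Function.Periodic (fun t : ℝ => e (-(ξ * Int.fract t))) 1 := by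
    intro t
    simp only [Int.fract_add_one]
  have h1 := (sm_shift hp hQ).sub_int_mul_eq (x := x) ⌊Q * x⌋
  rw [← h1]
  set a := x - ⌊Q * x⌋ * (1 / (Q : ℝ)) with ha
  have ha' : a = Int.fract (Q * x) / Q := by
    rw [ha, Int.fract]; field_simp
  have ha0 : 0 ≤ a := by rw [ha']; exact div_nonneg (Int.fract_nonneg _) hQ'.le
  have ha1 : a < 1 / Q := by rw [ha']; exact div_lt_div_of_pos_right (Int.fract_lt_one _) hQ'
  have hcont : Continuous fun t : ℝ => e (-(ξ * t)) := by fun_prop
  have h2 : cs ξ = ∑ j ∈ Finset.range Q, ∫ t in ((j : ℝ) / Q)..(((j + 1 : ℕ) : ℝ) / Q),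
      e (-(ξ * t)) := by
    rw [intervalIntegral.sum_integral_adjacent_intervals (a := fun j : ℕ => (j : ℝ) / Q)
      fun k _ => hcont.intervalIntegrable _ _]
    simp [cs, div_self hQ'.ne']
  rw [h2, Finset.smul_sum, ← Finset.sum_sub_distrib]
  refine (norm_sum_le _ _).trans ?_
  have h3 : ∀ j ∈ Finset.range Q, ‖(1 / Q : ℝ) • e (-(ξ * Int.fract (a + j / Q))) -
      ∫ t in ((j : ℝ) / Q)..(((j + 1 : ℕ) : ℝ) / Q), e (-(ξ * t))‖ ≤
        2 * Real.pi * |ξ| / Q * (1 / Q) := by
    intro j hj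
    have hj' : (j : ℝ) + 1 ≤ Q := by exact_mod_cast Finset.mem_range.mp hj
    have hfr : Int.fract (a + j / Q) = a + j / Q := by
      refine Int.fract_eq_self.mpr ⟨by positivity, ?_⟩
      have : (1 : ℝ) / Q + j / Q ≤ 1 := by
        rw [← add_div, div_le_one hQ']; linarith
      linarith
    have hlen : ((j + 1 : ℕ) : ℝ) / Q - (j : ℝ) / Q = 1 / Q := by push_cast; ring
    have hc : (1 / Q : ℝ) • e (-(ξ * (a + j / Q))) =
        ∫ _ in ((j : ℝ) / Q)..(((j + 1 : ℕ) : ℝ) / Q), e (-(ξ * (a + j / Q))) := by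
      rw [intervalIntegral.integral_const, hlen]
    rw [hfr, hc, ← intervalIntegral.integral_sub intervalIntegrable_const
      (hcont.intervalIntegrable _ _)]
    have := intervalIntegral.norm_integral_le_of_norm_le_const (a := (j : ℝ) / Q)
      (b := ((j + 1 : ℕ) : ℝ) / Q) (C := 2 * Real.pi * |ξ| / Q)
      (f := fun t => e (-(ξ * (a + j / Q))) - e (-(ξ * t))) (by
        intro t ht
        have hle : (j : ℝ) / Q ≤ ((j + 1 : ℕ) : ℝ) / Q := by
          have : (0 : ℝ) < 1 / Q := by positivity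
          linarith
        rw [uIoc_of_le hle] at ht
        refine (R75.norm_e_sub_e_le _ _).trans ?_
        have h5 : -(ξ * (a + j / Q)) - -(ξ * t) = ξ * (t - (a + j / Q)) := by ring
        have h6 : |t - (a + j / Q)| ≤ 1 / Q := by
          rw [abs_le]; constructor <;> linarith [ht.1, ht.2]
        rw [h5, abs_mul, mul_div_assoc]
        gcongr
        calc |ξ| * |t - (a + j / Q)| ≤ |ξ| * (1 / Q) := by gcongr
          _ = |ξ| / Q := by ring)
    rw [hlen, abs_of_pos (by positivity : (0 : ℝ) < 1 / Q)] at this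
    exact this
  refine (Finset.sum_le_sum h3).trans (le_of_eq ?_)
  rw [Finset.sum_const, Finset.card_range, nsmul_eq_mul]
  field_simp

/-- with `x = β + w (Q β)`: `θ (⌊x⌋ - β) - (Q Ñ + ν) β = (θ + ν) w (Q β) - Ñ Q β - θ {x} - ν x`;
average over `β + j/Q`, use `riemann_cs` and `integral_periodic_scale` -/
theorem zc_floor {w : ℝ → ℝ} (hc : Continuous w) (hp : Function.Periodic w 1) {Q : ℕ} (hQ : 0 < Q)
    (θ : ℝ) (N ν : ℤ) :
    ‖zc (fun β => (⌊β + w (Q * β)⌋ : ℝ) - β) θ (Q * N + ν) - cs (θ + ν) * zc w (θ + ν) N‖ ≤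
      2 * Real.pi * |θ + ν| / Q := by
  have hQ' : (0 : ℝ) < Q := by positivity
  have hw : ∀ (z : ℝ) (n : ℤ), w (z + n) = w z := fun z n => by
    have := hp.int_mul n z
    rwa [mul_one] at this
  set ψ : ℝ → ℂ := fun z => e ((θ + ν) * w z) * e (-(N * z)) with hψ
  set G : ℝ → ℂ := fun t => e (-(θ * Int.fract t) - ν * t) with hG
  have hψc : Continuous ψ := by rw [hψ]; fun_prop
  have hψn : ∀ z, ‖ψ z‖ = 1 := fun z => by simp [hψ]
  have hψp : ∀ (z : ℝ) (n : ℤ), ψ (z + n) = ψ z := fun z n => by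
    simp only [hψ, hw]
    congr 1
    refine R75.e_eq_of_sub_int (-(N * n)) ?_
    push_cast; ring
  have hGp : ∀ (z : ℝ) (n : ℤ), G (z + n) = G z := fun z n => by
    simp only [hG, Int.fract_add_intCast]
    refine R75.e_eq_of_sub_int (-(ν * n)) ?_
    push_cast; ring
  have hGm : ∀ c : ℝ, BM fun β : ℝ => G (β + w (Q * β) + c) := fun c => by
    refine BM.exp (f := fun β : ℝ => -(θ * Int.fract (β + w (Q * β) + c)) -
      ν * (β + w (Q * β) + c)) ?_
    have h1 : Measurable fun β : ℝ => β + w (Q * β) + c := by fun_prop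
    exact ((measurable_fract.comp h1).const_mul θ).neg.sub (h1.const_mul _)
  have hψm : BM fun β : ℝ => ψ (Q * β) :=
    ⟨by fun_prop, 1, fun β => (hψn _).le⟩
  have h1 : zc (fun β => (⌊β + w (Q * β)⌋ : ℝ) - β) θ (Q * N + ν) =
      ∫ β in (0 : ℝ)..1, ψ (Q * β) * G (β + w (Q * β)) := by
    unfold zc fc
    congr 1
    funext β
    simp only [hψ, hG, ← R75.e_add]
    congr 1
    rw [Int.fract]
    push_cast
    ring
  have h2 : zc w (θ + ν) N = ∫ β in (0 : ℝ)..1, ψ (Q * β) := by
    have := integral_periodic_scale (φ := ψ) (by intro z; exact_mod_cast hψp z 1)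
      (fun a b => hψc.intervalIntegrable a b) hQ 0
    simp only [add_zero] at this
    rw [this]
    rfl
  have h3 := integral_avg (φ := fun β => ψ (Q * β) * G (β + w (Q * β))) (by
      intro β
      have e1 : (Q : ℝ) * (β + 1) = Q * β + (Q : ℤ) := by push_cast; ring
      simp only [e1, hψp, hw]
      have e2 : β + 1 + w (Q * β) = β + w (Q * β) + (1 : ℤ) := by push_cast; ring
      rw [e2, hGp])
    (fun a b => by
      have := (hψm.mul (hGm 0)).intervalIntegrable a b
      simpa using this) hQ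
  have h4 : ∀ β : ℝ, (1 / Q : ℝ) • ∑ j ∈ Finset.range Q,
      ψ (Q * (β + j / Q)) * G (β + j / Q + w (Q * (β + j / Q))) =
        ψ (Q * β) * ((1 / Q : ℝ) • ∑ j ∈ Finset.range Q, G (β + w (Q * β) + j / Q)) := by
    intro β
    rw [mul_smul_comm, Finset.mul_sum]
    congr 1
    refine Finset.sum_congr rfl fun j _ => ?_
    have e1 : (Q : ℝ) * (β + j / Q) = Q * β + (j : ℤ) := by push_cast; field_simp
    rw [e1, hψp, hw, add_right_comm]
  simp only [h4] at h3
  have h5 : BM fun β : ℝ => ψ (Q * β) *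
      ((1 / Q : ℝ) • ∑ j ∈ Finset.range Q, G (β + w (Q * β) + j / Q)) := by
    refine hψm.mul ?_
    have := (BM.const (α := ℝ) ((1 / Q : ℝ) : ℂ)).mul
      (BM.sum (Finset.range Q) fun j _ => hGm (j / Q))
    simpa only [Complex.real_smul] using this
  rw [h1, h3, h2, ← intervalIntegral.integral_const_mul, ← intervalIntegral.integral_sub
    (h5.intervalIntegrable _ _) (((BM.const _).mul hψm).intervalIntegrable _ _)]
  have := intervalIntegral.norm_integral_le_of_norm_le_const (a := (0 : ℝ)) (b := 1)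
    (C := 2 * Real.pi * |θ + ν| / Q) (f := fun β => ψ (Q * β) *
      ((1 / Q : ℝ) • ∑ j ∈ Finset.range Q, G (β + w (Q * β) + j / Q)) - cs (θ + ν) * ψ (Q * β))
    (by
      intro β _
      rw [mul_comm (cs _), ← mul_sub, norm_mul, hψn, one_mul]
      exact riemann_cs θ ν hQ _)
  simpa using this

lemma sm_meas_near {f : ℝ → ℝ} (hf : Continuous f) (s : ℝ) :
    MeasurableSet {β : ℝ | ∃ n : ℤ, |f β - n| ≤ s} := by
  rw [ofPred_exists]
  exact MeasurableSet.iUnion fun n =>
    (isClosed_le (by fun_prop) continuous_const).measurableSet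

open Classical in
lemma sm_count {Q : ℕ} (hQ : 0 < Q) {s : ℝ} (hs : 0 < s) (x : ℝ) :
    (((Finset.range Q).filter fun j : ℕ => ∃ n : ℤ, |x + j / Q - n| ≤ s).card : ℝ) ≤
      2 * s * Q + 1 := by
  have hQ' : (0 : ℝ) < Q := by positivity
  set n : ℕ → ℤ := fun j => if h : ∃ n : ℤ, |x + j / Q - n| ≤ s then h.choose else 0 with hn
  have h1 : ((Finset.range Q).filter fun j : ℕ => ∃ n : ℤ, |x + j / Q - n| ≤ s).card ≤
      (Finset.Icc ⌈Q * (-s - x)⌉ ⌊Q * (s - x)⌋).card := by
    refine Finset.card_le_card_of_injOn (fun j => (j : ℤ) - Q * n j) ?_ ?_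
    · intro j hj
      have hj' := (Finset.mem_filter.mp (Finset.mem_coe.mp hj)).2
      have h2 : |x + j / Q - n j| ≤ s := by
        simp only [hn, dif_pos hj']
        exact hj'.choose_spec
      rw [abs_le] at h2
      have h3 : (((j : ℤ) - Q * n j : ℤ) : ℝ) = Q * (j / Q - n j) := by
        push_cast; field_simp
      simp only [Finset.coe_Icc, mem_Icc, Int.ceil_le, Int.le_floor, h3]
      constructor <;> apply mul_le_mul_of_nonneg_left _ hQ'.le <;> linarith [h2.1, h2.2]
    · intro j hj j' hj' h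
      have h2 : j < Q := Finset.mem_range.mp (Finset.mem_filter.mp (Finset.mem_coe.mp hj)).1
      have h3 : j' < Q := Finset.mem_range.mp (Finset.mem_filter.mp (Finset.mem_coe.mp hj')).1
      simp only at h
      have h4 : (j : ℤ) % Q = (j' : ℤ) % Q := by
        have : (j : ℤ) = j' + Q * (n j - n j') := by linarith
        rw [this, Int.add_mul_emod_self_left]
      rw [Int.emod_eq_of_lt (by positivity) (by exact_mod_cast h2),
        Int.emod_eq_of_lt (by positivity) (by exact_mod_cast h3)] at h4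
      exact_mod_cast h4
  rw [Int.card_Icc] at h1
  have h2 := Int.le_ceil (Q * (-s - x))
  have h3 := Int.floor_le (Q * (s - x))
  rcases le_total (⌊Q * (s - x)⌋ + 1 - ⌈Q * (-s - x)⌉) 0 with h | h
  · rw [Int.toNat_eq_zero.mpr h, Nat.le_zero] at h1
    rw [h1]
    simp only [Nat.cast_zero]
    positivity
  · have h4 : (((⌊Q * (s - x)⌋ + 1 - ⌈Q * (-s - x)⌉).toNat : ℤ) : ℝ) =
        (⌊Q * (s - x)⌋ + 1 - ⌈Q * (-s - x)⌉ : ℤ) := by rw [Int.toNat_of_nonneg h]
    have h5 : ((((Finset.range Q).filter fun j : ℕ => ∃ n : ℤ, |x + j / Q - n| ≤ s).card : ℕ) : ℝ) ≤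
        ((⌊Q * (s - x)⌋ + 1 - ⌈Q * (-s - x)⌉).toNat : ℝ) := by exact_mod_cast h1
    push_cast at h4
    nlinarith

lemma sm_integral_indicator {S : Set ℝ} (hS : MeasurableSet S) (c : ℝ) :
    ∫ β in (0 : ℝ)..1, S.indicator (fun _ => c) β = c * volume.real (S ∩ Ioc 0 1) := by
  rw [intervalIntegral.integral_of_le zero_le_one, integral_indicator hS, setIntegral_const,
    measureReal_restrict_apply hS, smul_eq_mul, mul_comm]

lemma sm_ii_indicator {S : Set ℝ} (hS : MeasurableSet S) (c a b : ℝ) :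
    IntervalIntegrable (S.indicator fun _ => c) volume a b :=
  ⟨(intervalIntegrable_const (c := c)).1.indicator hS,
    (intervalIntegrable_const (c := c)).2.indicator hS⟩

/-- the set where `β + w (Q β)` is within `s` of an integer (`integral_avg`: at most `2 s Q + 1` of
the points `x + j/Q` are) -/
theorem volume_near_int {w : ℝ → ℝ} (hc : Continuous w) (hp : Function.Periodic w 1) {Q : ℕ}
    (hQ : 0 < Q) {s : ℝ} (hs : 0 < s) :
    volume ({β : ℝ | ∃ n : ℤ, |β + w (Q * β) - n| ≤ s} ∩ Ioc 0 1) ≤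
      ENNReal.ofReal (2 * s + 2 / Q) := by
  classical
  have hQ' : (0 : ℝ) < Q := by positivity
  have hw : ∀ (z : ℝ) (n : ℤ), w (z + n) = w z := fun z n => by
    have := hp.int_mul n z
    rwa [mul_one] at this
  set S := {β : ℝ | ∃ n : ℤ, |β + w (Q * β) - n| ≤ s} with hS
  have hSm : MeasurableSet S := sm_meas_near (f := fun β => β + w (Q * β)) (by fun_prop) s
  have hfin : volume (S ∩ Ioc 0 1) ≠ ⊤ :=
    ne_top_of_le_ne_top (by simp) (measure_mono inter_subset_right)
  rw [ENNReal.le_ofReal_iff_toReal_le hfin (by positivity)]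
  have h1 := sm_integral_indicator hSm 1
  rw [one_mul, measureReal_def] at h1
  rw [← h1, integral_avg (φ := S.indicator fun _ => (1 : ℝ)) ?_ (sm_ii_indicator hSm 1) hQ]
  · have := intervalIntegral.norm_integral_le_of_norm_le_const (a := (0 : ℝ)) (b := 1)
      (C := 2 * s + 2 / Q) (f := fun β => (1 / Q : ℝ) • ∑ j ∈ Finset.range Q,
        S.indicator (fun _ => (1 : ℝ)) (β + j / Q)) (by
        intro β _
        have h2 : ∑ j ∈ Finset.range Q, S.indicator (fun _ => (1 : ℝ)) (β + j / Q) =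
            (((Finset.range Q).filter fun j : ℕ =>
              ∃ n : ℤ, |β + w (Q * β) + j / Q - n| ≤ s).card : ℝ) := by
          rw [Finset.card_filter]
          push_cast
          refine Finset.sum_congr rfl fun j _ => ?_
          have e1 : (Q : ℝ) * (β + j / Q) = Q * β + (j : ℤ) := by push_cast; field_simp
          simp only [indicator_apply, hS, mem_ofPred_eq, e1, hw, add_right_comm β _ (w _)]
        rw [h2, smul_eq_mul, Real.norm_of_nonneg (by positivity)]
        have h3 := sm_count hQ hs (β + w (Q * β))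
        calc _ ≤ 1 / (Q : ℝ) * (2 * s * Q + 2) := by gcongr; linarith
          _ = 2 * s + 2 / Q := by field_simp)
    simp only [sub_zero, abs_one, mul_one] at this
    exact (le_abs_self _).trans this
  · intro β
    have e1 : (Q : ℝ) * (β + 1) = Q * β + (Q : ℤ) := by push_cast; ring
    have : β + 1 ∈ S ↔ β ∈ S := by
      simp only [hS, mem_ofPred_eq, e1, hw]
      constructor
      · rintro ⟨n, hn⟩
        exact ⟨n - 1, by convert hn using 2; push_cast; ring⟩
      · rintro ⟨n, hn⟩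
        exact ⟨n + 1, by convert hn using 2; push_cast; ring⟩
    simp only [indicator_apply, this]

open scoped Convolution in
/-- Smoothing of `⌊β + u β⌋`: convolve with a normed bump of radius `r`, where `r ≤ s/2` and `u`
varies by less than `s/2` at distance `r`. -/
theorem exists_smooth_floor {u : ℝ → ℝ} (hc : Continuous u) (hp : Function.Periodic u 1) {s : ℝ}
    (hs : 0 < s) : ∃ U : ℝ → ℝ, SP U ∧ (∀ C, (∀ β, |u β| ≤ C) → ∀ β, |U β| ≤ C + 1 + s) ∧
      ∀ β, (∀ n : ℤ, s < |β + u β - n|) → U β = (⌊β + u β⌋ : ℝ) - β := by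
  have huc : UniformContinuous u := by
    have hK : IsCompact (Icc (-1 : ℝ) 2) := isCompact_Icc
    have h1 := hK.uniformContinuousOn_of_continuous hc.continuousOn
    rw [Metric.uniformContinuousOn_iff] at h1
    rw [Metric.uniformContinuous_iff]
    intro ε hε
    obtain ⟨δ, hδ, h2⟩ := h1 ε hε
    refine ⟨min δ 1, by positivity, fun {a b} hab => ?_⟩
    have hab1 : dist a b < δ := hab.trans_le (min_le_left _ _)
    have hab2 : |a - b| < 1 := hab.trans_le (min_le_right _ _)
    have e1 := hp.sub_int_mul_eq (x := a) ⌊a⌋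
    have e2 := hp.sub_int_mul_eq (x := b) ⌊a⌋
    rw [← e1, ← e2]
    have f1 := Int.floor_le a
    have f2 := Int.lt_floor_add_one a
    rw [abs_lt] at hab2
    refine h2 _ ⟨by linarith, by linarith⟩ _ ⟨by linarith, by linarith⟩ ?_
    rwa [dist_sub_right]
  obtain ⟨δ, hδ, hu⟩ := Metric.uniformContinuous_iff.mp huc (s / 2) (by positivity)
  set r := min δ (s / 2) with hr
  have hr0 : 0 < r := by positivity
  let φ : ContDiffBump (0 : ℝ) := ⟨r / 2, r, by positivity, by linarith⟩
  set G : ℝ → ℝ := fun β => (⌊β + u β⌋ : ℝ) with hG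
  have hGm : Measurable G := by
    have h1 : Measurable fun β : ℝ => ⌊β + u β⌋ := Int.measurable_floor.comp (by fun_prop)
    exact (measurable_of_countable (fun n : ℤ => (n : ℝ))).comp h1
  have hGb : ∀ β, |G β - β| ≤ |u β| + 1 := fun β => by
    have f1 := Int.floor_le (β + u β)
    have f2 := Int.lt_floor_add_one (β + u β)
    have f3 := le_abs_self (u β)
    have f4 := neg_abs_le (u β)
    simp only [hG]
    rw [abs_le]; constructor <;> linarith
  have hGl : LocallyIntegrable G volume := by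
    have h1 : LocallyIntegrable (fun β : ℝ => |β| + |u β| + 1) volume :=
      Continuous.locallyIntegrable (by fun_prop)
    refine h1.mono hGm.aestronglyMeasurable (Filter.Eventually.of_forall fun β => ?_)
    have := hGb β
    rw [Real.norm_eq_abs, Real.norm_of_nonneg (by positivity)]
    have h2 := abs_sub_abs_le_abs_sub (G β) β
    linarith
  set W : ℝ → ℝ := φ.normed volume ⋆[ContinuousLinearMap.lsmul ℝ ℝ, volume] G with hW
  have hWs : ContDiff ℝ ∞ W :=
    φ.hasCompactSupport_normed.contDiff_convolution_left _ φ.contDiff_normed hGl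
  have hex := φ.hasCompactSupport_normed.convolutionExists_left (ContinuousLinearMap.lsmul ℝ ℝ)
    (φ.continuous_normed (μ := volume)) hGl
  refine ⟨fun β => W β - β, ⟨hWs.sub contDiff_id, fun β => ?_⟩, fun C hC β => ?_, fun β hβ => ?_⟩
  · have h1 : ∀ t, G (β + 1 - t) = G (β - t) + 1 := fun t => by
      have e1 : β + 1 - t = β - t + 1 := by ring
      have e2 : β - t + 1 + u (β - t) = β - t + u (β - t) + 1 := by ring
      simp only [hG]
      rw [e1, hp, e2, Int.floor_add_one]
      push_cast; ring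
    have h2 : W (β + 1) = W β + 1 := by
      simp only [hW, convolution_def, ContinuousLinearMap.lsmul_apply, h1, smul_add]
      have h3 : Integrable (fun t => φ.normed volume t • G (β - t)) volume := hex β
      rw [integral_add h3 ((φ.integrable_normed (μ := volume)).smul_const _),
        φ.integral_normed_smul]
    simp only [h2]
    ring
  · have hC0 : 0 ≤ C := (abs_nonneg _).trans (hC 0)
    have := dist_convolution_le (μ := volume) (g := G) (f := φ.normed volume) (x₀ := β) (R := r)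
      (ε := C + 1 + s) (z₀ := β) (by positivity) φ.support_normed_eq.subset
      φ.nonneg_normed φ.integral_normed hGm.aestronglyMeasurable (by
        intro x hx
        rw [Metric.mem_ball, Real.dist_eq] at hx
        have h1 := hGb x
        have h2 := hC x
        have h3 : r ≤ s / 2 := min_le_right _ _
        have h4 := abs_sub_le (G x) x β
        rw [Real.dist_eq]
        linarith)
    rwa [Real.dist_eq] at this
  · have : W β = G β := by
      refine φ.normed_convolution_eq_right fun x hx => ?_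
      have hx' : dist x β < r := hx
      have h1 := hu (hx'.trans_le (min_le_left _ _))
      have h2 : dist x β < s / 2 := hx'.trans_le (min_le_right _ _)
      rw [Real.dist_eq, abs_lt] at h1 h2
      simp only [hG]
      congr 1
      rw [Int.floor_eq_iff]
      have f1 := Int.floor_le (β + u β)
      have f2 := Int.lt_floor_add_one (β + u β)
      have g1 := hβ ⌊β + u β⌋
      have g2 := hβ (⌊β + u β⌋ + 1)
      rw [abs_of_nonneg (by linarith)] at g1
      push_cast at g2
      rw [abs_of_neg (by linarith)] at g2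
      constructor <;> linarith
    simp only [this, hG]

/-- `U` from `exists_smooth_floor` for `u β = w (Q β)`, `σ = -U'` with `U'` from `u = 0`;
`bad` = the union of the two sets of `volume_near_int` (for `w` and for `0`; the latter with a
large `Q'`). -/
theorem smoothing {w : ℝ → ℝ} (hc : Continuous w) (hp : Function.Periodic w 1) {Q : ℕ} (hQ : 0 < Q)
    {η : ℝ} (hη : 0 < η) :
    ∃ (U σ : ℝ → ℝ) (bad : Set ℝ), SP U ∧ SP σ ∧ (∀ β, |σ β| ≤ 2) ∧ MeasurableSet bad ∧
      (∀ (β : ℝ) (n : ℤ), β + n ∈ bad ↔ β ∈ bad) ∧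
      volume (bad ∩ Ioc 0 1) ≤ ENNReal.ofReal (η + 2 / Q) ∧
      (∀ β ∉ bad, ∃ n : ℤ, U β + β = n) ∧ (∀ β ∉ bad, ∃ n : ℤ, σ β - β = n) ∧
      ∀ θ ∈ Icc (0 : ℝ) 1, ∀ N ν : ℤ,
        ‖zc U θ (Q * N + ν) - cs (θ + ν) * zc w (θ + ν) N‖ ≤ 12 * (1 + |(ν : ℝ)|) / Q + 2 * η := by
  have hQ' : (0 : ℝ) < Q := by positivity
  have hw : ∀ (z : ℝ) (n : ℤ), w (z + n) = w z := fun z n => by
    have := hp.int_mul n z
    rwa [mul_one] at this
  set s := min (η / 8) 1 with hs
  have hs0 : 0 < s := by positivity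
  have hs1 : s ≤ η / 8 := min_le_left _ _
  have hs2 : s ≤ 1 := min_le_right _ _
  have hwQ : ∀ (β : ℝ) (n : ℤ), w (Q * (β + n)) = w (Q * β) := fun β n => by
    have e1 : (Q : ℝ) * (β + n) = Q * β + (Q * n : ℤ) := by push_cast; ring
    rw [e1, hw]
  obtain ⟨U, hU, -, hU2⟩ := exists_smooth_floor (u := fun β => w (Q * β)) (by fun_prop)
    (fun β => by exact_mod_cast hwQ β 1) hs0
  obtain ⟨U', hU', hU'1, hU'2⟩ := exists_smooth_floor (u := fun _ => 0) continuous_const
    (fun _ => rfl) hs0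
  obtain ⟨Q', hQ'2⟩ := exists_nat_gt (4 / η)
  have hQ'3 : (0 : ℝ) < Q' := lt_trans (by positivity) hQ'2
  have hQ'4 : 2 / (Q' : ℝ) ≤ η / 2 := by
    rw [div_lt_iff₀ hη] at hQ'2
    rw [div_le_iff₀ hQ'3]
    linarith
  set B₁ := {β : ℝ | ∃ n : ℤ, |β + w (Q * β) - n| ≤ s} with hB₁
  set B₂ := {β : ℝ | ∃ n : ℤ, |β + 0 - n| ≤ s} with hB₂
  have hm₁ : MeasurableSet B₁ := sm_meas_near (f := fun β => β + w (Q * β)) (by fun_prop) s
  have hm₂ : MeasurableSet B₂ := sm_meas_near (f := fun β => β + 0) (by fun_prop) s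
  have hv₁ : volume (B₁ ∩ Ioc 0 1) ≤ ENNReal.ofReal (2 * s + 2 / Q) :=
    volume_near_int hc hp hQ hs0
  have hv₂ : volume (B₂ ∩ Ioc 0 1) ≤ ENNReal.ofReal (2 * s + 2 / Q') :=
    volume_near_int (w := fun _ => 0) continuous_const (fun _ => rfl) (by exact_mod_cast hQ'3) hs0
  have hsh : ∀ (x : ℝ) (m : ℤ), (∃ n : ℤ, |x + m - n| ≤ s) ↔ ∃ n : ℤ, |x - n| ≤ s := by
    intro x m
    constructor
    · rintro ⟨n, hn⟩
      exact ⟨n - m, by convert hn using 2; push_cast; ring⟩
    · rintro ⟨n, hn⟩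
      exact ⟨n + m, by convert hn using 2; push_cast; ring⟩
  have hn₁ : ∀ β ∉ B₁, U β = (⌊β + w (Q * β)⌋ : ℝ) - β := fun β hβ =>
    hU2 β fun n => lt_of_not_ge fun h => hβ ⟨n, h⟩
  have hn₂ : ∀ β ∉ B₂, U' β = (⌊β + 0⌋ : ℝ) - β := fun β hβ =>
    hU'2 β fun n => lt_of_not_ge fun h => hβ ⟨n, h⟩
  refine ⟨U, fun β => -U' β, B₁ ∪ B₂, hU, ⟨hU'.1.neg, fun β => by simp only [hU'.2 β]⟩,
    fun β => ?_, hm₁.union hm₂, fun β n => ?_, ?_, fun β hβ => ?_, fun β hβ => ?_,
    fun θ hθ N ν => ?_⟩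
  · have := hU'1 0 (fun _ => by simp) β
    rw [abs_neg]; linarith
  · simp only [mem_union, hB₁, hB₂, mem_ofPred_eq, hwQ, add_right_comm β (n : ℝ), hsh]
  · rw [union_inter_distrib_right]
    refine (measure_union_le _ _).trans ((add_le_add hv₁ hv₂).trans ?_)
    rw [← ENNReal.ofReal_add (by positivity) (by positivity)]
    exact ENNReal.ofReal_le_ofReal (by linarith)
  · exact ⟨⌊β + w (Q * β)⌋, by rw [hn₁ β fun h => hβ (Or.inl h)]; ring⟩
  · exact ⟨-⌊β + 0⌋, by simp only [hn₂ β fun h => hβ (Or.inr h)]; push_cast; ring⟩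
  · have h1 := zc_floor hc hp hQ θ N ν
    have hF : Measurable fun β : ℝ => (⌊β + w (Q * β)⌋ : ℝ) - β := by
      have h1 : Measurable fun β : ℝ => ⌊β + w (Q * β)⌋ := Int.measurable_floor.comp (by fun_prop)
      exact ((measurable_of_countable (fun n : ℤ => (n : ℝ))).comp h1).sub measurable_id
    have hUm : Measurable U := hU.1.continuous.measurable
    have h2 : ∀ M : ℤ, ‖zc U θ M - zc (fun β => (⌊β + w (Q * β)⌋ : ℝ) - β) θ M‖ ≤
        2 * (2 * s + 2 / Q) := by
      intro M
      have hM : BM fun β : ℝ => e (-(M * β)) := BM.exp (by fun_prop)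
      unfold zc fc
      rw [← intervalIntegral.integral_sub
        (((BM.exp (hUm.const_mul θ)).mul hM).intervalIntegrable _ _)
        (((BM.exp (hF.const_mul θ)).mul hM).intervalIntegrable _ _)]
      refine (intervalIntegral.norm_integral_le_of_norm_le zero_le_one
        (Filter.Eventually.of_forall fun β _ => ?_) (sm_ii_indicator hm₁ 2 0 1)).trans ?_
      · by_cases hβ : β ∈ B₁
        · rw [indicator_of_mem hβ, ← sub_mul, norm_mul, R75.norm_e, mul_one]
          exact R75.norm_e_sub_e_le_two _ _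
        · rw [indicator_of_notMem hβ, hn₁ β hβ]
          simp
      · rw [sm_integral_indicator hm₁]
        gcongr
        exact ENNReal.toReal_le_of_le_ofReal (by positivity) hv₁
    have h3 := norm_sub_le_norm_sub_add_norm_sub (zc U θ (Q * N + ν))
      (zc (fun β => (⌊β + w (Q * β)⌋ : ℝ) - β) θ (Q * N + ν)) (cs (θ + ν) * zc w (θ + ν) N)
    have h4 : |θ + ν| ≤ 1 + |(ν : ℝ)| := by
      refine (abs_add_le _ _).trans ?_
      rw [abs_of_nonneg hθ.1]
      linarith [hθ.2]
    have h5 : 2 * Real.pi * |θ + ν| / Q + 4 / Q ≤ 12 * (1 + |(ν : ℝ)|) / Q := by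
      rw [← add_div]
      gcongr
      have := Real.pi_le_four
      have h6 := abs_nonneg (ν : ℝ)
      have h7 : 2 * Real.pi * |θ + ν| ≤ 2 * 4 * (1 + |(ν : ℝ)|) := by gcongr
      linarith
    have h6 := h2 (Q * N + ν)
    have h7 : 2 * (2 * s + 2 / (Q : ℝ)) = 4 * s + 4 / Q := by ring
    linarith

end Crest.Agent.R81
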