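import Crest.Agent.R81.Fold
import Crest.Agent.R81.Sm
import Crest.Agent.R81.CDes

/-! Row 81: the key lemma.

Let `ε₁ = ε/20`, `X₀` from `sn_tail ε₁`, `C : CD ε₁ (X₀ + 1)` (nonempty `ι` from the mass at
`ξ = 1/4`), `CD.fold`, `pack` with `ε₁` and `N₁` large (`N₁ c ε₁ ≥ 1`, `2 max n ≤ ε N₁`), `pack_real`
with `η = ε₁`, `L = X₀ + 3 + X`; then `B` large (`≥ B₀, B₁`, `max |a| ≤ ε₁ B`), `w₀` from `C.ex`,
then `Q` large, and `smoothing w₀ Q η'` with `η'` tiny.  Put `ρ = c / (B Q)`,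
`lam = (1 - 2 ε₁) / (N₀ c)`, so `ρ lam = (1 - 2 ε₁) / (N₀ B Q)`.
For `θ ∈ (0,1)` let `I θ` be the set of `(ν, b)` with `|ν| ≤ X₀ + 3`, `|θ + ν| ∈ [lo b, hi b]`,
`Nf (ν, b) = Q (± (B n b + a b)) + ν` with sign `+` iff `0 ≤ ν`; it is injective for `Q > 2 (X₀ + 3)`;
`act θ = (I θ).image Nf` (and `∅` for `θ ∉ (0,1)`).  By `smoothing`, `zc_neg`, `sn_neg`,
`‖zc U θ (Nf (ν, b))‖²` is within `3 e₀ ≤ ε₁ c` of `sn |θ + ν| · ‖zc w₀ |θ + ν| (B n + a)‖²`, where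
`e₀ = 12 (X₀ + 4)/Q + 2 η'`. -/

set_option autoImplicit false

open MeasureTheory Set Crest.AnalysisR.Torus3
open Crest.Agent.R75 (e)
open scoped ContDiff ComplexConjugate

namespace Crest.Agent.R81

namespace KeyAux

theorem ev_le (R : ℝ) {t : ℝ} (ht : 0 < t) : ∀ᶠ Q : ℕ in Filter.atTop, R ≤ t * Q := by
  obtain ⟨n, hn⟩ := exists_nat_ge (R / t)
  filter_upwards [Filter.eventually_ge_atTop n] with Q hQ
  have h1 : (n : ℝ) ≤ Q := by exact_mod_cast hQ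
  rw [div_le_iff₀ ht] at hn
  nlinarith

/-- the sign of an integer, with `sg 0 = 1` -/
def sg (ν : ℤ) : ℤ := if 0 ≤ ν then 1 else -1

theorem sg_cases (ν : ℤ) : sg ν = 1 ∨ sg ν = -1 := by
  unfold sg; split_ifs <;> simp

theorem abs_freq {δ Q B n a ν σ : ℝ} (hδ : 0 ≤ δ) (hQ : 0 ≤ Q) (hB : 1 ≤ B) (hn : 1 ≤ n)
    (ha : |a| ≤ δ * B) (hν : |ν| ≤ δ * Q) (hσ : σ = 1 ∨ σ = -1) :
    abs (|Q * (σ * (B * n + a)) + ν| - Q * B * n) ≤ 2 * δ * (Q * B * n) := by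
  have hσ1 : |σ| = 1 := by rcases hσ with h | h <;> simp [h]
  have h0 : 0 ≤ Q * B * n := by positivity
  have h1 : |σ * (Q * B * n)| = Q * B * n := by rw [abs_mul, hσ1, one_mul, abs_of_nonneg h0]
  have h2 := abs_abs_sub_abs_le_abs_sub (Q * (σ * (B * n + a)) + ν) (σ * (Q * B * n))
  rw [h1] at h2
  refine h2.trans ?_
  have e1 : Q * (σ * (B * n + a)) + ν - σ * (Q * B * n) = σ * (Q * a) + ν := by ring
  rw [e1]
  refine (abs_add_le _ _).trans ?_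
  rw [abs_mul, hσ1, one_mul, abs_mul, abs_of_nonneg hQ]
  have h3 : Q * |a| ≤ Q * (δ * B) := mul_le_mul_of_nonneg_left ha hQ
  have h4 : δ * Q * B * 1 ≤ δ * Q * B * n := mul_le_mul_of_nonneg_left hn (by positivity)
  have h5 : δ * Q * 1 ≤ δ * Q * B := mul_le_mul_of_nonneg_left hB (by positivity)
  nlinarith

theorem norm_zc_le {w : ℝ → ℝ} (hw : Continuous w) (ξ : ℝ) (M : ℤ) : ‖zc w ξ M‖ ^ 2 ≤ 1 := by
  have := bessel_zc hw.measurable ξ ({M} : Finset ℤ) id (Set.injOn_id _)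
  simpa using this

theorem sn_nonneg (ξ : ℝ) : 0 ≤ sn ξ := sq_nonneg _

theorem zc_close {U w : ℝ → ℝ} (hw : Continuous w) {θ e₀ : ℝ} (hθ : θ ∈ Ioo (0 : ℝ) 1) {Q : ℕ}
    {M ν : ℤ} (he : e₀ ≤ 1)
    (h : ‖zc U θ (Q * (sg ν * M) + ν) - cs (θ + ν) * zc w (θ + ν) (sg ν * M)‖ ≤ e₀) :
    abs (‖zc U θ (Q * (sg ν * M) + ν)‖ ^ 2 - sn |θ + ν| * ‖zc w |θ + ν| M‖ ^ 2) ≤ 3 * e₀ := by
  have hT : sn |θ + ν| * ‖zc w |θ + ν| M‖ ^ 2 = ‖cs (θ + ν) * zc w (θ + ν) (sg ν * M)‖ ^ 2 := by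
    rw [norm_mul, mul_pow]
    by_cases hν : 0 ≤ ν
    · have h1 : (0 : ℝ) ≤ ν := by exact_mod_cast hν
      rw [abs_of_nonneg (by linarith [hθ.1]), sg, if_pos hν, one_mul]; rfl
    · have h1 : (ν : ℝ) ≤ -1 := by exact_mod_cast (show ν ≤ -1 by omega)
      rw [abs_of_nonpos (by linarith [hθ.2]), sg, if_neg hν, sn_neg, neg_one_mul]
      have h2 := zc_neg w (-(θ + ν)) M
      rw [neg_neg] at h2
      rw [h2, Complex.norm_conj]; rfl
  have hle : ‖cs (θ + ν) * zc w (θ + ν) (sg ν * M)‖ ^ 2 ≤ 1 := by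
    rw [← hT]
    exact mul_le_one₀ (sn_le_one _) (sq_nonneg _) (norm_zc_le hw _ _)
  rw [hT]
  set x := ‖zc U θ (Q * (sg ν * M) + ν)‖
  set y := ‖cs (θ + ν) * zc w (θ + ν) (sg ν * M)‖
  have hxy : |x - y| ≤ e₀ := (abs_norm_sub_norm_le _ _).trans h
  have hx0 : 0 ≤ x := norm_nonneg _
  have hy0 : 0 ≤ y := norm_nonneg _
  have hy1 : y ≤ 1 := by nlinarith
  obtain ⟨h1, h2⟩ := abs_le.mp hxy
  have e1 : x ^ 2 - y ^ 2 = (x - y) * (x + y) := by ring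
  rw [e1, abs_mul, abs_of_nonneg (add_nonneg hx0 hy0), mul_comm 3]
  exact mul_le_mul hxy (by linarith) (add_nonneg hx0 hy0) ((abs_nonneg _).trans hxy)

theorem good_abs {ε ε₁ θ : ℝ} (h : Good ε θ) (h1 : ε₁ ≤ ε) (ν : ℤ) : Good ε₁ |θ + ν| := by
  intro n
  refine h1.trans ?_
  rcases abs_choice (θ + ν) with h2 | h2
  · have := h (n - 2 * ν)
    rw [h2, show θ + ν - n / 2 = θ - ((n - 2 * ν : ℤ) : ℝ) / 2 by push_cast; ring]
    exact this
  · have := h (-n - 2 * ν)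
    rw [h2, ← abs_neg,
      show -(-(θ + ν) - n / 2) = θ - ((-n - 2 * ν : ℤ) : ℝ) / 2 by push_cast; ring]
    exact this

theorem eq_of_window {θ lo hi : ℝ} (hθ : θ ∈ Ioo (0 : ℝ) 1) {j : ℕ} (h1 : (j : ℝ) / 2 < lo)
    (h2 : hi < (j + 1) / 2) {ν ν' : ℤ} (hs : sg ν = sg ν') (hν : |θ + ν| ∈ Icc lo hi)
    (hν' : |θ + ν'| ∈ Icc lo hi) : ν = ν' := by
  obtain ⟨a1, a2⟩ := hν
  obtain ⟨b1, b2⟩ := hν'
  have key : |(ν : ℝ) - ν'| < 1 := by
    unfold sg at hs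
    by_cases p : 0 ≤ ν <;> by_cases p' : 0 ≤ ν'
    · have q : (0 : ℝ) ≤ ν := by exact_mod_cast p
      have q' : (0 : ℝ) ≤ ν' := by exact_mod_cast p'
      rw [abs_of_nonneg (by linarith [hθ.1])] at a1 a2 b1 b2
      rw [abs_lt]; constructor <;> linarith
    · simp [p, p'] at hs
    · simp [p, p'] at hs
    · have q : (ν : ℝ) ≤ -1 := by exact_mod_cast (show ν ≤ -1 by omega)
      have q' : (ν' : ℝ) ≤ -1 := by exact_mod_cast (show ν' ≤ -1 by omega)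
      rw [abs_of_nonpos (by linarith [hθ.2])] at a1 a2 b1 b2
      rw [abs_lt]; constructor <;> linarith
  have : |ν - ν'| < 1 := by exact_mod_cast key
  have := Int.abs_lt_one_iff.mp this
  omega

theorem int_split {Q X₀ : ℕ} (hQ : 2 * X₀ < Q) {m m' ν ν' : ℤ} (hν : |ν| ≤ X₀) (hν' : |ν'| ≤ X₀)
    (h : Q * m + ν = Q * m' + ν') : ν = ν' ∧ m = m' := by
  have hQ' : (2 * X₀ : ℤ) < Q := by exact_mod_cast hQ
  obtain ⟨a1, a2⟩ := abs_le.mp hν
  obtain ⟨b1, b2⟩ := abs_le.mp hν'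
  have hm : m = m' := by
    rcases lt_trichotomy m m' with h1 | h1 | h1
    · have : (Q : ℤ) * (m + 1) ≤ Q * m' := mul_le_mul_of_nonneg_left (by omega) (by positivity)
      nlinarith
    · exact h1
    · have : (Q : ℤ) * (m' + 1) ≤ Q * m := mul_le_mul_of_nonneg_left (by omega) (by positivity)
      nlinarith
  rw [hm] at h
  exact ⟨by omega, hm⟩

theorem tot_bounds {δ c N₀ n0 nG : ℝ} (hδ : 0 < δ) (hδ1 : δ ≤ 1 / 20) (hc : 0 < c) (hcδ : c ≤ δ)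
    (hN : 0 < N₀) (hn0 : 0 < n0) (hnG : 0 ≤ nG) (h1 : 1 ≤ 2 * n0 * c)
    (h2 : 2 * n0 * c ≤ 1 / (1 - δ) + 2 * c) (h3 : (1 - δ) * N₀ ≤ 2 * n0 * nG)
    (h4 : 2 * n0 * nG ≤ (1 - δ) * N₀ + 2 * n0) (h5 : 1 ≤ δ * c * N₀) :
    1 - 20 * δ ≤ nG * ((1 - 2 * δ) / (N₀ * c)) ∧ nG * ((1 - 2 * δ) / (N₀ * c)) < 1 := by
  have hNc : 0 < N₀ * c := mul_pos hN hc
  have h6 : 1 / (1 - δ) ≤ 1 + 2 * δ := by
    rw [div_le_iff₀ (by linarith)]; nlinarith
  have h7 : 2 * n0 * c ≤ 1 + 4 * δ := by linarith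
  constructor
  · rw [← mul_div_assoc, le_div_iff₀ hNc]
    -- `(1 - δ) N₀ c ≤ 2 n0 c nG ≤ (1 + 4 δ) nG`
    have a1 : (1 - δ) * (N₀ * c) ≤ (1 + 4 * δ) * nG := by
      have := mul_le_mul_of_nonneg_right h3 hc.le
      have := mul_le_mul_of_nonneg_right h7 hnG
      nlinarith
    have a2 : (1 - 20 * δ) * (1 + 4 * δ) ≤ (1 - δ) * (1 - 2 * δ) := by nlinarith
    have a3 : (1 - 20 * δ) * (N₀ * c) * (1 + 4 * δ) ≤ nG * (1 - 2 * δ) * (1 + 4 * δ) := by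
      have b1 := mul_le_mul_of_nonneg_right a2 hNc.le
      have b2 := mul_le_mul_of_nonneg_right a1 (show 0 ≤ 1 - 2 * δ by linarith)
      nlinarith
    exact le_of_mul_le_mul_right a3 (by linarith)
  · rw [← mul_div_assoc, div_lt_one hNc]
    -- `nG ≤ (1 - δ) N₀ c + 1 ≤ N₀ c`
    have a1 : 2 * n0 * nG ≤ 2 * n0 * ((1 - δ) * (N₀ * c) + 1) := by
      have := mul_le_mul_of_nonneg_left h1 (show 0 ≤ (1 - δ) * N₀ by nlinarith)
      nlinarith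
    have a2 : nG ≤ (1 - δ) * (N₀ * c) + 1 := le_of_mul_le_mul_left a1 (by linarith)
    have a3 : nG ≤ N₀ * c := by nlinarith
    nlinarith

end KeyAux

open KeyAux in
theorem nonempty_KL {ε X : ℝ} (hε : 0 < ε) (hε1 : ε ≤ 1) (hX : 0 < X) : Nonempty (KL ε X) := by
  classical
  obtain ⟨δ, hδε⟩ : ∃ δ : ℝ, ε = 20 * δ := ⟨ε / 20, by ring⟩
  have hδ : 0 < δ := by linarith
  have hδ1 : δ ≤ 1 / 20 := by linarith
  obtain ⟨X₀, hX₀⟩ := sn_tail hδ
  have hX₀0 : (0 : ℝ) ≤ X₀ := Nat.cast_nonneg _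
  obtain ⟨C⟩ := nonempty_CD (X := (X₀ : ℝ) + 1) hδ (by linarith) (by linarith)
  obtain ⟨B₀, hB₀⟩ := C.ex
  have hc := C.c_pos
  have hcδ := C.c_le
  have hne : Nonempty C.ι := by
    by_contra hn
    rw [not_nonempty_iff] at hn
    obtain ⟨w, -, -, -, h⟩ := hB₀ B₀ le_rfl
    have hg : Good δ (1 / 4) := by
      intro n
      rcases le_or_gt n 0 with h1 | h1
      · have : (n : ℝ) ≤ 0 := by exact_mod_cast h1
        exact le_trans (by linarith) (le_abs_self _)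
      · have : (1 : ℝ) ≤ n := by exact_mod_cast h1
        exact le_trans (by linarith) (neg_le_abs _)
    have := h (1 / 4) hg (by norm_num) (by linarith)
    rw [Finset.sum_of_isEmpty] at this
    linarith
  obtain ⟨s, conf, n0, col, hs, hn0, hn1, hn2, hcol, hconf, hfold⟩ := C.fold hδ (by linarith)
  obtain ⟨N₁, hN₁a, hN₁b⟩ :=
    ((ev_le 1 (mul_pos hδ hc)).and (ev_le (∑ b, (C.n b : ℝ)) hε)).exists
  obtain ⟨N₀, nG, Y, T, hN₁, hN₀, hG1, hG2, hpack⟩ :=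
    pack C.n C.a C.n_pos C.npar s hs hn0 col hcol conf hconf hδ (by linarith) N₁
  have hN₁' : (N₁ : ℝ) ≤ N₀ := by exact_mod_cast hN₁
  have hN₀' : (0 : ℝ) < N₀ := by exact_mod_cast hN₀
  have hN₀1 : (1 : ℝ) ≤ N₀ := by exact_mod_cast hN₀
  have hNa : 1 ≤ δ * C.c * N₀ := hN₁a.trans (mul_le_mul_of_nonneg_left hN₁' (by positivity))
  have hNb : ∀ b, (C.n b : ℝ) ≤ ε * N₀ := fun b =>
    (Finset.single_le_sum (f := fun b => (C.n b : ℝ)) (fun _ _ => Nat.cast_nonneg _)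
      (Finset.mem_univ b)).trans (hN₁b.trans (mul_le_mul_of_nonneg_left hN₁' hε.le))
  obtain ⟨Cw, B₁, Q₁, hreal⟩ :=
    pack_real C.n C.a C.n_pos s hs conf hN₀ Y T hpack hδ (by linarith) (X₀ + X)
  obtain ⟨B, ⟨hBa, hBb⟩, hBc, hBd⟩ := (((Filter.eventually_ge_atTop B₀).and
    (Filter.eventually_ge_atTop B₁)).and ((Filter.eventually_ge_atTop 1).and
      (ev_le (∑ b, |(C.a b : ℝ)|) hδ))).exists
  have hB1 : (1 : ℝ) ≤ B := by exact_mod_cast hBc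
  have hBa' : ∀ b, |(C.a b : ℝ)| ≤ δ * B := fun b =>
    (Finset.single_le_sum (f := fun b => |(C.a b : ℝ)|) (fun _ _ => abs_nonneg _)
      (Finset.mem_univ b)).trans hBd
  obtain ⟨w₀, hw₀c, hw₀p, hflat, hmass⟩ := hB₀ B hBa
  obtain ⟨Q, ⟨hQa, hQb⟩, hQc, hQd⟩ := (((Filter.eventually_ge_atTop Q₁).and
    (ev_le (72 * (1 + X₀)) (mul_pos hδ hc))).and ((ev_le (2 * X) hε).and
      (ev_le (8 * X * (|Cw| + 1) * N₀) hε))).exists
  have hδc : δ * C.c ≤ δ * (1 / 20) := mul_le_mul_of_nonneg_left (by linarith) hδ.le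
  have hQ0' : (0 : ℝ) ≤ Q := Nat.cast_nonneg _
  have hQe : 72 * (1 + (X₀ : ℝ)) ≤ δ * (1 / 20) * Q :=
    hQb.trans (mul_le_mul_of_nonneg_right hδc hQ0')
  have hQf : δ * Q ≤ 1 / 20 * Q := mul_le_mul_of_nonneg_right hδ1 hQ0'
  have hQ1 : (1 : ℝ) ≤ Q := by linarith
  have hQ0 : (0 : ℝ) < Q := by linarith
  have hQn : 0 < Q := by exact_mod_cast hQ0
  have hQX : 2 * X₀ < Q := by
    have : (2 * X₀ : ℝ) < Q := by linarith
    exact_mod_cast this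
  obtain ⟨w, hwb, hdisj⟩ := hreal B Q hBb hQa
  obtain ⟨U, σ, bad, hU, hσ, hσb, hbm, hbp, hbv, hiU, hiσ, hsm⟩ :=
    smoothing hw₀c hw₀p hQn (η := δ * C.c / 12) (by positivity)
  -- the active frequencies
  let I : ℝ → Finset (ℤ × C.ι) := fun θ =>
    (Finset.Icc (-(X₀ : ℤ)) X₀ ×ˢ Finset.univ).filter
      fun p => |θ + p.1| ∈ Icc (C.lo p.2) (C.hi p.2)
  let Nf : ℤ × C.ι → ℤ := fun p => Q * (sg p.1 * (B * C.n p.2 + C.a p.2)) + p.1
  let act : ℝ → Finset ℤ := fun θ => if θ ∈ Ioo (0 : ℝ) 1 then (I θ).image Nf else ∅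
  have hI : ∀ θ, ∀ p ∈ I θ, |p.1| ≤ X₀ ∧ |θ + p.1| ∈ Icc (C.lo p.2) (C.hi p.2) := by
    intro θ p hp
    obtain ⟨h1, h2⟩ := Finset.mem_filter.mp hp
    exact ⟨abs_le.mpr (Finset.mem_Icc.mp (Finset.mem_product.mp h1).1), h2⟩
  have hact : ∀ θ, ∀ N ∈ act θ, θ ∈ Ioo (0 : ℝ) 1 ∧ ∃ p ∈ I θ, N = Nf p := by
    intro θ N hN
    by_cases hθ : θ ∈ Ioo (0 : ℝ) 1
    · simp only [act, if_pos hθ] at hN
      obtain ⟨p, hp, rfl⟩ := Finset.mem_image.mp hN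
      exact ⟨hθ, p, hp, rfl⟩
    · simp only [act, if_neg hθ] at hN
      exact absurd hN (Finset.notMem_empty _)
  have hn1' : ∀ b, (1 : ℝ) ≤ C.n b := fun b => by exact_mod_cast C.n_pos b
  have habs : ∀ θ, ∀ p ∈ I θ, (1 - 2 * δ) * (Q * B * C.n p.2) ≤ |(Nf p : ℝ)| ∧
      |(Nf p : ℝ)| ≤ (1 + 2 * δ) * (Q * B * C.n p.2) := by
    intro θ p hp
    have h1 : |(p.1 : ℝ)| ≤ X₀ := by exact_mod_cast (hI θ p hp).1
    have h2 := abs_freq (ν := p.1) (σ := sg p.1) hδ.le hQ0' hB1 (hn1' p.2) (hBa' p.2)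
      (by linarith) (by rcases sg_cases p.1 with h | h <;> simp [h])
    have e1 : (Nf p : ℝ) = Q * ((sg p.1 : ℝ) * (B * C.n p.2 + C.a p.2)) + p.1 := by
      simp only [Nf]; push_cast; ring
    rw [← e1] at h2
    obtain ⟨h3, h4⟩ := abs_le.mp h2
    constructor <;> linarith
  have hclose : ∀ θ ∈ Ioo (0 : ℝ) 1, ∀ p ∈ I θ,
      abs (‖zc U θ (Nf p)‖ ^ 2 -
        sn |θ + p.1| * ‖zc w₀ |θ + p.1| (B * C.n p.2 + C.a p.2)‖ ^ 2) ≤ δ * C.c := by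
    intro θ hθ p hp
    have h1 : |(p.1 : ℝ)| ≤ X₀ := by exact_mod_cast (hI θ p hp).1
    have h2 : 12 * (1 + |(p.1 : ℝ)|) / Q ≤ δ * C.c / 6 := by
      rw [div_le_iff₀ hQ0]; linarith
    have h3 := zc_close (U := U) (e₀ := δ * C.c / 3) (Q := Q) (M := B * C.n p.2 + C.a p.2)
      (ν := p.1) hw₀c hθ (by linarith)
      ((hsm θ (Ioo_subset_Icc_self hθ) _ _).trans (by linarith))
    exact h3.trans (by linarith)
  have hinj : ∀ θ, Set.InjOn Nf (I θ) := by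
    rintro θ ⟨ν, b⟩ hp ⟨ν', b'⟩ hp' h
    obtain ⟨rfl, h2⟩ := int_split hQX (hI θ _ hp).1 (hI θ _ hp').1 h
    have h3 : (B : ℤ) * C.n b + C.a b = B * C.n b' + C.a b' := by
      rcases sg_cases ν with h4 | h4 <;> simp only [h4] at h2 <;> linarith
    by_contra hne'
    have hbb : b ≠ b' := fun h5 => hne' (by rw [h5])
    have h4 : (B : ℝ) * C.n b + C.a b = B * C.n b' + C.a b' := by exact_mod_cast h3
    obtain ⟨a1, a2⟩ := abs_le.mp (hBa' b)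
    obtain ⟨b1, b2⟩ := abs_le.mp (hBa' b')
    have hδB : δ * B ≤ 1 / 20 * B := mul_le_mul_of_nonneg_right hδ1 (by linarith)
    rcases lt_trichotomy (C.n b) (C.n b') with h5 | h5 | h5
    · have h6 : (C.n b : ℝ) + 1 ≤ C.n b' := by exact_mod_cast h5
      have := mul_le_mul_of_nonneg_left h6 (show (0 : ℝ) ≤ B by linarith)
      linarith
    · refine C.npar b b' hbb ?_
      rw [h5] at h3 ⊢
      rw [add_left_cancel h3]
    · have h6 : (C.n b' : ℝ) + 1 ≤ C.n b := by exact_mod_cast h5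
      have := mul_le_mul_of_nonneg_left h6 (show (0 : ℝ) ≤ B by linarith)
      linarith
  have hB0 : (0 : ℝ) < B := by linarith
  have hρl : C.c / (B * Q) * ((1 - 2 * δ) / (N₀ * C.c)) = (1 - 2 * δ) / (N₀ * B * Q) := by
    field_simp
  obtain ⟨htot1, htot2⟩ := tot_bounds hδ hδ1 hc hcδ hN₀' (by exact_mod_cast hn0)
    (Nat.cast_nonneg nG) hn1 hn2 hG1 hG2 hNa
  have hrl0 : 0 < (1 - 2 * δ) / (N₀ * B * Q) := div_pos (by linarith) (by positivity)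
  refine ⟨{
    U := U, σ := σ, bad := bad, nG := nG, lam := (1 - 2 * δ) / (N₀ * C.c), ρ := C.c / (B * Q)
    w := w, act := act, U_sp := hU, σ_sp := hσ, σ_bd := hσb, bad_meas := hbm, bad_per := hbp
    bad_vol := ?_, int_U := hiU, int_σ := hiσ
    lam_pos := div_pos (by linarith) (by positivity), ρ_pos := by positivity
    tot_ge := by linarith, tot_lt := htot2
    big := ?_, short := ?_, near := ?_, flat := ?_, mass := ?_, disj := ?_ }⟩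
  · refine hbv.trans (ENNReal.ofReal_le_ofReal ?_)
    have : (2 : ℝ) / Q ≤ δ := by rw [div_le_iff₀ hQ0]; linarith
    linarith
  · intro θ N hN
    obtain ⟨-, p, hp, rfl⟩ := hact θ N hN
    have h1 := (habs θ p hp).1
    have h2 : (Q : ℝ) * 1 * 1 ≤ Q * B * C.n p.2 := by
      have := hn1' p.2
      gcongr
    have h3 : 1 / 2 * (Q * 1 * 1) ≤ (1 - 2 * δ) * (Q * B * C.n p.2) :=
      mul_le_mul (by linarith) h2 (by positivity) (by linarith)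
    have h4 := mul_le_mul_of_nonneg_left (h3.trans h1) hε.le
    linarith
  · intro θ N hN
    obtain ⟨-, p, hp, rfl⟩ := hact θ N hN
    rw [hρl]
    refine (mul_le_mul_of_nonneg_right (habs θ p hp).2 hrl0.le).trans ?_
    have e1 : (1 + 2 * δ) * (Q * B * C.n p.2) * ((1 - 2 * δ) / (N₀ * B * Q)) =
        (1 - 4 * δ ^ 2) * C.n p.2 / N₀ := by
      field_simp; ring
    rw [e1, div_le_iff₀ hN₀']
    have h1 : 0 ≤ 4 * δ ^ 2 * C.n p.2 := by positivity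
    have := hNb p.2
    linarith
  · intro θ N hN g
    obtain ⟨-, p, hp, rfl⟩ := hact θ N hN
    rw [hρl]
    have h1 : 1 / (2 * N₀) ≤ |(Nf p : ℝ)| * ((1 - 2 * δ) / (N₀ * B * Q)) := by
      refine le_trans ?_ (mul_le_mul_of_nonneg_right (habs θ p hp).1 hrl0.le)
      have e1 : (1 - 2 * δ) * (Q * B * C.n p.2) * ((1 - 2 * δ) / (N₀ * B * Q)) =
          2 * ((1 - 2 * δ) ^ 2 * C.n p.2) / (2 * N₀) := by
        field_simp
      rw [e1]
      refine div_le_div_of_nonneg_right ?_ (by positivity)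
      have h2 : 1 / 2 * 1 ≤ (1 - 2 * δ) ^ 2 * C.n p.2 :=
        mul_le_mul (by nlinarith) (hn1' p.2) zero_le_one (by positivity)
      linarith
    have h2 : |w g| ≤ |Cw| / Q :=
      (hwb g).trans (div_le_div_of_nonneg_right (le_abs_self _) hQ0')
    have h3 : (1 - 2 * δ) / (N₀ * B * Q) ≤ 1 / Q := by
      refine div_le_div₀ zero_le_one (by linarith) hQ0 ?_
      have : (1 : ℝ) * 1 * Q ≤ N₀ * B * Q := by gcongr
      linarith
    have h4 : 4 * X * (|w g| + (1 - 2 * δ) / (N₀ * B * Q)) ≤ 4 * X * ((|Cw| + 1) / Q) := by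
      refine mul_le_mul_of_nonneg_left ?_ (by positivity)
      rw [add_div]; linarith
    refine h4.trans (le_trans ?_ (mul_le_mul_of_nonneg_left h1 hε.le))
    rw [← mul_div_assoc, mul_one_div, div_le_div_iff₀ hQ0 (by positivity)]
    linarith
  · intro θ N hN
    obtain ⟨hθ, p, hp, rfl⟩ := hact θ N hN
    obtain ⟨a1, a2⟩ := abs_le.mp (hclose θ hθ p hp)
    obtain ⟨b1, b2⟩ := abs_le.mp (hflat p.2 _ (hI θ p hp).2)
    obtain ⟨c1, c2⟩ := habs θ p hp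
    have hρ : 0 < C.c / (B * Q) := by positivity
    have e1 : ∀ t : ℝ, C.c / (B * Q) * (t * (Q * B * C.n p.2)) = t * (C.c * C.n p.2) := by
      intro t; field_simp
    have d1 := mul_le_mul_of_nonneg_left c1 hρ.le
    have d2 := mul_le_mul_of_nonneg_left c2 hρ.le
    rw [e1] at d1 d2
    have d3 : δ * C.c * 1 ≤ δ * C.c * C.n p.2 :=
      mul_le_mul_of_nonneg_left (hn1' p.2) (by positivity)
    have d4 : 0 ≤ C.c * C.n p.2 := by positivity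
    have d5 : 1 / 2 * (C.c * C.n p.2) ≤ C.c / (B * Q) * |(Nf p : ℝ)| :=
      (mul_le_mul_of_nonneg_right (by linarith) d4).trans d1
    have d6 := mul_le_mul_of_nonneg_left d5 hδ.le
    have d7 : 0 ≤ δ * (C.c * C.n p.2) := by positivity
    rw [abs_le, hδε]
    constructor <;> linarith
  · intro θ hθ hg
    simp only [act, if_pos hθ]
    rw [Finset.sum_image (hinj θ)]
    have h1 : ∀ p ∈ I θ, (1 - 2 * δ) * (sn |θ + p.1| *
        ‖zc w₀ |θ + p.1| (B * C.n p.2 + C.a p.2)‖ ^ 2) ≤ ‖zc U θ (Nf p)‖ ^ 2 := by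
      intro p hp
      obtain ⟨a1, -⟩ := abs_le.mp (hclose θ hθ p hp)
      obtain ⟨b1, -⟩ := abs_le.mp (hflat p.2 _ (hI θ p hp).2)
      have d3 : C.c * 1 ≤ C.c * C.n p.2 := mul_le_mul_of_nonneg_left (hn1' p.2) hc.le
      have d4 : δ * (C.c * C.n p.2) ≤ 1 / 20 * (C.c * C.n p.2) :=
        mul_le_mul_of_nonneg_right hδ1 (by positivity)
      have d5 : C.c ≤ 2 * (sn |θ + p.1| * ‖zc w₀ |θ + p.1| (B * C.n p.2 + C.a p.2)‖ ^ 2) := by
        linarith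
      have d6 := mul_le_mul_of_nonneg_left d5 hδ.le
      linarith
    refine le_trans ?_ (Finset.sum_le_sum h1)
    rw [← Finset.mul_sum]
    have h2 : (1 - δ) * (1 - δ) ≤ ∑ p ∈ I θ, sn |θ + p.1| *
        ‖zc w₀ |θ + p.1| (B * C.n p.2 + C.a p.2)‖ ^ 2 := by
      simp only [I]
      rw [Finset.sum_filter, Finset.sum_product]
      refine (mul_le_mul_of_nonneg_right (hX₀ θ (Ioo_subset_Icc_self hθ)) (by linarith)).trans ?_
      rw [Finset.sum_mul]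
      refine Finset.sum_le_sum fun ν hν => ?_
      dsimp only
      rw [← Finset.sum_filter, ← Finset.mul_sum]
      have e1 : sn (θ + ν) = sn |θ + ν| := by
        rcases abs_choice (θ + ν) with h | h <;> rw [h]
        exact (sn_neg _).symm
      rw [e1]
      refine mul_le_mul_of_nonneg_left ?_ (sn_nonneg _)
      have hg' : Good δ |θ + ν| := good_abs hg (by linarith) ν
      have h3 : |(ν : ℝ)| ≤ X₀ := by exact_mod_cast abs_le.mpr (Finset.mem_Icc.mp hν)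
      refine hmass _ hg' ?_ ?_
      · have := hg' 0
        simp only [Int.cast_zero, zero_div, sub_zero, abs_abs] at this
        linarith
      · have := abs_add_le θ ν
        rw [abs_of_pos hθ.1] at this
        linarith [hθ.2]
    have h3 := mul_le_mul_of_nonneg_left h2 (show 0 ≤ 1 - 2 * δ by linarith)
    refine le_trans ?_ h3
    rw [hδε]
    nlinarith [mul_nonneg hδ.le hδ.le, mul_nonneg (mul_nonneg hδ.le hδ.le) hδ.le]
  · intro θ N hN N' hN' g g' α α' u u' n hα hα' hu hu' h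
    obtain ⟨hθ, ⟨ν, b⟩, hp, rfl⟩ := hact θ N hN
    obtain ⟨-, ⟨ν', b'⟩, hp', rfl⟩ := hact θ N' hN'
    obtain ⟨s₀, hs₀, hsg, hcf⟩ := hfold θ hθ
    obtain ⟨a1, a2⟩ := hI θ _ hp
    obtain ⟨b1, b2⟩ := hI θ _ hp'
    have e1 : s₀ * s b = sg ν := hsg b ν a2
    have e2 : s₀ * s b' = sg ν' := hsg b' ν' b2
    have a3 : |(ν : ℝ)| ≤ X₀ := by exact_mod_cast a1
    have b3 : |(ν' : ℝ)| ≤ X₀ := by exact_mod_cast b1
    rw [hρl] at hu hu'
    obtain ⟨hb, hg⟩ := hdisj b b' g g' s₀ (ν + α) (ν' + α') u u' n hs₀ (hcf b b' ν ν' a2 b2)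
      ((abs_add_le _ _).trans (add_le_add a3 hα)) ((abs_add_le _ _).trans (add_le_add b3 hα'))
      hu hu' (by
        rw [e1, e2, ← h]
        simp only [Nf]
        push_cast
        ring)
    subst hb
    obtain ⟨j, hj1, hj2⟩ := C.comp b
    have : ν = ν' := eq_of_window hθ hj1 hj2 (e1.symm.trans e2) a2 b2
    exact ⟨by rw [this], hg⟩

end Crest.Agent.R81
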