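import Crest.Agent.R81.One

/-! Row 81: jointly smooth families of lifts, smooth difference quotients, smooth periodic
extensions. -/

set_option autoImplicit false

open MeasureTheory Set Crest.AnalysisR.Torus3
open Crest.Agent.R75 (e)
open scoped ContDiff ComplexConjugate

namespace Crest.Agent.R81
/-- `(ε, x) ↦ iteratedFDeriv ℝ j (fun x => F 0 x - F ε x) x` is continuous (it is the `j`-th
derivative of the jointly smooth `(ε, x) ↦ F 0 x - F ε x` composed with `inr`; use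
`ContinuousLinearMap.iteratedFDeriv_comp_right` and `iteratedFDeriv_comp_add_left`), vanishes
for `ε = 0` and is `ℤ³`-periodic in `x`; tube lemma on the compact unit cube. -/
theorem close_of_param (F : ℝ → R3 → R3) (hF : ContDiff ℝ ∞ fun p : ℝ × R3 => F p.1 p.2)
    (hper : ∀ (ε : ℝ) (x : R3) (n : Fin 3 → ℤ),
      F ε (x + fun i => (n i : ℝ)) = F ε x + fun i => (n i : ℝ))
    (k : ℕ) {η : ℝ} (hη : 0 < η) :
    ∃ ε₀ > 0, ∀ ε, |ε| ≤ ε₀ → ∀ j ≤ k, ∀ x, ‖iteratedFDeriv ℝ j (fun x => F 0 x - F ε x) x‖ ≤ η := by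
  let G : ℝ × R3 → R3 := fun p => F 0 p.2 - F p.1 p.2
  have hG : ContDiff ℝ ∞ G :=
    (hF.comp (f := fun p : ℝ × R3 => ((0 : ℝ), p.2)) (contDiff_const.prodMk contDiff_snd)).sub hF
  let Φ : (j : ℕ) → ℝ × R3 → ContinuousMultilinearMap ℝ (fun _ : Fin j => R3) R3 := fun j p =>
    (iteratedFDeriv ℝ j G p).compContinuousLinearMap fun _ => ContinuousLinearMap.inr ℝ ℝ R3
  have hΦ : ∀ j ε x, iteratedFDeriv ℝ j (fun x => F 0 x - F ε x) x = Φ j (ε, x) := by
    intro j ε x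
    have h1 : (fun x => F 0 x - F ε x) =
        (fun z => G ((ε, 0) + z)) ∘ ContinuousLinearMap.inr ℝ ℝ R3 := by
      funext x; simp [G]
    have h2 : ContDiff ℝ ∞ fun z => G ((ε, 0) + z) := hG.comp (contDiff_const.add contDiff_id)
    rw [h1, ContinuousLinearMap.iteratedFDeriv_comp_right _ h2 x (by exact_mod_cast le_top)]
    simp only [Φ]
    rw [iteratedFDeriv_comp_add_left]
    simp
  have hc : ∀ j, Continuous fun p => ‖Φ j p‖ := fun j =>
    ((ContinuousMultilinearMap.compContinuousLinearMapL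
      fun _ : Fin j => ContinuousLinearMap.inr ℝ ℝ R3).continuous.comp
        (hG.continuous_iteratedFDeriv (by exact_mod_cast le_top))).norm
  have hev : ∀ᶠ ε in nhds (0 : ℝ), ∀ j ∈ Finset.range (k + 1), ∀ x ∈ Icc (0 : R3) 1,
      ‖Φ j (ε, x)‖ ≤ η := by
    rw [Filter.eventually_all_finset]
    intro j _
    refine isCompact_Icc.eventually_forall_of_forall_eventually (P := fun ε x => ‖Φ j (ε, x)‖ ≤ η)
      fun y _ => ?_
    have h0 : ‖Φ j (0, y)‖ < η := by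
      rw [← hΦ]; simpa using hη
    exact ((hc j).continuousAt.eventually (gt_mem_nhds h0)).mono fun z hz => hz.le
  obtain ⟨r, hr, h⟩ := Metric.eventually_nhds_iff.1 hev
  refine ⟨r / 2, by positivity, fun ε hε j hj x => ?_⟩
  have h1 := h (y := ε) (by rw [Real.dist_eq, sub_zero]; linarith) j
    (Finset.mem_range.2 (by omega)) (fun i => Int.fract (x i))
    ⟨fun i => Int.fract_nonneg _, fun i => (Int.fract_lt_one _).le⟩
  rw [← hΦ] at h1
  have h2 : x = (fun i => Int.fract (x i)) + fun i => ((⌊x i⌋ : ℤ) : ℝ) := by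
    funext i; simp
  rw [h2, ← iteratedFDeriv_comp_add_right]
  simpa only [hper, add_sub_add_right_eq_sub] using h1

theorem exists_smooth_cut {s t : Set ℝ} (hs : IsClosed s) (ht : IsClosed t) (hd : Disjoint s t) :
    ∃ χ : ℝ → ℝ, ContDiff ℝ ∞ χ ∧ (∀ x ∈ s, χ x = 0) ∧ ∀ x ∈ t, χ x = 1 := by
  obtain ⟨f, h0, h1, -⟩ := exists_contMDiffMap_zero_one_of_isClosed (n := ⊤)
    (modelWithCornersSelf ℝ ℝ) hs ht hd
  exact ⟨f, f.contMDiff.contDiff, fun x hx => h0 hx, fun x hx => h1 hx⟩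

/-- `DV (ε, y) = ∫ t in 0..1, V' (y + t ε)`.  Smoothness, e.g. from
`contDiffOn_convolution_right_with_param` with `f = indicator (Ioc 0 1) 1` and
`g (ε, y) t = V' (y - t ε) * bump t`, evaluated at `0`. -/
theorem exists_DV {V : ℝ → ℝ} (hV : SP V) :
    ∃ DV : ℝ × ℝ → ℝ, ContDiff ℝ ∞ DV ∧ (∀ ε y, ε * DV (ε, y) = V (y + ε) - V y) ∧
      (∀ y, DV (0, y) = deriv V y) ∧ ∀ (ε y : ℝ) (n : ℤ), DV (ε, y + n) = DV (ε, y) := by
  have hV' := hV.deriv
  obtain ⟨χ, hχ, h0, h1⟩ := exists_smooth_cut (s := (Ioo (-2 : ℝ) 2)ᶜ) (t := Icc (-1) 1)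
    isOpen_Ioo.isClosed_compl isClosed_Icc
    (disjoint_compl_left_iff_subset.2 fun x hx => ⟨by linarith [hx.1], by linarith [hx.2]⟩)
  refine ⟨fun p => ∫ t in (0 : ℝ)..1, deriv V (p.2 + t * p.1), ?_, fun ε y => ?_, fun y => by simp,
    fun ε y n => ?_⟩
  · have h := contDiffOn_convolution_right_with_param_comp (μ := volume) (n := ⊤)
      (ContinuousLinearMap.lsmul ℝ ℝ) (s := univ) (v := fun _ : ℝ × ℝ => (0 : ℝ)) contDiffOn_const
      (f := (Ioc (0 : ℝ) 1).indicator fun _ => (1 : ℝ))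
      (g := fun (p : ℝ × ℝ) (t : ℝ) => χ t * deriv V (p.2 - t * p.1)) (k := Icc (-2) 2) isOpen_univ
      isCompact_Icc (fun p x _ hx => by
        rw [h0 x fun h => hx (Ioo_subset_Icc_self h), zero_mul])
      ((locallyIntegrable_const 1).indicator measurableSet_Ioc)
      (ContDiff.contDiffOn (by
        refine (hχ.comp contDiff_snd).mul (hV'.1.comp ?_)
        fun_prop))
    rw [contDiffOn_univ] at h
    convert h using 2 with p
    rw [intervalIntegral.integral_of_le zero_le_one, convolution_def,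
      ← integral_indicator measurableSet_Ioc]
    congr 1
    funext t
    by_cases ht : t ∈ Ioc (0 : ℝ) 1
    · simp [ht, h1 (-t) ⟨by linarith [ht.2], by linarith [ht.1]⟩]
    · simp [ht]
  · have hd : ∀ t, HasDerivAt (fun t => V (y + t * ε)) (deriv V (y + t * ε) * ε) t := fun t => by
      have h2 : HasDerivAt (fun t => y + t * ε) ε t := by
        simpa using ((hasDerivAt_id t).mul_const ε).const_add y
      exact ((hV.1.differentiable (by simp)) _).hasDerivAt.comp t h2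
    have := intervalIntegral.integral_eq_sub_of_hasDerivAt (a := 0) (b := 1) (fun t _ => hd t)
      (Continuous.intervalIntegrable (by have := hV'.1.continuous; fun_prop) _ _)
    rw [intervalIntegral.integral_mul_const] at this
    simpa [mul_comm] using this
  · simp only [add_right_comm y (n : ℝ), hV'.add_int]

/-- Smooth periodic function with prescribed values on disjoint compact intervals of `(0,1)`,
vanishing near the integers: `V₀ = ∑ g, bump g * f g` has compact support in `(0,1)` and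
`V = V₀ ∘ Int.fract`. -/
theorem exists_SP_extend {n : ℕ} (l r : Fin n → ℝ) (f : Fin n → ℝ → ℝ)
    (hf : ∀ g, ContDiff ℝ ∞ (f g)) (h0 : ∀ g, 0 < l g) (h1 : ∀ g, r g < 1)
    (hd : Pairwise fun g g' => Disjoint (Icc (l g) (r g)) (Icc (l g') (r g'))) :
    ∃ V : ℝ → ℝ, SP V ∧ (∃ κ, 0 < κ ∧ ∀ y, |y| ≤ κ → V y = 0) ∧
      ∀ g, ∀ y ∈ Icc (l g) (r g), V y = f g y := by
  have hev : ∀ᶠ κ in nhdsWithin (0 : ℝ) (Ioi 0), 0 < κ ∧ κ < 1 ∧ ∀ g, κ < l g ∧ κ < 1 - r g := by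
    refine Filter.Eventually.and self_mem_nhdsWithin (Filter.Eventually.filter_mono nhdsWithin_le_nhds ?_)
    refine (gt_mem_nhds one_pos).and (Filter.eventually_all.2 fun g => ?_)
    exact (gt_mem_nhds (h0 g)).and (gt_mem_nhds (sub_pos.2 (h1 g)))
  obtain ⟨κ, hκ0, hκ1, hκ⟩ := hev.exists
  have hχ : ∀ g, ∃ χ : ℝ → ℝ, ContDiff ℝ ∞ χ ∧
      (∀ x ∈ (Iic κ ∪ Ici (1 - κ)) ∪ ⋃ g' ∈ {g' | g' ≠ g}, Icc (l g') (r g'), χ x = 0) ∧
      ∀ x ∈ Icc (l g) (r g), χ x = 1 := fun g => by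
    refine exists_smooth_cut ((isClosed_Iic.union isClosed_Ici).union
      ((toFinite _).isClosed_biUnion fun _ _ => isClosed_Icc)) isClosed_Icc ?_
    rw [Set.disjoint_left]
    rintro x ((hx | hx) | hx) hx'
    · linarith [mem_Iic.1 hx, hx'.1, (hκ g).1]
    · linarith [mem_Ici.1 hx, hx'.2, (hκ g).2]
    · obtain ⟨g', hg', hx⟩ := mem_iUnion₂.1 hx
      exact Set.disjoint_left.1 (hd hg') hx hx'
  choose χ hχ hχ0 hχ1 using hχ
  let V₀ : ℝ → ℝ := fun y => ∑ g, χ g y * f g y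
  have hV₀ : ContDiff ℝ ∞ V₀ := ContDiff.sum fun g _ => (hχ g).mul (hf g)
  have hz : ∀ y, y ≤ κ ∨ 1 - κ ≤ y → V₀ y = 0 := fun y hy =>
    Finset.sum_eq_zero fun g _ => by rw [hχ0 g y (Or.inl hy), zero_mul]
  have hloc : ∀ (m : ℤ) (y : ℝ), m - κ ≤ y → y < m + 1 → V₀ (Int.fract y) = V₀ (y - m) := by
    intro m y a b
    rcases le_or_gt (m : ℝ) y with c | c
    · rw [Int.fract, Int.floor_eq_iff.2 ⟨c, b⟩]
    · have : ⌊y⌋ = m - 1 := Int.floor_eq_iff.2 ⟨by push_cast; linarith, by push_cast; linarith⟩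
      rw [hz _ (Or.inr (by rw [Int.fract, this]; push_cast; linarith)),
        hz _ (Or.inl (by linarith))]
  refine ⟨fun y => V₀ (Int.fract y), ⟨contDiff_iff_contDiffAt.2 fun y => ?_, fun y => by simp⟩,
    ⟨κ, hκ0, fun y hy => ?_⟩, fun g y hy => ?_⟩
  · have h2 : (fun y => V₀ (Int.fract y)) =ᶠ[nhds y] fun z => V₀ (z - ⌊y⌋) := by
      filter_upwards [Ioo_mem_nhds (a := ⌊y⌋ - κ) (by linarith [Int.floor_le y])
        (Int.lt_floor_add_one y)] with z hz using hloc _ z hz.1.le hz.2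
    exact (hV₀.comp (contDiff_id.sub contDiff_const)).contDiffAt.congr_of_eventuallyEq h2
  · have := abs_le.1 hy
    change V₀ (Int.fract y) = 0
    rw [hloc 0 y (by simpa using this.1) (by simp; linarith), hz _ (Or.inl (by simpa using this.2))]
  · change V₀ (Int.fract y) = _
    rw [Int.fract_eq_self.2 ⟨by linarith [h0 g, hy.1], by linarith [h1 g, hy.2]⟩]
    simp only [V₀]
    rw [Finset.sum_eq_single g, hχ1 g y hy, one_mul]
    · intro g' _ hg'
      rw [hχ0 g' y (Or.inr (mem_iUnion₂.2 ⟨g, hg'.symm, hy⟩)), zero_mul]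
    · simp

theorem KL.gap_pos {ε X : ℝ} (D : KL ε X) : 0 < (1 - D.nG * D.lam) / (D.nG + 1) :=
  div_pos (sub_pos.2 D.tot_lt) (by positivity)

theorem KL.segL_pos {ε X : ℝ} (D : KL ε X) (g : Fin D.nG) : 0 < D.segL g := by
  have h1 := D.gap_pos
  have h2 := D.lam_pos
  rw [KL.segL]
  positivity

theorem KL.segR_lt {ε X : ℝ} (D : KL ε X) (g : Fin D.nG) : D.segL g + D.lam < 1 := by
  have h1 := D.gap_pos
  have h2 := D.lam_pos
  have h3 : ((g : ℕ) : ℝ) + 1 ≤ D.nG := by exact_mod_cast g.2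
  have h4 : (D.nG + 1) * ((1 - D.nG * D.lam) / (D.nG + 1)) = 1 - D.nG * D.lam := by field_simp
  rw [KL.segL]
  nlinarith

theorem KL.seg_disj {ε X : ℝ} (D : KL ε X) : Pairwise fun g g' =>
    Disjoint (Icc (D.segL g) (D.segL g + D.lam)) (Icc (D.segL g') (D.segL g' + D.lam)) := by
  have h1 := D.gap_pos
  have h2 := D.lam_pos
  have key : ∀ g g' : Fin D.nG, g < g' → D.segL g + D.lam < D.segL g' := by
    intro g g' h
    have h3 : ((g : ℕ) : ℝ) + 1 ≤ (g' : ℕ) := by exact_mod_cast h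
    rw [KL.segL, KL.segL]
    nlinarith
  intro g g' h
  rw [Set.disjoint_left]
  intro x hx hx'
  rcases lt_or_gt_of_ne h with h | h
  · linarith [key _ _ h, hx.2, hx'.1]
  · linarith [key _ _ h, hx.1, hx'.2]

/-- the remaining data of a step -/
theorem exists_Des {q : ℕ} (hq : 0 < q) {ε X : ℝ} (hε : 0 < ε) (D : KL ε X) {κ : ℝ} (hκ : 0 < κ) :
    ∃ D' : Des q ε X, D'.κ₁ < κ := by
  obtain ⟨C, hC0, hC⟩ := D.U_sp.bound
  have hq1 : (1 : ℝ) ≤ q := by exact_mod_cast hq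
  set κ₁ := min (min (κ / 2) ε) (1 / 4) with hκ₁
  have k0 : 0 < κ₁ := by positivity
  have k1 : κ₁ ≤ κ / 2 := (min_le_left _ _).trans (min_le_left _ _)
  have k2 : κ₁ ≤ ε := (min_le_left _ _).trans (min_le_right _ _)
  obtain ⟨Φ, hΦ, -, hΦ'⟩ := exists_SP_extend (n := 1) (fun _ => κ₁) (fun _ => 1 - κ₁)
    (fun _ t => -t) (fun _ => contDiff_neg) (fun _ => k0) (fun _ => by linarith)
    (fun g g' h => absurd (Subsingleton.elim g g') h)
  obtain ⟨Ω, hΩ, hΩ0, hΩ'⟩ := exists_SP_extend D.segL (fun g => D.segL g + D.lam)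
    (fun g y => D.ρ * (y - D.segL g) ^ 2 / 2 + D.w g * y) (fun g => by fun_prop) D.segL_pos
    D.segR_lt D.seg_disj
  have hm : C + 1 ≤ ε * ((q * ⌈(C + 1) / ε⌉₊ : ℕ) : ℝ) := by
    have h1 : (C + 1) / ε ≤ ⌈(C + 1) / ε⌉₊ := Nat.le_ceil _
    rw [div_le_iff₀ hε] at h1
    push_cast
    nlinarith [mul_nonneg hε.le (Nat.cast_nonneg (α := ℝ) ⌈(C + 1) / ε⌉₊)]
  have hg : 1 ≤ ε * (⌈1 / ε⌉₊ : ℕ) := by
    have h1 : 1 / ε ≤ ⌈1 / ε⌉₊ := Nat.le_ceil _
    rw [div_le_iff₀ hε] at h1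
    linarith
  exact ⟨{ toKL := D, M := q * ⌈(C + 1) / ε⌉₊, G' := ⌈1 / ε⌉₊, κ₁ := κ₁, Φ := Φ, Ω := Ω,
           q_dvd := dvd_mul_right _ _, M_big := by linarith,
           U_M := fun β => by linarith [hC β], G_big := hg, κ₁_pos := k0, κ₁_le := k2,
           Φ_sp := hΦ, Φ_eq := fun t ht => hΦ' 0 t ht, Ω_sp := hΩ, Ω_zero := hΩ0,
           Ω_eq := fun g y hy => hΩ' g y (Ioo_subset_Icc_self hy) }, by linarith⟩

theorem Des.deriv_Ω {q : ℕ} {ε X : ℝ} (D : Des q ε X) (g : Fin D.nG) {y : ℝ}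
    (hy : y ∈ Ioo (D.toKL.segL g) (D.toKL.segL g + D.lam)) :
    deriv D.Ω y = D.w g + D.ρ * (y - D.toKL.segL g) := by
  have h1 : D.Ω =ᶠ[nhds y] fun y => D.ρ * (y - D.toKL.segL g) ^ 2 / 2 + D.w g * y := by
    filter_upwards [isOpen_Ioo.mem_nhds hy] with z hz using D.Ω_eq g z hz
  rw [h1.deriv_eq]
  have h2 := ((((hasDerivAt_id y).sub_const (D.toKL.segL g)).pow 2).const_mul D.ρ).div_const 2
  have h3 := (h2.add ((hasDerivAt_id y).const_mul (D.w g))).deriv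
  refine h3.trans ?_
  simp
  ring

theorem Des.sp_V' {q : ℕ} {ε X : ℝ} (D : Des q ε X) (c : ℕ) : SP (D.V' c) := by
  exact ⟨D.Ω_sp.1.div_const _, fun y => by simp only [Des.V', D.Ω_sp.2 y]⟩

theorem Des.deriv_V' {q : ℕ} {ε X : ℝ} (D : Des q ε X) (c : ℕ) (y : ℝ) :
    deriv (D.V' c) y = deriv D.Ω y / (q * (q * c)) := by
  exact deriv_div_const _

theorem Des.aff_V' {q : ℕ} (hq : 0 < q) {ε X : ℝ} (D : Des q ε X) {c : ℕ} (hc : 0 < c)
    (g : Fin D.nG) :
    Aff (D.V' c) (D.toKL.segL g) (D.toKL.segL g + D.lam) (D.ρ / (q * (q * c))) := by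
  have hq' : (0 : ℝ) < q := by exact_mod_cast hq
  have hc' : (0 : ℝ) < c := by exact_mod_cast hc
  have h1 := D.ρ_pos
  refine ⟨(D.toKL.segL_pos g).le, by linarith [D.lam_pos], (D.toKL.segR_lt g).le, by positivity,
    (D.w g - D.ρ * D.toKL.segL g) / (q * (q * c)), D.ρ * D.toKL.segL g ^ 2 / 2 / (q * (q * c)),
    fun y hy => ?_⟩
  rw [Des.V', D.Ω_eq g y hy]
  ring

theorem Des.gap_V' {q : ℕ} (hq : 0 < q) {ε X : ℝ} (D : Des q ε X) {c : ℕ} (hc : 0 < c) :
    Gap (D.V' c) ε := by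
  refine ⟨D.nG, D.toKL.segL, fun g => D.toKL.segL g + D.lam, fun g => ⟨_, D.aff_V' hq hc g⟩,
    fun g g' h => (D.toKL.seg_disj h).mono Ioo_subset_Icc_self Ioo_subset_Icc_self, ?_⟩
  simpa using D.tot_ge

end Crest.Agent.R81
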