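import Crest.Agent.R81.One

/-! Row 81: shears and coordinate permutations lie in `SD`. -/

set_option autoImplicit false

open MeasureTheory Set Crest.AnalysisR.Torus3
open Crest.Agent.R75 (e)
open scoped ContDiff ComplexConjugate

namespace Crest.Agent.R81
/-- the shear `x ↦ x + φ x • a` along a direction `a` that leaves `φ` invariant -/
def shear (a : R3) (φ : R3 → ℝ) (hφ : ∀ x (t : ℝ), φ (x + t • a) = φ x) : Equiv.Perm R3 where
  toFun x := x + φ x • a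
  invFun x := x - φ x • a
  left_inv x := by simp [hφ]
  right_inv x := by
    have := hφ x (-φ x)
    rw [neg_smul, ← sub_eq_add_neg] at this
    simp [this]

lemma mp_skew {G C : Type*} [AddCommGroup G] [AddCommGroup C] [MeasurableSpace G]
    [MeasurableSpace C] [MeasurableAdd₂ G] [MeasurableAdd₂ C] (μ : Measure G) (ν : Measure C)
    [IsProbabilityMeasure μ] [IsProbabilityMeasure ν] [μ.IsAddRightInvariant]
    [ν.IsAddRightInvariant] {ι : C → G} (hι : Measurable ι) (hadd : ∀ s t, ι (s + t) = ι s + ι t)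
    {ψ : G → C} (hψ : Measurable ψ) (h : ∀ p t, ψ (p + ι t) = ψ p) :
    MeasurePreserving (fun p => p + ι (ψ p)) μ μ := by
  have hm : Measurable fun p => p + ι (ψ p) := measurable_id.add (hι.comp hψ)
  refine ⟨hm, Measure.ext_of_lintegral _ fun f hf => ?_⟩
  rw [lintegral_map hf hm]
  calc ∫⁻ p, f (p + ι (ψ p)) ∂μ = ∫⁻ _t, ∫⁻ p, f (p + ι (ψ p)) ∂μ ∂ν := by simp
    _ = ∫⁻ t, ∫⁻ p, f (p + ι (t + ψ p)) ∂μ ∂ν := by
        refine lintegral_congr fun t => ?_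
        rw [← lintegral_add_right_eq_self _ (ι t)]
        simp only [h, hadd, add_assoc]
    _ = ∫⁻ p, ∫⁻ t, f (p + ι (t + ψ p)) ∂ν ∂μ := lintegral_lintegral_swap (by fun_prop)
    _ = ∫⁻ p, ∫⁻ t, f (p + ι t) ∂ν ∂μ :=
        lintegral_congr fun p => lintegral_add_right_eq_self (fun t => f (p + ι t)) _
    _ = ∫⁻ t, ∫⁻ p, f (p + ι t) ∂μ ∂ν := lintegral_lintegral_swap (by fun_prop)
    _ = ∫⁻ p, f p ∂μ := by simp [lintegral_add_right_eq_self]

lemma proj_add_smul (a : Fin 3 → ℤ) (x : R3) (t : ℝ) :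
    proj (x + t • fun i => (a i : ℝ)) = proj x + fun i => a i • (t : UnitAddCircle) := by
  funext i
  simp only [proj, Pi.add_apply, Pi.smul_apply, smul_eq_mul]
  rw [AddCircle.coe_add, ← AddCircle.coe_zsmul, zsmul_eq_mul, mul_comm]

lemma shear_half (a : Fin 3 → ℤ) (φ : R3 → ℝ)
    (hφ : ∀ x (t : ℝ), φ (x + t • fun i => (a i : ℝ)) = φ x) (hs : ContDiff ℝ ∞ φ)
    (hl : ∀ (x : R3) (n : Fin 3 → ℤ), ∃ k : ℤ, φ (x + fun i => (n i : ℝ)) = φ x + k) :
    ContDiff ℝ ∞ (fun x => x + φ x • fun i => (a i : ℝ)) ∧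
      Lat (fun x => x + φ x • fun i => (a i : ℝ)) ∧
      MeasurePreserving (ind fun x => x + φ x • fun i => (a i : ℝ)) volume volume := by
  have h1 : ∀ x x', proj x = proj x' → (φ x : UnitAddCircle) = φ x' := fun x x' h => by
    obtain ⟨n, rfl⟩ := proj_eq_iff.1 h
    obtain ⟨k, hk⟩ := hl x n
    have : ((k : ℝ) : UnitAddCircle) = 0 := (AddCircle.coe_eq_zero_iff _).2 ⟨k, by simp⟩
    rw [hk, AddCircle.coe_add, this, add_zero]
  refine ⟨contDiff_id.add (hs.smul contDiff_const), fun x x' h => ?_, ?_⟩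
  · simp only [proj_add_smul, h, h1 x x' h]
  · have e : (ind fun x => x + φ x • fun i => (a i : ℝ)) = fun p =>
        p + fun i => a i • (φ (lift3 p) : UnitAddCircle) := by
      funext p
      rw [ind, proj_add_smul, proj_lift3]
    rw [e]
    haveI : (volume : Measure T3).IsAddRightInvariant :=
      inferInstanceAs (Measure.pi fun _ : Fin 3 =>
        (volume : Measure UnitAddCircle)).IsAddRightInvariant
    refine mp_skew volume (volume : Measure UnitAddCircle) (ι := fun t i => a i • t)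
      (ψ := fun p => (φ (lift3 p) : UnitAddCircle))
      (measurable_pi_lambda _ fun i => (continuous_zsmul (a i)).measurable)
      (fun s t => funext fun i => smul_add _ _ _)
      (AddCircle.measurable_mk'.comp (hs.continuous.measurable.comp measurable_lift3))
      fun p t => ?_
    rw [← hφ (lift3 p) (rep t)]
    refine h1 _ _ ?_
    rw [proj_lift3, proj_add_smul, proj_lift3, coe_rep]

/-- Measure preservation: with `ι t = fun i => a i • t : UnitAddCircle → T3` and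
`ψ p = ↑(φ (lift3 p))`, the induced map is `p ↦ p + ι (ψ p)` and `ψ (p + ι t) = ψ p`; so
`∫⁻ f (p + ι (ψ p)) = ∫⁻_t ∫⁻_p f (p + ι t + ι (ψ p)) = ∫⁻_p ∫⁻_t f (p + ι (t + ψ p)) = ∫⁻ f`
by translation invariance on `T3` and on the circle.  The inverse is the shear by `-φ`. -/
theorem shear_mem (a : Fin 3 → ℤ) (φ : R3 → ℝ)
    (hφ : ∀ x (t : ℝ), φ (x + t • fun i => (a i : ℝ)) = φ x) (hs : ContDiff ℝ ∞ φ)
    (hl : ∀ (x : R3) (n : Fin 3 → ℤ), ∃ k : ℤ, φ (x + fun i => (n i : ℝ)) = φ x + k) :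
    shear (fun i => (a i : ℝ)) φ hφ ∈ SD := by
  refine ⟨shear_half a φ hφ hs hl, ?_⟩
  have h := shear_half a (fun x => -φ x) (fun x t => by rw [hφ]) hs.neg fun x n => by
    obtain ⟨k, hk⟩ := hl x n
    exact ⟨-k, by rw [hk]; push_cast; ring⟩
  simp only [neg_smul, ← sub_eq_add_neg] at h
  exact h

theorem exists_shear (a : Fin 3 → ℤ) (φ : R3 → ℝ)
    (hφ : ∀ x (t : ℝ), φ (x + t • fun i => (a i : ℝ)) = φ x) (hs : ContDiff ℝ ∞ φ)
    (hl : ∀ (x : R3) (n : Fin 3 → ℤ), ∃ k : ℤ, φ (x + fun i => (n i : ℝ)) = φ x + k) :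
    ∃ D : SD, ∀ x, D.1 x = x + φ x • fun i => (a i : ℝ) :=
  ⟨⟨_, shear_mem a φ hφ hs hl⟩, fun _ => rfl⟩

theorem exists_perm (σ : Equiv.Perm (Fin 3)) : ∃ D : SD, ∀ x, D.1 x = fun i => x (σ i) := by
  have h : ∀ σ : Equiv.Perm (Fin 3), ContDiff ℝ ∞ (fun (x : R3) i => x (σ i)) ∧
      Lat (fun (x : R3) i => x (σ i)) ∧
      MeasurePreserving (ind fun (x : R3) i => x (σ i)) volume volume := fun σ => by
    refine ⟨contDiff_pi.2 fun i => contDiff_apply ℝ ℝ (σ i),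
      fun x x' h => funext fun i => congrFun h (σ i), ?_⟩
    have e : (ind fun (x : R3) i => x (σ i)) = fun p i => p (σ i) :=
      funext fun p => funext fun i => coe_rep _
    rw [e]
    exact (volume_measurePreserving_piCongrLeft (fun _ => UnitAddCircle) σ).symm _
  exact ⟨⟨⟨fun x i => x (σ i), fun x i => x (σ.symm i), fun x => by simp, fun x => by simp⟩,
    h σ, h σ.symm⟩, fun _ => rfl⟩

lemma exists_shear0 (φ : R3 → ℝ) (hφ : ∀ x y : R3, x 1 = y 1 → x 2 = y 2 → φ x = φ y)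
    (hs : ContDiff ℝ ∞ φ)
    (hl : ∀ (x : R3) (n : Fin 3 → ℤ), ∃ k : ℤ, φ (x + fun i => (n i : ℝ)) = φ x + k) :
    ∃ D : SD, ∀ x, D.1 x = ![x 0 + φ x, x 1, x 2] := by
  obtain ⟨D, hD⟩ := exists_shear ![1, 0, 0] φ (fun x t => hφ _ _ (by simp) (by simp)) hs hl
  refine ⟨D, fun x => ?_⟩
  rw [hD]
  funext i
  fin_cases i <;> simp

lemma exists_shear1 (φ : R3 → ℝ) (hφ : ∀ x y : R3, x 0 = y 0 → x 2 = y 2 → φ x = φ y)
    (hs : ContDiff ℝ ∞ φ)
    (hl : ∀ (x : R3) (n : Fin 3 → ℤ), ∃ k : ℤ, φ (x + fun i => (n i : ℝ)) = φ x + k) :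
    ∃ D : SD, ∀ x, D.1 x = ![x 0, x 1 + φ x, x 2] := by
  obtain ⟨D, hD⟩ := exists_shear ![0, 1, 0] φ (fun x t => hφ _ _ (by simp) (by simp)) hs hl
  refine ⟨D, fun x => ?_⟩
  rw [hD]
  funext i
  fin_cases i <;> simp

theorem exists_S (q : ℕ) {V : ℝ → ℝ} (hV : SP V) : ∃ S : SD, ∀ x, S.1 x = sFun q V x := by
  obtain ⟨D, hD⟩ := exists_shear0 (fun x => deriv V (x 2)) (fun x y _ h => by rw [h])
    (hV.deriv.1.comp (contDiff_apply ℝ ℝ 2)) fun x n => ⟨0, by simp [hV.deriv.add_int]⟩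
  obtain ⟨D', hD'⟩ := exists_shear1 (fun _ => 1 / q) (fun _ _ _ _ => rfl) contDiff_const
    fun x n => ⟨0, by simp⟩
  refine ⟨D' * D, fun x => ?_⟩
  change D'.1 (D.1 x) = _
  rw [hD', hD]
  rfl

theorem exists_mB (h : ℝ) {V : ℝ → ℝ} (hV : SP V) : ∃ D : SD, ∀ x, D.1 x = mB h V x := by
  exact exists_shear0 (fun x => h * V (x 2)) (fun x y _ h => by rw [h])
    (contDiff_const.mul (hV.1.comp (contDiff_apply ℝ ℝ 2))) fun x n => ⟨0, by simp [hV.add_int]⟩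

theorem exists_mD (G' : ℕ) : ∃ D : SD, ∀ x, D.1 x = mD G' x := by
  obtain ⟨D, hD⟩ := exists_shear0 (fun x => G' * x 2) (fun x y _ h => by rw [h])
    (contDiff_const.mul (contDiff_apply ℝ ℝ 2)) fun x n => ⟨G' * n 2, by simp [mul_add]⟩
  obtain ⟨D', hD'⟩ := exists_perm ⟨![2, 0, 1], ![1, 2, 0], by decide, by decide⟩
  refine ⟨D' * D, fun x => ?_⟩
  change D'.1 (D.1 x) = _
  rw [hD', hD]
  funext i
  fin_cases i <;> rfl

/-- a shear along `(0,1,0)` followed by a shear along `(1, 0, -q)` with `φ = U3 (z 2 + q z 0) / q` -/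
theorem exists_mA {q : ℕ} (hq : 0 < q) (G' : ℕ) {U σ : ℝ → ℝ} (hU : SP U) (hσ : SP σ) (ε : ℝ) :
    ∃ D : SD, ∀ x, D.1 x = mA q G' U σ ε x := by
  have hq0 : (q : ℝ) ≠ 0 := Nat.cast_ne_zero.2 hq.ne'
  have hβ : ContDiff ℝ ∞ fun x : R3 => x 2 + q * x 0 :=
    (contDiff_apply ℝ ℝ 2).add (contDiff_const.mul (contDiff_apply ℝ ℝ 0))
  have e : ∀ (x : R3) (n : Fin 3 → ℤ), (x + fun i => (n i : ℝ)) 2 + q * (x + fun i => (n i : ℝ)) 0 =
      x 2 + q * x 0 + (n 2 + q * n 0 : ℤ) := fun x n => by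
    simp only [Pi.add_apply]
    push_cast
    ring
  obtain ⟨D, hD⟩ := exists_shear1 (fun x => ε * U (x 2 + q * x 0)) (fun x y h h' => by rw [h, h'])
    (contDiff_const.mul (hU.1.comp hβ)) fun x n => ⟨0, by rw [e, hU.add_int]; simp⟩
  obtain ⟨D', hD'⟩ := exists_shear ![1, 0, -q] (fun x => U3 q G' U σ (x 2 + q * x 0) / q)
    (fun x t => by
      congr 2
      simp
      ring)
    (((hU.1.comp hβ).add (contDiff_const.mul (hσ.1.comp hβ))).div_const _) fun x n =>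
      ⟨0, by rw [e, U3, hU.add_int, hσ.add_int]; simp [U3]⟩
  refine ⟨D' * D, fun x => ?_⟩
  change D'.1 (D.1 x) = _
  rw [hD', hD]
  funext i
  fin_cases i <;> simp [mA, hq0, sub_eq_add_neg]

theorem exists_mC (q : ℕ) {Φ Ω : ℝ → ℝ} (hΦ : SP Φ) (hΩ : SP Ω) :
    ∃ D : SD, ∀ x, D.1 x = mC q Φ Ω x := by
  exact exists_shear0 (fun x => Φ (x 1) * deriv Ω (x 2) / q) (fun x y h h' => by rw [h, h'])
    (((hΦ.1.comp (contDiff_apply ℝ ℝ 1)).mul (hΩ.deriv.1.comp (contDiff_apply ℝ ℝ 2))).div_const _)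
    fun x n => ⟨0, by simp [hΦ.add_int, hΩ.deriv.add_int]⟩

theorem exists_mL (c : ℕ) : ∃ D : SD, ∀ x, D.1 x = mL c x := by
  exact exists_shear0 (fun x => c * x 1) (fun x y h _ => by rw [h])
    (contDiff_const.mul (contDiff_apply ℝ ℝ 1)) fun x n => ⟨c * n 1, by simp [mul_add]⟩

theorem exists_K {q : ℕ} (hq : 0 < q) {ε X : ℝ} (D : Des q ε X) {V : ℝ → ℝ} (hV : SP V) (c : ℕ) :
    ∃ K0 L : SD, (∀ x, K0.1 x = D.K0 V c x) ∧ (∀ x, L.1 x = mL c x) ∧
      ∀ x, (K0 * L).1 x = D.K V c x := by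
  obtain ⟨B, hB⟩ := exists_mB ((q : ℝ) * c) hV
  obtain ⟨D', hD⟩ := exists_mD D.G'
  obtain ⟨A, hA⟩ := exists_mA hq D.G' D.U_sp D.σ_sp (1 / ((q : ℝ) * c))
  obtain ⟨C, hC⟩ := exists_mC q D.Φ_sp D.Ω_sp
  obtain ⟨L, hL⟩ := exists_mL c
  have h : ∀ x, (B * D' * A * C).1 x = D.K0 V c x := fun x => by
    change B.1 (D'.1 (A.1 (C.1 x))) = _
    rw [hB, hD, hA, hC, Des.K0]
  refine ⟨B * D' * A * C, L, h, hL, fun x => ?_⟩
  change (B * D' * A * C).1 (L.1 x) = _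
  rw [h, hL, Des.K]

/-- the linear shear acts on modes -/
theorem md_mL (a : ℝ → ℂ) (b₁ b₂ : ℤ) (c : ℕ) (x : R3) :
    md a b₁ b₂ (mL c x) = md a b₁ (b₂ + c * b₁) x := by
  change a (Int.fract (x 2)) * e (b₁ * (x 0 + c * x 1) + b₂ * x 1) = _
  rw [md]
  congr 2
  push_cast
  ring

end Crest.Agent.R81
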