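import Crest.Agent.R81.Tile
import Crest.Agent.R81.Shear
import Crest.Agent.R81.Param

/-! Row 81: the spectral theory of a model. -/

set_option autoImplicit false

open MeasureTheory Set Crest.AnalysisR.Torus3
open Crest.Agent.R75 (e)
open scoped ContDiff ComplexConjugate

namespace Crest.Agent.R81
theorem Model.q_pos (m : Model) : 0 < m.q := m.q_odd.pos

lemma ml_zpow {q : ℕ} {V : ℝ → ℝ} {S : SD} (hS : ∀ x, S.1 x = sFun q V x) (n : ℤ) (x : R3) :
    (S ^ n).1 x = ![x 0 + n * deriv V (x 2), x 1 + n * (1 / q), x 2] := by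
  have step : ∀ k : ℤ, S.1 ![x 0 + k * deriv V (x 2), x 1 + k * (1 / q), x 2] =
      ![x 0 + (k + 1 : ℤ) * deriv V (x 2), x 1 + (k + 1 : ℤ) * (1 / q), x 2] := fun k => by
    rw [hS, sFun]
    funext i
    fin_cases i
    · simp; ring
    · simp; ring
    · simp
  have hmul : ∀ k : ℤ, (S ^ (k + 1)).1 x = S.1 ((S ^ k).1 x) := fun k => by
    rw [add_comm, zpow_one_add]; rfl
  induction n using Int.induction_on with
  | zero =>
    rw [zpow_zero]
    funext i
    fin_cases i <;> simp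
  | succ k ih => rw [hmul, ih, step]
  | pred k ih =>
    apply S.1.injective
    rw [← hmul, step, sub_add_cancel, ih]

/-- `(S ^ n) x = ![x 0 + n V'(x 2), x 1 + n/q, x 2]`, `V' (fract y) = V' y` -/
theorem koop_zpow_md {q : ℕ} {V : ℝ → ℝ} (hV : SP V) {S : SD} (hS : ∀ x, S.1 x = sFun q V x) (n : ℤ)
    {a : ℝ → ℂ} (ha : BM a) (b₁ b₂ : ℤ) :
    koop (S ^ n) (toL2 (md a b₁ b₂)) =
      toL2 (md (fun y => e (n * ((b₂ : ℝ) / q + b₁ * deriv V y)) * a y) b₁ b₂) := by
  rw [koop_toL2 _ (ha.md _ _) (per_md _ _ _)]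
  congr 1
  funext x
  have h1 : deriv V (Int.fract (x 2)) = deriv V (x 2) := by
    rw [← hV.deriv.add_int (Int.fract (x 2)) ⌊x 2⌋, Int.fract_add_floor]
  rw [ml_zpow hS, md, md, h1, mul_comm (e _) (a _), mul_assoc, ← R75.e_add]
  simp only [Matrix.cons_val_zero, Matrix.cons_val_one, Matrix.cons_val]
  congr 2
  ring

/-- the functional calculus of the model applied to `g` -/
noncomputable def Model.W (m : Model) (ψ : ℝ → ℂ) : L2 :=
  ∑ i, toL2 (md (fun y => ψ ((m.pc i).th m.q m.V y) * (m.pc i).amp y) (m.pc i).b₁ (m.pc i).b₂)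

lemma ml_meas_th (t : Term) (q : ℕ) (V : ℝ → ℝ) : Measurable (t.th q V) :=
  measurable_const.add (measurable_const.mul (measurable_deriv V))

lemma ml_bm (t : Term) (q : ℕ) (V : ℝ → ℝ) {ψ : ℝ → ℂ} (h : BM ψ) :
    BM fun y => ψ (t.th q V y) * t.amp y := (h.comp (ml_meas_th t q V)).mul t.bm_amp

lemma ml_integral_indicator {l r : ℝ} (h0 : 0 ≤ l) (hlr : l ≤ r) (h1 : r ≤ 1) (f : ℝ → ℂ) :
    ∫ y in (0 : ℝ)..1, (Ioo l r).indicator f y = ∫ y in l..r, f y := by
  rw [intervalIntegral.integral_of_le zero_le_one, intervalIntegral.integral_of_le hlr,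
    integral_indicator measurableSet_Ioo, Measure.restrict_restrict measurableSet_Ioo,
    inter_eq_left.mpr (show Ioo l r ⊆ Ioc 0 1 from
      fun y hy => ⟨h0.trans_lt hy.1, hy.2.le.trans h1⟩),
    integral_Ioc_eq_integral_Ioo]

lemma ml_amp_of_notMem (t : Term) {y : ℝ} (hy : y ∉ Ioo t.l t.r) : t.amp y = 0 := by
  rw [Term.amp, indicator_of_notMem hy, mul_zero]

lemma ml_amp_conj (t : Term) {y : ℝ} (hy : y ∈ Ioo t.l t.r) :
    conj (t.amp y) * t.amp y = ((‖t.d‖ ^ 2 : ℝ) : ℂ) := by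
  rw [← Complex.normSq_eq_conj_mul_self, Complex.normSq_eq_norm_sq, Term.amp, indicator_of_mem hy,
    norm_mul, R75.norm_e, mul_one]

/-- Cross terms vanish (`inner_md`; equal modes have disjoint intervals by `arcs`), diagonal terms
are integrals over the arcs (`Term.arc`, `flat`), then `tile`. -/
theorem Model.inner_W (m : Model) {ψ ψ' : ℝ → ℂ} (h : BM ψ) (h' : BM ψ')
    (hp : Function.Periodic ψ 1) (hp' : Function.Periodic ψ' 1) :
    inner ℂ (m.W ψ) (m.W ψ') = ∫ x in (0 : ℝ)..1, conj (ψ x) * ψ' x := by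
  classical
  choose a b hab hlen himg _ hint _ using fun i => (m.pc i).arc m.q (m.aff i) (m.b_ne i)
  have hφ : BM fun x => conj (ψ x) * ψ' x := h.conj.mul h'
  rw [← tile a b (fun i => (hab i).le) ?_ (by simp only [hlen]; exact m.tot) hφ
    (fun x => by simp only [hp x, hp' x])]
  swap
  · intro i i' x x' n hx hx' hn
    rw [← himg] at hx hx'
    obtain ⟨y, hy, rfl⟩ := hx
    obtain ⟨y', hy', rfl⟩ := hx'
    exact m.arcs i i' y y' n hy hy' hn
  rw [Model.W, Model.W, sum_inner]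
  refine Finset.sum_congr rfl fun i _ => ?_
  rw [inner_sum, Finset.sum_eq_single i]
  · rw [inner_md (ml_bm _ _ _ h) (ml_bm _ _ _ h'), if_pos ⟨rfl, rfl⟩,
      ← hint i fun x => conj (ψ x) * ψ' x, ← intervalIntegral.integral_const_mul,
      ← ml_integral_indicator (m.aff i).1 (m.aff i).2.1.le (m.aff i).2.2.1]
    refine intervalIntegral.integral_congr fun y _ => ?_
    by_cases hy : y ∈ Ioo (m.pc i).l (m.pc i).r
    · rw [indicator_of_mem hy, ← m.flat i, ← ml_amp_conj _ hy, map_mul]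
      ring
    · rw [indicator_of_notMem hy]
      simp only [ml_amp_of_notMem _ hy, mul_zero]
  · intro j _ hj
    rw [inner_md (ml_bm _ _ _ h) (ml_bm _ _ _ h')]
    split_ifs with hb
    · refine (intervalIntegral.integral_congr (g := fun _ => 0) fun y _ => ?_).trans (by simp)
      by_cases hy : y ∈ Ioo (m.pc i).l (m.pc i).r
      · by_cases hy' : y ∈ Ioo (m.pc j).l (m.pc j).r
        · exact absurd (m.arcs i j y y 0 hy hy' (by simp [Term.th, hb.1, hb.2])).1.symm hj
        · simp only [ml_amp_of_notMem _ hy', mul_zero]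
      · simp only [ml_amp_of_notMem _ hy, mul_zero, map_zero, zero_mul]
    · rfl
  · intro hi
    exact absurd (Finset.mem_univ i) hi

theorem Model.koop_g (m : Model) (n : ℤ) : koop (m.S ^ n) m.g = m.W fun x => e (n * x) := by
  rw [Model.g, map_sum, Model.W]
  exact Finset.sum_congr rfl fun i _ => koop_zpow_md m.V_sp m.S_eq n (m.pc i).bm_amp _ _

lemma ml_bm_e (n : ℤ) : BM fun x : ℝ => e (n * x) := BM.exp (measurable_const.mul measurable_id)

lemma ml_per_e (n : ℤ) : Function.Periodic (fun x : ℝ => e (n * x)) 1 := fun x => by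
  simp only [mul_add, mul_one, R75.e_add_int]

theorem Model.onorb (m : Model) : ONorb m.S m.g := by
  classical
  rw [ONorb, orthonormal_iff_ite]
  intro n k
  rw [m.koop_g, m.koop_g, m.inner_W (ml_bm_e n) (ml_bm_e k) (ml_per_e n) (ml_per_e k)]
  have h1 := R75.integral_e_int (k - n) 0
  rw [zero_add] at h1
  simp only [sub_eq_zero, eq_comm (a := k)] at h1
  rw [← h1]
  refine intervalIntegral.integral_congr fun y _ => ?_
  simp only [R75.conj_e, ← R75.e_add]
  congr 1
  push_cast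
  ring

theorem Model.norm_g (m : Model) : ‖m.g‖ = 1 := by
  have := m.onorb.1 0
  simpa only [zpow_zero, koop_one] using this

theorem Model.mean_g (m : Model) : inner ℂ (eL 0) m.g = 0 := by
  rw [eL_eq_md, Model.g, inner_sum]
  refine Finset.sum_eq_zero fun i _ => ?_
  rw [Term.L, Term.fn, inner_md (ml_bm_e _) (m.pc i).bm_amp, if_neg]
  exact fun h => m.b_ne i h.1.symm

lemma ml_W_sub (m : Model) {ψ ψ' : ℝ → ℂ} (h : BM ψ) (h' : BM ψ') :
    m.W (fun x => ψ x - ψ' x) = m.W ψ - m.W ψ' := by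
  rw [Model.W, Model.W, Model.W, ← Finset.sum_sub_distrib]
  refine Finset.sum_congr rfl fun i _ => ?_
  rw [← toL2_sub ((ml_bm _ _ _ h).md _ _) ((ml_bm _ _ _ h').md _ _)]
  congr 1
  funext x
  simp only [md]
  ring

lemma ml_W_sum (m : Model) (K : Finset ℤ) (c : ℤ → ℂ) :
    m.W (fun x => ∑ k ∈ K, c k * e (k * x)) = ∑ k ∈ K, c k • m.W fun x => e (k * x) := by
  simp only [Model.W, Finset.smul_sum]
  rw [Finset.sum_comm]
  refine Finset.sum_congr rfl fun i _ => ?_
  simp only [← toL2_smul _ ((ml_bm _ _ _ (ml_bm_e _)).md _ _)]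
  rw [← toL2_sum K fun k _ => (BM.const (c k)).mul ((ml_bm _ _ _ (ml_bm_e k)).md _ _)]
  congr 1
  funext x
  simp only [md, Finset.sum_mul, mul_assoc]

lemma ml_norm_W (m : Model) {ψ : ℝ → ℂ} (h : BM ψ) (hp : Function.Periodic ψ 1) :
    ‖m.W ψ‖ ^ 2 = ∫ x in (0 : ℝ)..1, ‖ψ x‖ ^ 2 := by
  have h1 := m.inner_W h h hp hp
  rw [inner_self_eq_norm_sq_to_K] at h1
  simp only [← Complex.normSq_eq_conj_mul_self, Complex.normSq_eq_norm_sq] at h1
  rw [intervalIntegral.integral_ofReal] at h1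
  apply Complex.ofReal_injective
  rw [← h1, Complex.ofReal_pow]
  rfl

/-- `‖W ψ - ∑_{k ∈ K} fc ψ k • W (e (k ·))‖² = ∫‖ψ‖² - ∑_K ‖fc ψ k‖² → 0` -/
theorem Model.W_mem (m : Model) {ψ : ℝ → ℂ} (h : BM ψ) (hp : Function.Periodic ψ 1) :
    m.W ψ ∈ (orb m.S m.g).topologicalClosure := by
  rw [← SetLike.mem_coe, Submodule.topologicalClosure_coe, Metric.mem_closure_iff]
  intro ε hε
  obtain ⟨K, hK⟩ := ((parseval h).eventually (lt_mem_nhds
    (sub_lt_self (∫ y in (0 : ℝ)..1, ‖ψ y‖ ^ 2) (pow_pos hε 2)))).exists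
  have hs : BM fun x : ℝ => ∑ k ∈ K, fc ψ k * e (k * x) :=
    BM.sum K fun k _ => (BM.const _).mul (ml_bm_e k)
  refine ⟨∑ k ∈ K, fc ψ k • koop (m.S ^ k) m.g, Submodule.sum_mem _ fun k _ =>
    Submodule.smul_mem _ _ (Submodule.subset_span ⟨k, rfl⟩), ?_⟩
  simp only [m.koop_g]
  rw [dist_eq_norm, ← ml_W_sum, ← ml_W_sub m h hs]
  refine lt_of_pow_lt_pow_left₀ 2 hε.le ?_
  rw [ml_norm_W m (h.sub hs) (fun x => by
    simp only [hp x, mul_add, mul_one, R75.e_add_int]), bessel_id h]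
  linarith

/-- A captured term is `W ψ` for the periodisation `ψ` of `(t.amp / (pc i).amp) ∘ th⁻¹` on the arc
of piece `i` (and zero on the other arcs). -/
theorem Model.cap_mem (m : Model) {t : Term} (ht : m.Cap t) :
    t.L ∈ (orb m.S m.g).topologicalClosure := by
  classical
  obtain ⟨i, hb1, hb2, hl, hr⟩ := ht
  obtain ⟨a, b, hab, hlen, himg, -, -, -, χ, hχm, hχ⟩ := (m.pc i).arc m.q (m.aff i) (m.b_ne i)
  have hlen1 : b - a ≤ 1 := by
    rw [hlen, ← m.tot]
    exact Finset.single_le_sum (f := fun j => |(m.pc j).b₁ * m.ρ j| * ((m.pc j).r - (m.pc j).l))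
      (fun j _ => mul_nonneg (abs_nonneg _) (sub_nonneg.mpr (m.aff j).2.1.le)) (Finset.mem_univ i)
  have hd : ((‖(m.pc i).d‖ ^ 2 : ℝ) : ℂ) ≠ 0 := by
    rw [m.flat i]
    exact_mod_cast abs_ne_zero.mpr (mul_ne_zero (by exact_mod_cast m.b_ne i) (m.aff i).2.2.2.1)
  let ψ₀ : ℝ → ℂ := (Ioo a b).indicator fun x =>
    ((‖(m.pc i).d‖ ^ 2 : ℝ) : ℂ)⁻¹ * (t.amp (χ x) * conj ((m.pc i).amp (χ x)))
  have h₀ : BM ψ₀ := ((BM.const _).mul ((t.bm_amp.comp hχm).mul
    ((m.pc i).bm_amp.comp hχm).conj)).indicator measurableSet_Ioo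
  have hψ : BM fun x => ψ₀ (a + Int.fract (x - a)) :=
    h₀.comp (measurable_const.add (measurable_fract.comp (measurable_id.sub measurable_const)))
  have hW := m.W_mem hψ (fun x => by
    simp only [show x + 1 - a = x - a + 1 by ring, Int.fract_add_one])
  convert hW using 1
  rw [Model.W, Finset.sum_eq_single i]
  · rw [Term.L, Term.fn, hb1, hb2]
    congr 2
    funext y
    by_cases hy : y ∈ Ioo (m.pc i).l (m.pc i).r
    · have hx : (m.pc i).th m.q m.V y ∈ Ioo a b := himg ▸ mem_image_of_mem _ hy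
      rw [Int.fract_eq_self.mpr ⟨by linarith [hx.1], by linarith [hx.2]⟩, add_sub_cancel]
      simp only [ψ₀]
      rw [indicator_of_mem hx, hχ y hy, mul_assoc, mul_assoc, ml_amp_conj _ hy]
      field_simp
    · rw [ml_amp_of_notMem _ hy, mul_zero,
        ml_amp_of_notMem _ fun h => hy ⟨hl.trans_lt h.1, h.2.trans_le hr⟩]
  · intro j _ hj
    have h0 : (fun y => ψ₀ (a + Int.fract ((m.pc j).th m.q m.V y - a)) * (m.pc j).amp y) =
        fun _ => 0 := by
      funext y
      by_cases hy : y ∈ Ioo (m.pc j).l (m.pc j).r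
      · have hx : a + Int.fract ((m.pc j).th m.q m.V y - a) ∉ Ioo a b := by
          rw [← himg]
          rintro ⟨y', hy', he⟩
          refine hj (m.arcs j i y y' ⌊(m.pc j).th m.q m.V y - a⌋ hy hy' ?_).1
          rw [he, add_assoc, Int.fract_add_floor, add_sub_cancel]
        simp only [ψ₀]
        rw [indicator_of_notMem hx, zero_mul]
      · rw [ml_amp_of_notMem _ hy, mul_zero]
    rw [h0, ← zero_smul ℂ (toL2 fun _ => 0), ← toL2_smul 0 (BM.const 0)]
    congr 1
    funext x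
    simp [md]
  · intro hi
    exact absurd (Finset.mem_univ i) hi

/-- the initial model: `q = 1`, `V = 3 y²/2` on `[1/3, 2/3]`, one piece `√3 1_{(1/3,2/3)} e (x₀)` -/
theorem nonempty_model : Nonempty Model := by
  obtain ⟨V, hV, hV0, hVe⟩ := exists_SP_extend (n := 1) (fun _ => 1 / 3) (fun _ => 2 / 3)
    (fun _ y => 3 * y ^ 2 / 2) (fun _ => by fun_prop) (fun _ => by norm_num)
    (fun _ => by norm_num) (Subsingleton.pairwise)
  obtain ⟨S, hS⟩ := exists_S 1 hV
  have hA : Aff V (1 / 3) (2 / 3) 3 :=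
    ⟨by norm_num, by norm_num, by norm_num, by norm_num, 0, 0, fun y hy => by
      rw [hVe 0 y (Ioo_subset_Icc_self hy)]; ring⟩
  obtain ⟨p₁, -, -, hd⟩ := hA.deriv
  refine ⟨{ q := 1, V := V, S := S, ι := Unit
            pc := fun _ => ⟨(√3 : ℝ), 0, 1 / 3, 2 / 3, 1, 0⟩
            ρ := fun _ => 3
            q_odd := odd_one, V_sp := hV, V_zero := hV0, S_eq := hS
            aff := fun _ => hA, b_ne := fun _ => one_ne_zero
            flat := fun _ => by simp
            arcs := ?_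
            tot := by simp; norm_num }⟩
  intro i i' y y' n hy hy' h
  refine ⟨rfl, ?_⟩
  simp only [Term.th] at h hy hy'
  rw [hd y hy, hd y' hy'] at h
  have h1 : (n : ℝ) < 1 := by push_cast at h; linarith [hy.2, hy'.1]
  have h2 : (-1 : ℝ) < n := by push_cast at h; linarith [hy.1, hy'.2]
  have h3 : n < 1 := by exact_mod_cast h1
  have h4 : -1 < n := by exact_mod_cast h2
  omega

end Crest.Agent.R81
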