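import Crest.Agent.R81.Defs
import Crest.Agent.R75.F2

/-! Row 81: few lattice points of a large box in high dimension are non-primitive. -/

set_option autoImplicit false

open MeasureTheory Set Crest.AnalysisR.Torus3
open Crest.Agent.R75 (e)
open scoped ContDiff ComplexConjugate

namespace Crest.Agent.R81
theorem np_card_dvd {A L : ℝ} (hL : 0 ≤ L) {k : ℕ} (hk : 0 < k) :
    (((Finset.Icc ⌈A⌉ ⌊A + L⌋).filter fun x : ℤ => (k : ℤ) ∣ x).card : ℝ) ≤ L / k + 1 := by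
  have hk' : (0 : ℝ) < k := by exact_mod_cast hk
  have hsub : ((Finset.Icc ⌈A⌉ ⌊A + L⌋).filter fun x : ℤ => (k : ℤ) ∣ x) ⊆
      (Finset.Icc ⌈A / k⌉ ⌊(A + L) / k⌋).image fun j : ℤ => (k : ℤ) * j := by
    intro x hx
    rw [Finset.mem_filter, Finset.mem_Icc, Int.ceil_le, Int.le_floor] at hx
    obtain ⟨⟨h1, h2⟩, j, rfl⟩ := hx
    refine Finset.mem_image.2 ⟨j, ?_, rfl⟩
    push_cast at h1 h2
    rw [Finset.mem_Icc, Int.ceil_le, Int.le_floor, div_le_iff₀ hk', le_div_iff₀ hk']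
    constructor <;> linarith
  have h1 := (Finset.card_le_card hsub).trans Finset.card_image_le
  rw [Int.card_Icc] at h1
  have h2 : ((⌊(A + L) / k⌋ + 1 - ⌈A / k⌉).toNat : ℝ) ≤ L / k + 1 := by
    have h3 : 0 ≤ L / k := by positivity
    rcases le_total (⌊(A + L) / k⌋ + 1 - ⌈A / k⌉) 0 with h | h
    · rw [Int.toNat_eq_zero.2 h]; push_cast; linarith
    · have h4 : (((⌊(A + L) / k⌋ + 1 - ⌈A / k⌉).toNat : ℤ) : ℝ) =
          ((⌊(A + L) / k⌋ + 1 - ⌈A / k⌉ : ℤ) : ℝ) := by rw [Int.toNat_of_nonneg h]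
      have h5 := Int.floor_le ((A + L) / k)
      have h6 := Int.le_ceil (A / k)
      push_cast at h4
      rw [h4]
      have : (A + L) / k = A / k + L / k := by ring
      linarith
  exact le_trans (by exact_mod_cast h1) h2

theorem np_pow_le {L : ℝ} (hL : 0 ≤ L) {k : ℕ} (hk : 0 < k) (m : ℕ) :
    (L / k + 1) ^ m ≤ (3 / 2 * L) ^ m * (1 / (k : ℝ)) ^ m + 3 ^ m := by
  have hk' : (0 : ℝ) < k := by exact_mod_cast hk
  have h0 : 0 ≤ L / k := by positivity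
  rw [← mul_pow]
  have e : 3 / 2 * L * (1 / (k : ℝ)) = 3 / 2 * (L / k) := by ring
  rw [e]
  rcases le_total 2 (L / k) with h | h
  · have : (L / k + 1) ^ m ≤ (3 / 2 * (L / k)) ^ m := pow_le_pow_left₀ (by linarith) (by linarith) m
    have h3 : (0 : ℝ) ≤ 3 ^ m := by positivity
    linarith
  · have : (L / k + 1) ^ m ≤ 3 ^ m := pow_le_pow_left₀ (by linarith) (by linarith) m
    have h3 : (0 : ℝ) ≤ (3 / 2 * (L / k)) ^ m := by positivity
    linarith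

open Crest.Agent.R75.F2aux in
/-- A non-primitive point has all coordinates divisible by some `k ∈ [2, (C+1) L]`, and there are
at most `(L/k + 1)^(d+1)` such points.  For `k ≤ L/2` this is `≤ (3 L/(2k))^(d+1)`, with
`∑_{k ≥ 2} (3/(2k))^(d+1) ≤ (3/4)^(d-1) · (9/4) ∑ 1/k²`; for `k > L/2` it is `≤ 3^(d+1)`, and
`(C+1) L 3^(d+1) ≤ ε L^(d+1) / 2` for large `L`. -/
theorem card_nonprim {ε : ℝ} (hε : 0 < ε) : ∃ d₀ : ℕ, ∀ d : ℕ, d₀ ≤ d → ∀ C : ℝ, ∃ L₀ : ℝ,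
    ∀ L A : ℝ, L₀ ≤ L → 0 < A → A ≤ C * L →
      (((Fintype.piFinset fun _ : Fin (d + 1) => Finset.Icc ⌈A⌉ ⌊A + L⌋).filter
        fun n => G n ≠ 1).card : ℝ) ≤ ε * L ^ (d + 1) := by
  obtain ⟨s₀, hs₀⟩ := exists_pow_lt_of_lt_one (x := 2 / 9 * ε) (y := (3 / 4 : ℝ)) (by positivity)
    (by norm_num)
  refine ⟨s₀ + 1, fun d hd C => ?_⟩
  obtain ⟨s, rfl⟩ : ∃ s, d = s + 1 := ⟨d - 1, by omega⟩
  refine ⟨max 1 (2 * (|C| + 1) * 3 ^ (s + 2) / ε), fun L A hL hA hAC => ?_⟩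
  have hL1 : 1 ≤ L := (le_max_left _ _).trans hL
  have hL2 : 2 * (|C| + 1) * 3 ^ (s + 2) / ε ≤ L := (le_max_right _ _).trans hL
  have hL0 : 0 ≤ L := by linarith
  set K := ⌊(|C| + 1) * L⌋₊ with hK
  set I := Finset.Icc ⌈A⌉ ⌊A + L⌋ with hI
  have hsub : ((Fintype.piFinset fun _ : Fin (s + 1 + 1) => I).filter fun n => G n ≠ 1) ⊆
      (Finset.Ioc 1 K).biUnion fun k : ℕ =>
        Fintype.piFinset fun _ : Fin (s + 1 + 1) => I.filter fun x : ℤ => (k : ℤ) ∣ x := by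
    intro n hn
    rw [Finset.mem_filter, Fintype.mem_piFinset] at hn
    obtain ⟨hn, hG⟩ := hn
    have hd := (dvd_G n (G n)).1 dvd_rfl
    have h0 := hn 0
    rw [hI, Finset.mem_Icc, Int.ceil_le, Int.le_floor] at h0
    have hpos : 0 < n 0 := by
      have : (0 : ℝ) < n 0 := by linarith [h0.1]
      exact_mod_cast this
    have hle : (G n : ℤ) ≤ n 0 := Int.le_of_dvd hpos (hd 0)
    have hne : G n ≠ 0 := by
      intro h
      have := hd 0
      rw [h] at this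
      simp at this
      omega
    refine Finset.mem_biUnion.2 ⟨G n, Finset.mem_Ioc.2 ⟨by omega, ?_⟩, ?_⟩
    · refine Nat.le_floor ?_
      have h1 : ((G n : ℤ) : ℝ) ≤ n 0 := by exact_mod_cast hle
      have h2 : C * L ≤ |C| * L := mul_le_mul_of_nonneg_right (le_abs_self C) hL0
      push_cast at h1
      linarith [h0.2]
    · exact Fintype.mem_piFinset.2 fun i => Finset.mem_filter.2 ⟨hn i, hd i⟩
  have h1 := (Finset.card_le_card hsub).trans Finset.card_biUnion_le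
  have h2 : (((Fintype.piFinset fun _ : Fin (s + 1 + 1) => I).filter fun n => G n ≠ 1).card : ℝ) ≤
      ∑ k ∈ Finset.Ioc 1 K, ((3 / 2 * L) ^ (s + 2) * (1 / (k : ℝ)) ^ (s + 2) + 3 ^ (s + 2)) := by
    refine le_trans (Nat.cast_le.2 h1) ?_
    push_cast
    refine Finset.sum_le_sum fun k hk => ?_
    have hk0 : 0 < k := by have := (Finset.mem_Ioc.1 hk).1; omega
    rw [Fintype.card_piFinset, Finset.prod_const, Finset.card_univ, Fintype.card_fin]
    push_cast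
    exact (pow_le_pow_left₀ (Nat.cast_nonneg _) (np_card_dvd hL0 hk0) _).trans (np_pow_le hL0 hk0 _)
  refine h2.trans ?_
  rw [Finset.sum_add_distrib, ← Finset.mul_sum, Finset.sum_const, Nat.card_Ioc, nsmul_eq_mul]
  have h3 := tail_le K s
  have h4 : (3 / 2 * L) ^ (s + 2) * ∑ k ∈ Finset.Ioc 1 K, (1 / (k : ℝ)) ^ (s + 2) ≤
      ε / 2 * L ^ (s + 2) := by
    have h5 : (3 / 4 : ℝ) ^ s ≤ (3 / 4) ^ s₀ :=
      pow_le_pow_of_le_one (by norm_num) (by norm_num) (by omega)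
    have h6 : (0 : ℝ) ≤ L ^ (s + 2) := by positivity
    calc _ ≤ (3 / 2 * L) ^ (s + 2) * (1 / 2) ^ s := mul_le_mul_of_nonneg_left h3 (by positivity)
      _ = 9 / 4 * (3 / 4) ^ s * L ^ (s + 2) := by
        rw [show (3 / 4 : ℝ) = 3 / 2 * (1 / 2) by norm_num, mul_pow, mul_pow]; ring
      _ ≤ _ := mul_le_mul_of_nonneg_right (by linarith) h6
  have h5 : ((K - 1 : ℕ) : ℝ) * 3 ^ (s + 2) ≤ ε / 2 * L ^ (s + 2) := by
    have h6 : ((K - 1 : ℕ) : ℝ) ≤ (|C| + 1) * L :=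
      le_trans (Nat.cast_le.2 (Nat.sub_le K 1)) (Nat.floor_le (by positivity))
    have h7 : L ^ 2 ≤ L ^ (s + 2) := pow_le_pow_right₀ hL1 (by omega)
    rw [div_le_iff₀ hε] at hL2
    calc _ ≤ (|C| + 1) * L * 3 ^ (s + 2) := mul_le_mul_of_nonneg_right h6 (by positivity)
      _ = (2 * (|C| + 1) * 3 ^ (s + 2)) * L / 2 := by ring
      _ ≤ (L * ε) * L / 2 := by gcongr
      _ = ε / 2 * L ^ 2 := by ring
      _ ≤ _ := mul_le_mul_of_nonneg_left h7 (by positivity)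
  have e : L ^ (s + 1 + 1) = L ^ (s + 2) := rfl
  rw [e]
  linarith

end Crest.Agent.R81
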