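import Crest.Agent.R81.Basic

/-! Row 81: integrals over the torus as iterated integrals, orthogonality of modes. -/

set_option autoImplicit false

open MeasureTheory Set Crest.AnalysisR.Torus3
open Crest.Agent.R75 (e)
open scoped ContDiff ComplexConjugate

namespace Crest.Agent.R81

theorem ort_ae_Ioo : ∀ᵐ z ∂(volume.restrict (Ioc (0 : ℝ) 1)), z ∈ Ioo (0 : ℝ) 1 := by
  rw [← Measure.restrict_congr_set Ioo_ae_eq_Ioc]
  exact ae_restrict_mem measurableSet_Ioo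

theorem ort_mp_rep : MeasurePreserving rep volume (volume.restrict (Ioc (0 : ℝ) 1)) := by
  have hm : Measurable rep :=
    measurable_subtype_coe.comp (AddCircle.measurableEquivIco (1 : ℝ) 0).measurable
  have h := AddCircle.measurePreserving_mk (T := 1) 0
  rw [zero_add] at h
  refine ⟨hm, ?_⟩
  rw [← h.map_eq, Measure.map_map hm h.measurable, Measure.map_congr (g := id), Measure.map_id]
  filter_upwards [ort_ae_Ioo] with z hz
  exact (rep_coe z).trans (Int.fract_eq_self.2 ⟨hz.1.le, hz.2⟩)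

theorem ort_mp_vec (μ : Measure ℝ) [IsFiniteMeasure μ] :
    MeasurePreserving (fun z : ℝ × ℝ × ℝ => (![z.2.2, z.2.1, z.1] : R3)) (μ.prod (μ.prod μ))
      (Measure.pi fun _ => μ) := by
  have hm : Measurable fun z : ℝ × ℝ × ℝ => (![z.2.2, z.2.1, z.1] : R3) := by
    refine measurable_pi_lambda _ fun i => ?_
    fin_cases i
    exacts [measurable_snd.snd, measurable_snd.fst, measurable_fst]
  refine ⟨hm, (Measure.pi_eq fun s hs => ?_).symm⟩
  have e : (fun z : ℝ × ℝ × ℝ => (![z.2.2, z.2.1, z.1] : R3)) ⁻¹' pi univ s = s 2 ×ˢ s 1 ×ˢ s 0 := by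
    ext z
    simp only [mem_preimage, mem_univ_pi, Fin.forall_fin_succ, mem_prod]
    simp
    tauto
  rw [Measure.map_apply hm (MeasurableSet.univ_pi hs), e, Measure.prod_prod, Measure.prod_prod,
    Fin.prod_univ_three]
  ring

/-- Fubini on the unit cube (use `UnitAddCircle`'s `AddCircle.measurePreserving_mk` /
`intervalIntegral_preimage`, `volume_preserving_piFinSuccAbove` or `measurePreserving_piFinTwo`). -/
theorem integral_lift3 {E : Type} [NormedAddCommGroup E] [NormedSpace ℝ E] [CompleteSpace E]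
    [MeasurableSpace E] [BorelSpace E] [SecondCountableTopology E] {φ : R3 → E}
    (hm : Measurable φ) (C : ℝ) (hC : ∀ x, ‖φ x‖ ≤ C) :
    ∫ p : T3, φ (lift3 p) =
      ∫ z₂ in (0 : ℝ)..1, ∫ z₁ in (0 : ℝ)..1, ∫ z₀ in (0 : ℝ)..1, φ ![z₀, z₁, z₂] := by
  have h1 : MeasurePreserving lift3 volume (Measure.pi fun _ => volume.restrict (Ioc (0 : ℝ) 1)) :=
    measurePreserving_pi _ _ fun _ => ort_mp_rep
  have h2 := ort_mp_vec (volume.restrict (Ioc (0 : ℝ) 1))
  rw [← integral_map h1.measurable.aemeasurable hm.aestronglyMeasurable, h1.map_eq, ← h2.map_eq,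
    integral_map h2.measurable.aemeasurable hm.aestronglyMeasurable,
    integral_prod (fun z : ℝ × ℝ × ℝ => φ ![z.2.2, z.2.1, z.1])
      (Integrable.of_bound (hm.comp h2.measurable).aestronglyMeasurable C
      (Filter.Eventually.of_forall fun _ => hC _))]
  simp only [intervalIntegral.integral_of_le zero_le_one]
  refine integral_congr_ae (Filter.Eventually.of_forall fun z₂ => ?_)
  exact integral_prod (fun z : ℝ × ℝ => φ ![z.2, z.1, z₂]) (Integrable.of_bound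
    ((hm.comp h2.measurable).comp measurable_prodMk_left).aestronglyMeasurable C
      (Filter.Eventually.of_forall fun _ => hC _))

theorem ort_sq {φ : R3 → ℂ} (h : BM φ) : ∫ p : T3, ‖φ (lift3 p)‖ ^ 2 =
    ∫ z₂ in (0 : ℝ)..1, ∫ z₁ in (0 : ℝ)..1, ∫ z₀ in (0 : ℝ)..1, ‖φ ![z₀, z₁, z₂]‖ ^ 2 := by
  obtain ⟨h1, C, hC⟩ := h
  refine integral_lift3 (φ := fun x => ‖φ x‖ ^ 2) (h1.norm.pow_const 2) (C ^ 2) fun x => ?_
  rw [norm_pow, norm_norm]
  exact pow_le_pow_left₀ (norm_nonneg _) (hC x) 2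

theorem ort_le {f : ℝ → ℝ} {a b α : ℝ} {E : Set ℝ} (hE : MeasurableSet E) (hb : 0 ≤ b) (hα : 0 ≤ α)
    (hEα : volume (E ∩ Ioc 0 1) ≤ ENNReal.ofReal α) (h0 : ∀ z, 0 ≤ f z)
    (h : ∀ z ∈ Ioo (0 : ℝ) 1, f z ≤ a + E.indicator (fun _ => b) z) :
    ∫ z in (0 : ℝ)..1, f z ≤ a + b * α := by
  have hi : Integrable (E.indicator fun _ => b) (volume.restrict (Ioc (0 : ℝ) 1)) :=
    (integrable_const b).indicator hE
  rw [intervalIntegral.integral_of_le zero_le_one]
  refine (integral_mono_of_nonneg (Filter.Eventually.of_forall h0) ((integrable_const a).add hi)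
    (ort_ae_Ioo.mono h)).trans ?_
  refine (integral_add (integrable_const a) hi).trans_le ?_
  rw [integral_indicator_const _ hE, measureReal_restrict_apply hE, smul_eq_mul, mul_comm]
  refine add_le_add (by simp) (mul_le_mul_of_nonneg_left ?_ hb)
  exact ENNReal.toReal_le_of_le_ofReal hα hEα

/-- An `L²` bound from bounds on the slices in the first variable: the slice is `≤ A` off two
exceptional sets and `≤ A + B` in general. -/
theorem n2_le_of_slices {φ : R3 → ℂ} (h : BM φ) {A B a₁ a₂ : ℝ} (hA : 0 ≤ A) (hB : 0 ≤ B)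
    {E₁ E₂ : Set ℝ} (h₁ : MeasurableSet E₁) (h₂ : MeasurableSet E₂) (ha₁ : 0 ≤ a₁) (ha₂ : 0 ≤ a₂)
    (hE₁ : volume (E₁ ∩ Ioc 0 1) ≤ ENNReal.ofReal a₁)
    (hE₂ : volume (E₂ ∩ Ioc 0 1) ≤ ENNReal.ofReal a₂)
    (hall : ∀ z₁ ∈ Ioo (0 : ℝ) 1, ∀ z₂ ∈ Ioo (0 : ℝ) 1,
      ∫ z₀ in (0 : ℝ)..1, ‖φ ![z₀, z₁, z₂]‖ ^ 2 ≤ A + B)
    (hgood : ∀ z₁ ∈ Ioo (0 : ℝ) 1, ∀ z₂ ∈ Ioo (0 : ℝ) 1, z₁ ∉ E₁ → z₂ ∉ E₂ →
      ∫ z₀ in (0 : ℝ)..1, ‖φ ![z₀, z₁, z₂]‖ ^ 2 ≤ A) :
    n2 φ ≤ √(A + B * (a₁ + a₂)) := by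
  refine Real.sqrt_le_sqrt ?_
  have h0 : ∀ z₁ z₂ : ℝ, 0 ≤ ∫ z₀ in (0 : ℝ)..1, ‖φ ![z₀, z₁, z₂]‖ ^ 2 := fun _ _ =>
    intervalIntegral.integral_nonneg zero_le_one fun _ _ => sq_nonneg _
  rw [ort_sq h, mul_add, ← add_assoc]
  refine ort_le h₂ hB ha₂ hE₂
    (fun _ => intervalIntegral.integral_nonneg zero_le_one fun _ _ => h0 _ _) fun z₂ hz₂ => ?_
  rw [add_right_comm]
  refine ort_le h₁ hB ha₁ hE₁ (fun _ => h0 _ _) fun z₁ hz₁ => ?_
  have h3 := hall z₁ hz₁ z₂ hz₂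
  by_cases e₁ : z₁ ∈ E₁ <;> by_cases e₂ : z₂ ∈ E₂
  · rw [indicator_of_mem e₁, indicator_of_mem e₂]
    linarith
  · rw [indicator_of_mem e₁, indicator_of_notMem e₂]
    linarith
  · rw [indicator_of_notMem e₁, indicator_of_mem e₂]
    linarith
  · rw [indicator_of_notMem e₁, indicator_of_notMem e₂]
    linarith [hgood z₁ hz₁ z₂ hz₂ e₁ e₂]

theorem ort_int_e (n n' : ℤ) :
    ∫ y in (0 : ℝ)..1, conj (e (n * y)) * e (n' * y) = if n = n' then 1 else 0 := by
  have e1 : ∀ y : ℝ, conj (e (n * y)) * e (n' * y) =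
      Complex.exp ((2 * Real.pi * Complex.I * ((n' - n : ℤ) : ℂ)) * y) := fun y => by
    rw [R75.conj_e, ← R75.e_add, e]
    congr 1
    push_cast
    ring
  simp only [e1]
  split_ifs with h
  · simp [h]
  · have h1 : (2 * Real.pi * Complex.I * ((n' - n : ℤ) : ℂ)) ≠ 0 :=
      mul_ne_zero Complex.two_pi_I_ne_zero (Int.cast_ne_zero.2 (sub_ne_zero.2 (Ne.symm h)))
    rw [integral_exp_mul_complex h1, Complex.ofReal_one, mul_one, mul_comm _ ((n' - n : ℤ) : ℂ),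
      Complex.exp_int_mul_two_pi_mul_I]
    simp

theorem inner_md {a a' : ℝ → ℂ} (h : BM a) (h' : BM a') (b₁ b₂ b₁' b₂' : ℤ) :
    inner ℂ (toL2 (md a b₁ b₂)) (toL2 (md a' b₁' b₂')) =
      if b₁ = b₁' ∧ b₂ = b₂' then ∫ y in (0 : ℝ)..1, conj (a y) * a' y else 0 := by
  obtain ⟨hm, C, hC⟩ := (h.md b₁ b₂).conj.mul (h'.md b₁' b₂')
  rw [inner_toL2 (h.md _ _) (h'.md _ _), integral_lift3 hm C hC]
  have e1 : ∀ z₀ z₁ z₂ : ℝ, conj (md a b₁ b₂ ![z₀, z₁, z₂]) * md a' b₁' b₂' ![z₀, z₁, z₂] =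
      conj (a (Int.fract z₂)) * a' (Int.fract z₂) * (conj (e (b₂ * z₁)) * e (b₂' * z₁)) *
        (conj (e (b₁ * z₀)) * e (b₁' * z₀)) := fun z₀ z₁ z₂ => by
    simp [md, R75.e_add]
    ring
  simp only [e1, intervalIntegral.integral_const_mul, intervalIntegral.integral_mul_const, ort_int_e]
  rw [intervalIntegral.integral_congr_Ioo_of_le zero_le_one (g := fun y => conj (a y) * a' y)
    fun y hy => by simp only [Int.fract_eq_self.2 ⟨hy.1.le, hy.2⟩]]
  by_cases h1 : b₁ = b₁' <;> by_cases h2 : b₂ = b₂' <;> simp [h1, h2]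

theorem norm_md_sq {a : ℝ → ℂ} (h : BM a) (b₁ b₂ : ℤ) :
    ‖toL2 (md a b₁ b₂)‖ ^ 2 = ∫ y in (0 : ℝ)..1, ‖a y‖ ^ 2 := by
  have h1 := inner_md h h b₁ b₂ b₁ b₂
  rw [inner_self_eq_norm_sq_to_K, if_pos ⟨rfl, rfl⟩] at h1
  simp only [Complex.conj_mul', ← Complex.ofReal_pow, intervalIntegral.integral_ofReal] at h1
  exact Complex.ofReal_injective (by rw [← h1]; push_cast; rfl)

theorem Term.norm_L_sq (t : Term) (h0 : 0 ≤ t.l) (hlr : t.l ≤ t.r) (h1 : t.r ≤ 1) :
    ‖t.L‖ ^ 2 = ‖t.d‖ ^ 2 * (t.r - t.l) := by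
  have e1 : ∀ y, ‖t.amp y‖ ^ 2 = (Ioo t.l t.r).indicator (fun _ => ‖t.d‖ ^ 2) y := fun y => by
    by_cases hy : y ∈ Ioo t.l t.r <;> simp [Term.amp, hy]
  rw [Term.L, Term.fn, norm_md_sq t.bm_amp, intervalIntegral.integral_of_le zero_le_one]
  simp only [e1]
  rw [integral_indicator_const _ measurableSet_Ioo, measureReal_restrict_apply measurableSet_Ioo,
    inter_eq_left.2 (Ioo_subset_Ioc_self.trans (Ioc_subset_Ioc h0 h1)), Real.volume_real_Ioo_of_le hlr,
    smul_eq_mul, mul_comm]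

/-- a function of `z₁` times a bounded function -/
theorem n2_mul_le {f : ℝ → ℂ} {ψ : R3 → ℂ} (hf : BM f) (hψ : BM ψ) {C : ℝ} (hC : ∀ z, ‖ψ z‖ ≤ C) :
    n2 (fun z => f (z 1) * ψ z) ≤ C * √(∫ y in (0 : ℝ)..1, ‖f y‖ ^ 2) := by
  have hC0 : 0 ≤ C := (norm_nonneg _).trans (hC 0)
  have h1 : BM fun z : R3 => f (z 1) := hf.comp (measurable_pi_apply 1)
  have h2 := ort_sq h1
  simp only [Matrix.cons_val_one, Matrix.cons_val_zero, intervalIntegral.integral_const, sub_zero,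
    one_smul] at h2
  rw [← h2, ← Real.sqrt_sq hC0, ← Real.sqrt_mul (sq_nonneg _), ← integral_const_mul]
  refine Real.sqrt_le_sqrt (integral_mono_of_nonneg (Filter.Eventually.of_forall fun _ => sq_nonneg _)
    ((h1.memLp.norm.integrable_sq).const_mul _) (Filter.Eventually.of_forall fun p => ?_))
  simp only [norm_mul, mul_pow]
  rw [mul_comm]
  exact mul_le_mul_of_nonneg_right (pow_le_pow_left₀ (norm_nonneg _) (hC _) 2) (sq_nonneg _)

theorem eL_eq_md (n : Fin 3 → ℤ) : eL n = toL2 (md (fun y => e (n 2 * y)) (n 0) (n 1)) := by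
  refine toL2_congr fun x hx => ?_
  rw [md, Int.fract_eq_self.2 (hx 2), ← R75.e_add, Fin.sum_univ_three, add_comm]

theorem coeFn_eL (n : Fin 3 → ℤ) : eL n =ᵐ[volume] UnitAddTorus.mFourier n := by
  refine (coeFn_toL2 (BM.exp (by fun_prop))).trans (Filter.Eventually.of_forall fun p => ?_)
  have e1 : ∀ i, fourier (n i) (p i) = e (n i * lift3 p i) := fun i => by
    rw [lift3, e]
    conv_lhs => rw [← coe_rep (p i), fourier_coe_apply]
    congr 1
    push_cast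
    ring
  simp only [Function.comp, UnitAddTorus.mFourier, ContinuousMap.coe_mk, Fin.sum_univ_three,
    Fin.prod_univ_three, R75.e_add, e1]

theorem orthonormal_eL : Orthonormal ℂ eL := by
  rw [orthonormal_iff_ite]
  intro m n
  rw [eL_eq_md, eL_eq_md, inner_md (BM.exp (by fun_prop)) (BM.exp (by fun_prop)), ort_int_e]
  have : m = n ↔ (m 0 = n 0 ∧ m 1 = n 1) ∧ m 2 = n 2 := by
    rw [funext_iff, Fin.forall_fin_succ, Fin.forall_fin_two, and_assoc]
    rfl
  simp only [this, ite_and]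

/-- `UnitAddTorus.span_mFourier_closure_eq_top` and `ContinuousMap.toLp_denseRange`, as in
`UnitAddTorus.span_mFourierLp_closure_eq_top` (which uses another `MeasureSpace` instance). -/
theorem dense_span_eL : (Submodule.span ℂ (range eL)).topologicalClosure = ⊤ := by
  have e1 : eL = fun n => ContinuousMap.toLp 2 volume ℂ (UnitAddTorus.mFourier n) :=
    funext fun n => Lp.ext ((coeFn_eL n).trans (ContinuousMap.coeFn_toLp _ _).symm)
  rw [e1]
  simpa only [Submodule.map_span, ContinuousLinearMap.coe_coe, ← range_comp, Function.comp_def] using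
    (ContinuousMap.toLp_denseRange (p := 2) ℂ (volume : Measure T3) ℂ
      ENNReal.ofNat_ne_top).topologicalClosure_map_submodule UnitAddTorus.span_mFourier_closure_eq_top

theorem inner_eL_zero (f : L2) : inner ℂ (eL 0) f = ∫ p, f p := by
  rw [L2.inner_def]
  refine integral_congr_ae ?_
  filter_upwards [coeFn_eL 0] with p hp
  simp [hp, UnitAddTorus.mFourier_zero]

theorem koop_eL_zero (D : SD) : koop D (eL 0) = eL 0 := by
  rw [eL, koop_toL2 D (BM.exp (by fun_prop)) (per_exp 0)]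
  simp

/-- a mean zero function is approximated by trigonometric polynomials without constant term -/
theorem exists_trig (F : L2) (hF : inner ℂ (eL 0) F = 0) {η : ℝ} (hη : 0 < η) :
    ∃ (S : Finset (Fin 3 → ℤ)) (a : (Fin 3 → ℤ) → ℂ), 0 ∉ S ∧ ‖F - ∑ n ∈ S, a n • eL n‖ ≤ η := by
  have h := (HilbertBasis.mk orthonormal_eL dense_span_eL.ge).hasSum_repr F
  simp only [HilbertBasis.repr_apply_apply, HilbertBasis.coe_mk] at h
  obtain ⟨S, hS⟩ := (Metric.tendsto_nhds.1 h η hη).exists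
  refine ⟨S.erase 0, fun n => inner ℂ (eL n) F, Finset.notMem_erase _ _, ?_⟩
  rw [Finset.sum_erase _ (by simp [hF]), ← dist_eq_norm, dist_comm]
  exact hS.le

end Crest.Agent.R81
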