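import Crest.Agent.R81.Defs
import Crest.Agent.R75.B

/-! Row 81: colouring of intervals and packing of arcs. -/

set_option autoImplicit false

open MeasureTheory Set Crest.AnalysisR.Torus3
open Crest.Agent.R75 (e)
open scoped ContDiff ComplexConjugate

namespace Crest.Agent.R81
open Classical in
/-- Interval graphs are perfect: colour greedily by increasing left end point (induction on a
finset of indices, removing an index with the largest `lo`; the earlier intervals that meet it
contain its left end point). -/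
theorem colour {ι : Type} [Fintype ι] (lo hi : ι → ℝ) {R : ℕ} (hR : 0 < R)
    (h : ∀ x, (Finset.univ.filter fun b => x ∈ Icc (lo b) (hi b)).card ≤ R) :
    ∃ col : ι → ℕ, (∀ b, col b < R) ∧ ∀ b b', b ≠ b' →
      (∃ x, x ∈ Icc (lo b) (hi b) ∧ x ∈ Icc (lo b') (hi b')) → col b ≠ col b' := by
  have key : ∀ S : Finset ι, ∃ col : ι → ℕ, (∀ b, col b < R) ∧ ∀ b ∈ S, ∀ b' ∈ S, b ≠ b' →
      (∃ x, x ∈ Icc (lo b) (hi b) ∧ x ∈ Icc (lo b') (hi b')) → col b ≠ col b' := by
    intro S
    induction S using Finset.induction_on_max_value lo with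
    | empty => exact ⟨fun _ => 0, fun _ => hR, by simp⟩
    | insert a S haS hmax ih =>
      obtain ⟨col, hc1, hc2⟩ := ih
      set N : Finset ι := S.filter fun b =>
        ∃ x, x ∈ Icc (lo a) (hi a) ∧ x ∈ Icc (lo b) (hi b) with hN
      have hNc : N.card < R := by
        rcases N.eq_empty_or_nonempty with h0 | ⟨b0, hb0⟩
        · rw [h0]; simpa using hR
        · obtain ⟨-, x0, hx0, -⟩ := Finset.mem_filter.1 hb0
          have haN : a ∉ N := fun hh => haS (Finset.mem_filter.1 hh).1
          have hsub : insert a N ⊆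
              Finset.univ.filter fun b => lo a ∈ Icc (lo b) (hi b) := by
            intro b hb
            rcases Finset.mem_insert.1 hb with rfl | hb
            · simp only [Finset.mem_filter, Finset.mem_univ, true_and]
              exact ⟨le_rfl, hx0.1.trans hx0.2⟩
            · obtain ⟨hbS, x, hx1, hx2⟩ := Finset.mem_filter.1 hb
              simp only [Finset.mem_filter, Finset.mem_univ, true_and]
              exact ⟨hmax b hbS, hx1.1.trans hx2.2⟩
          have h1 := (Finset.card_le_card hsub).trans (h (lo a))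
          rw [Finset.card_insert_of_notMem haN] at h1
          omega
      obtain ⟨c, hcR, hcN⟩ : ∃ c ∈ Finset.range R, c ∉ N.image col := by
        apply Finset.exists_mem_notMem_of_card_lt_card
        rw [Finset.card_range]
        exact Finset.card_image_le.trans_lt hNc
      have hnew : ∀ b ∈ S, (∃ x, x ∈ Icc (lo a) (hi a) ∧ x ∈ Icc (lo b) (hi b)) →
          c ≠ col b := by
        intro b hb hx hc
        exact hcN (Finset.mem_image.2 ⟨b, Finset.mem_filter.2 ⟨hb, hx⟩, hc.symm⟩)
      refine ⟨Function.update col a c, fun b => ?_, ?_⟩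
      · by_cases hb : b = a
        · subst hb; simpa using hcR
        · rw [Function.update_of_ne hb]; exact hc1 b
      · intro b hb b' hb' hne hx
        by_cases h1 : b = a
        · have h2 : b' ≠ a := fun hh => hne (h1.trans hh.symm)
          rw [h1, Function.update_self, Function.update_of_ne h2]
          exact hnew b' ((Finset.mem_insert.1 hb').resolve_left h2) (h1 ▸ hx)
        · by_cases h2 : b' = a
          · rw [h2, Function.update_self, Function.update_of_ne h1]
            obtain ⟨x, hx1, hx2⟩ := hx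
            exact (hnew b ((Finset.mem_insert.1 hb).resolve_left h1) ⟨x, h2 ▸ hx2, hx1⟩).symm
          · rw [Function.update_of_ne h1, Function.update_of_ne h2]
            exact hc2 b ((Finset.mem_insert.1 hb).resolve_left h1) b'
              ((Finset.mem_insert.1 hb').resolve_left h2) hne hx
  obtain ⟨col, h1, h2⟩ := key Finset.univ
  exact ⟨col, h1, fun b b' => h2 b (Finset.mem_univ _) b' (Finset.mem_univ _)⟩

open Classical in
/-- the weighted form: apply `colour` to `Σ b, Fin (n b)` -/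
theorem colour_weighted {ι : Type} [Fintype ι] (lo hi : ι → ℝ) (n : ι → ℕ) {R : ℕ} (hR : 0 < R)
    (h : ∀ x, ∑ b with x ∈ Icc (lo b) (hi b), n b ≤ R) :
    ∃ col : ι → ℕ → ℕ, (∀ b κ, col b κ < R) ∧ (∀ b κ κ', κ < n b → κ' < n b → lo b ≤ hi b →
      col b κ = col b κ' → κ = κ') ∧ ∀ b b' κ κ', κ < n b → κ' < n b' → b ≠ b' →
      (∃ x, x ∈ Icc (lo b) (hi b) ∧ x ∈ Icc (lo b') (hi b')) → col b κ ≠ col b' κ' := by
  obtain ⟨col, h1, h2⟩ := colour (ι := Σ b, Fin (n b)) (fun p => lo p.1) (fun p => hi p.1) hR (by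
    intro x
    refine le_trans (le_of_eq ?_) (h x)
    have : (Finset.univ.filter fun p : Σ b, Fin (n b) => x ∈ Icc (lo p.1) (hi p.1)) =
        (Finset.univ.filter fun b => x ∈ Icc (lo b) (hi b)).sigma fun _ => Finset.univ := by
      ext p
      simp
    rw [this, Finset.card_sigma]
    simp)
  refine ⟨fun b κ => if hκ : κ < n b then col ⟨b, ⟨κ, hκ⟩⟩ else 0, fun b κ => ?_, ?_, ?_⟩
  · simp only
    split_ifs
    · exact h1 _
    · exact hR
  · intro b κ κ' hκ hκ' hle he
    simp only [dif_pos hκ, dif_pos hκ'] at he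
    by_contra hne
    refine h2 ⟨b, ⟨κ, hκ⟩⟩ ⟨b, ⟨κ', hκ'⟩⟩ ?_ ⟨lo b, ⟨le_rfl, hle⟩, ⟨le_rfl, hle⟩⟩ he
    intro hh
    apply hne
    simpa using hh
  · intro b b' κ κ' hκ hκ' hne hx
    simp only [dif_pos hκ, dif_pos hκ']
    refine h2 ⟨b, ⟨κ, hκ⟩⟩ ⟨b', ⟨κ', hκ'⟩⟩ ?_ hx
    intro hh
    exact hne (congrArg Sigma.fst hh)

/-- Packing, as in `R75.packing_int`.  Let `q` be `N₁ + 1` times `∏ n b`, `κ y b = n b * y / q`,
`o y b = n b * y % q`, labels `c y b = col b (κ y b) + (if s b = 1 then 2 n0 else n0)`, and apply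
`R75.exists_labelled`; `N₀ = q P`, `Y = y + q τ t`, `T = q t`; keep `⌈(1-ε) N₀ / (2 n0)⌉` segments.
For `u ∈ (0,1)`, `x = n (Y + u) + a T = (o + n u) + q (κ + (n τ + a) t)` with `0 < o + n u < q`, so
`⌊x/q⌋ ≡ σ`, `⌊-x/q⌋ ≡ -σ - 1 (mod P)` and `f ⌊s x / q⌋ = c0 + col b κ` for both signs.  Equality
mod `N₀` gives equal colours, hence `b = b'`, `κ = κ'`, then `σ = σ'`, `o = o'`, `y = y'`, `t = t'`. -/
theorem pack {ι : Type} [Fintype ι] [Nonempty ι] (n : ι → ℕ) (a : ι → ℤ) (hn : ∀ b, 1 ≤ n b)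
    (ha : ∀ b b', b ≠ b' → (n b' : ℤ) * a b ≠ n b * a b') (s : ι → ℤ) (hs : ∀ b, s b = 1 ∨ s b = -1)
    {n0 : ℕ} (hn0 : 0 < n0) (col : ι → ℕ → ℕ) (hcol : ∀ b κ, col b κ < 2 * n0)
    (conf : ι → ι → Prop)
    (hconf : ∀ b b' κ κ', κ < n b → κ' < n b' → conf b b' → col b κ = col b' κ' → b = b' ∧ κ = κ')
    {ε : ℝ} (hε : 0 < ε) (hε1 : ε ≤ 1) (N₁ : ℕ) :
    ∃ (N₀ nG : ℕ) (Y T : Fin nG → ℤ), N₁ ≤ N₀ ∧ 0 < N₀ ∧ (1 - ε) * N₀ ≤ 2 * n0 * nG ∧
      2 * n0 * (nG : ℝ) ≤ (1 - ε) * N₀ + 2 * n0 ∧
      ∀ (b b' : ι) (g g' : Fin nG) (u u' : ℝ) (k : ℤ), conf b b' → u ∈ Ioo (0 : ℝ) 1 →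
        u' ∈ Ioo (0 : ℝ) 1 →
        s b * (n b * (Y g + u) + a b * T g) - s b' * (n b' * (Y g' + u') + a b' * T g') = N₀ * k →
        b = b' ∧ g = g' := by
  classical
  set q := (N₁ + 1) * ∏ b, n b with hq
  have hprod : 0 < ∏ b, n b := Finset.prod_pos fun b _ => hn b
  have hqpos : 0 < q := Nat.mul_pos (by omega) hprod
  have hqN : N₁ ≤ q := le_trans (Nat.le_succ _) (Nat.le_mul_of_pos_right _ hprod)
  have hnq : ∀ b, n b ∣ q := fun b =>
    Dvd.dvd.mul_left (Finset.dvd_prod_of_mem n (Finset.mem_univ b)) _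
  let κ : Fin q → ι → ℕ := fun y b => n b * y / q
  let o : Fin q → ι → ℕ := fun y b => n b * y % q
  have hκ : ∀ y b, κ y b < n b := fun y b =>
    (Nat.div_lt_iff_lt_mul hqpos).2 (Nat.mul_lt_mul_of_pos_left y.isLt (hn b))
  have hoκ : ∀ y b, o y b + q * κ y b = n b * y := fun y b => Nat.mod_add_div _ _
  have hod : ∀ y b, n b ∣ o y b := fun y b => (Nat.dvd_mod_iff (hnq b)).2 (dvd_mul_right _ _)
  have ho : ∀ y b, o y b + n b ≤ q := fun y b =>
    Nat.add_le_of_le_sub (Nat.le_of_dvd hqpos (hnq b)) (by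
      have h1 : o y b < q := Nat.mod_lt _ hqpos
      obtain ⟨u, hu⟩ := hod y b
      obtain ⟨v, hv⟩ := hnq b
      rw [hu, hv] at h1
      have h2 : u < v := lt_of_mul_lt_mul_left h1 (Nat.zero_le _)
      have h3 : n b * (u + 1) ≤ n b * v := Nat.mul_le_mul_left _ h2
      rw [hu, hv]
      rw [mul_add, mul_one] at h3
      omega)
  obtain ⟨P, _, τ, f, T, c0, hT, hinj, hf⟩ := Crest.Agent.R75.exists_labelled n a hn ha hqpos
    (fun y b => col b (κ y b) + if s b = 1 then 2 * n0 else n0)
    (fun y b => by split_ifs <;> omega) (fun y b => κ y b) n0 hn0 hε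
  have hPpos : 0 < P := Nat.pos_of_ne_zero (NeZero.ne P)
  have hn0R : (0 : ℝ) < 2 * n0 := by positivity
  have hqR : (0 : ℝ) < q := by exact_mod_cast hqpos
  set nG : ℕ := ⌈(1 - ε) * (q * P) / (2 * n0)⌉₊ with hnG
  have hnGT : nG ≤ T.card := by
    rw [hnG, Nat.ceil_le, div_le_iff₀ hn0R]
    linarith
  let E : Fin nG → Fin q × ZMod P := fun g => (T.equivFin.symm (Fin.castLE hnGT g)).1
  have hET : ∀ g, E g ∈ T := fun g => (T.equivFin.symm (Fin.castLE hnGT g)).2
  have hEi : Function.Injective E := fun g g' hh =>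
    Fin.castLE_injective hnGT (T.equivFin.symm.injective (Subtype.ext hh))
  -- the integer and fractional parts
  let m : Fin q × ZMod P → ι → ℤ := fun g b => (n b * τ g.1 + a b) * g.2.val + κ g.1 b
  let M : Fin q × ZMod P → ι → ℤ := fun g b => if s b = 1 then m g b else -m g b - 1
  have h2n : ((2 * n0 : ℕ) : ZMod (2 * n0)) = 0 := ZMod.natCast_self _
  have hfM : ∀ g ∈ T, ∀ b, f (M g b) = c0 + (col b (κ g.1 b) : ℕ) := by
    intro g hg b
    obtain ⟨h1, h2⟩ := hf g hg b
    have hm : ((m g b : ℤ) : ZMod P) =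
        ((n b * τ g.1 + a b : ℤ) : ZMod P) * g.2 + ((κ g.1 b : ℕ) : ℤ) := by
      simp [m]
    by_cases hsb : s b = 1
    · simp only [M, if_pos hsb] at h1 ⊢
      rw [hm, h1, Nat.cast_add, h2n, add_zero]
    · simp only [M, if_neg hsb] at h2 ⊢
      rw [Int.cast_sub, Int.cast_neg, hm, Int.cast_one, h2, Nat.cast_add]
      push_cast at h2n
      linear_combination h2n
  have hdec : ∀ (g : Fin q × ZMod P) b (u : ℝ), u ∈ Ioo (0 : ℝ) 1 → ∃ r : ℝ, 0 < r ∧ r < q ∧
      r = (if s b = 1 then (o g.1 b + n b * u : ℝ) else q - (o g.1 b + n b * u)) ∧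
      (s b : ℝ) * (n b * ((((g.1 : ℕ) + q * τ g.1 * g.2.val : ℤ) : ℝ) + u) +
        a b * ((q * g.2.val : ℤ) : ℝ)) = q * M g b + r := by
    intro g b u hu
    have h1 : (o g.1 b : ℝ) + q * κ g.1 b = n b * (g.1 : ℕ) := by exact_mod_cast hoκ g.1 b
    have h2 : (o g.1 b : ℝ) + n b ≤ q := by exact_mod_cast ho g.1 b
    have h3 : (0 : ℝ) ≤ o g.1 b := by positivity
    have h4 : (0 : ℝ) < n b := by exact_mod_cast hn b
    have h5 : 0 < n b * u := mul_pos h4 hu.1
    have h6 : n b * u < n b := mul_lt_of_lt_one_right h4 hu.2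
    refine ⟨_, ?_, ?_, rfl, ?_⟩
    · split_ifs <;> linarith
    · split_ifs <;> linarith
    · rcases hs b with hsb | hsb
      · simp only [M, m, if_pos hsb]
        rw [hsb]
        push_cast
        linear_combination -h1
      · have hsb' : ¬ s b = 1 := by omega
        simp only [M, m, if_neg hsb']
        rw [hsb]
        push_cast
        linear_combination h1
  refine ⟨q * P, nG, fun g => ((E g).1 : ℕ) + q * τ (E g).1 * (E g).2.val,
    fun g => q * (E g).2.val, hqN.trans (Nat.le_mul_of_pos_right _ hPpos), by positivity, ?_, ?_,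
    ?_⟩
  · have := Nat.le_ceil ((1 - ε) * (q * P) / (2 * n0))
    rw [div_le_iff₀ hn0R] at this
    push_cast
    linarith
  · have h0 : 0 ≤ (1 - ε) * (q * P) / (2 * n0) := by
      have : 0 ≤ 1 - ε := by linarith
      positivity
    have := (Nat.ceil_lt_add_one h0).le
    rw [← sub_le_iff_le_add, le_div_iff₀ hn0R] at this
    push_cast
    linarith
  · intro b b' g g' u u' k hc hu hu' he
    obtain ⟨r, hr0, hrq, hr, hx⟩ := hdec (E g) b u hu
    obtain ⟨r', hr0', hrq', hr', hx'⟩ := hdec (E g') b' u' hu'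
    simp only at he
    rw [hx, hx'] at he
    push_cast at he
    have hz : P * k - M (E g) b + M (E g') b' = 0 := by
      have h1 : r - r' = q * ((P * k - M (E g) b + M (E g') b' : ℤ) : ℝ) := by
        push_cast
        linear_combination he
      have h2 : ((P * k - M (E g) b + M (E g') b' : ℤ) : ℝ) < 1 := by
        by_contra hcon
        push Not at hcon
        nlinarith
      have h3 : -1 < ((P * k - M (E g) b + M (E g') b' : ℤ) : ℝ) := by
        by_contra hcon
        push Not at hcon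
        nlinarith
      have h2' : P * k - M (E g) b + M (E g') b' < 1 := by exact_mod_cast h2
      have h3' : -1 < P * k - M (E g) b + M (E g') b' := by exact_mod_cast h3
      omega
    have hrr : r = r' := by
      have h1 : ((P * k - M (E g) b + M (E g') b' : ℤ) : ℝ) = 0 := by exact_mod_cast hz
      push_cast at h1
      linear_combination he + q * h1
    have hMM : ((M (E g) b : ℤ) : ZMod P) = M (E g') b' := by
      have : M (E g) b = M (E g') b' + P * k := by linarith
      rw [this]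
      simp
    have hcc : col b (κ (E g).1 b) = col b' (κ (E g').1 b') := by
      have h1 := hfM _ (hET g) b
      rw [hMM, hfM _ (hET g') b', add_right_inj, ZMod.natCast_eq_natCast_iff',
        Nat.mod_eq_of_lt (hcol _ _), Nat.mod_eq_of_lt (hcol _ _)] at h1
      exact h1.symm
    obtain ⟨rfl, hκκ⟩ := hconf _ _ _ _ (hκ _ _) (hκ _ _) hc hcc
    refine ⟨rfl, hEi ?_⟩
    have hoo : o (E g).1 b = o (E g').1 b := by
      have h1 : (o (E g).1 b : ℝ) + n b * u = o (E g').1 b + n b * u' := by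
        rw [hr, hr'] at hrr
        split_ifs at hrr <;> linarith
      obtain ⟨v, hv⟩ := hod (E g).1 b
      obtain ⟨v', hv'⟩ := hod (E g').1 b
      have h4 : (0 : ℝ) < n b := by exact_mod_cast hn b
      rw [hv, hv'] at h1 ⊢
      push_cast at h1
      have h2 : (v : ℝ) + u = v' + u' := by
        apply mul_left_cancel₀ h4.ne'
        linarith
      have h5 : (v : ℝ) < v' + 1 := by linarith [hu.1, hu'.2]
      have h6 : (v' : ℝ) < v + 1 := by linarith [hu.2, hu'.1]
      have h5' : v < v' + 1 := by exact_mod_cast h5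
      have h6' : v' < v + 1 := by exact_mod_cast h6
      rw [show v = v' by omega]
    have h9 : n b * ((E g).1 : ℕ) = n b * ((E g').1 : ℕ) := by rw [← hoκ, ← hoκ, hκκ, hoo]
    have h10 : (E g).1 = (E g').1 := Fin.ext (Nat.eq_of_mul_eq_mul_left (hn b) h9)
    have hmm : ((m (E g) b : ℤ) : ZMod P) = m (E g') b := by
      by_cases hsb : s b = 1
      · simpa only [M, if_pos hsb] using hMM
      · simp only [M, if_neg hsb] at hMM
        push_cast at hMM
        linear_combination -hMM
    refine Prod.ext h10 (hinj (E g').1 b ?_)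
    simp only [m, h10] at hmm
    push_cast at hmm ⊢
    simp only [ZMod.natCast_val, ZMod.cast_id', id] at hmm
    linear_combination hmm

end Crest.Agent.R81
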