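import Crest.Agent.R81.Analysis

/-! Row 81: the slots of the new model. -/

set_option autoImplicit false

open MeasureTheory Set Crest.AnalysisR.Torus3
open Crest.Agent.R75 (e)
open scoped ContDiff ComplexConjugate

namespace Crest.Agent.R81
section KLfacts
variable {ε X : ℝ} (D : KL ε X) {θ : ℝ} {N : ℤ}

lemma KL.absN_pos (hX : 1 ≤ X) (hN : N ∈ D.act θ) : 0 < |(N : ℝ)| := by
  have := D.big θ N hN
  rcases (abs_nonneg (N : ℝ)).eq_or_lt with h | h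
  · rw [← h] at this; linarith
  · exact h

lemma KL.abs_add (hN : N ∈ D.act θ) {α : ℝ} (hα : |α| ≤ X) :
    (1 - ε) * |(N : ℝ)| ≤ |N + α| ∧ |N + α| ≤ (1 + ε) * |(N : ℝ)| := by
  have h1 := D.big θ N hN
  have h2 := abs_add_le (N : ℝ) α
  have h3 := abs_add_le (N + α) (-α)
  rw [add_neg_cancel_right, abs_neg] at h3
  constructor <;> linarith

lemma KL.env (hε : 0 < ε) (hε1 : ε ≤ 1 / 8) (hN : N ∈ D.act θ) (g : Fin D.nG) {α u : ℝ}
    (hα : |α| ≤ X) (hu : u ∈ Ioo 0 (D.ρ * D.lam)) : |(N + α) * (D.w g + u) - N * D.w g| ≤ 1 / 4 := by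
  have h1 := D.short θ N hN
  have h2 := D.near θ N hN g
  have h3 : (N + α) * (D.w g + u) - N * D.w g = N * u + α * (D.w g + u) := by ring
  have h4 : |D.w g + u| ≤ |D.w g| + D.ρ * D.lam := by
    have := abs_add_le (D.w g) u
    rw [abs_of_pos hu.1] at this
    linarith [hu.2]
  have h5 : |N * u| ≤ ε := by
    rw [abs_mul, abs_of_pos hu.1]
    exact (mul_le_mul_of_nonneg_left hu.2.le (abs_nonneg _)).trans h1
  have h6 : |α * (D.w g + u)| ≤ X * (|D.w g| + D.ρ * D.lam) := by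
    rw [abs_mul]
    exact mul_le_mul hα h4 (abs_nonneg _) ((abs_nonneg _).trans hα)
  have h7 : ε * (|(N : ℝ)| * (D.ρ * D.lam)) ≤ ε * ε := mul_le_mul_of_nonneg_left h1 hε.le
  rw [h3]
  refine (abs_add_le _ _).trans ?_
  nlinarith

lemma KL.align (hε : 0 < ε) (hε1 : ε ≤ 1 / 8) (hX : 1 ≤ X) (hN : N ∈ D.act θ) (g : Fin D.nG)
    {α α' u : ℝ} (hα : |α| ≤ X) (hα' : |α'| ≤ X)
    (hu : u ∈ Ioo (ε * (D.ρ * D.lam)) ((1 - ε) * (D.ρ * D.lam))) :
    ∃ u' ∈ Ioo 0 (D.ρ * D.lam), (N + α) * (D.w g + u) = (N + α') * (D.w g + u') := by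
  have hN0 := D.absN_pos hX hN
  have h1 := (D.abs_add hN hα').1
  have h2 := D.near θ N hN g
  have hp : 0 < D.ρ * D.lam := mul_pos D.ρ_pos D.lam_pos
  have h3 : 0 < |N + α'| := lt_of_lt_of_le (mul_pos (by linarith) hN0) h1
  have h4 : (N : ℝ) + α' ≠ 0 := abs_pos.1 h3
  have hu0 : 0 < u := (mul_pos hε hp).trans hu.1
  have h5 : |D.w g + u| ≤ |D.w g| + D.ρ * D.lam := by
    have := abs_add_le (D.w g) u
    rw [abs_of_pos hu0] at this
    nlinarith [hu.2]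
  have h6 : |α - α'| ≤ 2 * X := (abs_sub _ _).trans (by linarith)
  have h7 : |(α - α') * (D.w g + u) / (N + α')| ≤ ε * (D.ρ * D.lam) := by
    rw [abs_div, abs_mul, div_le_iff₀ h3]
    have h8 : |α - α'| * |D.w g + u| ≤ 2 * X * (|D.w g| + D.ρ * D.lam) :=
      mul_le_mul h6 h5 (abs_nonneg _) (by linarith)
    have h9 : ε * (D.ρ * D.lam) * ((1 - ε) * |(N : ℝ)|) ≤ ε * (D.ρ * D.lam) * |N + α'| :=
      mul_le_mul_of_nonneg_left h1 (by positivity)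
    have h10 : 0 < ε * (|(N : ℝ)| * (D.ρ * D.lam)) := by positivity
    nlinarith
  obtain ⟨h8, h9⟩ := abs_le.1 h7
  refine ⟨u + (α - α') * (D.w g + u) / (N + α'), ⟨by linarith [hu.1], by linarith [hu.2]⟩, ?_⟩
  field_simp
  ring

end KLfacts

variable {q : ℕ} {ε X : ℝ} (D : Des q ε X)

lemma Des.M_pos : 0 < D.M := by
  have := D.M_big
  rcases Nat.eq_zero_or_pos D.M with h | h
  · rw [h] at this; norm_num at this
  · exact h

abbrev Des.Idx := ℤ × ℤ × Fin D.nG × ℤ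

/-- the slot of the index `x` of the term `t` -/
def Des.sm (c : ℕ) (t : Term) (x : D.Idx) : D.Idx :=
  (x.1 % D.M, x.2.1, x.2.2.1, x.2.2.2 + c * t.b₂ - q * c * (x.1 / D.M))

/-- the index of the term `t` in the slot `x`, shifted by `j` -/
def Des.um (c : ℕ) (t : Term) (j : ℤ) (x : D.Idx) : D.Idx :=
  (x.1 + j * D.M, x.2.1, x.2.2.1, x.2.2.2 - c * t.b₂ + q * c * j)

lemma Des.um_sm (c : ℕ) (t : Term) (x : D.Idx) : D.um c t (x.1 / D.M) (D.sm c t x) = x := by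
  obtain ⟨u, N, g, k⟩ := x
  simp only [Des.um, Des.sm, Prod.mk.injEq, true_and]
  exact ⟨by rw [mul_comm]; exact Int.emod_add_mul_ediv _ _, by ring⟩

/-- slots -/
structure Des.Slot (c : ℕ) (x : D.Idx) : Prop where
  nn : 0 ≤ x.1
  lt : x.1 < D.M
  good : Good ε (ctr D.M x.1)
  act : x.2.1 ∈ D.act (ctr D.M x.1)
  cell : ∀ a : ℝ, |a - x.2.1 * D.w x.2.2.1| ≤ 1 → (x.2.2.2 + a) / (q * c) ∈ cell D.M x.1

lemma Des.Slot.emod {c : ℕ} {x : D.Idx} (h : D.Slot c x) : x.1 % D.M = x.1 :=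
  Int.emod_eq_of_lt h.nn h.lt

lemma Des.Slot.mem (hε : 0 < ε) {c : ℕ} {x : D.Idx} (h : D.Slot c x) {a : ℝ}
    (ha : |a - x.2.1 * D.w x.2.2.1| ≤ 1) : (x.2.2.2 + a) / (q * c) ∈ Ioo (0 : ℝ) 1 := by
  have := (cell_subset D.M_pos hε h.good).1
  rw [h.emod] at this
  exact this (h.cell a ha)

lemma Des.um_div {c : ℕ} {x : D.Idx} (h : D.Slot c x) (t : Term) (j : ℤ) :
    (D.um c t j x).1 / D.M = j := by
  have hM : (D.M : ℤ) ≠ 0 := by exact_mod_cast D.M_pos.ne'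
  simp only [Des.um]
  rw [Int.add_mul_ediv_right _ _ hM, Int.ediv_eq_zero_of_lt h.nn h.lt, zero_add]

lemma Des.sm_um {c : ℕ} {x : D.Idx} (h : D.Slot c x) (t : Term) (j : ℤ) :
    D.sm c t (D.um c t j x) = x := by
  have h1 := D.um_div h t j
  have h2 := h.emod
  obtain ⟨u, N, g, k⟩ := x
  simp only [Des.um, Des.sm, Prod.mk.injEq, true_and] at h1 h2 ⊢
  rw [h1]
  exact ⟨by rw [Int.add_mul_emod_self_right, h2], by ring⟩

lemma Des.finite_slot (hq : 0 < q) (hε : 0 < ε) {c : ℕ} (hc : 0 < c) : {x | D.Slot c x}.Finite := by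
  classical
  refine Set.Finite.subset (Finset.finite_toSet ((Finset.Ico (0 : ℤ) D.M).biUnion fun u =>
    (D.act (ctr D.M u)).biUnion fun N => Finset.univ.biUnion fun g : Fin D.nG =>
      (Finset.Icc ⌊-(N * D.w g)⌋ ⌈q * c - N * D.w g⌉).image fun a => (u, N, g, a))) ?_
  rintro ⟨u, N, g, a⟩ (h : D.Slot c _)
  have h1 := h.mem D hε (a := N * D.w g) (by simp)
  have hh : (0 : ℝ) < q * c := by positivity
  simp only [mem_Ioo, div_lt_one hh, lt_div_iff₀ hh] at h1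
  simp only [Finset.coe_biUnion, Finset.coe_Ico, mem_iUnion, Finset.mem_coe, Finset.mem_image,
    Finset.mem_Icc, Finset.mem_univ, exists_prop, true_and]
  refine ⟨u, ⟨h.nn, h.lt⟩, N, h.act, g, a, ⟨?_, ?_⟩, rfl⟩
  · exact Int.floor_le_iff.2 (by linarith [h1.1])
  · exact Int.le_ceil_iff.2 (by linarith [h1.2])

lemma Des.sm_eq (hq : 0 < q) {c : ℕ} (hc : 0 < c) (t : Term) (x : D.Idx) (a : ℝ) :
    ((D.sm c t x).2.2.2 + a) / (q * c) + (x.1 / D.M : ℤ) =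
      (t.b₂ : ℝ) / q + (x.2.2.2 + a) / (q * c) := by
  have h1 : (q : ℝ) ≠ 0 := by positivity
  have h2 : (c : ℝ) ≠ 0 := by positivity
  simp only [Des.sm]
  push_cast
  field_simp
  ring

lemma Des.Ok.slot (hq : 0 < q) {c : ℕ} (hc : 0 < c) {V : ℝ → ℝ} {t : Term} {ρt η : ℝ} {x : D.Idx}
    {co : ℂ} (h : D.Ok V t ρt η c x co) : D.Slot c (D.sm c t x) := by
  have hM : (0 : ℤ) < D.M := by exact_mod_cast D.M_pos
  have hc' : ctr D.M (x.1 % D.M) = ctr D.M x.1 := by simp [ctr]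
  refine ⟨Int.emod_nonneg _ hM.ne', Int.emod_lt_of_pos _ hM, ?_, ?_, fun a ha => ?_⟩
  · change Good ε (ctr D.M (x.1 % D.M))
    rw [hc']; exact h.good
  · change x.2.1 ∈ D.act (ctr D.M (x.1 % D.M))
    rw [hc']; exact h.act
  · have h1 := (mem_cell_iff D.M_pos _ _).1 (h.cell a ha)
    rw [← D.sm_eq hq hc, add_sub_cancel_right] at h1
    exact h1

lemma Des.mode_eq (hq : 0 < q) (t : Term) (u N : ℤ) :
    (D.mode t u N : ℝ) = q * (N + ((t.b₂ : ℝ) / q - (u / D.M : ℤ))) := by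
  have h1 : (q : ℝ) ≠ 0 := by positivity
  simp only [Des.mode]
  push_cast
  field_simp
  ring

lemma Des.newTerm_b₂ (t : Term) (τ : ℝ) (c : ℕ) (x : D.Idx) (co : ℂ) :
    (D.newTerm t τ c x co).b₂ = (D.sm c t x).2.2.2 + q * c * x.2.1 := by
  simp only [Des.newTerm, Des.sm, Des.mode]
  ring

lemma Des.th_newTerm (hq : 0 < q) {c : ℕ} (hc : 0 < c) (t : Term) (τ : ℝ) (x : D.Idx) (co : ℂ)
    (y : ℝ) : (D.newTerm t τ c x co).th (q * c) (D.V' c) y = x.2.1 + ((D.sm c t x).2.2.2 +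
      (x.2.1 + ((t.b₂ : ℝ) / q - (x.1 / D.M : ℤ))) * deriv D.Ω y) / (q * c) := by
  have h1 : (q : ℝ) ≠ 0 := by positivity
  have h2 : (c : ℝ) ≠ 0 := by positivity
  have h3 : ((D.newTerm t τ c x co).b₁ : ℝ) = _ := D.mode_eq hq t x.1 x.2.1
  rw [Term.th, D.newTerm_b₂, h3, D.deriv_V']
  push_cast
  field_simp
  ring

lemma Des.omega_mem (g : Fin D.nG) {y : ℝ} (hy : y ∈ Ioo (D.toKL.segL g) (D.toKL.segL g + D.lam)) :
    D.ρ * (y - D.toKL.segL g) ∈ Ioo 0 (D.ρ * D.lam) :=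
  ⟨mul_pos D.ρ_pos (by linarith [hy.1]), mul_lt_mul_of_pos_left (by linarith [hy.2]) D.ρ_pos⟩

/-- The terms attached to the slots have disjoint arcs. -/
lemma Des.arcs (hq : 0 < q) (hε : 0 < ε) (hε1 : ε ≤ 1 / 8) {c : ℕ} (hc : 0 < c)
    (bt : D.Idx → Term) (bj : D.Idx → ℤ) (bz : D.Idx → ℂ)
    (hb : ∀ x, |((bt x).b₂ : ℝ) / q - bj x| ≤ X) :
    Arcs (q * c) (D.V' c) (fun σ : {x // D.Slot c x} =>
      D.newTerm (bt σ) 0 c (D.um c (bt σ) (bj σ) σ) (bz σ)) ∧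
    ∀ σ : {x // D.Slot c x}, ∃ n : ℤ,
      ∀ y ∈ Ioo (D.newTerm (bt σ) 0 c (D.um c (bt σ) (bj σ) σ) (bz σ)).l
        (D.newTerm (bt σ) 0 c (D.um c (bt σ) (bj σ) σ) (bz σ)).r,
        (D.newTerm (bt σ) 0 c (D.um c (bt σ) (bj σ) σ) (bz σ)).th (q * c) (D.V' c) y - n ∈
          Ioo (0 : ℝ) 1 := by
  have key : ∀ (σ : {x // D.Slot c x}) (y : ℝ),
      y ∈ Ioo (D.newTerm (bt σ) 0 c (D.um c (bt σ) (bj σ) σ) (bz σ)).l
        (D.newTerm (bt σ) 0 c (D.um c (bt σ) (bj σ) σ) (bz σ)).r →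
      ∃ u ∈ Ioo 0 (D.ρ * D.lam),
        |(σ.1.2.1 + (((bt σ).b₂ : ℝ) / q - bj σ)) * (D.w σ.1.2.2.1 + u) -
          σ.1.2.1 * D.w σ.1.2.2.1| ≤ 1 / 4 ∧
        (D.newTerm (bt σ) 0 c (D.um c (bt σ) (bj σ) σ) (bz σ)).th (q * c) (D.V' c) y =
          σ.1.2.1 + (σ.1.2.2.2 + (σ.1.2.1 + (((bt σ).b₂ : ℝ) / q - bj σ)) *
            (D.w σ.1.2.2.1 + u)) / (q * c) := by
    intro σ y hy
    have hy' : y ∈ Ioo (D.toKL.segL σ.1.2.2.1) (D.toKL.segL σ.1.2.2.1 + D.lam) := by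
      simpa [Des.newTerm, Des.um] using hy
    refine ⟨_, D.omega_mem _ hy', D.toKL.env hε hε1 σ.2.act _ (hb σ) (D.omega_mem _ hy'), ?_⟩
    rw [D.th_newTerm hq hc, D.sm_um σ.2, D.um_div σ.2, D.deriv_Ω _ hy']
    rfl
  refine ⟨fun σ σ' y y' n hy hy' he => ?_, fun σ => ⟨σ.1.2.1, fun y hy => ?_⟩⟩
  · obtain ⟨u, hu, h1, h2⟩ := key σ y hy
    obtain ⟨u', hu', h1', h2'⟩ := key σ' y' hy'
    simp only at he
    rw [h2, h2'] at he
    set a := (σ.1.2.1 + (((bt σ).b₂ : ℝ) / q - bj σ)) * (D.w σ.1.2.2.1 + u) with ha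
    set a' := (σ'.1.2.1 + (((bt σ').b₂ : ℝ) / q - bj σ')) * (D.w σ'.1.2.2.1 + u') with ha'
    have m1 := σ.2.mem D hε (a := a) (h1.trans (by norm_num))
    have m2 := σ'.2.mem D hε (a := a') (h1'.trans (by norm_num))
    have e1 : σ'.1.2.1 + n - σ.1.2.1 = 0 := by
      have : |((σ'.1.2.1 + n - σ.1.2.1 : ℤ) : ℝ)| < 1 := by
        push_cast
        rw [abs_lt]
        constructor <;> linarith [m1.1, m1.2, m2.1, m2.2]
      exact Int.abs_lt_one_iff.1 (by exact_mod_cast this)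
    have e2 : (σ.1.2.2.2 + a) / (q * c) = (σ'.1.2.2.2 + a') / (q * c) := by
      have : ((σ'.1.2.1 + n - σ.1.2.1 : ℤ) : ℝ) = 0 := by rw [e1]; simp
      push_cast at this
      linarith
    have e3 : σ.1.1 = σ'.1.1 := by
      by_contra hne
      refine Set.disjoint_left.1 (cell_disjoint D.M_pos hne)
        (σ.2.cell a (h1.trans (by norm_num))) ?_
      rw [e2]
      exact σ'.2.cell a' (h1'.trans (by norm_num))
    have hh : (q : ℝ) * c ≠ 0 := by positivity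
    have e4 : a - a' = ((σ'.1.2.2.2 - σ.1.2.2.2 : ℤ) : ℝ) := by
      have := (div_left_inj' hh).1 e2
      push_cast
      linarith
    obtain ⟨e5, e6⟩ := D.disj _ _ σ.2.act _ (e3 ▸ σ'.2.act) _ _ _ _ _ _ _ (hb σ) (hb σ') hu hu' e4
    have e7 : σ'.1.2.2.2 - σ.1.2.2.2 = 0 := by
      rw [← e5, ← e6] at h1'
      have : |((σ'.1.2.2.2 - σ.1.2.2.2 : ℤ) : ℝ)| < 1 := by
        rw [← e4, abs_lt]
        obtain ⟨_, _⟩ := abs_le.1 h1
        obtain ⟨_, _⟩ := abs_le.1 h1'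
        constructor <;> linarith
      exact Int.abs_lt_one_iff.1 (by exact_mod_cast this)
    exact ⟨Subtype.ext (Prod.ext e3 (Prod.ext e5 (Prod.ext e6 (by omega)))), by omega⟩
  · obtain ⟨u, -, h1, h2⟩ := key σ y hy
    rw [h2, add_sub_cancel_left]
    exact σ.2.mem D hε (h1.trans (by norm_num))

end Crest.Agent.R81
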