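import Crest.Agent.R81.Shear
import Crest.Agent.R81.Param

/-! Row 81: the new diffeomorphism is `C^k` close to the old one.

Write `ε = 1/h`, `h = q c`, `ω = Ω'`, `B = mB h V`, `E_ε = mD G' ∘ mA … ε`, `C = mC`, `L = mL c`.
* `C L S' L⁻¹ C⁻¹ = R ∘ Ψ_ε`, with `R` the translation by `(1/q, ε, 0)` and
  `Ψ_ε z = z + (ω (z 2) / q * (ε + Φ (z 1 + ε) - Φ (z 1))) e₀`.
* `E_ε R E_ε⁻¹ = R'` is the translation by `(0, 1/q, ε)` (`z 2 + q z 0` increases by `1`).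
* `B R' B⁻¹ x = S̃_ε x = (x 0 + DV (ε, x 2), x 1 + 1/q, x 2 + ε)`, with `DV` from `exists_DV`.
* `B` commutes with `Ψ'_ε = E_ε Ψ_ε E_ε⁻¹` for small `ε`: `Ψ_ε z = z` unless `z 1` is within
  `κ₁ + ε` of an integer, `Ψ_ε` keeps `z 1`, and then `(E_ε z) 2 = z 1 + ε U(…)` and
  `(E_ε Ψ_ε z) 2` are within `κ` of an integer, where `V = 0`.
So `K S' K⁻¹ = S̃_ε Ψ'_ε`.  The maps `F ε = H S̃_ε Ψ'_ε H⁻¹` and `F' ε = H Ψ'_ε⁻¹ S̃_ε⁻¹ H⁻¹` are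
jointly smooth in `(ε, x)` (all inverses are explicit: `mA` keeps `z 2 + q z 0`,
`S̃_ε⁻¹ x = (x 0 - DV (ε, x 2 - ε), x 1 - 1/q, x 2 - ε)`), commute with lattice translations
(`Lat.strong` for `H`, `H⁻¹`), and `F 0 = H S H⁻¹`; apply `close_of_param` twice. -/

set_option autoImplicit false

open MeasureTheory Set Crest.AnalysisR.Torus3
open Crest.Agent.R75 (e)
open scoped ContDiff ComplexConjugate

namespace Crest.Agent.R81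

/-- inverse of `mA` -/
noncomputable def smAi (q G' : ℕ) (U σ : ℝ → ℝ) (δ : ℝ) (z : R3) : R3 :=
  ![z 0 - U3 q G' U σ (z 2 + q * z 0) / q, z 1 - δ * U (z 2 + q * z 0),
    z 2 + U3 q G' U σ (z 2 + q * z 0)]

/-- `Ψ_δ` (for `s = 1`) and its inverse (for `s = -1`) -/
noncomputable def smP (q : ℕ) (Φ Ω : ℝ → ℝ) (s δ : ℝ) (z : R3) : R3 :=
  ![z 0 + s * (deriv Ω (z 2) / q * (δ + Φ (z 1 + δ) - Φ (z 1))), z 1, z 2]

/-- `S̃_δ` -/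
noncomputable def smS (q : ℕ) (DV : ℝ × ℝ → ℝ) (δ : ℝ) (x : R3) : R3 :=
  ![x 0 + DV (δ, x 2), x 1 + 1 / q, x 2 + δ]

/-- inverse of `S̃_δ` -/
noncomputable def smSi (q : ℕ) (DV : ℝ × ℝ → ℝ) (δ : ℝ) (x : R3) : R3 :=
  ![x 0 - DV (δ, x 2 - δ), x 1 - 1 / q, x 2 - δ]

/-- jointly smooth families commuting with lattice translations -/
def SmJ (f : ℝ → R3 → R3) : Prop :=
  (ContDiff ℝ ∞ fun p : ℝ × R3 => f p.1 p.2) ∧
    ∀ (δ : ℝ) (x : R3) (n : Fin 3 → ℤ), f δ (x + fun i => (n i : ℝ)) = f δ x + fun i => (n i : ℝ)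

theorem SmJ.comp {f g : ℝ → R3 → R3} (hf : SmJ f) (hg : SmJ g) : SmJ fun δ x => f δ (g δ x) := by
  refine ⟨?_, fun δ x n => by simp only [hg.2, hf.2]⟩
  have h := hf.1.comp (contDiff_fst.prodMk hg.1)
  simpa only [Function.comp_def] using h

theorem SmJ.conj {f : ℝ → R3 → R3} (hf : SmJ f) (H : SD) : SmJ fun δ x => H.1 (f δ (H.1.symm x)) := by
  constructor
  · have h := (SD.smooth H).comp (hf.1.comp (contDiff_fst.prodMk (H.2.2.1.comp contDiff_snd)))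
    simpa only [Function.comp_def] using h
  · intro δ x n
    obtain ⟨m, hm⟩ := H.2.2.2.1.strong H.2.2.1.continuous n
    have h1 : ∀ y, H.1 (y + fun i => (m i : ℝ)) = H.1 y + fun i => (n i : ℝ) := fun y => by
      have := hm (H.1 y)
      rw [Equiv.symm_apply_apply] at this
      rw [← this, Equiv.apply_symm_apply]
    simp only [hm, hf.2, h1]

theorem sm_vec {E : Type*} [NormedAddCommGroup E] [NormedSpace ℝ E] {a b c : E → ℝ}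
    (ha : ContDiff ℝ ∞ a) (hb : ContDiff ℝ ∞ b) (hc : ContDiff ℝ ∞ c) :
    ContDiff ℝ ∞ fun p => (![a p, b p, c p] : R3) := by
  refine contDiff_pi.2 fun i => ?_
  fin_cases i
  exacts [ha, hb, hc]

theorem sm_U3 (q G' : ℕ) {U σ : ℝ → ℝ} (hU : SP U) (hσ : SP σ) : SP (U3 q G' U σ) := by
  refine ⟨hU.1.add (contDiff_const.mul hσ.1), fun β => ?_⟩
  simp only [U3, hU.2 β, hσ.2 β]

theorem sm_beta (q : ℕ) (x : R3) (n : Fin 3 → ℤ) :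
    x 2 + (n 2 : ℝ) + q * (x 0 + n 0) = x 2 + q * x 0 + ((n 2 + q * n 0 : ℤ) : ℝ) := by
  push_cast
  ring

theorem smJ_mA (q G' : ℕ) {U σ : ℝ → ℝ} (hU : SP U) (hσ : SP σ) : SmJ (mA q G' U σ) := by
  have h3 := sm_U3 q G' hU hσ
  have h1 := hU.1
  have h2 := h3.1
  refine ⟨sm_vec (by fun_prop) (by fun_prop) (by fun_prop), fun δ x n => ?_⟩
  ext i
  fin_cases i <;> simp [mA, -Int.cast_add, sm_beta, hU.add_int, h3.add_int] <;> ring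

theorem smJ_Ai (q G' : ℕ) {U σ : ℝ → ℝ} (hU : SP U) (hσ : SP σ) : SmJ (smAi q G' U σ) := by
  have h3 := sm_U3 q G' hU hσ
  have h1 := hU.1
  have h2 := h3.1
  refine ⟨sm_vec (by fun_prop) (by fun_prop) (by fun_prop), fun δ x n => ?_⟩
  ext i
  fin_cases i <;> simp [smAi, -Int.cast_add, sm_beta, hU.add_int, h3.add_int] <;> ring

theorem smJ_P (q : ℕ) {Φ Ω : ℝ → ℝ} (hΦ : SP Φ) (hΩ : SP Ω) (s : ℝ) : SmJ (smP q Φ Ω s) := by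
  have h1 := hΦ.1
  have h2 := hΩ.deriv.1
  refine ⟨sm_vec (by fun_prop) (by fun_prop) (by fun_prop), fun δ x n => ?_⟩
  ext i
  fin_cases i <;> simp [smP, add_right_comm _ ((n 1 : ℤ) : ℝ) δ, hΦ.add_int, hΩ.deriv.add_int]
  ring

theorem smJ_S (q : ℕ) {DV : ℝ × ℝ → ℝ} (h : ContDiff ℝ ∞ DV)
    (hp : ∀ (ε y : ℝ) (n : ℤ), DV (ε, y + n) = DV (ε, y)) : SmJ (smS q DV) := by
  refine ⟨sm_vec (by fun_prop) (by fun_prop) (by fun_prop), fun δ x n => ?_⟩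
  ext i
  fin_cases i <;> simp [smS, hp] <;> ring

theorem smJ_Si (q : ℕ) {DV : ℝ × ℝ → ℝ} (h : ContDiff ℝ ∞ DV)
    (hp : ∀ (ε y : ℝ) (n : ℤ), DV (ε, y + n) = DV (ε, y)) : SmJ (smSi q DV) := by
  refine ⟨sm_vec (by fun_prop) (by fun_prop) (by fun_prop), fun δ x n => ?_⟩
  ext i
  fin_cases i <;> simp [smSi, add_sub_right_comm _ ((n 2 : ℤ) : ℝ) δ, hp] <;> ring

theorem sm_A_Ai {q : ℕ} (hq : 0 < q) (G' : ℕ) (U σ : ℝ → ℝ) (δ : ℝ) (z : R3) :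
    mA q G' U σ δ (smAi q G' U σ δ z) = z := by
  have hq' : (q : ℝ) ≠ 0 := by positivity
  have e : smAi q G' U σ δ z 2 + q * smAi q G' U σ δ z 0 = z 2 + q * z 0 := by
    simp [smAi]
    field_simp
    ring
  unfold mA
  rw [e]
  ext i
  fin_cases i <;> simp [smAi]

theorem sm_Ai_A {q : ℕ} (hq : 0 < q) (G' : ℕ) (U σ : ℝ → ℝ) (δ : ℝ) (z : R3) :
    smAi q G' U σ δ (mA q G' U σ δ z) = z := by
  have hq' : (q : ℝ) ≠ 0 := by positivity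
  have e : mA q G' U σ δ z 2 + q * mA q G' U σ δ z 0 = z 2 + q * z 0 := by
    simp [mA]
    field_simp
    ring
  unfold smAi
  rw [e]
  ext i
  fin_cases i <;> simp [mA]

theorem sm_P_P (q : ℕ) (Φ Ω : ℝ → ℝ) (δ : ℝ) (z : R3) :
    smP q Φ Ω 1 δ (smP q Φ Ω (-1) δ z) = z := by
  ext i
  fin_cases i <;> simp [smP]

theorem sm_P_zero (q : ℕ) (Φ Ω : ℝ → ℝ) (z : R3) : smP q Φ Ω 1 0 z = z := by
  ext i
  fin_cases i <;> simp [smP]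

theorem sm_S_Si (q : ℕ) (DV : ℝ × ℝ → ℝ) (δ : ℝ) (z : R3) : smS q DV δ (smSi q DV δ z) = z := by
  ext i
  fin_cases i <;> simp [smS, smSi]

theorem sm_P_far (q : ℕ) {Φ : ℝ → ℝ} (Ω : ℝ → ℝ) (hΦ : SP Φ) {κ₁ δ : ℝ} (hδ : 0 ≤ δ)
    (hΦe : ∀ t ∈ Icc κ₁ (1 - κ₁), Φ t = -t) {z : R3} (hz : ∀ n : ℤ, κ₁ + δ ≤ |z 1 - n|) :
    smP q Φ Ω 1 δ z = z := by
  have h1 := hz ⌊z 1⌋
  have h2 := hz (⌊z 1⌋ + 1)
  have h3 := Int.floor_le (z 1)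
  have h4 := Int.lt_floor_add_one (z 1)
  rw [abs_of_nonneg (by linarith)] at h1
  push_cast at h2
  rw [abs_of_nonpos (by linarith)] at h2
  have h5 := hΦ.add_int (z 1 - ⌊z 1⌋) ⌊z 1⌋
  have h6 := hΦ.add_int (z 1 - ⌊z 1⌋ + δ) ⌊z 1⌋
  rw [sub_add_cancel, hΦe (z 1 - ⌊z 1⌋) ⟨by linarith, by linarith⟩] at h5
  rw [add_right_comm, sub_add_cancel, hΦe (z 1 - ⌊z 1⌋ + δ) ⟨by linarith, by linarith⟩] at h6
  have e : δ + Φ (z 1 + δ) - Φ (z 1) = 0 := by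
    rw [h5, h6]
    ring
  ext i
  fin_cases i <;> simp [smP, e]

theorem sm_B_near (h : ℝ) {V : ℝ → ℝ} (hV : SP V) {κ : ℝ} (hV0 : ∀ y, |y| ≤ κ → V y = 0) {w : R3}
    {n : ℤ} (hw : |w 2 - n| ≤ κ) : mB h V w = w := by
  have h1 := hV.add_int (w 2 - n) n
  rw [sub_add_cancel, hV0 _ hw] at h1
  ext i
  fin_cases i <;> simp [mB, h1]

theorem smooth_step {q : ℕ} (hq : 0 < q) {ε X : ℝ} (D : Des q ε X) {V : ℝ → ℝ} (hV : SP V) {κ : ℝ}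
    (hκ : D.κ₁ < κ) (hV0 : ∀ y, |y| ≤ κ → V y = 0) (H S : SD) (hS : ∀ x, S.1 x = sFun q V x)
    (k : ℕ) {η : ℝ} (hη : 0 < η) :
    ∃ c₀ : ℕ, ∀ c : ℕ, c₀ ≤ c → ∀ K S' : SD, (∀ x, K.1 x = D.K V c x) →
      (∀ x, S'.1 x = sFun (q * c) (D.V' c) x) →
      Close k η (H * S * H⁻¹) (H * K * S' * (H * K)⁻¹) := by
  obtain ⟨DV, hDV, hDV1, hDV0, hDVp⟩ := exists_DV hV
  obtain ⟨Dd, hDd⟩ := exists_mD D.G'
  obtain ⟨C, hC0, hC⟩ := D.U_sp.bound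
  have hq' : (0 : ℝ) < q := by exact_mod_cast hq
  obtain ⟨Ψ, hΨ⟩ : ∃ Ψ : ℝ → ℝ → R3 → R3, ∀ s δ w, Ψ s δ w = Dd.1 (mA q D.G' D.U D.σ δ
      (smP q D.Φ D.Ω s δ (smAi q D.G' D.U D.σ δ (Dd.1.symm w)))) := ⟨_, fun _ _ _ => rfl⟩
  have hΨJ : ∀ s, SmJ (Ψ s) := fun s => by
    have h := (((smJ_mA q D.G' D.U_sp D.σ_sp).comp (smJ_P q D.Φ_sp D.Ω_sp s)).comp
      (smJ_Ai q D.G' D.U_sp D.σ_sp)).conj Dd
    simp only [← hΨ] at h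
    exact h
  have hF := ((smJ_S q hDV hDVp).comp (hΨJ 1)).conj H
  have hF' := ((hΨJ (-1)).comp (smJ_Si q hDV hDVp)).conj H
  obtain ⟨ε₁, hε₁, h1⟩ := close_of_param
    (fun δ x => H.1 (smS q DV δ (Ψ 1 δ (H.1.symm x)))) hF.1 hF.2 k hη
  obtain ⟨ε₂, hε₂, h2⟩ := close_of_param
    (fun δ x => H.1 (Ψ (-1) δ (smSi q DV δ (H.1.symm x)))) hF'.1 hF'.2 k hη
  have hinv : ∀ δ x, H.1 (smS q DV δ (Ψ 1 δ (H.1.symm (H.1 (Ψ (-1) δ (smSi q DV δ (H.1.symm x))))))) =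
      x := fun δ x => by
    rw [Equiv.symm_apply_apply, hΨ, hΨ, Equiv.symm_apply_apply, sm_Ai_A hq, sm_P_P, sm_A_Ai hq,
      Equiv.apply_symm_apply, sm_S_Si, Equiv.apply_symm_apply]
  have hsymm : ∀ (T : SD) (δ : ℝ), (∀ x, T.1 x = H.1 (smS q DV δ (Ψ 1 δ (H.1.symm x)))) →
      ∀ x, T.1.symm x = H.1 (Ψ (-1) δ (smSi q DV δ (H.1.symm x))) := fun T δ hT x => by
    rw [Equiv.symm_apply_eq, hT, hinv]
  have h0 : ∀ x, (H * S * H⁻¹).1 x = H.1 (smS q DV 0 (Ψ 1 0 (H.1.symm x))) := fun x => by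
    rw [hΨ, sm_P_zero, sm_A_Ai hq, Equiv.apply_symm_apply]
    change H.1 (S.1 (H.1.symm x)) = _
    rw [hS]
    simp [sFun, smS, hDV0]
  obtain ⟨c₀, hc₀⟩ := exists_nat_gt (max (max ε₁⁻¹ ε₂⁻¹) ((1 + 3 * C) / (κ - D.κ₁)))
  refine ⟨c₀, fun c hc K S' hK hS' => ?_⟩
  have hc1 : (c₀ : ℝ) ≤ c := by exact_mod_cast hc
  have hc2 : (c : ℝ) ≤ q * c := le_mul_of_one_le_left (Nat.cast_nonneg c) (by exact_mod_cast hq)
  have hm := (hc₀.trans_le hc1).trans_le hc2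
  rw [max_lt_iff, max_lt_iff] at hm
  have hcpos : (0 : ℝ) < c :=
    lt_of_lt_of_le (lt_of_lt_of_le (inv_pos.2 hε₁) ((le_max_left _ _).trans (le_max_left _ _)))
      (hc₀.le.trans hc1)
  have hh : (0 : ℝ) < q * c := by positivity
  obtain ⟨δ, hδ⟩ : ∃ δ : ℝ, δ = 1 / (q * c) := ⟨_, rfl⟩
  have hδ0 : 0 < δ := by rw [hδ]; positivity
  have hδ1 : |δ| ≤ ε₁ := by
    rw [abs_of_pos hδ0, hδ, one_div]
    exact (inv_lt_comm₀ hε₁ hh).1 hm.1.1 |>.le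
  have hδ2 : |δ| ≤ ε₂ := by
    rw [abs_of_pos hδ0, hδ, one_div]
    exact (inv_lt_comm₀ hε₂ hh).1 hm.1.2 |>.le
  have hδ3 : δ + 3 * (δ * C) ≤ κ - D.κ₁ := by
    have h := hm.2
    rw [div_lt_iff₀ (sub_pos.2 hκ), ← div_lt_iff₀' hh] at h
    refine le_trans (le_of_eq ?_) h.le
    rw [hδ]
    ring
  have hUδ : ∀ β, |δ * D.U β| ≤ δ * C := fun β => by
    rw [abs_mul, abs_of_pos hδ0]
    exact mul_le_mul_of_nonneg_left (hC β) hδ0.le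
  have hz1 : ∀ w : R3, |smAi q D.G' D.U D.σ δ (Dd.1.symm w) 1 - w 2| ≤ δ * C := fun w => by
    have e : w 2 = Dd.1.symm w 1 := by
      conv_lhs => rw [← Dd.1.apply_symm_apply w, hDd]
      rfl
    rw [e]
    simpa [smAi] using hUδ _
  have hfar : ∀ w : R3, (∀ n : ℤ, κ - 2 * (δ * C) ≤ |w 2 - n|) → Ψ 1 δ w = w := fun w hw => by
    rw [hΨ, sm_P_far q D.Ω D.Φ_sp hδ0.le D.Φ_eq, sm_A_Ai hq, Equiv.apply_symm_apply]
    intro n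
    have h3 := abs_sub_le (w 2) (smAi q D.G' D.U D.σ δ (Dd.1.symm w) 1) n
    rw [abs_sub_comm (w 2) (smAi q D.G' D.U D.σ δ (Dd.1.symm w) 1)] at h3
    linarith [hw n, hz1 w]
  have hcomm : ∀ w : R3, mB (q * c) V (Ψ 1 δ w) = Ψ 1 δ (mB (q * c) V w) := fun w => by
    by_cases hw : ∀ n : ℤ, κ - 2 * (δ * C) ≤ |w 2 - n|
    · rw [hfar w hw, hfar _ (by simpa [mB] using hw)]
    · obtain ⟨n, hn⟩ := not_forall.1 hw
      have hδC := mul_nonneg hδ0.le hC0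
      rw [sm_B_near _ hV hV0 (n := n) (w := w) (by linarith [not_le.1 hn])]
      refine sm_B_near _ hV hV0 (n := n) ?_
      have h3 : |Ψ 1 δ w 2 - smAi q D.G' D.U D.σ δ (Dd.1.symm w) 1| ≤ δ * C := by
        rw [hΨ, hDd]
        simpa [mD, mA, smP] using hUδ _
      have h4 := abs_sub_le (Ψ 1 δ w 2) (smAi q D.G' D.U D.σ δ (Dd.1.symm w) 1) (w 2)
      have h5 := abs_sub_le (Ψ 1 δ w 2) (w 2) n
      linarith [not_le.1 hn, hz1 w]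
  have ha : ∀ x, mC q D.Φ D.Ω (mL c (sFun (q * c) (D.V' c) x)) =
      smP q D.Φ D.Ω 1 δ (mC q D.Φ D.Ω (mL c x)) + ![1 / (q : ℝ), δ, 0] := fun x => by
    ext i
    fin_cases i <;> simp [mC, mL, sFun, smP, D.deriv_V', hδ]
    field_simp
    ring
  have hb : ∀ z : R3, mD D.G' (mA q D.G' D.U D.σ δ (z + ![1 / (q : ℝ), δ, 0])) =
      mD D.G' (mA q D.G' D.U D.σ δ z) + ![0, 1 / (q : ℝ), δ] := fun z => by
    have e : (z + ![1 / (q : ℝ), δ, 0] : R3) 2 + q * (z + ![1 / (q : ℝ), δ, 0] : R3) 0 = z 2 + q * z 0 + 1 := by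
      simp
      field_simp
      ring
    unfold mA
    rw [e, D.U_sp.2, (sm_U3 q D.G' D.U_sp D.σ_sp).2]
    ext i
    fin_cases i <;> simp [mD] <;> ring
  have hc' : ∀ w : R3, mB (q * c) V (w + ![0, 1 / (q : ℝ), δ]) = smS q DV δ (mB (q * c) V w) := fun w => by
    have e : DV (δ, w 2) = q * c * (V (w 2 + δ) - V (w 2)) := by
      rw [← hDV1, hδ]
      field_simp
    ext i
    fin_cases i <;> simp [mB, smS, e]
    ring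
  have hkey : ∀ x, K.1 (S'.1 x) = smS q DV δ (Ψ 1 δ (K.1 x)) := fun x => by
    rw [hS', hK, hK, Des.K, Des.K, Des.K0, Des.K0, ← hδ, ha, hb, hc', ← hcomm, hΨ, ← hDd (mA _ _ _ _ _ _),
      ← hDd (mA _ _ _ _ _ (mC _ _ _ _)), Equiv.symm_apply_apply, sm_Ai_A hq]
  have h3 : ∀ x, (H * K * S' * (H * K)⁻¹).1 x = H.1 (smS q DV δ (Ψ 1 δ (H.1.symm x))) := fun x => by
    change H.1 (K.1 (S'.1 (K.1.symm (H.1.symm x)))) = _
    rw [hkey, Equiv.apply_symm_apply]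
  intro j hj x
  constructor
  · simp only [h0, h3]
    exact h1 δ hδ1 j hj x
  · simp only [hsymm _ _ h0, hsymm _ _ h3]
    exact h2 δ hδ2 j hj x

end Crest.Agent.R81
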