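import Crest.Agent.R81.Slot
import Crest.Agent.R81.Asm
import Crest.Agent.R81.Smooth
import Crest.Agent.R81.Key
import Crest.Agent.R81.ModelL
import Crest.Agent.R81.Decomp

/-! Row 81: the approximation step. -/

set_option autoImplicit false

open MeasureTheory Set Crest.AnalysisR.Torus3
open Crest.Agent.R75 (e)
open scoped ContDiff ComplexConjugate

namespace Crest.Agent.R81
open Filter Topology

/-- the conclusion of `analysis` -/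
def Des.An {q : ℕ} {ε X : ℝ} (D : Des q ε X) (V : ℝ → ℝ) (t : Term) (ρt η τ : ℝ) (c : ℕ) : Prop :=
  ∃ (J : Finset D.Idx) (co : D.Idx → ℂ), (∀ x ∈ J, D.Ok V t ρt η c x (co x)) ∧
    ∀ K : SD, (∀ x, K.1 x = D.K V c x) → ‖koop K t.L - ∑ x ∈ J, (D.newTerm t τ c x (co x)).L‖ ≤ η

lemma eventually_small {ε₀ : ℝ} (h : 0 < ε₀) (X₀ : ℝ) :
    ∀ᶠ p : ℝ × ℝ in 𝓝[>] 0 ×ˢ atTop, 0 < p.1 ∧ p.1 ≤ ε₀ ∧ X₀ ≤ p.2 := by
  filter_upwards [prod_mem_prod (Ioc_mem_nhdsGT h) (eventually_ge_atTop X₀)] with p hp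
  exact ⟨hp.1.1, hp.1.2, hp.2⟩

lemma analysis_ev {q : ℕ} (hq : Odd q) {V : ℝ → ℝ} (hV : SP V) (t : Term) {ρt : ℝ}
    (hA : Aff V t.l t.r ρt) (hNI : t.b₁ ≠ 0 ∨ ¬ (q : ℤ) ∣ t.b₂) {η : ℝ} (hη : 0 < η) :
    ∀ᶠ p : ℝ × ℝ in 𝓝[>] 0 ×ˢ atTop, ∀ D : Des q p.1 p.2,
      ∀ᶠ c in atTop, D.An V t ρt η 0 c ∧ D.An V t ρt η p.1 c := by
  obtain ⟨ε₀, h0, X₀, h⟩ := analysis hq hV t hA hNI hη
  filter_upwards [eventually_small h0 X₀] with p hp D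
  obtain ⟨c₀, h1⟩ := h p.1 p.2 hp.1 hp.2.1 hp.2.2 D 0 le_rfl hp.1.le
  obtain ⟨c₁, h2⟩ := h p.1 p.2 hp.1 hp.2.1 hp.2.2 D p.1 hp.1.le le_rfl
  filter_upwards [eventually_ge_atTop c₀, eventually_ge_atTop c₁] with c hc hc'
  exact ⟨h1 c hc, h2 c hc'⟩

lemma transfer_inv_ev {q : ℕ} (hq : 0 < q) {V : ℝ → ℝ} (hV : SP V) (μ j : ℤ) {η : ℝ} (hη : 0 < η) :
    ∀ᶠ p : ℝ × ℝ in 𝓝[>] 0 ×ˢ atTop, ∀ D : Des q p.1 p.2, ∀ᶠ c : ℕ in atTop, |μ| < c ∧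
      ∀ K : SD, (∀ x, K.1 x = D.K V c x) →
        ‖koop K (eL ![0, j * q, μ]) - eL ![0, μ, j * (q * D.G' - 1)]‖ ≤ η := by
  obtain ⟨ε₀, h0, h⟩ := transfer_inv hq hV μ j hη
  filter_upwards [eventually_small h0 0] with p hp D
  obtain ⟨c₀, h1⟩ := h p.1 p.2 hp.1 hp.2.1 D
  filter_upwards [eventually_ge_atTop c₀, eventually_gt_atTop μ.natAbs] with c hc hc'
  exact ⟨by rw [← Int.natCast_natAbs]; exact_mod_cast hc', h1 c hc⟩

/-- the slot `x` lies in the arc of piece `i`, shifted by `j` -/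
def Des.Mt {ε X : ℝ} (m : Model) (D : Des m.q ε X) (c : ℕ) (x : D.Idx) (i : m.ι) (j : ℤ) : Prop :=
  |((m.pc i).b₂ : ℝ) / m.q - j| ≤ X ∧ ∃ y ∈ Ioo (m.pc i).l (m.pc i).r,
    (m.pc i).th m.q m.V y = (x.2.2.2 + x.2.1 * D.w x.2.2.1) / (m.q * c) + j

lemma Des.Mt.unique {ε X : ℝ} {m : Model} {D : Des m.q ε X} {c : ℕ} {x : D.Idx} {i i' : m.ι}
    {j j' : ℤ} (h : D.Mt m c x i j) (h' : D.Mt m c x i' j') : i = i' ∧ j = j' := by
  obtain ⟨-, y, hy, e⟩ := h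
  obtain ⟨-, y', hy', e'⟩ := h'
  obtain ⟨h1, h2⟩ := m.arcs i i' y y' (j - j') hy hy' (by rw [e, e']; push_cast; ring)
  exact ⟨h1, by omega⟩

lemma Des.exists_base {ε X : ℝ} (m : Model) (D : Des m.q ε X) (hX : 0 ≤ X) (c : ℕ)
    (co : m.ι → D.Idx → ℂ) :
    ∃ (bt : D.Idx → Term) (bj : D.Idx → ℤ) (bz : D.Idx → ℂ),
      (∀ x, |((bt x).b₂ : ℝ) / m.q - bj x| ≤ X) ∧ ∀ x i j, D.Mt m c x i j →
        bt x = m.pc i ∧ bj x = j ∧ bz x = co i (D.um c (m.pc i) j x) := by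
  have : ∀ x : D.Idx, ∃ (t : Term) (j : ℤ) (z : ℂ), |(t.b₂ : ℝ) / m.q - j| ≤ X ∧
      ∀ i j', D.Mt m c x i j' → t = m.pc i ∧ j = j' ∧ z = co i (D.um c (m.pc i) j' x) := by
    intro x
    by_cases h : ∃ i j, D.Mt m c x i j
    · obtain ⟨i, j, h⟩ := h
      refine ⟨m.pc i, j, co i (D.um c (m.pc i) j x), h.1, fun i' j' h' => ?_⟩
      obtain ⟨rfl, rfl⟩ := h.unique h'
      exact ⟨rfl, rfl, rfl⟩
    · exact ⟨⟨0, 0, 0, 0, 0, 0⟩, 0, 0, by simpa using hX, fun i j h' => (h ⟨i, j, h'⟩).elim⟩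
  choose bt bj bz h1 h2 using this
  exact ⟨bt, bj, bz, h1, h2⟩

lemma Des.Ok.mt {ε X : ℝ} {m : Model} {D : Des m.q ε X} {c : ℕ} (hc : 0 < c) {t : Term} {ρt η : ℝ}
    {x : D.Idx} {co : ℂ} (h : D.Ok m.V t ρt η c x co) (hb : t.b₁ ≠ 0) {i : m.ι}
    (h2 : t.b₂ = (m.pc i).b₂) (h3 : ∀ y ∈ Ioo t.l t.r, ∃ y' ∈ Ioo (m.pc i).l (m.pc i).r,
      t.th m.q m.V y = (m.pc i).th m.q m.V y') : D.Mt m c (D.sm c t x) i (x.1 / D.M) := by
  refine ⟨h2 ▸ h.bd, ?_⟩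
  obtain ⟨y, hy, e⟩ := h.arc hb (x.2.1 * D.w x.2.2.1) (by simp)
  obtain ⟨y', hy', e'⟩ := h3 y hy
  exact ⟨y', hy', by rw [← e', e, ← D.sm_eq m.q_pos hc]; rfl⟩

lemma Des.mode_ne {q : ℕ} (hq : 0 < q) {ε X : ℝ} (D : Des q ε X) (hε1 : ε ≤ 1 / 8) (hX : 1 ≤ X)
    (t : Term) {u N : ℤ} {θ : ℝ} (hN : N ∈ D.act θ) (hb : |(t.b₂ : ℝ) / q - (u / D.M : ℤ)| ≤ X) :
    D.mode t u N ≠ 0 := by
  intro h
  have h1 := D.mode_eq hq t u N
  have h2 := (D.toKL.abs_add hN hb).1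
  have h3 := D.toKL.absN_pos hX hN
  have hq' : (q : ℝ) ≠ 0 := by positivity
  rw [h, Int.cast_zero, eq_comm, mul_eq_zero, or_iff_right hq'] at h1
  rw [h1, abs_zero] at h2
  nlinarith

lemma Des.Ok.flat' {ε X : ℝ} {m : Model} {D : Des m.q ε X} (hε : 0 < ε) (hε1 : ε ≤ 1 / 8) {c : ℕ}
    (hc : 0 < c) {i : m.ι} {η η' : ℝ} (hη : 0 ≤ η) (hη' : 2 * (η + ε) ≤ η') {x : D.Idx} {co : ℂ}
    (h : D.Ok m.V (m.pc i) (m.ρ i) η c x co) :
    abs (‖co‖ ^ 2 - |D.mode (m.pc i) x.1 x.2.1 * (D.ρ / (m.q * (m.q * c)))|) ≤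
      η' * |D.mode (m.pc i) x.1 x.2.1 * (D.ρ / (m.q * (m.q * c)))| := by
  have hq : (0 : ℝ) < m.q := by exact_mod_cast m.q_pos
  have hc' : (0 : ℝ) < c := by exact_mod_cast hc
  have hρ := D.ρ_pos
  have h1 := h.flat (m.b_ne i)
  rw [m.flat i] at h1
  have h2 : 0 < |(m.pc i).b₁ * m.ρ i| :=
    abs_pos.2 (mul_ne_zero (by exact_mod_cast m.b_ne i) (m.aff i).2.2.2.1)
  obtain ⟨h3, h4⟩ := D.toKL.abs_add h.act h.bd
  set A := |(x.2.1 : ℝ) + (((m.pc i).b₂ : ℝ) / m.q - (x.1 / D.M : ℤ))| with hA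
  have h5 : |D.mode (m.pc i) x.1 x.2.1 * (D.ρ / (m.q * (m.q * c)))| = A * D.ρ / (m.q * c) := by
    rw [D.mode_eq m.q_pos, abs_mul, abs_mul, abs_of_pos hq,
      abs_of_pos (show 0 < D.ρ / (m.q * (m.q * c)) by positivity), ← hA]
    field_simp
  have h6 : abs (‖co‖ ^ 2 * (m.q * c) - D.ρ * |(x.2.1 : ℝ)|) ≤ η * (D.ρ * |(x.2.1 : ℝ)|) := by
    have : ‖co‖ ^ 2 * (m.q * c * |(m.pc i).b₁ * m.ρ i|) -
        |(m.pc i).b₁ * m.ρ i| * (D.ρ * |(x.2.1 : ℝ)|) =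
        |(m.pc i).b₁ * m.ρ i| * (‖co‖ ^ 2 * (m.q * c) - D.ρ * |(x.2.1 : ℝ)|) := by ring
    rw [this, abs_mul, abs_abs, mul_left_comm η] at h1
    exact le_of_mul_le_mul_left h1 h2
  have hh : (0 : ℝ) < m.q * c := by positivity
  have h7 : ‖co‖ ^ 2 - A * D.ρ / (m.q * c) = (‖co‖ ^ 2 * (m.q * c) - A * D.ρ) / (m.q * c) := by
    field_simp
  rw [h5, h7, abs_div, abs_of_pos hh, ← mul_div_assoc, div_le_div_iff_of_pos_right hh]
  obtain ⟨h8, h9⟩ := abs_le.1 h6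
  have hN := abs_nonneg (x.2.1 : ℝ)
  set n := |(x.2.1 : ℝ)|
  have h10 : D.ρ * ((1 - ε) * n) ≤ D.ρ * A := mul_le_mul_of_nonneg_left h3 hρ.le
  have h11 : D.ρ * A ≤ D.ρ * ((1 + ε) * n) := mul_le_mul_of_nonneg_left h4 hρ.le
  have h12 : 0 ≤ D.ρ * n := by positivity
  have h13 : (η + ε) * (D.ρ * n) ≤ η' * (A * D.ρ) := by
    have h14 : D.ρ * n ≤ 2 * (A * D.ρ) := by nlinarith
    have h15 : (η + ε) * (D.ρ * n) ≤ (η + ε) * (2 * (A * D.ρ)) :=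
      mul_le_mul_of_nonneg_left h14 (by linarith)
    have h16 : 2 * (η + ε) * (A * D.ρ) ≤ η' * (A * D.ρ) :=
      mul_le_mul_of_nonneg_right hη' (by positivity)
    linarith
  rw [abs_le]
  constructor <;> nlinarith

theorem step (H : SD) (m : Model) (𝒯 : Finset Term) (ℐ : Finset (ℤ × ℤ)) (k : ℕ) {η : ℝ}
    (hη : 0 < η) :
    ∃ (K : SD) (m' : Model), Close k η (H * m.S * H⁻¹) (H * K * m'.S * (H * K)⁻¹) ∧
      ‖koop K m.g - m'.g‖ ≤ η ∧ Gap m'.V η ∧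
      (∀ t ∈ 𝒯, m.NI t → ∃ u ∈ tspan m'.Al, ‖koop K t.L - u‖ ≤ η) ∧
      (∀ t ∈ 𝒯, m.Al t → ∃ u ∈ tspan m'.Cap, ‖koop K t.L - u‖ ≤ η) ∧
      ∃ G : ℤ, G ≠ 0 ∧ ∀ p ∈ ℐ, |p.1| < m'.q ∧
        ‖koop K (eL ![0, p.2 * m.q, p.1]) - eL ![0, p.1, p.2 * G]‖ ≤ η := by
  classical
  have hq := m.q_pos
  set s := min (η / 4) 1 with hs
  have hs0 : 0 < s := by positivity
  have hs1 : s ≤ 1 := min_le_right _ _
  have hs2 : s ≤ η / 4 := min_le_left _ _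
  have hs3 : s ^ 2 ≤ s := by nlinarith
  set η₂ := s ^ 2 / (4 * (Fintype.card m.ι + 1)) with hη₂
  have hη₂0 : 0 < η₂ := by positivity
  have hη₂1 : (Fintype.card m.ι + 1) * η₂ = s ^ 2 / 4 := by rw [hη₂]; field_simp
  have hη₂2 : η₂ ≤ s ^ 2 / 4 := by
    have : (0 : ℝ) ≤ Fintype.card m.ι * η₂ := by positivity
    linarith
  -- choice of `ε`, `X`
  have E1 := eventually_all.2 fun i : m.ι =>
    analysis_ev m.q_odd m.V_sp (m.pc i) (m.aff i) (Or.inl (m.b_ne i)) hη₂0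
  have E2 : ∀ᶠ p : ℝ × ℝ in 𝓝[>] 0 ×ˢ atTop, ∀ t ∈ 𝒯, m.NI t → ∃ ρt, ∀ D : Des m.q p.1 p.2,
      ∀ᶠ c in atTop, D.An m.V t ρt η 0 c ∧ D.An m.V t ρt η p.1 c := by
    refine (eventually_all_finset 𝒯).2 fun t _ => ?_
    by_cases h : m.NI t
    · obtain ⟨⟨ρt, hA⟩, h⟩ := h
      filter_upwards [analysis_ev m.q_odd m.V_sp t hA h hη] with p hp _
      exact ⟨ρt, hp⟩
    · exact Eventually.of_forall fun _ h' => (h h').elim
  have E3 := (eventually_all_finset ℐ).2 fun p _ => transfer_inv_ev hq m.V_sp p.1 p.2 hη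
  obtain ⟨⟨ε, X⟩, E1, E2, E3, hε, hε1, hX⟩ :=
    (E1.and (E2.and (E3.and (eventually_small (show 0 < s ^ 2 / 8 by positivity) 1)))).exists
  simp only at E1 E2 E3 hε hε1 hX
  have hε2 : ε ≤ 1 / 8 := by linarith
  obtain ⟨κ, hκ, hV0⟩ := m.V_zero
  obtain ⟨D₀⟩ := nonempty_KL hε (by linarith) (show 0 < X by linarith)
  obtain ⟨D, hD⟩ := exists_Des hq hε D₀ hκ
  -- choice of `c`
  choose! ρt E2 using E2
  have F1 := eventually_all.2 fun i => E1 i D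
  have F2 : ∀ᶠ c in atTop, ∀ t ∈ 𝒯, m.NI t →
      D.An m.V t (ρt t) η 0 c ∧ D.An m.V t (ρt t) η ε c := by
    refine (eventually_all_finset 𝒯).2 fun t ht => ?_
    by_cases h : m.NI t
    · filter_upwards [E2 t ht h D] with c hc _ using hc
    · exact Eventually.of_forall fun _ h' => (h h').elim
  have F3 := (eventually_all_finset ℐ).2 fun p hp => E3 p hp D
  obtain ⟨c₀, F4⟩ := smooth_step hq D m.V_sp hD hV0 H m.S m.S_eq k hη
  obtain ⟨c₁, hc₁⟩ := eventually_atTop.1 (F1.and (F2.and (F3.and (eventually_ge_atTop c₀))))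
  obtain ⟨c, hc, hodd, hcc⟩ : ∃ c, 0 < c ∧ Odd c ∧ c₁ ≤ c :=
    ⟨2 * c₁ + 1, by omega, odd_two_mul_add_one _, by omega⟩
  obtain ⟨F1, F2, F3, F5⟩ := hc₁ c hcc
  obtain ⟨K0, L, -, -, hK⟩ := exists_K hq D m.V_sp c
  obtain ⟨S', hS'⟩ := exists_S (m.q * c) (D.sp_V' c)
  set K := K0 * L
  choose J co hJ hJK using fun i => (F1 i).1
  obtain ⟨bt, bj, bz, hb, hbm⟩ := D.exists_base m (by linarith) c co
  have := (D.finite_slot hq hε hc).fintype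
  have : Fintype {x // D.Slot c x} := this
  obtain ⟨harcs, hin⟩ := D.arcs hq hε hε2 hc bt bj bz hb
  have hnG : 0 < D.nG := by
    rcases Nat.eq_zero_or_pos D.nG with h | h
    · have := D.tot_ge
      rw [h] at this
      norm_num at this
      linarith
    · exact h
  have hb' : ∀ σ : {x // D.Slot c x},
      |((bt σ).b₂ : ℝ) / m.q - ((D.um c (bt σ) (bj σ) σ).1 / D.M : ℤ)| ≤ X := fun σ => by
    rw [D.um_div σ.2]; exact hb σ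
  obtain ⟨m', hq', hV', hS'', hpc, hg⟩ := assemble (m.q_odd.mul hodd) (D.sp_V' c)
    (by
      obtain ⟨κ', h1, h2⟩ := D.Ω_zero
      exact ⟨κ', h1, fun y hy => by simp [Des.V', h2 y hy]⟩) hS'
    (fun σ : {x // D.Slot c x} => D.newTerm (bt σ) 0 c (D.um c (bt σ) (bj σ) σ) (bz σ))
    (fun _ => D.ρ / (m.q * (m.q * c)))
    (fun σ => by simpa [Des.newTerm] using D.aff_V' hq hc _)
    (fun σ => D.mode_ne hq hε2 hX _ σ.2.act (hb' σ)) harcs hin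
    ⟨_, _, _, D.aff_V' hq hc ⟨0, hnG⟩⟩
  refine ⟨K, m', ?_, ?_, ?_, fun t ht hNI => ?_, fun t ht hAl => ?_, m.q * D.G' - 1, ?_,
    fun p hp => ⟨?_, (F3 p hp).2 K hK⟩⟩
  · rw [hS'']
    exact F4 c F5 K S' hK hS'
  · -- the generator
    have hmt : ∀ i, ∀ x ∈ J i, D.Mt m c (D.sm c (m.pc i) x) i (x.1 / D.M) := fun i x hx =>
      (hJ i x hx).mt hc (m.b_ne i) rfl fun y hy => ⟨y, hy, rfl⟩
    have hterm : ∀ i, ∀ x ∈ J i, D.newTerm (bt (D.sm c (m.pc i) x)) 0 c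
        (D.um c (bt (D.sm c (m.pc i) x)) (bj (D.sm c (m.pc i) x)) (D.sm c (m.pc i) x))
        (bz (D.sm c (m.pc i) x)) = D.newTerm (m.pc i) 0 c x (co i x) := fun i x hx => by
      obtain ⟨e1, e2, e3⟩ := hbm _ _ _ (hmt i x hx)
      rw [e1, e2, e3, D.um_sm]
    let A : Finset {x // D.Slot c x} :=
      Finset.univ.filter fun σ => ∃ i, ∃ x ∈ J i, D.sm c (m.pc i) x = σ
    have hsum : ∑ i, ∑ x ∈ J i, (D.newTerm (m.pc i) 0 c x (co i x)).L =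
        ∑ σ ∈ A, (D.newTerm (bt σ) 0 c (D.um c (bt σ) (bj σ) σ) (bz σ)).L := by
      rw [Finset.sum_sigma']
      refine Finset.sum_bij (fun p hp => ⟨D.sm c (m.pc p.1) p.2,
        (hJ p.1 p.2 (Finset.mem_sigma.1 hp).2).slot D hq hc⟩) ?_ ?_ ?_ ?_
      · intro p hp
        exact Finset.mem_filter.2 ⟨Finset.mem_univ _, p.1, p.2, (Finset.mem_sigma.1 hp).2, rfl⟩
      · rintro ⟨i, x⟩ hp ⟨i', x'⟩ hp' he
        have he' : D.sm c (m.pc i) x = D.sm c (m.pc i') x' := congrArg Subtype.val he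
        have h1 := hmt i x (Finset.mem_sigma.1 hp).2
        rw [he'] at h1
        obtain ⟨rfl, h2⟩ := h1.unique (hmt i' x' (Finset.mem_sigma.1 hp').2)
        rw [← D.um_sm c (m.pc i) x, he', h2, D.um_sm]
      · intro σ hσ
        obtain ⟨i, x, hx, he⟩ := (Finset.mem_filter.1 hσ).2
        exact ⟨⟨i, x⟩, Finset.mem_sigma.2 ⟨Finset.mem_univ _, hx⟩, Subtype.ext he⟩
      · intro p hp
        rw [hterm p.1 p.2 (Finset.mem_sigma.1 hp).2]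
    have h1 : ‖koop K m.g - ∑ i, ∑ x ∈ J i, (D.newTerm (m.pc i) 0 c x (co i x)).L‖ ≤ s ^ 2 / 4 := by
      rw [Model.g, map_sum, ← Finset.sum_sub_distrib]
      refine (norm_sum_le _ _).trans ((Finset.sum_le_sum fun i _ => hJK i K hK).trans ?_)
      rw [Finset.sum_const, Finset.card_univ, nsmul_eq_mul]
      linarith
    rw [hsum] at h1
    have h2 := hg A (s ^ 2) (by positivity) (by linarith) (fun σ hσ => by
      obtain ⟨i, x, hx, he⟩ := (Finset.mem_filter.1 hσ).2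
      simp only [← he, hterm i x hx]
      exact (hJ i x hx).flat' hε hε2 hc hη₂0.le (by linarith)) (by
      have h3 := norm_sub_norm_le (koop K m.g) _ |>.trans h1
      rw [LinearIsometry.norm_map, m.norm_g] at h3
      nlinarith)
    rw [Real.sqrt_sq hs0.le, norm_sub_rev] at h2
    exact (norm_sub_le_norm_sub_add_norm_sub _ _ _).trans ((add_le_add h1 h2).trans (by linarith))
  · rw [hV']
    obtain ⟨n, l, r, h1, h2, h3⟩ := D.gap_V' hq hc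
    exact ⟨n, l, r, h1, h2, by linarith⟩
  · -- non-invariant terms become aligned
    obtain ⟨J', co', hJ', hK'⟩ := (F2 t ht hNI).2
    refine ⟨_, sum_mem fun x hx => Submodule.subset_span ⟨_, ?_, rfl⟩, hK' K hK⟩
    have hx' := hJ' x hx
    have hsl := hx'.slot D hq hc
    obtain ⟨i, e1, e2, e3, e4⟩ := hpc ⟨_, hsl⟩
    have hl := D.lam_pos
    have hρ := D.ρ_pos
    have hl1 : 0 < ε * D.lam := by positivity
    have hl2 : ε * D.lam ≤ 1 / 8 * D.lam := mul_le_mul_of_nonneg_right hε2 hl.le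
    have hA : Aff (D.V' c) (D.toKL.segL x.2.2.1 + ε * D.lam)
        (D.toKL.segL x.2.2.1 + D.lam - ε * D.lam) (D.ρ / (m.q * (m.q * c))) :=
      (D.aff_V' hq hc x.2.2.1).mono (by linarith) (by linarith) (by linarith)
    rw [← hV'] at hA
    refine ⟨⟨_, hA⟩, D.mode_ne hq hε2 hX _ hx'.act hx'.bd, i, ?_, fun y hy => ?_⟩
    · rw [e2, D.newTerm_b₂, D.newTerm_b₂, D.sm_um hsl]
      rfl
    · simp only [Des.newTerm, mem_Ioo] at hy
      have hy' : y ∈ Ioo (D.toKL.segL x.2.2.1) (D.toKL.segL x.2.2.1 + D.lam) :=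
        ⟨by linarith [hy.1], by linarith [hy.2]⟩
      have hy1 := mul_lt_mul_of_pos_left hy.1 hρ
      have hy2 := mul_lt_mul_of_pos_left hy.2 hρ
      obtain ⟨u', hu', he⟩ := D.toKL.align hε hε2 hX hx'.act x.2.2.1 hx'.bd (hb (D.sm c t x))
        (u := D.ρ * (y - D.toKL.segL x.2.2.1)) ⟨by linarith, by linarith⟩
      have hy'' : D.toKL.segL x.2.2.1 + u' / D.ρ ∈
          Ioo (D.toKL.segL x.2.2.1) (D.toKL.segL x.2.2.1 + D.lam) :=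
        ⟨by linarith [div_pos hu'.1 hρ], by
          have : u' / D.ρ < D.lam := by rw [div_lt_iff₀ hρ]; linarith [hu'.2]
          linarith⟩
      refine ⟨D.toKL.segL x.2.2.1 + u' / D.ρ, ?_, ?_⟩
      · rw [e3, e4]
        simpa [Des.newTerm, Des.um, Des.sm] using hy''
      · have e5 : ∀ y, (m'.pc i).th m'.q m'.V y = (D.newTerm (bt (D.sm c t x)) 0 c (D.um c
            (bt (D.sm c t x)) (bj (D.sm c t x)) (D.sm c t x)) (bz (D.sm c t x))).th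
            (m.q * c) (D.V' c) y := fun y => by
          simp only [Term.th, e1, e2, hq', hV']
        rw [e5, hq', hV', D.th_newTerm hq hc, D.th_newTerm hq hc, D.sm_um hsl, D.um_div hsl,
          D.deriv_Ω _ hy', D.deriv_Ω _ hy'', he, add_sub_cancel_left, mul_div_cancel₀ _ hρ.ne']
        rfl
  · -- aligned terms are captured
    obtain ⟨hA, hb₁, i, h2, h3⟩ := hAl
    obtain ⟨J', co', hJ', hK'⟩ := (F2 t ht ⟨hA, Or.inl hb₁⟩).1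
    refine ⟨_, sum_mem fun x hx => Submodule.subset_span ⟨_, ?_, rfl⟩, hK' K hK⟩
    have hx' := hJ' x hx
    have hsl := hx'.slot D hq hc
    obtain ⟨i', e1, e2, e3, e4⟩ := hpc ⟨_, hsl⟩
    obtain ⟨f1, f2, -⟩ := hbm _ _ _ (hx'.mt hc hb₁ h2 h3)
    refine ⟨i', ?_, ?_, e3.le, e4.ge⟩
    · rw [e1]
      simp only [Des.newTerm, Des.mode]
      rw [D.um_div hsl, f1, f2, h2]
      rfl
    · rw [e2, D.newTerm_b₂, D.newTerm_b₂, D.sm_um hsl]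
      rfl
  · have h1 := D.G_big
    have h2 : (2 : ℝ) ≤ D.G' := by nlinarith [Nat.cast_nonneg (α := ℝ) D.G']
    have h3 : (2 : ℤ) ≤ D.G' := by exact_mod_cast h2
    have h4 : (1 : ℤ) ≤ m.q := by exact_mod_cast hq
    have h5 : (1 : ℤ) * 2 ≤ m.q * D.G' := mul_le_mul h4 h3 (by norm_num) (by linarith)
    omega
  · have h1 := (F3 p hp).1
    have h4 : (1 : ℤ) ≤ m.q := by exact_mod_cast hq
    rw [hq']
    push_cast
    nlinarith [Nat.cast_nonneg (α := ℤ) c]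

end Crest.Agent.R81
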