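import Crest.Agent.R81.NonPrim
import Crest.Agent.R81.Chirp

/-! Row 81: the first torus design, `v = ∑ i, (M y i + M' (y i)²/2)` on `𝕋^(d+1)`.

`tc v ξ n = ∏ i, fc (fun y => e (ξ M' y²/2 + ξ M y)) (n i)`.  We may assume `ε ≤ 1/4`
(`TD.mono`).  Choose, in this order: `d` (`card_nonprim` with `ε/10`, used with a factor
`(1+η)^(d+1) ≤ 2`); `η` with `(1 ± 4η)^(d+1)` within `ε/10` of `1`; `δ ≤ ε/2` such that
`W ξ = sn ξ / ξ^(d+1)` changes by a factor within `ε/10` of `1` between `δ`-close points of the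
compact set `K' = {ξ ∈ [ε/2, X+1], Good (ε/2) ξ}` (`continuous_sn`, `sn_pos`); `r` small with
`(X+1) · 2r ≤ δ`; `M'` large, `M = M'/r`.  For `n` put `lo n = max_i n i / (M + (1-η) M')`,
`hi n = min_i n i / (M + η M')`, so `ξ ∈ [lo n, hi n]` iff every `n i ∈ innerSet (ξ M') (ξ M) η (1-η)`.
`S` = the primitive `n` (`G n = 1`) such that `[lo n, hi n]` contains a good `ξ ∈ (0, X]`;
then `hi n - lo n ≤ δ`, `[lo n, hi n] ⊆ K'` lies between two consecutive half integers, and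
`a n = W (lo n) / M'^(d+1)`.  `npar` is `F2aux.eq_of_parallel`.  Mass: the product of the
one-dimensional masses (`chirp_unit`, `Finset.prod_univ_sum`) minus the non-primitive part. -/

set_option autoImplicit false

open MeasureTheory Set Crest.AnalysisR.Torus3
open Crest.Agent.R75 (e)
open scoped ContDiff ComplexConjugate

namespace Crest.Agent.R81
/-- monotonicity in `ε` -/
def TD.mono {ε ε' X : ℝ} (T : TD ε X) (hε : 0 ≤ ε) (h : ε ≤ ε') : TD ε' X where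
  δ := T.δ
  i₀ := T.i₀
  v := T.v
  S := T.S
  lo := T.lo
  hi := T.hi
  a := T.a
  v_meas := T.v_meas
  v_bd := T.v_bd
  big m hm := by
    have h1 := T.big m hm
    have h2 : (0 : ℝ) < m T.i₀ := by
      by_contra h3
      nlinarith [mul_nonneg hε (neg_nonneg.2 (not_lt.1 h3))]
    nlinarith
  npar := T.npar
  a_pos := T.a_pos
  comp := T.comp
  bd := T.bd
  flat m hm ξ hξ := (T.flat m hm ξ hξ).trans (mul_le_mul_of_nonneg_right h (T.a_pos m hm).le)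
  mass ξ h1 h2 h3 := le_trans (by linarith) (T.mass ξ (fun n => h.trans (h1 n)) h2 h3)

theorem measurable_rep : Measurable rep := by
  exact measurable_subtype_coe.comp (AddCircle.measurableEquivIco (1 : ℝ) 0).measurable

theorem integral_rep (f : ℝ → ℂ) : ∫ p : UnitAddCircle, f (rep p) = ∫ y in (0 : ℝ)..1, f y := by
  rw [← UnitAddCircle.intervalIntegral_preimage 0, zero_add,
    intervalIntegral.integral_of_le zero_le_one, intervalIntegral.integral_of_le zero_le_one,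
    integral_Ioc_eq_integral_Ioo, integral_Ioc_eq_integral_Ioo]
  refine setIntegral_congr_fun measurableSet_Ioo fun y hy => ?_
  simp only [rep_coe, Int.fract_eq_self.mpr ⟨hy.1.le, hy.2⟩]

lemma td_e_sum {ι : Type*} (s : Finset ι) (f : ι → ℝ) : e (∑ i ∈ s, f i) = ∏ i ∈ s, e (f i) := by
  classical
  induction s using Finset.induction_on with
  | empty => simp
  | insert a s ha ih => rw [Finset.sum_insert ha, Finset.prod_insert ha, R75.e_add, ih]

lemma td_fourier_coe (n : ℤ) (x : ℝ) : fourier n (x : UnitAddCircle) = e (n * x) := by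
  rw [fourier_coe_apply, e]
  congr 1
  push_cast
  ring

lemma td_fourier (n : ℤ) (p : UnitAddCircle) : fourier (-n) p = e (-(n * rep p)) := by
  conv_lhs => rw [← coe_rep p]
  rw [td_fourier_coe, Int.cast_neg, neg_mul]

theorem tc_sum {δ : Type} [Fintype δ] (u : ℝ → ℝ) (ξ : ℝ) (n : δ → ℤ) :
    tc (fun p : δ → UnitAddCircle => ∑ i, u (rep (p i))) ξ n = ∏ i, zc u ξ (n i) := by
  have h1 : ∀ i, zc u ξ (n i) =
      ∫ p : UnitAddCircle, e (ξ * u (rep p)) * e (-(n i * rep p)) := fun i =>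
    (integral_rep fun y => e (ξ * u y) * e (-(n i * y))).symm
  simp only [h1]
  rw [← integral_fintype_prod_volume_eq_prod
    (fun i (p : UnitAddCircle) => e (ξ * u (rep p)) * e (-(n i * rep p))), tc]
  refine integral_congr_ae (Filter.Eventually.of_forall fun p => ?_)
  simp only [Finset.mul_sum, td_e_sum, UnitAddTorus.mFourier, ContinuousMap.coe_mk, Pi.neg_apply,
    td_fourier, Finset.prod_mul_distrib]

lemma td_prod_close {ι : Type*} (s : Finset ι) {η : ℝ} (t : ι → ℝ) (h : ∀ i ∈ s, |t i - 1| ≤ η) :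
    |∏ i ∈ s, t i - 1| ≤ (1 + η) ^ s.card - 1 := by
  classical
  induction s using Finset.induction_on with
  | empty => simp
  | insert a s ha ih =>
    rw [Finset.prod_insert ha, Finset.card_insert_of_notMem ha, pow_succ]
    have h1 := ih fun i hi => h i (Finset.mem_insert_of_mem hi)
    have h2 := h a (Finset.mem_insert_self _ _)
    have h3 : |t a| ≤ 1 + η := by
      have := abs_sub_abs_le_abs_sub (t a) 1
      rw [abs_one] at this
      linarith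
    have e1 : t a * ∏ i ∈ s, t i - 1 = t a * (∏ i ∈ s, t i - 1) + (t a - 1) := by ring
    rw [e1]
    refine (abs_add_le _ _).trans ?_
    rw [abs_mul]
    have h4 := mul_le_mul h3 h1 (abs_nonneg _) ((abs_nonneg _).trans h3)
    linarith

open Filter Topology in
lemma td_exists_eta {κ : ℝ} (hκ : 0 < κ) (D : ℕ) :
    ∃ η : ℝ, 0 < η ∧ η ≤ 1 / 4 ∧ (1 + η) ^ D ≤ 1 + κ ∧ 1 - κ ≤ (1 - 4 * η) ^ D := by
  have h1 : Tendsto (fun η : ℝ => (1 + η) ^ D) (𝓝 0) (𝓝 1) := by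
    have : Continuous fun η : ℝ => (1 + η) ^ D := by fun_prop
    simpa using this.tendsto 0
  have h2 : Tendsto (fun η : ℝ => (1 - 4 * η) ^ D) (𝓝 0) (𝓝 1) := by
    have : Continuous fun η : ℝ => (1 - 4 * η) ^ D := by fun_prop
    simpa using this.tendsto 0
  have h3 : ∀ᶠ η : ℝ in 𝓝 0, η ≤ 1 / 4 ∧ (1 + η) ^ D ≤ 1 + κ ∧ 1 - κ ≤ (1 - 4 * η) ^ D :=
    (eventually_le_nhds (by norm_num)).and ((h1.eventually (eventually_le_nhds (by linarith))).and
      (h2.eventually (eventually_ge_nhds (by linarith))))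
  obtain ⟨η, h4, h5⟩ := ((h3.filter_mono nhdsWithin_le_nhds).and
    (self_mem_nhdsWithin (a := (0 : ℝ)) (s := Ioi 0))).exists
  exact ⟨η, h5, h4⟩

lemma td_unif {K : Set ℝ} (hK : IsCompact K) {W : ℝ → ℝ} (hW : ContinuousOn W K)
    (hp : ∀ x ∈ K, 0 < W x) {κ : ℝ} (hκ : 0 < κ) :
    ∃ δ > 0, ∀ x ∈ K, ∀ y ∈ K, |x - y| ≤ δ → |W x - W y| ≤ κ * W y := by
  rcases K.eq_empty_or_nonempty with rfl | hne
  · exact ⟨1, one_pos, fun x hx => hx.elim⟩
  obtain ⟨x₀, hx₀, hmin⟩ := hK.exists_isMinOn hne hW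
  obtain ⟨δ, hδ, h⟩ := Metric.uniformContinuousOn_iff_le.mp (hK.uniformContinuousOn_of_continuous hW)
    (κ * W x₀) (mul_pos hκ (hp _ hx₀))
  exact ⟨δ, hδ, fun x hx y hy hxy => (h x hx y hy hxy).trans
    (mul_le_mul_of_nonneg_left (hmin hy) hκ.le)⟩

lemma td_exists_delta {ε κ : ℝ} (hε : 0 < ε) (hκ : 0 < κ) (X : ℝ) (D : ℕ) :
    ∃ δ > 0, ∀ x y : ℝ, ε ≤ x → x ≤ X → Good ε x → ε ≤ y → y ≤ X → Good ε y → |x - y| ≤ δ →
      |sn x / x ^ D - sn y / y ^ D| ≤ κ * (sn y / y ^ D) := by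
  have hc : IsClosed {x : ℝ | Good ε x} := by
    simp only [Good, ofPred_forall]
    exact isClosed_iInter fun n => isClosed_le continuous_const (by fun_prop)
  obtain ⟨δ, hδ, h⟩ := td_unif (isCompact_Icc (a := ε) (b := X) |>.inter_right hc)
    (W := fun x => sn x / x ^ D)
    (continuous_sn.continuousOn.div (by fun_prop) fun x hx => (pow_pos (hε.trans_le hx.1.1) D).ne')
    (fun x hx => div_pos (sn_pos fun n hn => by
      have := hx.2 (2 * n)
      rw [hn] at this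
      push_cast at this
      rw [mul_div_cancel_left₀ _ two_ne_zero, sub_self, abs_zero] at this
      linarith) (pow_pos (hε.trans_le hx.1.1) D)) hκ
  exact ⟨δ, hδ, fun x y h1 h2 h3 h4 h5 h6 => h x ⟨⟨h1, h2⟩, h3⟩ y ⟨⟨h4, h5⟩, h6⟩⟩

lemma td_good_pos {ε ξ : ℝ} (h : Good ε ξ) (h0 : 0 < ξ) : ε ≤ ξ := by
  have := h 0
  rwa [Int.cast_zero, zero_div, sub_zero, abs_of_pos h0] at this

lemma td_good_near {ε ξ ξ' : ℝ} (h : Good ε ξ) (h' : |ξ' - ξ| ≤ ε / 2) : Good (ε / 2) ξ' := fun n => by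
  have h1 := h n
  have h2 := abs_sub_le ξ ξ' (n / 2)
  rw [abs_sub_comm ξ ξ'] at h2
  linarith

lemma td_mem_inner {M M' η ξ : ℝ} (hM' : 0 < M') (hη : η ≤ 1 / 4) (hξ : 0 < ξ) (k : ℤ) :
    k ∈ innerSet (ξ * M') (ξ * M) η (1 - η) ↔
      (M + η * M') * ξ ≤ k ∧ k ≤ (M + (1 - η) * M') * ξ := by
  have h : 0 < ξ * M' := mul_pos hξ hM'
  rw [mem_innerSet h.ne' (by linarith), mem_Icc, le_div_iff₀ h, div_le_iff₀ h]
  constructor
  · rintro ⟨h1, h2⟩
    constructor <;> linarith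
  · rintro ⟨h1, h2⟩
    constructor <;> linarith

lemma td_flat {W W₀ P ε : ℝ} (hε : 0 < ε) (hε1 : ε ≤ 1) (h0 : 0 < W₀) (h1 : |W - W₀| ≤ ε / 10 * W₀)
    (h2 : |P - 1| ≤ ε / 10) : |W * P - W₀| ≤ ε * W₀ := by
  have e1 : W * P - W₀ = (W - W₀) * P + W₀ * (P - 1) := by ring
  have h3 : |P| ≤ 2 := by
    have := abs_sub_abs_le_abs_sub P 1
    rw [abs_one] at this
    linarith
  rw [e1]
  refine (abs_add_le _ _).trans ?_
  rw [abs_mul, abs_mul, abs_of_pos h0]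
  have h4 := mul_le_mul h1 h3 (abs_nonneg _) (by positivity)
  have h5 := mul_le_mul_of_nonneg_left h2 h0.le
  nlinarith [mul_pos hε h0]

lemma td_window {r M M' a₁ a₂ X ξ ξ₀ k : ℝ} (hr : 0 < r) (hM : 0 < M) (hMr : r * M = M')
    (hMa₁ : M ≤ a₁) (ha₂0 : 0 < a₂) (ha₂M : a₂ ≤ M + M') (h3 : 0 < ξ₀) (h4 : ξ₀ ≤ X)
    (b1 : a₁ * ξ₀ ≤ k) (b2 : k ≤ a₂ * ξ₀) (b3 : a₁ * ξ ≤ k) (b4 : k ≤ a₂ * ξ) :
    |ξ - ξ₀| ≤ r * X := by
  have ha₁0 : 0 < a₁ := hM.trans_le hMa₁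
  have hξ0 : 0 < ξ := by
    by_contra hc
    nlinarith [mul_pos ha₁0 h3, mul_nonneg ha₂0.le (neg_nonneg.mpr (not_lt.mp hc))]
  have c1 : M * ξ ≤ M * ((1 + r) * ξ₀) := by
    nlinarith [mul_le_mul_of_nonneg_right hMa₁ hξ0.le, mul_le_mul_of_nonneg_right ha₂M h3.le]
  have c2 : M * ξ₀ ≤ M * ((1 + r) * ξ) := by
    nlinarith [mul_le_mul_of_nonneg_right hMa₁ h3.le, mul_le_mul_of_nonneg_right ha₂M hξ0.le]
  have c3 := le_of_mul_le_mul_left c1 hM
  have c4 := le_of_mul_le_mul_left c2 hM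
  have c5 := mul_le_mul_of_nonneg_left h4 hr.le
  rcases le_total ξ ξ₀ with h | h
  · rw [abs_sub_comm, abs_of_nonneg (sub_nonneg.mpr h)]
    nlinarith [mul_le_mul_of_nonneg_left h hr.le]
  · rw [abs_of_nonneg (sub_nonneg.mpr h)]
    nlinarith

set_option maxHeartbeats 1000000 in
open Crest.Agent.R75.F2aux in
theorem nonempty_TD_aux {ε X : ℝ} (hε : 0 < ε) (hε1 : ε ≤ 1) (hX : 0 < X) :
    Nonempty (TD ε X) := by
  classical
  have hκ : 0 < ε / 10 := by positivity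
  obtain ⟨d, hd⟩ := card_nonprim hκ
  replace hd := hd d le_rfl
  obtain ⟨η, hη, hη4, hη1, hη2⟩ := td_exists_eta hκ (d + 1)
  obtain ⟨Λ₀, hΛ₀, hΛ⟩ := chirp_unit hη hη4
  obtain ⟨δ, hδ, hW⟩ := td_exists_delta (half_pos hε) hκ (X + 1) (d + 1)
  obtain ⟨r, hr, hr1, hr2⟩ : ∃ r : ℝ, 0 < r ∧ r * X ≤ δ / 2 ∧ r * X ≤ ε / 2 := by
    refine ⟨min (δ / 2) (ε / 2) / X, by positivity, ?_, ?_⟩
    · rw [div_mul_cancel₀ _ hX.ne']; exact min_le_left _ _
    · rw [div_mul_cancel₀ _ hX.ne']; exact min_le_right _ _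
  obtain ⟨L₀, hL₀⟩ := hd (1 / r)
  obtain ⟨M', hM', hM1, hM2, hM3⟩ :
      ∃ M' : ℝ, 0 < M' ∧ Λ₀ ≤ ε / 2 * M' ∧ L₀ ≤ ε * M' ∧ r ≤ ε ^ 2 * M' := by
    refine ⟨2 * Λ₀ / ε + |L₀| / ε + r / ε ^ 2, by positivity, ?_, ?_, ?_⟩
    · have : ε / 2 * (2 * Λ₀ / ε + |L₀| / ε + r / ε ^ 2) =
          Λ₀ + ε / 2 * (|L₀| / ε + r / ε ^ 2) := by field_simp; ring
      rw [this]
      exact le_add_of_nonneg_right (by positivity)
    · have : ε * (2 * Λ₀ / ε + |L₀| / ε + r / ε ^ 2) =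
          |L₀| + ε * (2 * Λ₀ / ε + r / ε ^ 2) := by field_simp; ring
      rw [this]
      exact (le_abs_self _).trans (le_add_of_nonneg_right (by positivity))
    · have : ε ^ 2 * (2 * Λ₀ / ε + |L₀| / ε + r / ε ^ 2) =
          r + ε ^ 2 * (2 * Λ₀ / ε + |L₀| / ε) := by field_simp; ring
      rw [this]
      exact le_add_of_nonneg_right (by positivity)
  obtain ⟨M, hM, hMr⟩ : ∃ M : ℝ, 0 < M ∧ r * M = M' := ⟨M' / r, by positivity, by field_simp⟩
  obtain ⟨a₁, ha₁⟩ : ∃ a₁, a₁ = M + η * M' := ⟨_, rfl⟩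
  obtain ⟨a₂, ha₂⟩ : ∃ a₂, a₂ = M + (1 - η) * M' := ⟨_, rfl⟩
  have hηM : 0 < η * M' := by positivity
  have hMa₁ : M ≤ a₁ := by rw [ha₁]; linarith
  have ha₁0 : 0 < a₁ := hM.trans_le hMa₁
  have ha₂M : a₂ ≤ M + M' := by rw [ha₂]; linarith
  have ha₂0 : 0 < a₂ := by rw [ha₂]; nlinarith
  have hin : ∀ ξ : ℝ, 0 < ξ → ∀ k : ℤ, k ∈ innerSet (ξ * M') (ξ * M) η (1 - η) ↔
      a₁ * ξ ≤ k ∧ k ≤ a₂ * ξ := fun ξ hξ k => by
    rw [ha₁, ha₂]; exact td_mem_inner hM' hη4 hξ k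
  let u : ℝ → ℝ := fun y => M' * y ^ 2 / 2 + M * y
  have hzc : ∀ ξ k, zc u ξ k = fc (fun y => e (ξ * M' * y ^ 2 / 2 + ξ * M * y)) k := fun ξ k => by
    simp only [zc, u]
    congr 1
    funext y
    congr 1
    ring
  let lo : (Fin (d + 1) → ℤ) → ℝ := fun n =>
    Finset.univ.sup' Finset.univ_nonempty fun i => (n i : ℝ) / a₂
  let hi : (Fin (d + 1) → ℤ) → ℝ := fun n =>
    Finset.univ.inf' Finset.univ_nonempty fun i => (n i : ℝ) / a₁
  have hwin : ∀ n ξ, ξ ∈ Icc (lo n) (hi n) ↔ ∀ i, a₁ * ξ ≤ n i ∧ n i ≤ a₂ * ξ := fun n ξ => by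
    simp only [lo, hi, mem_Icc, Finset.sup'_le_iff, Finset.le_inf'_iff, Finset.mem_univ,
      forall_true_left, div_le_iff₀' ha₂0, le_div_iff₀' ha₁0, forall_and]
    exact and_comm
  let S : Finset (Fin (d + 1) → ℤ) :=
    (Fintype.piFinset fun _ => Finset.Icc 0 ⌊a₂ * X⌋).filter fun n =>
      G n = 1 ∧ ∃ ξ, Good ε ξ ∧ 0 < ξ ∧ ξ ≤ X ∧ ξ ∈ Icc (lo n) (hi n)
  have hS : ∀ n ∈ S, G n = 1 ∧ ∃ ξ₀, Good ε ξ₀ ∧ ε ≤ ξ₀ ∧ ξ₀ ≤ X ∧ ξ₀ ∈ Icc (lo n) (hi n) ∧
      ∀ ξ ∈ Icc (lo n) (hi n), |ξ - ξ₀| ≤ r * X := fun n hn => by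
    obtain ⟨-, h1, ξ₀, h2, h3, h4, h5⟩ := Finset.mem_filter.mp hn
    refine ⟨h1, ξ₀, h2, td_good_pos h2 h3, h4, h5, fun ξ hξ => ?_⟩
    obtain ⟨b1, b2⟩ := (hwin n ξ₀).mp h5 0
    obtain ⟨b3, b4⟩ := (hwin n ξ).mp hξ 0
    exact td_window hr hM hMr hMa₁ ha₂0 ha₂M h3 h4 b1 b2 b3 b4
  have hK : ∀ n ∈ S, ∀ ξ ∈ Icc (lo n) (hi n), ε / 2 ≤ ξ ∧ ξ ≤ X + 1 ∧ Good (ε / 2) ξ :=
    fun n hn ξ hξ => by
      obtain ⟨-, ξ₀, h1, h2, h3, -, h5⟩ := hS n hn
      have h6 := abs_le.mp ((h5 ξ hξ).trans hr2)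
      exact ⟨by linarith [h6.1], by linarith [h6.2], td_good_near h1 ((h5 ξ hξ).trans hr2)⟩
  have hlo : ∀ n ∈ S, lo n ∈ Icc (lo n) (hi n) := fun n hn => by
    obtain ⟨-, ξ₀, -, -, -, h4, -⟩ := hS n hn
    exact left_mem_Icc.mpr (h4.1.trans h4.2)
  have hhi : ∀ n ∈ S, hi n ∈ Icc (lo n) (hi n) := fun n hn => right_mem_Icc.mpr (hlo n hn).2
  have hbig : ∀ n ∈ S, 1 ≤ ε * n 0 := fun n hn => by
    obtain ⟨-, ξ₀, -, h2, -, h4, -⟩ := hS n hn
    have h5 := ((hwin n ξ₀).mp h4 0).1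
    have h6 : M * ε ≤ a₁ * ξ₀ := mul_le_mul hMa₁ h2 hε.le ha₁0.le
    have h7 : r * 1 ≤ r * (ε ^ 2 * M) := by nlinarith
    have h8 := le_of_mul_le_mul_left h7 hr
    nlinarith [mul_le_mul_of_nonneg_left (h6.trans h5) hε.le]
  have hpos : ∀ n ∈ S, 0 < n 0 := fun n hn => by
    have h1 := hbig n hn
    have h2 : (0 : ℝ) < n 0 := by
      by_contra h3
      nlinarith [mul_nonneg hε.le (neg_nonneg.2 (not_lt.1 h3))]
    exact_mod_cast h2
  have hsn : ∀ ξ, Good (ε / 2) ξ → 0 < sn ξ := fun ξ h => sn_pos fun n hn => by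
    have := h (2 * n)
    rw [hn] at this
    push_cast at this
    rw [mul_div_cancel_left₀ _ two_ne_zero, sub_self, abs_zero] at this
    linarith
  have hlam : ∀ ξ, ε / 2 ≤ ξ → Λ₀ ≤ |ξ * M'| := fun ξ h =>
    (hM1.trans (mul_le_mul_of_nonneg_right h hM'.le)).trans (le_abs_self _)
  have htc : ∀ ξ (n : Fin (d + 1) → ℤ),
      ‖tc (fun p : Fin (d + 1) → UnitAddCircle => ∑ i, u (rep (p i))) ξ n‖ ^ 2 =
      ∏ i, ‖fc (fun y => e (ξ * M' * y ^ 2 / 2 + ξ * M * y)) (n i)‖ ^ 2 := fun ξ n => by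
    simp only [tc_sum, norm_prod, hzc, Finset.prod_pow]
  refine ⟨{ δ := Fin (d + 1), i₀ := 0, v := fun p => ∑ i, u (rep (p i)), S := S, lo := lo, hi := hi
            a := fun n => sn (lo n) / lo n ^ (d + 1) / M' ^ (d + 1)
            v_meas := ?_, v_bd := ⟨(d + 1 : ℕ) * (M' / 2 + M), fun p => ?_⟩, big := hbig
            npar := fun m hm m' hm' hne => ?_, a_pos := fun n hn => ?_, comp := fun n hn => ?_
            bd := fun n hn => (hK n hn _ (hhi n hn)).2.1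
            flat := fun n hn ξ hξ => ?_, mass := fun ξ hg h0 hξX => ?_ }⟩
  · have hu : Measurable u := by fun_prop
    exact Finset.measurable_sum _ fun i _ => hu.comp (measurable_rep.comp (measurable_pi_apply i))
  · refine (Finset.abs_sum_le_sum_abs _ _).trans ?_
    rw [← nsmul_eq_mul]
    refine (Finset.sum_le_card_nsmul _ _ (M' / 2 + M) fun i _ => ?_).trans (by simp)
    obtain ⟨h1, h2⟩ := rep_mem (p i)
    simp only [u]
    rw [abs_of_nonneg (by positivity)]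
    have h3 : rep (p i) ^ 2 ≤ 1 := pow_le_one₀ h1 h2.le
    nlinarith
  · by_contra hc
    push Not at hc
    exact hne (eq_of_parallel m m' (hS m hm).1 (hS m' hm').1 (hpos m hm) (hpos m' hm') hc)
  · obtain ⟨h1, -, h3⟩ := hK n hn _ (hlo n hn)
    have : 0 < lo n := by linarith
    have := hsn _ h3
    positivity
  · obtain ⟨-, ξ₀, h1, h2, -, -, h5⟩ := hS n hn
    have h6 := abs_le.mp ((h5 _ (hlo n hn)).trans hr2)
    have h7 := abs_le.mp ((h5 _ (hhi n hn)).trans hr2)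
    have h8 : (0 : ℝ) ≤ 2 * ξ₀ := by linarith
    have f1 := Nat.floor_le h8
    have f2 := Nat.lt_floor_add_one (2 * ξ₀)
    refine ⟨⌊2 * ξ₀⌋₊, ?_, ?_⟩
    · have := h1 (⌊2 * ξ₀⌋₊ : ℕ)
      rw [Int.cast_natCast, abs_of_nonneg (by linarith)] at this
      linarith [h6.1]
    · have := h1 ((⌊2 * ξ₀⌋₊ : ℕ) + 1)
      push_cast at this
      rw [abs_of_nonpos (by linarith)] at this
      linarith [h7.2]
  · obtain ⟨k1, k2, k3⟩ := hK n hn ξ hξ
    obtain ⟨l1, l2, l3⟩ := hK n hn _ (hlo n hn)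
    have hξ0 : 0 < ξ := by linarith
    have hlo0 : 0 < lo n := by linarith
    have hnear : |ξ - lo n| ≤ δ := by
      obtain ⟨-, ξ₀, -, -, -, -, h5⟩ := hS n hn
      have h6 := abs_le.mp ((h5 _ (hlo n hn)).trans hr1)
      have h7 := abs_le.mp ((h5 _ hξ).trans hr1)
      rw [abs_le]
      constructor <;> linarith [h6.1, h6.2, h7.1, h7.2]
    have h1 := hW ξ (lo n) k1 k2 k3 l1 l2 l3 hnear
    have h2 := td_prod_close Finset.univ
      (fun i => ‖fc (fun y => e (ξ * M' * y ^ 2 / 2 + ξ * M * y)) (n i)‖ ^ 2 * |ξ * M'|)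
      (fun i _ => (hΛ _ (ξ * M) (hlam ξ k1)).1 _ ((hin ξ hξ0 _).mpr ((hwin n ξ).mp hξ i)))
    rw [Finset.card_univ, Fintype.card_fin, Finset.prod_mul_distrib, Finset.prod_const,
      Finset.card_univ, Fintype.card_fin, abs_of_pos (mul_pos hξ0 hM'), ← htc] at h2
    have h3 := td_flat hε hε1 (div_pos (hsn _ l3) (pow_pos hlo0 _)) h1 (h2.trans (by linarith))
    have hMD : 0 < M' ^ (d + 1) := pow_pos hM' _
    rw [← mul_div_assoc, le_div_iff₀ hMD, ← abs_of_pos hMD, ← abs_mul, abs_of_pos hMD]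
    refine le_trans (le_of_eq ?_) h3
    congr 1
    rw [mul_pow]
    field_simp
  · have hεξ := td_good_pos hg h0
    obtain ⟨c1, c2⟩ := hΛ _ (ξ * M) (hlam ξ (by linarith))
    have hL : 0 < ξ * M' := mul_pos h0 hM'
    rw [abs_of_pos hL] at c1
    simp only [htc]
    set I := innerSet (ξ * M') (ξ * M) η (1 - η) with hI
    set w : ℤ → ℝ := fun k => ‖fc (fun y => e (ξ * M' * y ^ 2 / 2 + ξ * M * y)) k‖ ^ 2 with hw
    have hw0 : ∀ k, 0 ≤ w k := fun k => by positivity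
    have s1 : ∑ n ∈ (Fintype.piFinset fun _ : Fin (d + 1) => I), ∏ i, w (n i) =
        (∑ k ∈ I, w k) ^ (d + 1) := by
      rw [← Finset.prod_univ_sum (fun _ : Fin (d + 1) => I) fun _ k => w k, Finset.prod_const,
        Finset.card_univ, Fintype.card_fin]
    have s2 : 1 - ε / 10 ≤ (∑ k ∈ I, w k) ^ (d + 1) :=
      hη2.trans (pow_le_pow_left₀ (by linarith) c2 _)
    have s3 := Finset.sum_filter_add_sum_filter_not
      (Fintype.piFinset fun _ : Fin (d + 1) => I) (fun n => G n = 1) fun n => ∏ i, w (n i)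
    have s4 : ∑ n ∈ (Fintype.piFinset fun _ : Fin (d + 1) => I) with ¬ G n = 1, ∏ i, w (n i) ≤
        ε / 10 * (1 + η) ^ (d + 1) := by
      refine (Finset.sum_le_card_nsmul _ _ (((1 + η) / (ξ * M')) ^ (d + 1)) fun n hn => ?_).trans ?_
      · refine (Finset.prod_le_prod (fun i _ => hw0 _) (g := fun _ => (1 + η) / (ξ * M'))
          fun i _ => ?_).trans (by rw [Finset.prod_const, Finset.card_univ, Fintype.card_fin])
        have h1 := (abs_le.mp (c1 _ (Fintype.mem_piFinset.mp (Finset.mem_filter.mp hn).1 i))).2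
        rw [le_div_iff₀ hL]
        linarith
      · have h1 := hL₀ (ξ * M') (ξ * M) (hM2.trans (mul_le_mul_of_nonneg_right hεξ hM'.le))
          (mul_pos h0 hM) (by rw [← hMr]; exact le_of_eq (by field_simp))
        have h2 : ((Fintype.piFinset fun _ : Fin (d + 1) => I).filter fun n => ¬ G n = 1).card ≤
            ((Fintype.piFinset fun _ : Fin (d + 1) =>
              Finset.Icc ⌈ξ * M⌉ ⌊ξ * M + ξ * M'⌋).filter fun n => G n ≠ 1).card := by
          refine Finset.card_le_card (Finset.filter_subset_filter _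
            (Fintype.piFinset_subset _ _ fun _ k hk => ?_))
          obtain ⟨b1, b2⟩ := (hin ξ h0 k).mp hk
          rw [Finset.mem_Icc, Int.ceil_le, Int.le_floor]
          constructor
          · nlinarith [mul_le_mul_of_nonneg_right hMa₁ h0.le]
          · nlinarith [mul_le_mul_of_nonneg_right ha₂M h0.le]
        rw [nsmul_eq_mul]
        refine (mul_le_mul_of_nonneg_right ((Nat.cast_le.mpr h2).trans h1) (by positivity)).trans
          (le_of_eq ?_)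
        rw [div_pow]
        field_simp
    have s5 : ε / 10 * (1 + η) ^ (d + 1) ≤ ε / 10 * 2 :=
      mul_le_mul_of_nonneg_left (by linarith) hκ.le
    refine le_trans (by linarith : 1 - ε ≤ ∑ n ∈ (Fintype.piFinset fun _ : Fin (d + 1) => I) with
      G n = 1, ∏ i, w (n i)) (Finset.sum_le_sum_of_subset_of_nonneg (fun n hn => ?_)
        fun n _ _ => Finset.prod_nonneg fun i _ => hw0 _)
    obtain ⟨h1, h2⟩ := Finset.mem_filter.mp hn
    have h3 : ∀ i, a₁ * ξ ≤ n i ∧ n i ≤ a₂ * ξ := fun i =>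
      (hin ξ h0 _).mp (Fintype.mem_piFinset.mp h1 i)
    have h4 := (hwin n ξ).mpr h3
    simp only [Finset.mem_filter]
    refine ⟨Finset.mem_filter.mpr ⟨Fintype.mem_piFinset.mpr fun i => ?_, h2, ξ, hg, h0, hξX, h4⟩, h4⟩
    rw [Finset.mem_Icc, Int.le_floor]
    refine ⟨?_, (h3 i).2.trans (mul_le_mul_of_nonneg_left hξX ha₂0.le)⟩
    have : (0 : ℝ) ≤ n i := (mul_pos ha₁0 h0).le.trans (h3 i).1
    exact_mod_cast this

theorem nonempty_TD {ε X : ℝ} (hε : 0 < ε) (hX : 0 < X) : Nonempty (TD ε X) := by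
  obtain ⟨T⟩ := nonempty_TD_aux (lt_min hε one_pos) (min_le_right ε 1) hX
  exact ⟨T.mono (lt_min hε one_pos).le (min_le_left _ _)⟩

end Crest.Agent.R81
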