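import Crest.Agent.R81.TD1
import Crest.Agent.R75.B2

/-! Row 81: equalising the intensities of a torus design.

Start from `T : TD (ε/4) X`, with `F = T.S` as a finite type.  For `f ∈ F` choose an integer vector
`ℓ f` with `ℓ f · f = 0` and `ℓ f · n ≠ 0` for `n ∈ F`, `n ≠ f` (`exists_perp`).  With
`A f = Λ · f i₀ · ∏_{f' ≠ f} |ℓ f' · f| / T.a f` and `lam f i = ℓ f i · A f`, the new function on the
torus indexed by `δ ⊕ F` is `shift T.v lam`.  New modes: `(n, k)` with `n ∈ F`, `k n = 0` and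
`k f ∈ innerSet (ℓ f · n · A f) 0 η (1 - η)` for `f ≠ n`; windows are those of `n`.  By `tc_shift`
and `chirp_unit` (`η ≪ ε / |F|`, `Λ` large) the intensity is
`≈ a n ∏_{f ≠ n} 1 / (|ℓ f · n| A f) = c · n i₀` with `c = Λ / ∏_f A f`. -/

set_option autoImplicit false

open MeasureTheory Set Crest.AnalysisR.Torus3
open Crest.Agent.R75 (e)
open scoped ContDiff ComplexConjugate

namespace Crest.Agent.R81
theorem exists_perp {δ : Type} [Fintype δ] (i₀ : δ) (S : Finset (δ → ℤ)) (f : δ → ℤ)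
    (h : ∀ n ∈ S, n ≠ f → ∃ i, f i₀ * n i ≠ n i₀ * f i) :
    ∃ ℓ : δ → ℤ, ∑ i, ℓ i * f i = 0 ∧ ∀ n ∈ S, n ≠ f → ∑ i, ℓ i * n i ≠ 0 := by
  classical
  let E := Fintype.equivFin δ
  obtain ⟨α, hα⟩ := R75.exists_direction (κ := ↥(S.erase f)) (K := Fintype.card δ)
    (fun n j => f i₀ * n.1 (E.symm j) - n.1 i₀ * f (E.symm j)) (fun n => by
      obtain ⟨i, hi⟩ := h n.1 (Finset.mem_of_mem_erase n.2) (Finset.ne_of_mem_erase n.2)
      exact ⟨E i, by simpa [sub_eq_zero] using hi⟩)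
  have key : ∀ n : δ → ℤ, ∑ i, (f i₀ * α (E i) - if i = i₀ then ∑ j, α (E j) * f j else 0) * n i =
      ∑ j, (f i₀ * n (E.symm j) - n i₀ * f (E.symm j)) * α j := fun n => by
    rw [← E.sum_comp]
    simp only [Equiv.symm_apply_apply, sub_mul, Finset.sum_sub_distrib, ite_mul, zero_mul,
      Finset.sum_ite_eq', Finset.mem_univ, if_true, Finset.sum_mul]
    congr 1 <;> exact Finset.sum_congr rfl fun i _ => by ring
  refine ⟨fun i => f i₀ * α (E i) - if i = i₀ then ∑ j, α (E j) * f j else 0, ?_, fun n hn hne => ?_⟩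
  · rw [key]
    simp
  · rw [key]
    exact hα ⟨n, Finset.mem_erase.mpr ⟨hne, hn⟩⟩

/-- shifting the variables of `v` by chirps in new variables -/
noncomputable def shift {δ F : Type} [Fintype F] (v : (δ → UnitAddCircle) → ℝ) (lam : F → δ → ℝ)
    (p : δ ⊕ F → UnitAddCircle) : ℝ :=
  v fun i => p (Sum.inl i) + ((∑ f, lam f i * rep (p (Sum.inr f)) ^ 2 / 2 : ℝ) : UnitAddCircle)

theorem measurable_shift {δ F : Type} [Fintype δ] [Fintype F] {v : (δ → UnitAddCircle) → ℝ}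
    (hv : Measurable v) (lam : F → δ → ℝ) : Measurable (shift v lam) := by
  refine hv.comp (measurable_pi_lambda _ fun i => (measurable_pi_apply _).add
    (AddCircle.measurable_mk'.comp (Finset.measurable_sum _ fun f _ => ?_)))
  exact ((((measurable_rep.comp (measurable_pi_apply (Sum.inr f))).pow_const 2).const_mul _).div_const 2)

lemma td_fourier_add (n : ℤ) (x y : UnitAddCircle) :
    fourier n (x + y) = fourier n x * fourier n y := by
  rw [fourier_apply, fourier_apply, fourier_apply, zsmul_add, AddCircle.toCircle_add,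
    Circle.coe_mul]

lemma td_tc_add {δ : Type} [Fintype δ] (v : (δ → UnitAddCircle) → ℝ) (ξ : ℝ) (n : δ → ℤ)
    (s : δ → ℝ) :
    ∫ x : δ → UnitAddCircle, e (ξ * v fun i => x i + (s i : UnitAddCircle)) *
      UnitAddTorus.mFourier (-n) x = tc v ξ n * e (∑ i, n i * s i) := by
  rw [tc, ← integral_add_right_eq_self (fun p => e (ξ * v p) * UnitAddTorus.mFourier (-n) p)
    (fun i => (s i : UnitAddCircle)), ← integral_mul_const]
  refine integral_congr_ae (Filter.Eventually.of_forall fun x => ?_)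
  simp only [UnitAddTorus.mFourier, ContinuousMap.coe_mk, Pi.neg_apply, Pi.add_apply,
    td_fourier_add, td_fourier_coe, td_e_sum, mul_assoc, ← Finset.prod_mul_distrib]
  refine congrArg₂ (· * ·) rfl (Finset.prod_congr rfl fun i _ => ?_)
  rw [← R75.e_add, Int.cast_neg, neg_mul, neg_add_cancel, R75.e_zero, mul_one]

/-- Fubini (`volume_measurePreserving_sumPiEquivProdPi`), translation invariance in the old
variables, `integral_fintype_prod_volume_eq_prod` in the new ones. -/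
theorem tc_shift {δ F : Type} [Fintype δ] [Fintype F] {v : (δ → UnitAddCircle) → ℝ}
    (hv : Measurable v) (lam : F → δ → ℝ) (ξ : ℝ) (m : δ ⊕ F → ℤ) :
    tc (shift v lam) ξ m = tc v ξ (fun i => m (Sum.inl i)) *
      ∏ f, fc (fun y => e ((∑ i, m (Sum.inl i) * lam f i) * y ^ 2 / 2 + 0 * y)) (m (Sum.inr f)) := by
  have hm : Measurable fun p : δ ⊕ F → UnitAddCircle =>
      e (ξ * shift v lam p) * UnitAddTorus.mFourier (-m) p :=
    (R75.continuous_e.measurable.comp ((measurable_shift hv lam).const_mul ξ)).mul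
      (UnitAddTorus.mFourier (-m)).continuous.measurable
  have hi : Integrable (fun p : δ ⊕ F → UnitAddCircle =>
      e (ξ * shift v lam p) * UnitAddTorus.mFourier (-m) p) := by
    refine Integrable.of_bound hm.aestronglyMeasurable 1 (Filter.Eventually.of_forall fun p => ?_)
    rw [norm_mul, R75.norm_e, one_mul]
    exact ((UnitAddTorus.mFourier (-m)).norm_coe_le_norm p).trans UnitAddTorus.mFourier_norm.le
  have hE := volume_measurePreserving_sumPiEquivProdPi_symm fun _ : δ ⊕ F => UnitAddCircle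
  have h1 : ∀ f, fc (fun y => e ((∑ i, m (Sum.inl i) * lam f i) * y ^ 2 / 2 + 0 * y))
      (m (Sum.inr f)) = ∫ p : UnitAddCircle,
        e ((∑ i, m (Sum.inl i) * lam f i) * rep p ^ 2 / 2 + 0 * rep p) *
          e (-(m (Sum.inr f) * rep p)) := fun f =>
    (integral_rep fun y => e ((∑ i, m (Sum.inl i) * lam f i) * y ^ 2 / 2 + 0 * y) *
      e (-(m (Sum.inr f) * y))).symm
  simp only [h1]
  rw [← integral_fintype_prod_volume_eq_prod (fun f (p : UnitAddCircle) =>
    e ((∑ i, m (Sum.inl i) * lam f i) * rep p ^ 2 / 2 + 0 * rep p) *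
      e (-(m (Sum.inr f) * rep p))), tc, ← hE.integral_comp', Measure.volume_eq_prod,
    ← integral_const_mul]
  refine (integral_prod_symm _
    ((hE.integrable_comp_emb (MeasurableEquiv.measurableEmbedding _)).mpr hi)).trans ?_
  refine integral_congr_ae (Filter.Eventually.of_forall fun q => ?_)
  have h2 := td_tc_add v ξ (fun i => m (Sum.inl i)) fun i => ∑ f, lam f i * rep (q f) ^ 2 / 2
  have h3 : ∑ i, (m (Sum.inl i) : ℝ) * ∑ f, lam f i * rep (q f) ^ 2 / 2 =
      ∑ f, ((∑ i, m (Sum.inl i) * lam f i) * rep (q f) ^ 2 / 2 + 0 * rep (q f)) := by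
    simp only [Finset.mul_sum, zero_mul, add_zero, Finset.sum_mul, Finset.sum_div]
    rw [Finset.sum_comm]
    exact Finset.sum_congr rfl fun f _ => Finset.sum_congr rfl fun i _ => by ring
  rw [h3, td_e_sum] at h2
  simp only [Finset.prod_mul_distrib]
  rw [← mul_assoc, ← h2, ← integral_mul_const]
  refine integral_congr_ae (Filter.Eventually.of_forall fun x => ?_)
  simp only [UnitAddTorus.mFourier, ContinuousMap.coe_mk, Pi.neg_apply, Fintype.prod_sum_type,
    ← td_fourier, mul_assoc]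
  rfl

lemma td_fc_one : fc (fun y => e (0 * y ^ 2 / 2 + 0 * y)) 0 = 1 := by
  simp [fc]

theorem exists_TD_flat_aux {ε X : ℝ} (hε : 0 < ε) (hε1 : ε ≤ 1) (hX : 0 < X) :
    ∃ (T : TD ε X) (c : ℝ), 0 < c ∧ ∀ m ∈ T.S, T.a m = c * m T.i₀ := by
  classical
  have hκ : 0 < ε / 10 := by positivity
  obtain ⟨T⟩ := nonempty_TD hκ hX
  obtain ⟨η, hη, hη4, hη1, hη2⟩ := td_exists_eta hκ (Fintype.card T.S)
  obtain ⟨Λ₀, hΛ₀, hΛ⟩ := chirp_unit hη hη4
  choose ℓ hℓ0 hℓ using fun f : T.S => exists_perp T.i₀ T.S f.1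
    fun n hn hne => T.npar f.1 f.2 n hn hne.symm
  have hbig : ∀ n ∈ T.S, (1 : ℝ) ≤ n T.i₀ := fun n hn => by
    have h1 := T.big n hn
    have h2 : (0 : ℝ) < n T.i₀ := by
      by_contra h3
      nlinarith [mul_nonneg hκ.le (neg_nonneg.2 (not_lt.1 h3))]
    have h3 : 0 < n T.i₀ := by exact_mod_cast h2
    exact_mod_cast h3
  let b : T.S → (T.δ → ℤ) → ℝ := fun f n => ((∑ i, ℓ f i * n i : ℤ) : ℝ)
  let B : T.S → (T.δ → ℤ) → ℝ := fun f n => if f.1 = n then 1 else |b f n|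
  have hb1 : ∀ f, ∀ n ∈ T.S, f.1 ≠ n → 1 ≤ |b f n| := fun f n hn hne => by
    have := Int.one_le_abs (hℓ f n hn hne.symm)
    simp only [b]
    exact_mod_cast this
  have hB1 : ∀ f, ∀ n ∈ T.S, 1 ≤ B f n := fun f n hn => by
    simp only [B]
    split_ifs with h
    exacts [le_rfl, hb1 f n hn h]
  obtain ⟨Λ, hΛp, hΛa⟩ : ∃ Λ : ℝ, 0 < Λ ∧ ∀ n ∈ T.S, Λ₀ * T.a n ≤ Λ := by
    have h0 : 0 ≤ ∑ n ∈ T.S, T.a n := Finset.sum_nonneg fun n hn => (T.a_pos n hn).le
    refine ⟨Λ₀ * (1 + ∑ n ∈ T.S, T.a n), by positivity, fun n hn =>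
      mul_le_mul_of_nonneg_left ?_ hΛ₀.le⟩
    linarith [Finset.single_le_sum (f := T.a) (fun n hn => (T.a_pos n hn).le) hn]
  obtain ⟨A, hA⟩ : ∃ A : T.S → ℝ, ∀ f, A f = Λ * f.1 T.i₀ * (∏ f', B f' f.1) / T.a f.1 :=
    ⟨_, fun _ => rfl⟩
  have hAΛ : ∀ f, Λ₀ ≤ A f := fun f => by
    rw [hA, le_div_iff₀ (T.a_pos _ f.2)]
    refine (hΛa _ f.2).trans ?_
    have h1 : 1 ≤ ∏ f', B f' f.1 := Finset.one_le_prod fun f' _ => hB1 f' _ f.2
    rw [mul_assoc]
    exact le_mul_of_one_le_right hΛp.le (one_le_mul_of_one_le_of_one_le (hbig _ f.2) h1)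
  have hA0 : ∀ f, 0 < A f := fun f => hΛ₀.trans_le (hAΛ f)
  let lam : T.S → T.δ → ℝ := fun f i => ℓ f i * A f
  have hlam : ∀ (f : T.S) (n : T.δ → ℤ), ∑ i, n i * lam f i = b f n * A f := fun f n => by
    simp only [lam, b]
    push_cast
    rw [Finset.sum_mul]
    exact Finset.sum_congr rfl fun i _ => by ring
  have hlarge : ∀ f, ∀ n ∈ T.S, f.1 ≠ n → Λ₀ ≤ |b f n * A f| := fun f n hn hne => by
    rw [abs_mul, abs_of_pos (hA0 f)]
    exact (hAΛ f).trans (le_mul_of_one_le_left (hA0 f).le (hb1 f n hn hne))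
  have hbf : ∀ f : T.S, b f f.1 = 0 := fun f => by simp only [b, hℓ0, Int.cast_zero]
  obtain ⟨w, hw⟩ : ∃ w : (T.δ → ℤ) → T.S → ℤ → ℝ, ∀ n f k,
      w n f k = ‖fc (fun y => e (b f n * A f * y ^ 2 / 2 + 0 * y)) k‖ ^ 2 := ⟨_, fun _ _ _ => rfl⟩
  have hw0 : ∀ n f k, 0 ≤ w n f k := fun n f k => by rw [hw]; positivity
  have hw1 : ∀ f : T.S, w f.1 f 0 = 1 := fun f => by
    rw [hw, hbf, zero_mul, td_fc_one, norm_one, one_pow]
  have htc : ∀ ξ (m : T.δ ⊕ T.S → ℤ), ‖tc (shift T.v lam) ξ m‖ ^ 2 =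
      ‖tc T.v ξ fun i => m (Sum.inl i)‖ ^ 2 * ∏ f, w (fun i => m (Sum.inl i)) f (m (Sum.inr f)) :=
    fun ξ m => by
      rw [tc_shift T.v_meas, norm_mul, mul_pow, norm_prod, ← Finset.prod_pow]
      simp only [hw, ← hlam]
  let J : (T.δ → ℤ) → T.S → Finset ℤ := fun n f =>
    if f.1 = n then {0} else innerSet (b f n * A f) 0 η (1 - η)
  let S' : Finset (T.δ ⊕ T.S → ℤ) :=
    (T.S.sigma fun n => Fintype.piFinset (J n)).image fun x => Sum.elim x.1 x.2
  have hS' : ∀ m ∈ S', (fun i => m (Sum.inl i)) ∈ T.S ∧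
      ∀ f, m (Sum.inr f) ∈ J (fun i => m (Sum.inl i)) f := fun m hm => by
    obtain ⟨x, hx, rfl⟩ := Finset.mem_image.mp hm
    obtain ⟨h1, h2⟩ := Finset.mem_sigma.mp hx
    exact ⟨h1, Fintype.mem_piFinset.mp h2⟩
  have hPA : 0 < ∏ f, A f := Finset.prod_pos fun f _ => hA0 f
  refine ⟨{ δ := T.δ ⊕ T.S, i₀ := Sum.inl T.i₀, v := shift T.v lam, S := S'
            lo := fun m => T.lo fun i => m (Sum.inl i), hi := fun m => T.hi fun i => m (Sum.inl i)
            a := fun m => Λ / (∏ f, A f) * m (Sum.inl T.i₀)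
            v_meas := measurable_shift T.v_meas lam
            v_bd := T.v_bd.imp fun C hC p => hC _
            big := fun m hm => ?_, npar := fun m hm m' hm' hne => ?_, a_pos := fun m hm => ?_
            comp := fun m hm => T.comp _ (hS' m hm).1, bd := fun m hm => T.bd _ (hS' m hm).1
            flat := fun m hm ξ hξ => ?_, mass := fun ξ hg h0 hξX => ?_ },
    Λ / ∏ f, A f, div_pos hΛp hPA, fun m _ => rfl⟩
  · have h1 := T.big _ (hS' m hm).1
    have h2 := hbig _ (hS' m hm).1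
    nlinarith
  · by_cases hn : (fun i => m (Sum.inl i)) = fun i => m' (Sum.inl i)
    · obtain ⟨i, hi⟩ := Function.ne_iff.mp hne
      refine ⟨i, ?_⟩
      have h1 := hbig _ (hS' m hm).1
      have h2 : m (Sum.inl T.i₀) ≠ 0 := fun h => by
        simp only [h, Int.cast_zero] at h1
        linarith
      rw [← congrFun hn T.i₀]
      exact fun h => hi (mul_left_cancel₀ h2 h).symm
    · obtain ⟨i, hi⟩ := T.npar _ (hS' m hm).1 _ (hS' m' hm').1 hn
      exact ⟨Sum.inl i, hi⟩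
  · exact mul_pos (div_pos hΛp hPA) (one_pos.trans_le (hbig _ (hS' m hm).1))
  · obtain ⟨hn, hk⟩ := hS' m hm
    rw [htc]
    have h1 := T.flat _ hn ξ hξ
    change abs (_ - Λ / (∏ f, A f) * ((fun i => m (Sum.inl i)) T.i₀ : ℤ)) ≤
      ε * (Λ / (∏ f, A f) * ((fun i => m (Sum.inl i)) T.i₀ : ℤ))
    generalize (fun i => m (Sum.inl i)) = n at hn hk h1 ⊢
    let g : T.S → ℝ := fun f => if f.1 = n then 1 else |b f n * A f|
    have hg0 : ∀ f, 0 < g f := fun f => by
      simp only [g]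
      split_ifs with h
      exacts [one_pos, hΛ₀.trans_le (hlarge f n hn h)]
    have h2 := td_prod_close Finset.univ (η := η) (fun f => w n f (m (Sum.inr f)) * g f)
      (fun f _ => by
        have h3 := hk f
        simp only [J, g] at h3 ⊢
        split_ifs at h3 ⊢ with h
        · rw [Finset.mem_singleton.mp h3, ← h, hw1, mul_one, sub_self, abs_zero]
          exact hη.le
        · rw [hw]
          exact (hΛ _ 0 (hlarge f n hn h)).1 _ h3)
    rw [Finset.card_univ, Finset.prod_mul_distrib] at h2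
    have h3 := td_flat hε hε1 (T.a_pos n hn) h1 (h2.trans (by linarith))
    have h4 : (∏ f, g f) * A ⟨n, hn⟩ = (∏ f, B f n) * ∏ f, A f := by
      have h5 : A ⟨n, hn⟩ = ∏ f, if f = ⟨n, hn⟩ then A f else 1 := by simp
      rw [h5, ← Finset.prod_mul_distrib, ← Finset.prod_mul_distrib]
      refine Finset.prod_congr rfl fun f _ => ?_
      simp only [g, B, Subtype.ext_iff]
      split_ifs
      · rfl
      · rw [mul_one, abs_mul, abs_of_pos (hA0 f)]
    have hG : 0 < ∏ f, g f := Finset.prod_pos fun f _ => hg0 f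
    have hB : 0 < ∏ f, B f n := Finset.prod_pos fun f _ => one_pos.trans_le (hB1 f n hn)
    have h6 : Λ / (∏ f, A f) * n T.i₀ * ∏ f, g f = T.a n := by
      have h7 := T.a_pos n hn
      rw [hA] at h4
      simp only at h4
      field_simp at h4 ⊢
      linarith
    refine le_of_mul_le_mul_right ?_ hG
    rw [mul_assoc ε, h6, ← abs_of_pos hG, ← abs_mul, sub_mul, h6]
    refine le_trans (le_of_eq ?_) h3
    congr 1
    ring
  · have h1 := T.mass ξ (fun n => le_trans (by linarith) (hg n)) h0 hξX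
    have h2 : ∀ n ∈ T.S, 1 - ε / 10 ≤ ∑ k ∈ Fintype.piFinset (J n), ∏ f, w n f (k f) := by
      intro n hn
      rw [← Finset.prod_univ_sum]
      refine hη2.trans ?_
      rw [← Finset.card_univ, ← Finset.prod_const]
      refine Finset.prod_le_prod (fun _ _ => by linarith) fun f _ => ?_
      simp only [J]
      split_ifs with h
      · rw [Finset.sum_singleton, ← h, hw1]
        linarith
      · simp only [hw]
        exact (hΛ _ 0 (hlarge f n hn h)).2
    have h3 : 1 - ε ≤ ∑ x ∈ ((T.S.filter fun n => ξ ∈ Icc (T.lo n) (T.hi n)).sigma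
        fun n => Fintype.piFinset (J n)), ‖tc (shift T.v lam) ξ (Sum.elim x.1 x.2)‖ ^ 2 := by
      rw [Finset.sum_sigma]
      simp only [htc, Sum.elim_inl, Sum.elim_inr, ← Finset.mul_sum]
      have h4 : (∑ n ∈ T.S with ξ ∈ Icc (T.lo n) (T.hi n), ‖tc T.v ξ n‖ ^ 2) * (1 - ε / 10) ≤
          ∑ n ∈ T.S with ξ ∈ Icc (T.lo n) (T.hi n),
            ‖tc T.v ξ n‖ ^ 2 * ∑ k ∈ Fintype.piFinset (J n), ∏ f, w n f (k f) := by
        rw [Finset.sum_mul]
        exact Finset.sum_le_sum fun n hn =>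
          mul_le_mul_of_nonneg_left (h2 n (Finset.mem_filter.mp hn).1) (by positivity)
      refine le_trans ?_ h4
      have h5 : 1 - ε / 10 ≤ ∑ n ∈ T.S with ξ ∈ Icc (T.lo n) (T.hi n), ‖tc T.v ξ n‖ ^ 2 := by
        convert h1
      nlinarith [mul_le_mul_of_nonneg_right h5 (show 0 ≤ 1 - ε / 10 by linarith)]
    rw [← Finset.sum_image (g := fun x : (Σ _ : T.δ → ℤ, T.S → ℤ) => Sum.elim x.1 x.2)
      (f := fun m => ‖tc (shift T.v lam) ξ m‖ ^ 2) (by
        rintro ⟨n, k⟩ - ⟨n', k'⟩ - h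
        have e1 : n = n' := funext fun i => congrFun h (Sum.inl i)
        have e2 : k = k' := funext fun f => congrFun h (Sum.inr f)
        rw [e1, e2])] at h3
    refine h3.trans (Finset.sum_le_sum_of_subset_of_nonneg (fun m hm => ?_)
      fun _ _ _ => by positivity)
    obtain ⟨x, hx, rfl⟩ := Finset.mem_image.mp hm
    obtain ⟨h4, h5⟩ := Finset.mem_sigma.mp hx
    obtain ⟨h6, h7⟩ := Finset.mem_filter.mp h4
    simp only [Finset.mem_filter]
    exact ⟨Finset.mem_image.mpr ⟨x, Finset.mem_sigma.mpr ⟨h6, h5⟩, rfl⟩, h7⟩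

theorem exists_TD_flat {ε X : ℝ} (hε : 0 < ε) (hX : 0 < X) :
    ∃ (T : TD ε X) (c : ℝ), 0 < c ∧ ∀ m ∈ T.S, T.a m = c * m T.i₀ := by
  obtain ⟨T, c, hc, h⟩ := exists_TD_flat_aux (lt_min hε one_pos) (min_le_right ε 1) hX
  exact ⟨T.mono (lt_min hε one_pos).le (min_le_left _ _), c, hc, h⟩

end Crest.Agent.R81
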