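import Crest.Agent.R81.Ort
import Crest.Agent.R81.One

/-! Row 81: tilings of the circle by arcs and complements of disjoint intervals. -/

set_option autoImplicit false

open MeasureTheory Set Crest.AnalysisR.Torus3
open Crest.Agent.R75 (e)
open scoped ContDiff ComplexConjugate Pointwise

namespace Crest.Agent.R81
/-- Intervals that are pairwise disjoint and injective modulo `1`, of total length `1`, tile the
circle: their union is a fundamental domain for the action of `ℤ` on `ℝ`. -/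
theorem tile {ι : Type} [Fintype ι] (a b : ι → ℝ) (hab : ∀ i, a i ≤ b i)
    (hd : ∀ (i i' : ι) (x x' : ℝ) (n : ℤ), x ∈ Ioo (a i) (b i) → x' ∈ Ioo (a i') (b i') →
      x = x' + n → i = i' ∧ n = 0)
    (htot : ∑ i, (b i - a i) = 1) {φ : ℝ → ℂ} (hφ : BM φ) (hp : Function.Periodic φ 1) :
    ∑ i, ∫ x in a i..b i, φ x = ∫ x in (0 : ℝ)..1, φ x := by
  let G := AddSubgroup.zmultiples (1 : ℝ)
  have : VAddInvariantMeasure G ℝ volume := ⟨fun c s _ => measure_preimage_add _ _ _⟩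
  have hs := isAddFundamentalDomain_Ioc one_pos (0 : ℝ) volume
  rw [zero_add] at hs
  have hdis : Pairwise (Function.onFun Disjoint fun i => Ioo (a i) (b i)) := fun i j h =>
    disjoint_left.2 fun x h1 h2 => h (hd i j x x 0 h1 h2 (by simp)).1
  set U := ⋃ i, Ioo (a i) (b i) with hU'
  have hU : MeasurableSet U := .iUnion fun _ => measurableSet_Ioo
  have hvol : volume U = 1 := by
    rw [measure_iUnion hdis fun _ => measurableSet_Ioo, tsum_fintype]
    simp only [Real.volume_Ioo]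
    rw [← ENNReal.ofReal_sum_of_nonneg fun i _ => sub_nonneg.2 (hab i), htot, ENNReal.ofReal_one]
  have hG : Pairwise (Function.onFun Disjoint fun g : G => g +ᵥ U) := by
    rintro ⟨_, m, rfl⟩ ⟨_, n, rfl⟩ h
    refine disjoint_left.2 ?_
    rintro _ ⟨x, hx, rfl⟩ ⟨y, hy, hxy⟩
    obtain ⟨i, hi⟩ := mem_iUnion.1 hx
    obtain ⟨j, hj⟩ := mem_iUnion.1 hy
    have := (hd i j x y (n - m) hi hj (by
      simp [AddSubgroup.vadd_def] at hxy; push_cast; linarith)).2
    exact h (by simp [sub_eq_zero.1 this])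
  have hm : ∀ g : G, MeasurableSet (g +ᵥ U) := fun g => hU.const_vadd g
  have h1 : volume (Ioc 0 1 ∩ ⋃ g : G, g +ᵥ U) = 1 := by
    rw [inter_comm, iUnion_inter, measure_iUnion (hG.mono fun g g' h => h.mono inter_subset_left
      inter_subset_left) fun g => (hm g).inter measurableSet_Ioc, ← hs.measure_eq_tsum, hvol]
  have h2 : volume (⋃ g : G, g +ᵥ U)ᶜ = 0 := by
    refine hs.measure_zero_of_invariant _ (fun g => ?_) ?_
    · rw [vadd_set_compl, vadd_set_iUnion]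
      simp only [vadd_vadd]
      exact congrArg _ ((Equiv.addLeft g).surjective.iUnion_comp fun g => g +ᵥ U)
    · have := measure_inter_add_sdiff (μ := volume) (Ioc 0 1) (MeasurableSet.iUnion hm)
      rw [h1, Real.volume_Ioc, sub_zero, ENNReal.ofReal_one] at this
      rw [inter_comm, ← Set.sdiff_eq]
      exact (ENNReal.add_right_inj ENNReal.one_ne_top).1 (this.trans (add_zero _).symm)
  have hF : IsAddFundamentalDomain G U volume :=
    ⟨hU.nullMeasurableSet, measure_mono_null (compl_subset_compl.2 <| iUnion_subset fun g x hg =>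
      ⟨-g, mem_vadd_set_iff_neg_vadd_mem.1 hg⟩) h2, hG.mono fun _ _ h => h.aedisjoint⟩
  rw [intervalIntegral.integral_of_le zero_le_one, hs.setIntegral_eq hF hp.map_vadd_zmultiples,
    integral_iUnion_fintype (fun _ => measurableSet_Ioo) hdis fun i =>
      (hφ.intervalIntegrable _ _).1.mono_set Ioo_subset_Ioc_self]
  exact Finset.sum_congr rfl fun i _ => by
    rw [intervalIntegral.integral_of_le (hab i), integral_Ioc_eq_integral_Ioo]

/-- On an affine interval the frequency function is an affine bijection onto an arc. -/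
theorem Term.arc (t : Term) (q : ℕ) {V : ℝ → ℝ} {l r ρ : ℝ} (hA : Aff V l r ρ) (hb : t.b₁ ≠ 0) :
    ∃ a b : ℝ, a < b ∧ b - a = |t.b₁ * ρ| * (r - l) ∧ t.th q V '' Ioo l r = Ioo a b ∧
      InjOn (t.th q V) (Ioo l r) ∧
      (∀ φ : ℝ → ℂ, (|t.b₁ * ρ| : ℝ) * ∫ y in l..r, φ (t.th q V y) = ∫ x in a..b, φ x) ∧
      (∀ a' b', a ≤ a' → a' < b' → b' ≤ b → ∃ l' r', l ≤ l' ∧ l' < r' ∧ r' ≤ r ∧
        b' - a' = |t.b₁ * ρ| * (r' - l') ∧ t.th q V '' Ioo l' r' = Ioo a' b') ∧
      ∃ ψ : ℝ → ℝ, Measurable ψ ∧ ∀ y ∈ Ioo l r, ψ (t.th q V y) = y := by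
  obtain ⟨p₁, -, -, hV⟩ := hA.deriv
  obtain ⟨-, hlr, -, hρ, -⟩ := hA
  have hs : (t.b₁ : ℝ) * ρ ≠ 0 := mul_ne_zero (Int.cast_ne_zero.2 hb) hρ
  have hf : EqOn (t.th q V) (fun y => t.b₁ * ρ * y + (t.b₂ / q + t.b₁ * p₁)) (Ioo l r) :=
    fun y hy => by simp only [Term.th, hV y hy]; ring
  generalize (t.b₁ : ℝ) * ρ = s at *
  generalize (t.b₂ : ℝ) / q + t.b₁ * p₁ = c at *
  generalize t.th q V = f at *
  have hinj : InjOn f (Ioo l r) := fun x hx y hy h => by simpa [hf hx, hf hy, hs] using h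
  have hψ : ∃ ψ : ℝ → ℝ, Measurable ψ ∧ ∀ y ∈ Ioo l r, ψ (f y) = y :=
    ⟨fun x => (x - c) / s, by fun_prop, fun y hy => by simp [hf hy, hs]⟩
  have hint : ∀ φ : ℝ → ℂ, (s : ℂ) * ∫ y in l..r, φ (f y) = ∫ x in s * l + c..s * r + c, φ x :=
    fun φ => by
      rw [← intervalIntegral.smul_integral_comp_mul_add, Complex.real_smul,
        intervalIntegral.integral_congr_Ioo_of_le hlr.le fun y hy => congrArg φ (hf hy)]
  have hc : Continuous fun y => s * y + c := by fun_prop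
  have hg : ∀ x, s * ((x - c) / s) + c = x := fun x => by field_simp; ring
  rcases hs.lt_or_gt with h | h
  · have him : ∀ l' r', l ≤ l' → l' < r' → r' ≤ r →
        f '' Ioo l' r' = Ioo (s * r' + c) (s * l' + c) := fun l' r' h1 h2 h3 => by
      rw [(hf.mono (Ioo_subset_Ioo h1 h3)).image_eq]
      exact hc.continuousOn.image_Ioo_of_strictAntiOn h2.le fun x _ y _ hxy => by nlinarith
    rw [abs_of_neg h]
    refine ⟨_, _, by nlinarith, by ring, him l r le_rfl hlr le_rfl, hinj, fun φ => ?_,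
      fun a' b' h1 h2 h3 => ?_, hψ⟩
    · rw [intervalIntegral.integral_symm (s * l + c), ← hint]; simp
    · have := hg a'; have := hg b'
      have h4 : l ≤ (b' - c) / s := by nlinarith
      have h5 : (b' - c) / s < (a' - c) / s := by nlinarith
      have h6 : (a' - c) / s ≤ r := by nlinarith
      exact ⟨_, _, h4, h5, h6, by linarith, by rw [him _ _ h4 h5 h6, hg, hg]⟩
  · have him : ∀ l' r', l ≤ l' → l' < r' → r' ≤ r →
        f '' Ioo l' r' = Ioo (s * l' + c) (s * r' + c) := fun l' r' h1 h2 h3 => by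
      rw [(hf.mono (Ioo_subset_Ioo h1 h3)).image_eq]
      exact hc.continuousOn.image_Ioo_of_strictMonoOn h2.le fun x _ y _ hxy => by nlinarith
    rw [abs_of_pos h]
    refine ⟨_, _, by nlinarith, by ring, him l r le_rfl hlr le_rfl, hinj, hint,
      fun a' b' h1 h2 h3 => ?_, hψ⟩
    have := hg a'; have := hg b'
    have h4 : l ≤ (a' - c) / s := by nlinarith
    have h5 : (a' - c) / s < (b' - c) / s := by nlinarith
    have h6 : (b' - c) / s ≤ r := by nlinarith
    exact ⟨_, _, h4, h5, h6, by linarith, by rw [him _ _ h4 h5 h6, hg, hg]⟩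

/-- The complement of finitely many disjoint open intervals in `[0,1]`.  Induction on the
family, removing the rightmost interval. -/
theorem exists_gaps {ι : Type} [Fintype ι] (a b : ι → ℝ) (h0 : ∀ i, 0 ≤ a i) (hab : ∀ i, a i < b i)
    (h1 : ∀ i, b i ≤ 1) (hd : Pairwise fun i i' => Disjoint (Ioo (a i) (b i)) (Ioo (a i') (b i'))) :
    ∃ (n : ℕ) (a' b' : Fin n → ℝ), (∀ j, 0 ≤ a' j) ∧ (∀ j, a' j < b' j) ∧ (∀ j, b' j ≤ 1) ∧
      Pairwise (fun j j' => Disjoint (Ioo (a' j) (b' j)) (Ioo (a' j') (b' j'))) ∧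
      (∀ i j, Disjoint (Ioo (a i) (b i)) (Ioo (a' j) (b' j))) ∧
      ∑ i, (b i - a i) + ∑ j, (b' j - a' j) = 1 := by
  classical
  let P : Finset ι → ℝ → Prop := fun s R => ∃ (n : ℕ) (a' b' : Fin n → ℝ), (∀ j, 0 ≤ a' j) ∧
    (∀ j, a' j < b' j) ∧ (∀ j, b' j ≤ R) ∧
    Pairwise (fun j j' => Disjoint (Ioo (a' j) (b' j)) (Ioo (a' j') (b' j'))) ∧
    (∀ i ∈ s, ∀ j, Disjoint (Ioo (a i) (b i)) (Ioo (a' j) (b' j))) ∧
    ∑ i ∈ s, (b i - a i) + ∑ j, (b' j - a' j) = R
  have dis : ∀ {x y z w : ℝ}, y ≤ z → Disjoint (Ioo x y) (Ioo z w) := fun h =>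
    Ioo_disjoint_Ioo.2 ((min_le_left _ _).trans (h.trans (le_max_right _ _)))
  have ext : ∀ s R' R, P s R' → 0 ≤ R' → R' ≤ R → (∀ i ∈ s, b i ≤ R') → P s R := by
    rintro s R' R ⟨n, a', b', g0, g1, g2, g3, g4, g5⟩ k0 k1 k2
    rcases k1.eq_or_lt with rfl | k3
    · exact ⟨n, a', b', g0, g1, g2, g3, g4, g5⟩
    refine ⟨n + 1, Fin.cons R' a', Fin.cons R b', Fin.forall_fin_succ.2 ⟨k0, g0⟩,
      Fin.forall_fin_succ.2 ⟨k3, g1⟩, Fin.forall_fin_succ.2 ⟨le_rfl, fun j => (g2 j).trans k1⟩,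
      pairwise_fin_succ_iff.2 ⟨fun j => dis (g2 j), fun j => (dis (g2 j)).symm, g3⟩,
      fun i hi => Fin.forall_fin_succ.2 ⟨dis (k2 i hi), g4 i hi⟩, ?_⟩
    simp only [Fin.sum_univ_succ, Fin.cons_zero, Fin.cons_succ]
    linarith
  have key : ∀ s : Finset ι, ∀ R, 0 ≤ R → (∀ i ∈ s, b i ≤ R) → P s R := fun s => by
    induction s using Finset.induction_on_max_value a with
    | empty => exact fun R hR _ => ext _ 0 R ⟨0, 0, 0, by simp [Pairwise]⟩ le_rfl hR (by simp)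
    | insert i s hi hs ih =>
      have hb : ∀ j ∈ s, b j ≤ a i := fun j hj => by
        have := Ioo_disjoint_Ioo.1 (hd (ne_of_mem_of_not_mem hj hi))
        rw [max_eq_right (hs j hj), min_le_iff] at this
        exact this.resolve_right (hab i).not_ge
      obtain ⟨n, a', b', g0, g1, g2, g3, g4, g5⟩ := ih _ (h0 i) hb
      refine fun R _ hR => ext _ (b i) R ⟨n, a', b', g0, g1, fun j => (g2 j).trans (hab i).le, g3,
        Finset.forall_mem_insert _ _ _ |>.2 ⟨fun j => (dis (g2 j)).symm, g4⟩, ?_⟩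
        ((h0 i).trans (hab i).le) (hR i (Finset.mem_insert_self _ _))
        (Finset.forall_mem_insert _ _ _ |>.2 ⟨le_rfl, fun j hj => (hb j hj).trans (hab i).le⟩)
      rw [Finset.sum_insert hi]
      linarith
  obtain ⟨n, a', b', g0, g1, g2, g3, g4, g5⟩ := key Finset.univ 1 zero_le_one fun i _ => h1 i
  exact ⟨n, a', b', g0, g1, g2, g3, fun i => g4 i (Finset.mem_univ i), g5⟩

/-- measure of the part of `(l, r)` not covered by disjoint subintervals -/
theorem volume_uncovered {ι : Type*} (s : Finset ι) (a b : ι → ℝ) {l r : ℝ} (hlr : l ≤ r)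
    (h : ∀ i ∈ s, l ≤ a i ∧ a i ≤ b i ∧ b i ≤ r)
    (hd : ∀ i ∈ s, ∀ j ∈ s, i ≠ j → Disjoint (Ioo (a i) (b i)) (Ioo (a j) (b j))) :
    0 ≤ r - l - ∑ i ∈ s, (b i - a i) ∧
      volume (Ioo l r \ ⋃ i ∈ s, Ioo (a i) (b i)) =
        ENNReal.ofReal (r - l - ∑ i ∈ s, (b i - a i)) := by
  have h1 : volume (⋃ i ∈ s, Ioo (a i) (b i)) = ENNReal.ofReal (∑ i ∈ s, (b i - a i)) := by
    rw [measure_biUnion_finset hd fun _ _ => measurableSet_Ioo,
      ENNReal.ofReal_sum_of_nonneg fun i hi => sub_nonneg.2 (h i hi).2.1]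
    simp only [Real.volume_Ioo]
  have h2 : ⋃ i ∈ s, Ioo (a i) (b i) ⊆ Ioo l r :=
    iUnion₂_subset fun i hi => Ioo_subset_Ioo (h i hi).1 (h i hi).2.2
  have h3 := measure_mono (μ := volume) h2
  rw [h1, Real.volume_Ioo, ENNReal.ofReal_le_ofReal_iff (sub_nonneg.2 hlr)] at h3
  refine ⟨sub_nonneg.2 h3, ?_⟩
  rw [measure_sdiff h2 (s.measurableSet_biUnion fun _ _ => measurableSet_Ioo).nullMeasurableSet
    (h1 ▸ ENNReal.ofReal_ne_top), h1, Real.volume_Ioo,
    ← ENNReal.ofReal_sub _ (Finset.sum_nonneg fun i hi => sub_nonneg.2 (h i hi).2.1)]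

end Crest.Agent.R81
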