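import Crest.Agent.R81.Ort
import Crest.Agent.R81.Param
import Crest.Agent.R81.Shear

/-! Row 81: a term composed with the new conjugacy. -/

set_option autoImplicit false

open MeasureTheory Set Crest.AnalysisR.Torus3
open Crest.Agent.R75 (e)
open scoped ContDiff ComplexConjugate

namespace Crest.Agent.R81

namespace Tr

lemma meas_vec {α : Type} [MeasurableSpace α] {f g k : α → ℝ} (hf : Measurable f)
    (hg : Measurable g) (hk : Measurable k) : Measurable fun x => (![f x, g x, k x] : R3) := by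
  refine measurable_pi_lambda _ fun i => ?_
  fin_cases i
  · exact hf
  · exact hg
  · exact hk

lemma SP_meas {f : ℝ → ℝ} (h : SP f) : Measurable f := h.1.continuous.measurable

lemma lip {f : ℝ → ℝ} (h : SP f) : ∃ C, 0 ≤ C ∧ ∀ a b, |f a - f b| ≤ C * |a - b| := by
  obtain ⟨C, hC0, hC⟩ := h.deriv.bound
  refine ⟨C, hC0, fun a b => ?_⟩
  have hd : Differentiable ℝ f := h.1.differentiable (by simp)
  have := (convex_univ (𝕜 := ℝ) (E := ℝ)).norm_image_sub_le_of_norm_deriv_le (f := f) (C := C)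
    (fun x _ => hd x) (fun x _ => hC x) (mem_univ b) (mem_univ a)
  simpa [Real.norm_eq_abs] using this

lemma taylor {V : ℝ → ℝ} (h : SP V) :
    ∃ C, 0 ≤ C ∧ ∀ y s, |V (y + s) - V y - deriv V y * s| ≤ C * s ^ 2 := by
  obtain ⟨C, hC0, hC⟩ := lip h.deriv
  refine ⟨C, hC0, fun y s => ?_⟩
  have hd : Differentiable ℝ V := h.1.differentiable (by simp)
  have hg : ∀ u, HasDerivAt (fun u => V (y + u) - deriv V y * u) (deriv V (y + u) - deriv V y) u := by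
    intro u
    have h1 : HasDerivAt (fun u => V (y + u)) (deriv V (y + u)) u :=
      (hd (y + u)).hasDerivAt.comp_const_add y u
    have h2 : HasDerivAt (fun u => deriv V y * u) (deriv V y) u := by
      simpa using (hasDerivAt_id u).const_mul (deriv V y)
    exact h1.sub h2
  have := (convex_uIcc (0 : ℝ) s).norm_image_sub_le_of_norm_hasDerivWithin_le
    (f := fun u => V (y + u) - deriv V y * u) (C := C * |s|)
    (fun u _ => (hg u).hasDerivWithinAt) (fun u hu => by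
      rw [Real.norm_eq_abs]
      refine (hC _ _).trans (mul_le_mul_of_nonneg_left ?_ hC0)
      rw [add_sub_cancel_left]
      have := abs_sub_left_of_mem_uIcc hu
      simpa using this) left_mem_uIcc right_mem_uIcc
  simp only [add_zero, mul_zero, sub_zero, Real.norm_eq_abs] at this
  calc |V (y + s) - V y - deriv V y * s| = |V (y + s) - deriv V y * s - V y| := by ring_nf
    _ ≤ C * |s| * |s| := this
    _ = C * s ^ 2 := by rw [mul_assoc, abs_mul_abs_self]; ring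

lemma norm_amp_le (t : Term) (y : ℝ) : ‖t.amp y‖ ≤ ‖t.d‖ := by
  unfold Term.amp
  rw [norm_mul]
  refine mul_le_of_le_one_right (norm_nonneg _) ?_
  by_cases h : y ∈ Ioo t.l t.r
  · simp [h]
  · simp [h]

end Tr

open Tr

theorem Des.measurable_K0 {q : ℕ} {ε X : ℝ} (D : Des q ε X) {V : ℝ → ℝ} (hV : SP V) (c : ℕ) :
    Measurable (D.K0 V c) := by
  have hV' := SP_meas hV
  have hU := SP_meas D.U_sp
  have hσ := SP_meas D.σ_sp
  have hΦ := SP_meas D.Φ_sp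
  have hΩ := SP_meas D.Ω_sp.deriv
  have hB : Measurable (mB ((q : ℝ) * c) V) := by
    unfold mB; apply meas_vec <;> fun_prop
  have hD : Measurable (mD D.G') := by
    unfold mD; apply meas_vec <;> fun_prop
  have hA : Measurable (mA q D.G' D.U D.σ (1 / ((q : ℝ) * c))) := by
    unfold mA U3; apply meas_vec <;> fun_prop
  have hC : Measurable (mC q D.Φ D.Ω) := by
    unfold mC; apply meas_vec <;> fun_prop
  exact hB.comp (hD.comp (hA.comp hC))

theorem Des.bm_mod {q : ℕ} {ε X : ℝ} (D : Des q ε X) {V : ℝ → ℝ} (hV : SP V) (c : ℕ) (t : Term) :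
    BM (D.mod V c t) := by
  have hV' := SP_meas hV
  have hV'' := SP_meas hV.deriv
  have hU := SP_meas D.U_sp
  have hΩ := SP_meas D.Ω_sp.deriv
  unfold Des.mod
  refine BM.mul (t.bm_amp.comp (measurable_pi_apply 1)) (BM.exp ?_)
  unfold Term.th
  fun_prop

/-- the set of `z₀` with `z₂ + q (z₀ - s) ∈ bad` has measure `≤ ε` (`integral_periodic_scale`) -/
theorem KL.integral_bad {ε X : ℝ} (D : KL ε X) (hε : 0 ≤ ε) {q : ℕ} (hq : 0 < q) (s : ℝ) :
    ∫ z in (0 : ℝ)..1, D.bad.indicator (fun _ => (1 : ℝ)) (q * z + s) ≤ ε := by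
  have hp : Function.Periodic (D.bad.indicator (fun _ => (1 : ℝ))) 1 := by
    intro β
    have := D.bad_per β 1
    simp only [Int.cast_one] at this
    by_cases h : β ∈ D.bad
    · simp [h, this.2 h]
    · simp [h, mt this.1 h]
  have hi : ∀ a b, IntervalIntegrable (D.bad.indicator (fun _ => (1 : ℝ))) volume a b := by
    intro a b
    constructor
    · exact (intervalIntegrable_const (c := (1 : ℝ)) (a := a) (b := b)).1.indicator D.bad_meas
    · exact (intervalIntegrable_const (c := (1 : ℝ)) (a := a) (b := b)).2.indicator D.bad_meas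
  rw [integral_periodic_scale hp hi hq s, intervalIntegral.integral_of_le zero_le_one,
    integral_indicator D.bad_meas, Measure.restrict_restrict D.bad_meas]
  simp only [integral_const, MeasurableSet.univ, measureReal_restrict_apply, univ_inter,
    smul_eq_mul, mul_one]
  exact ENNReal.toReal_le_of_le_ofReal hε D.bad_vol

namespace Tr

/-- a slice bound from a bound off the bad set and a global bound -/
lemma slice_le {ε X : ℝ} (D : KL ε X) (hε : 0 ≤ ε) {q : ℕ} (hq : 0 < q) (s : ℝ) {ψ : ℝ → ℂ}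
    (hψ : BM ψ) {a b : ℝ} (ha : ∀ z, q * z + s ∉ D.bad → ‖ψ z‖ ≤ a) (hb : ∀ z, ‖ψ z‖ ≤ b) :
    ∫ z in (0 : ℝ)..1, ‖ψ z‖ ^ 2 ≤ a ^ 2 + b ^ 2 * ε := by
  have hm : MeasurableSet ((fun z : ℝ => q * z + s) ⁻¹' D.bad) :=
    D.bad_meas.preimage (by fun_prop)
  have hi : IntervalIntegrable (fun z : ℝ => D.bad.indicator (fun _ => (1 : ℝ)) (q * z + s))
      volume 0 1 := by
    constructor
    · exact (intervalIntegrable_const (c := (1 : ℝ)) (a := 0) (b := 1)).1.indicator hm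
    · exact (intervalIntegrable_const (c := (1 : ℝ)) (a := 0) (b := 1)).2.indicator hm
  calc ∫ z in (0 : ℝ)..1, ‖ψ z‖ ^ 2
      ≤ ∫ z in (0 : ℝ)..1, (a ^ 2 + b ^ 2 * D.bad.indicator (fun _ => (1 : ℝ)) (q * z + s)) := by
        refine intervalIntegral.integral_mono_on zero_le_one (hψ.intervalIntegrable_sq 0 1)
          (intervalIntegrable_const.add (hi.const_mul _)) fun z _ => ?_
        by_cases h : q * z + s ∈ D.bad
        · simp only [h, indicator_of_mem, mul_one]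
          have := pow_le_pow_left₀ (norm_nonneg _) (hb z) 2
          nlinarith [sq_nonneg a]
        · simp only [h, not_false_eq_true, indicator_of_notMem, mul_zero, add_zero]
          exact pow_le_pow_left₀ (norm_nonneg _) (ha z h) 2
    _ = a ^ 2 + b ^ 2 * ∫ z in (0 : ℝ)..1, D.bad.indicator (fun _ => (1 : ℝ)) (q * z + s) := by
        rw [intervalIntegral.integral_add intervalIntegrable_const (hi.const_mul _),
          intervalIntegral.integral_const_mul]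
        simp
    _ ≤ a ^ 2 + b ^ 2 * ε := by
        have := D.integral_bad hε hq s
        gcongr

lemma slice_le' {ψ : ℝ → ℂ} (hψ : BM ψ) {b : ℝ} (hb : ∀ z, ‖ψ z‖ ≤ b) :
    ∫ z in (0 : ℝ)..1, ‖ψ z‖ ^ 2 ≤ b ^ 2 := by
  calc ∫ z in (0 : ℝ)..1, ‖ψ z‖ ^ 2 ≤ ∫ z in (0 : ℝ)..1, b ^ 2 :=
        intervalIntegral.integral_mono_on zero_le_one (hψ.intervalIntegrable_sq 0 1)
          intervalIntegrable_const fun z _ => pow_le_pow_left₀ (norm_nonneg _) (hb z) 2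
    _ = b ^ 2 := by simp

lemma bm_slice {φ : R3 → ℂ} (h : BM φ) (z₁ z₂ : ℝ) : BM fun z₀ : ℝ => φ ![z₀, z₁, z₂] :=
  h.comp (meas_vec measurable_id measurable_const measurable_const)

lemma norm_fn_le (t : Term) (x : R3) : ‖t.fn x‖ ≤ ‖t.d‖ := by
  unfold Term.fn md
  rw [norm_mul, Crest.Agent.R75.norm_e, mul_one]
  exact norm_amp_le t _

lemma norm_mod_le {q : ℕ} {ε X : ℝ} (D : Des q ε X) (V : ℝ → ℝ) (c : ℕ) (t : Term) (z : R3) :
    ‖D.mod V c t z‖ ≤ ‖t.d‖ := by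
  unfold Des.mod
  rw [norm_mul, Crest.Agent.R75.norm_e, mul_one]
  exact norm_amp_le t _

lemma abs_div_le {σ ε A : ℝ} (hσ : |σ| ≤ 2) (hA : 0 < A) (h : 1 ≤ ε * A) : |σ / A| ≤ 2 * ε := by
  rw [abs_div, abs_of_pos hA, div_le_iff₀ hA]
  linarith

lemma abs_four {a b c d a' b' c' d' s : ℝ} (ha : |a| ≤ a') (hb : |b| ≤ b') (hc : |c| ≤ c')
    (hd : |d| ≤ d') (hs : a' + b' + c' + d' = s) : |a + b - c + d| ≤ s := by
  have := abs_le.1 ha
  have := abs_le.1 hb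
  have := abs_le.1 hc
  have := abs_le.1 hd
  rw [abs_le]
  constructor <;> linarith

/-- the pointwise comparison -/
lemma pointwise {q : ℕ} (hq : 0 < q) {V : ℝ → ℝ} (t : Term) {ε X : ℝ} (hε : 0 < ε)
    (D : Des q ε X) {c : ℕ} (hc : 0 < c) {C₂ : ℝ}
    (hC₂ : ∀ y s, |V (y + s) - V y - deriv V y * s| ≤ C₂ * s ^ 2)
    (hs : ∀ β, |D.U β| ≤ ε * (q * c)) (hs₂ : ∀ β, C₂ * D.U β ^ 2 ≤ ε * (q * c))
    (z₀ z₁ z₂ : ℝ) (h₁ : 2 * ε < z₁) (h₂ : z₁ < 1 - 2 * ε) (hl : ε < |z₁ - t.l|)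
    (hr : ε < |z₁ - t.r|) (hβ : q * z₀ + (z₂ - z₁ * deriv D.Ω z₂) ∉ D.bad) :
    ‖t.fn (D.K0 V c ![z₀, z₁, z₂]) - D.mod V c t ![z₀, z₁, z₂]‖ ≤
      ‖t.d‖ * (2 * Real.pi * (ε * (|t.μ| + 3 * |(t.b₁ : ℝ)| + 2 * |(t.b₂ : ℝ)|))) := by
  have hq' : (0 : ℝ) < q := by exact_mod_cast hq
  have hq1 : (1 : ℝ) ≤ q := by exact_mod_cast hq
  have hc' : (0 : ℝ) < c := by exact_mod_cast hc
  have hh : (0 : ℝ) < q * c := mul_pos hq' hc'
  have hG : (0 : ℝ) < D.G' := by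
    have := D.G_big
    by_contra hn
    have : (D.G' : ℝ) = 0 := le_antisymm (not_lt.1 hn) (Nat.cast_nonneg _)
    simp_all
    linarith
  have hΦ : D.Φ z₁ = -z₁ := D.Φ_eq z₁ ⟨by linarith [D.κ₁_le], by linarith [D.κ₁_le]⟩
  set om := deriv D.Ω z₂ with hom
  set β : ℝ := q * z₀ + (z₂ - z₁ * om) with hβdef
  have hβ1 : z₂ + q * (z₀ + -z₁ * om / q) = β := by rw [hβdef]; field_simp; ring
  have hβ2 : z₂ + q * (z₀ - z₁ * om / q) = β := by rw [hβdef]; field_simp; ring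
  obtain ⟨n₁, hn₁⟩ := D.int_U β hβ
  obtain ⟨n₂, hn₂⟩ := D.int_σ β hβ
  set U := D.U β with hU
  set σ := D.σ β with hσ
  have hσb : |σ| ≤ 2 := D.σ_bd β
  set s : ℝ := 1 / (q * c) * U with hsdef
  have hsb : |s| ≤ ε := by
    rw [hsdef, abs_mul, abs_of_pos (one_div_pos.2 hh), one_div_mul_eq_div, div_le_iff₀ hh]
    exact hs β
  have hsb' := abs_le.1 hsb
  have hfr : Int.fract (z₁ + s) = z₁ + s :=
    Int.fract_eq_self.2 ⟨by linarith, by linarith⟩
  have hiff : z₁ + s ∈ Ioo t.l t.r ↔ z₁ ∈ Ioo t.l t.r := by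
    simp only [mem_Ioo]
    rcases lt_abs.1 hl with h | h <;> rcases lt_abs.1 hr with h' | h' <;> constructor <;>
      rintro ⟨a, b⟩ <;> constructor <;> linarith
  have e1 : t.fn (D.K0 V c ![z₀, z₁, z₂]) = t.amp (z₁ + s) *
      e (t.b₁ * (z₂ - (U + (1 + 1 / (q * D.G')) * σ) + q * c * V (z₁ + s)) +
        t.b₂ * (z₀ + -z₁ * om / q + (U + (1 + 1 / (q * D.G')) * σ) / q +
          D.G' * (z₂ - (U + (1 + 1 / (q * D.G')) * σ)))) := by
    simp only [Term.fn, md, Des.K0, mB, mD, mA, mC, U3, Matrix.cons_val_zero, Matrix.cons_val_one,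
      Matrix.cons_val_two, Matrix.head_cons, Matrix.tail_cons, hΦ, ← hom, hβ1, ← hU, ← hσ, ← hsdef,
      hfr]
  have e2 : D.mod V c t ![z₀, z₁, z₂] = t.amp z₁ *
      e (q * c * (t.b₁ * V z₁) + (t.b₂ / q + t.b₁ * deriv V z₁) * U +
        (t.b₁ + t.b₂ * D.G') * z₂ + t.b₂ * (z₀ - z₁ * om / q)) := by
    simp only [Des.mod, Term.th, Matrix.cons_val_zero, Matrix.cons_val_one,
      Matrix.cons_val_two, Matrix.head_cons, Matrix.tail_cons, ← hom, hβ2, ← hU]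
  rw [e1, e2]
  have hK : 0 ≤ 2 * Real.pi * (ε * (|t.μ| + 3 * |(t.b₁ : ℝ)| + 2 * |(t.b₂ : ℝ)|)) := by positivity
  by_cases hz : z₁ ∈ Ioo t.l t.r
  swap
  · have hz' := mt hiff.1 hz
    simp only [Term.amp, indicator_of_notMem hz, indicator_of_notMem hz', mul_zero, zero_mul,
      sub_zero, norm_zero]
    positivity
  have hz' := hiff.2 hz
  simp only [Term.amp, indicator_of_mem hz, indicator_of_mem hz', mul_assoc t.d, ← mul_sub,
    norm_mul, ← Crest.Agent.R75.e_add]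
  refine mul_le_mul_of_nonneg_left ?_ (norm_nonneg _)
  rw [← Crest.Agent.R75.e_add_int _ ((t.b₁ + t.b₂ * D.G') * (n₁ + n₂))]
  refine (Crest.Agent.R75.norm_e_sub_e_le _ _).trans ?_
  refine mul_le_mul_of_nonneg_left ?_ (by positivity)
  have hUσ : U + σ = n₁ + n₂ := by linarith
  have key : t.μ * (z₁ + s) + (t.b₁ * (z₂ - (U + (1 + 1 / (q * D.G')) * σ) + q * c * V (z₁ + s)) +
        t.b₂ * (z₀ + -z₁ * om / q + (U + (1 + 1 / (q * D.G')) * σ) / q +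
          D.G' * (z₂ - (U + (1 + 1 / (q * D.G')) * σ)))) +
        (((t.b₁ + t.b₂ * D.G') * (n₁ + n₂) : ℤ) : ℝ) -
      (t.μ * z₁ + (q * c * (t.b₁ * V z₁) + (t.b₂ / q + t.b₁ * deriv V z₁) * U +
        (t.b₁ + t.b₂ * D.G') * z₂ + t.b₂ * (z₀ - z₁ * om / q))) =
      t.μ * s + t.b₁ * (q * c * (V (z₁ + s) - V z₁ - deriv V z₁ * s)) -
        t.b₁ * (σ / (q * D.G')) + t.b₂ * (σ / (q * (q * D.G'))) := by
    push_cast
    rw [← hUσ, hsdef]
    field_simp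
    ring
  rw [key]
  have b1 : |t.μ * s| ≤ |t.μ| * ε := by rw [abs_mul]; gcongr
  have b2 : |q * c * (V (z₁ + s) - V z₁ - deriv V z₁ * s)| ≤ ε := by
    rw [abs_mul, abs_of_pos hh]
    calc q * c * |V (z₁ + s) - V z₁ - deriv V z₁ * s| ≤ q * c * (C₂ * s ^ 2) := by
          gcongr; exact hC₂ _ _
      _ = C₂ * U ^ 2 / (q * c) := by rw [hsdef]; field_simp
      _ ≤ ε := by rw [div_le_iff₀ hh]; exact hs₂ β
  have hGe := D.G_big
  have hq2 : 1 ≤ ε * (q * D.G') := by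
    calc (1 : ℝ) ≤ ε * D.G' := hGe
      _ ≤ q * (ε * D.G') := le_mul_of_one_le_left (by positivity) hq1
      _ = ε * (q * D.G') := by ring
  have hq3 : 1 ≤ ε * (q * (q * D.G')) := by
    calc (1 : ℝ) ≤ ε * (q * D.G') := hq2
      _ ≤ q * (ε * (q * D.G')) := le_mul_of_one_le_left (by positivity) hq1
      _ = ε * (q * (q * D.G')) := by ring
  have b3 : |σ / (q * D.G')| ≤ 2 * ε := abs_div_le hσb (mul_pos hq' hG) hq2
  have b4 : |σ / (q * (q * D.G'))| ≤ 2 * ε := abs_div_le hσb (mul_pos hq' (mul_pos hq' hG)) hq3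
  have c2 : |t.b₁ * (q * c * (V (z₁ + s) - V z₁ - deriv V z₁ * s))| ≤ |(t.b₁ : ℝ)| * ε := by
    rw [abs_mul]; gcongr
  have c3 : |t.b₁ * (σ / (q * D.G'))| ≤ |(t.b₁ : ℝ)| * (2 * ε) := by rw [abs_mul]; gcongr
  have c4 : |t.b₂ * (σ / (q * (q * D.G')))| ≤ |(t.b₂ : ℝ)| * (2 * ε) := by rw [abs_mul]; gcongr
  exact abs_four b1 c2 c3 c4 (by ring)

lemma exists_c₀ {q : ℕ} (hq : 0 < q) {ε : ℝ} (hε : 0 < ε) (A : ℝ) :
    ∃ c₀ : ℕ, 0 < c₀ ∧ ∀ c : ℕ, c₀ ≤ c → A ≤ ε * (q * c) := by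
  obtain ⟨n, hn⟩ := exists_nat_ge (A / ε)
  refine ⟨n + 1, n.succ_pos, fun c hc => ?_⟩
  have hq1 : (1 : ℝ) ≤ q := by exact_mod_cast hq
  have hc' : (n : ℝ) + 1 ≤ c := by exact_mod_cast hc
  have h1 : A ≤ ε * n := by rwa [div_le_iff₀' hε] at hn
  have h2 : (c : ℝ) ≤ q * c := le_mul_of_one_le_left (Nat.cast_nonneg _) hq1
  calc A ≤ ε * n := h1
    _ ≤ ε * (q * c) := by gcongr; linarith

lemma sqrt_le_of {K ε η : ℝ} (hK : 0 ≤ K) (hη : 0 < η) (hε : ε ≤ η ^ 2 / (K + 1)) {x : ℝ}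
    (hx : x ≤ K * ε) (hε0 : 0 ≤ ε) : √x ≤ η := by
  rw [Real.sqrt_le_left hη.le]
  rw [le_div_iff₀ (by linarith)] at hε
  nlinarith

end Tr

/-- Pointwise comparison.  Let `h = q c`, `G = q G'`, `z 1 ∈ [κ₁, 1 - κ₁]`, so `Φ (z 1) = -z 1` and
`mC` sends `z 0` to `z♭ = z 0 - z 1 ω(z 2)/q`; `β = z 2 + q z♭ ∉ bad`, so `U β + σ β ∈ ℤ`.  The phase
of `t.fn (K0 z)` is `μ (z 1 + U/h) + (b₁ + b₂ G') (z 2 - U₃) + b₂ (z♭ + U₃/q) + h b₁ V (z 1 + U/h)`,
and `-(b₁ + b₂ G') U₃ + b₂ U₃/q = b₂ U/q - b₁ σ/G + b₂ σ/(q G) - (b₁ + b₂ G')(U + σ)`,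
`|h V (z 1 + U/h) - h V (z 1) - V' (z 1) U| ≤ C/h`.  The indicators agree unless `z 1` is within
`sup |U| / h` of `l` or `r`, and `fract (z 1 + U/h) = z 1 + U/h` for large `h`.  Then
`n2_le_of_slices` with `E₂ = ∅`. -/
theorem transfer {q : ℕ} (hq : 0 < q) {V : ℝ → ℝ} (hV : SP V) (t : Term) {η : ℝ} (hη : 0 < η) :
    ∃ ε₀ > 0, ∀ ε X : ℝ, 0 < ε → ε ≤ ε₀ → ∀ D : Des q ε X, ∃ c₀ : ℕ, ∀ c : ℕ, c₀ ≤ c →
      n2 (fun z => t.fn (D.K0 V c z) - D.mod V c t z) ≤ η := by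
  obtain ⟨C₂, hC₂0, hC₂⟩ := taylor hV
  set K : ℝ := ‖t.d‖ * (2 * Real.pi * (|t.μ| + 3 * |(t.b₁ : ℝ)| + 2 * |(t.b₂ : ℝ)|)) with hK
  have hK0 : 0 ≤ K := by positivity
  set B : ℝ := (2 * ‖t.d‖) ^ 2 with hB
  have hB0 : 0 ≤ B := by positivity
  refine ⟨min 1 (η ^ 2 / (K ^ 2 + 9 * B + 1)), by positivity, fun ε X hε hε₀ D => ?_⟩
  have hε1 : ε ≤ 1 := hε₀.trans (min_le_left _ _)
  have hε2 : ε ≤ η ^ 2 / (K ^ 2 + 9 * B + 1) := hε₀.trans (min_le_right _ _)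
  obtain ⟨CU, hCU0, hCU⟩ := D.U_sp.bound
  obtain ⟨c₀, hc₀, hc⟩ := exists_c₀ hq hε (CU + C₂ * CU ^ 2)
  refine ⟨c₀, fun c hcc => ?_⟩
  have hc' := hc c hcc
  have hs : ∀ β, |D.U β| ≤ ε * (q * c) := fun β =>
    (hCU β).trans ((le_add_of_nonneg_right (by positivity)).trans hc')
  have hs₂ : ∀ β, C₂ * D.U β ^ 2 ≤ ε * (q * c) := fun β => by
    refine le_trans ?_ ((le_add_of_nonneg_left hCU0).trans hc')
    refine mul_le_mul_of_nonneg_left ?_ hC₂0
    rw [← sq_abs]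
    exact pow_le_pow_left₀ (abs_nonneg _) (hCU β) 2
  have hbm : BM fun z => t.fn (D.K0 V c z) - D.mod V c t z :=
    (t.bm_fn.comp (D.measurable_K0 hV c)).sub (D.bm_mod hV c t)
  have hall : ∀ z, ‖t.fn (D.K0 V c z) - D.mod V c t z‖ ≤ 2 * ‖t.d‖ := fun z =>
    (norm_sub_le _ _).trans (by linarith [norm_fn_le t (D.K0 V c z), norm_mod_le D V c t z])
  set E₁ : Set ℝ := Icc 0 (2 * ε) ∪ Icc (1 - 2 * ε) 1 ∪ Icc (t.l - ε) (t.l + ε) ∪
    Icc (t.r - ε) (t.r + ε) with hE₁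
  have hE₁m : MeasurableSet E₁ :=
    ((measurableSet_Icc.union measurableSet_Icc).union measurableSet_Icc).union measurableSet_Icc
  have hE₁v : volume (E₁ ∩ Ioc 0 1) ≤ ENNReal.ofReal (8 * ε) := by
    refine (measure_mono inter_subset_left).trans ?_
    refine (measure_union_le _ _).trans ?_
    refine (add_le_add_left (measure_union_le _ _) _).trans ?_
    refine (add_le_add_left (add_le_add_left (measure_union_le _ _) _) _).trans ?_
    simp only [Real.volume_Icc]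
    rw [← ENNReal.ofReal_add (by linarith) (by linarith),
      ← ENNReal.ofReal_add (by linarith) (by linarith),
      ← ENNReal.ofReal_add (by linarith) (by linarith)]
    exact ENNReal.ofReal_le_ofReal (by linarith)
  have hA0 : 0 ≤ (K * ε) ^ 2 + B * ε := by positivity
  have main := n2_le_of_slices hbm (A := (K * ε) ^ 2 + B * ε) (B := B) (a₁ := 8 * ε) (a₂ := 0)
    hA0 hB0 hE₁m MeasurableSet.empty (by positivity) le_rfl hE₁v (by simp)
    (fun z₁ _ z₂ _ => (slice_le' (bm_slice hbm z₁ z₂) fun z => hall _).trans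
      (le_add_of_nonneg_left hA0))
    (fun z₁ hz₁ z₂ _ hE _ => by
      refine slice_le D.toKL hε.le hq (z₂ - z₁ * deriv D.Ω z₂) (bm_slice hbm z₁ z₂)
        (fun z₀ hβ => ?_) (fun z => hall _)
      simp only [hE₁, mem_union, mem_Icc, not_or, not_and, not_le] at hE
      obtain ⟨⟨⟨g1, g2⟩, g3⟩, g4⟩ := hE
      have g1' := g1 hz₁.1.le
      have g2' : z₁ < 1 - 2 * ε := by
        by_contra hn
        exact absurd (g2 (not_lt.1 hn)) (not_lt.2 hz₁.2.le)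
      have g3' : ε < |z₁ - t.l| := by
        rw [lt_abs]
        by_cases h : t.l - ε ≤ z₁
        · left; linarith [g3 h]
        · right; linarith [not_le.1 h]
      have g4' : ε < |z₁ - t.r| := by
        rw [lt_abs]
        by_cases h : t.r - ε ≤ z₁
        · left; linarith [g4 h]
        · right; linarith [not_le.1 h]
      refine (pointwise hq t hε D (hc₀.trans_le hcc) hC₂ hs hs₂ z₀ z₁ z₂ g1' g2' g3' g4' hβ).trans
        (le_of_eq ?_)
      rw [hK]; ring)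
  refine main.trans (sqrt_le_of (K := K ^ 2 + 9 * B) (by positivity) hη hε2 ?_ hε.le)
  have : K ^ 2 * ε * ε ≤ K ^ 2 * ε := mul_le_of_le_one_right (by positivity) hε1
  nlinarith

/-- Invariant exponentials: apply `transfer` to `t = ⟨1, μ, -1, 2, 0, j q⟩`; off the bad set
`e (j U β) = e (-j β)`, so `mod = e (μ z 1 + j (q G' - 1) z 2)` for `z 1 ∈ (0,1)`.  Write
`K = K0 * L` (`exists_K`); `koop L` fixes the right-hand exponential (`eL_eq_md`, `md_mL`). -/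
theorem transfer_inv {q : ℕ} (hq : 0 < q) {V : ℝ → ℝ} (hV : SP V) (μ j : ℤ) {η : ℝ} (hη : 0 < η) :
    ∃ ε₀ > 0, ∀ ε X : ℝ, 0 < ε → ε ≤ ε₀ → ∀ D : Des q ε X, ∃ c₀ : ℕ, ∀ c : ℕ, c₀ ≤ c →
      ∀ K : SD, (∀ x, K.1 x = D.K V c x) →
        ‖koop K (eL ![0, j * q, μ]) - eL ![0, μ, j * (q * D.G' - 1)]‖ ≤ η := by
  set t : Term := ⟨1, μ, -1, 2, 0, j * q⟩ with ht
  obtain ⟨ε₀, hε₀, h⟩ := transfer hq hV t (half_pos hη)
  refine ⟨min ε₀ ((η / 2) ^ 2 / (4 + 1)), by positivity, fun ε X hε hε₀ D => ?_⟩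
  obtain ⟨c₀, hc₀⟩ := h ε X hε (hε₀.trans (min_le_left _ _)) D
  have hε2 : ε ≤ (η / 2) ^ 2 / (4 + 1) := hε₀.trans (min_le_right _ _)
  refine ⟨c₀, fun c hc K hK => ?_⟩
  have h1 := hc₀ c hc
  obtain ⟨K0, L, hK0, hL, hKL⟩ := exists_K hq D hV c
  have hKe : K = K0 * L := Subtype.ext (Equiv.ext fun x => (hK x).trans (hKL x).symm)
  have hq' : (0 : ℝ) < q := by exact_mod_cast hq
  set a : ℝ → ℂ := fun y => e (((j * (q * D.G' - 1) : ℤ) : ℝ) * y) with ha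
  have hab : BM a := BM.exp (by fun_prop)
  have hE : eL ![0, μ, j * (q * D.G' - 1)] = toL2 (md a 0 μ) := by
    rw [eL_eq_md]; rfl
  have hE' : eL ![0, j * q, μ] = toL2 t.fn := by
    rw [eL_eq_md]
    congr 1
    funext x
    have : Int.fract (x 2) ∈ Ioo (-1 : ℝ) 2 :=
      ⟨by linarith [Int.fract_nonneg (x 2)], by linarith [Int.fract_lt_one (x 2)]⟩
    simp [ht, Term.fn, md, Term.amp, this]
  have hLE : koop L (toL2 (md a 0 μ)) = toL2 (md a 0 μ) := by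
    rw [koop_toL2 L (hab.md _ _) (per_md _ _ _)]
    congr 1
    funext x
    rw [hL, md_mL]
    simp
  rw [hE, hE', hKe, koop_mul, ← hLE, ← map_sub, LinearIsometry.norm_map,
    koop_toL2 K0 t.bm_fn t.per_fn]
  simp only [hK0]
  have hb1 : BM fun z => t.fn (D.K0 V c z) := t.bm_fn.comp (D.measurable_K0 hV c)
  rw [← n2_sub_eq hb1 (hab.md _ _)]
  refine (n2_triangle hb1 (D.bm_mod hV c t) (hab.md _ _)).trans ?_
  have hbm : BM fun z => D.mod V c t z - md a 0 μ z := (D.bm_mod hV c t).sub (hab.md _ _)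
  have hall : ∀ z, ‖D.mod V c t z - md a 0 μ z‖ ≤ 2 := fun z => by
    refine (norm_sub_le _ _).trans ?_
    have h2 := norm_mod_le D V c t z
    have h3 : ‖md a 0 μ z‖ = 1 := by simp [md, ha]
    have h4 : ‖t.d‖ = 1 := by simp [ht]
    linarith
  have hgood : ∀ z₁ ∈ Ioo (0 : ℝ) 1, ∀ z₂ ∈ Ioo (0 : ℝ) 1,
      ∫ z₀ in (0 : ℝ)..1, ‖D.mod V c t ![z₀, z₁, z₂] - md a 0 μ ![z₀, z₁, z₂]‖ ^ 2 ≤
        0 ^ 2 + 2 ^ 2 * ε := by
    intro z₁ hz₁ z₂ hz₂
    refine slice_le D.toKL hε.le hq (z₂ - z₁ * deriv D.Ω z₂) (bm_slice hbm z₁ z₂)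
        (fun z₀ hβ => ?_) (fun z => hall _)
    obtain ⟨n, hn⟩ := D.int_U _ hβ
    have hβ2 : z₂ + q * (z₀ - z₁ * deriv D.Ω z₂ / q) = q * z₀ + (z₂ - z₁ * deriv D.Ω z₂) := by
      field_simp; ring
    have hz : z₁ ∈ Ioo (-1 : ℝ) 2 := ⟨by linarith [hz₁.1], by linarith [hz₁.2]⟩
    have hfr : Int.fract z₂ = z₂ := Int.fract_eq_self.2 ⟨hz₂.1.le, hz₂.2⟩
    rw [norm_le_zero_iff, sub_eq_zero]
    simp only [Des.mod, Term.th, Term.amp, md, ht, ha, Matrix.cons_val_zero, Matrix.cons_val_one,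
      Matrix.cons_val_two, Matrix.head_cons, Matrix.tail_cons, hβ2, hfr, indicator_of_mem hz,
      one_mul, ← Crest.Agent.R75.e_add]
    refine Crest.Agent.R75.e_eq_of_sub_int (j * n) ?_
    push_cast
    rw [← hn]
    field_simp
    ring
  have main := n2_le_of_slices hbm (A := 0 ^ 2 + 2 ^ 2 * ε) (B := 0) (a₁ := 0) (a₂ := 0)
    (by positivity) le_rfl MeasurableSet.empty MeasurableSet.empty le_rfl le_rfl (by simp) (by simp)
    (fun z₁ h₁ z₂ h₂ => (hgood z₁ h₁ z₂ h₂).trans (by simp))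
    (fun z₁ h₁ z₂ h₂ _ _ => hgood z₁ h₁ z₂ h₂)
  have h2 : n2 (fun z => D.mod V c t z - md a 0 μ z) ≤ η / 2 :=
    main.trans (sqrt_le_of (K := 4) (by norm_num) (half_pos hη) hε2 (by linarith) hε.le)
  linarith

end Crest.Agent.R81
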